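import Vale.Agent.P078.HergA

/-!
Interlacing of the roots of `A` and of `X * A - B`, in counting form, and its consequences.

PLAN. `P = X * A - B` is monic of degree `deg A + 1`; `P/A (ζ) = ζ - B/A` has imaginary part `≥ im ζ > 0`, so `P` has only
real roots (`real_of_ne`). `count`: on the vertical line `ζ = s + i ε`, `Θ(ε) = Σ_P arg (ζ - ρ) - Σ_A arg (ζ - α) - arg (P/A)`
is continuous with values in `2πℤ` (`exp (iΘ) = 1`), and tends to 0 as `ε → ∞` (every argument tends to `π/2`), hence is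
0; as `ε → 0+` the sums tend to `π (n_P(s) - n_A(s))`, which therefore lies in `[0, π]`; the sign of `P(s)/A(s)` is
`(-1)^(n_P - n_A)`. (Any other route is welcome, e.g. `pf` and the intermediate value theorem.)
`dom`: induction on `X`, removing the largest element. `il`: `dom` after adding a very small / very large point
(subtract the constant `lo`; or compare sorted lists).
`sq_sum`: Vieta for the two top coefficients of `P` and `A`.
-/

open Finset Polynomial
open scoped Classical

namespace Vale.Agent.P078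

/-- Number of elements above `s`. -/
noncomputable def ab (R : Multiset ℝ) (s : ℝ) : ℕ := (R.filter fun x => s < x).card

theorem Herg.im_P {A B : ℝ[X]} (h : Herg A B) {ζ : ℂ} (hζ : 0 < ζ.im) :
    0 < (aeval ζ (X * A - B) / aeval ζ A).im := by
  have h1 := h.ne hζ
  have h2 := h.im ζ hζ
  have e : aeval ζ (X * A - B) / aeval ζ A = ζ - aeval ζ B / aeval ζ A := by
    rw [map_sub, map_mul, aeval_X, sub_div, mul_div_cancel_right₀ _ h1]
  rw [e, Complex.sub_im]
  linarith

theorem Herg.monic_P {A B : ℝ[X]} (h : Herg A B) :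
    (X * A - B).Monic ∧ (X * A - B).natDegree = A.natDegree + 1 ∧
      (X * A - B).roots.card = A.roots.card + 1 := by
  have m1 : (X * A).Monic := monic_X.mul h.monic
  have n1 : (X * A).natDegree = A.natDegree + 1 := by
    rw [monic_X.natDegree_mul h.monic, natDegree_X, add_comm]
  have d1 : B.degree < (X * A).degree := by
    refine h.deg.trans ?_
    rw [degree_eq_natDegree m1.ne_zero, degree_eq_natDegree h.monic.ne_zero, n1]
    exact_mod_cast Nat.lt_succ_self _
  have n2 : (X * A - B).natDegree = A.natDegree + 1 := by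
    rw [← n1]
    exact natDegree_eq_of_degree_eq (degree_sub_eq_left_of_degree_lt d1)
  refine ⟨m1.sub_of_left d1, n2, ?_⟩
  rw [h.real, ← n2]
  refine real_of_ne fun ζ hζ h0 => ?_
  have := h.im_P hζ
  rw [h0, zero_div] at this
  simp at this

/-- Sum of the arguments. -/
noncomputable def hbSa (R : Multiset ℝ) (ζ : ℂ) : ℝ := (R.map fun ρ : ℝ => Complex.arg (ζ - ρ)).sum

/-- Product of the linear factors. -/
noncomputable def hbPr (R : Multiset ℝ) (ζ : ℂ) : ℂ := (R.map fun ρ : ℝ => ζ - ρ).prod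

theorem hb_slit {ζ : ℂ} (hζ : 0 < ζ.im) : ζ ∈ Complex.slitPlane := Or.inr hζ.ne'

theorem hb_angle (R : Multiset ℝ) {ζ : ℂ} (hζ : 0 < ζ.im) :
    hbPr R ζ ≠ 0 ∧ (hbSa R ζ : Real.Angle) = Complex.arg (hbPr R ζ) := by
  induction R using Multiset.induction_on with
  | empty => simp [hbPr, hbSa]
  | cons a R ih =>
    have h1 : ζ - a ≠ 0 := fun h => by
      have := congrArg Complex.im h
      simp at this
      linarith
    have e1 : hbPr (a ::ₘ R) ζ = (ζ - a) * hbPr R ζ := by simp [hbPr]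
    have e2 : hbSa (a ::ₘ R) ζ = Complex.arg (ζ - a) + hbSa R ζ := by simp [hbSa]
    refine ⟨e1 ▸ mul_ne_zero h1 ih.1, ?_⟩
    rw [e1, e2, Complex.arg_mul_coe_angle h1 ih.1, Real.Angle.coe_add, ih.2]

theorem hb_aeval {Q : ℝ[X]} (hQ : Q.Monic) (hr : Q.roots.card = Q.natDegree) (ζ : ℂ) :
    aeval ζ Q = hbPr Q.roots ζ := by
  conv_lhs => rw [← prod_multiset_X_sub_C_of_monic_of_roots_card_eq hQ hr]
  rw [map_multiset_prod, Multiset.map_map]
  unfold hbPr
  congr 1
  refine Multiset.map_congr rfl fun ρ _ => ?_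
  simp

theorem hb_cont (R : Multiset ℝ) : ContinuousOn (hbSa R) {ζ : ℂ | 0 < ζ.im} := by
  induction R using Multiset.induction_on with
  | empty =>
    have : hbSa 0 = fun _ => 0 := by ext; simp [hbSa]
    rw [this]; exact continuousOn_const
  | cons a R ih =>
    have : hbSa (a ::ₘ R) = fun ζ => Complex.arg (ζ - a) + hbSa R ζ := by ext; simp [hbSa]
    rw [this]
    refine ContinuousOn.add (fun ζ hζ => ?_) ih
    have h1 : ζ - a ∈ Complex.slitPlane := hb_slit (by simpa using hζ)
    exact (ContinuousAt.comp (f := fun ζ : ℂ => ζ - a) (Complex.continuousAt_arg h1)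
      (by fun_prop)).continuousWithinAt

open Filter Topology in
theorem hb_lim {w : ℂ → ℂ} {s : ℂ} {x : ℝ} (hw : ContinuousAt w s) (hx : w s = x) (h0 : x ≠ 0)
    (him : ∀ ζ : ℂ, 0 < ζ.im → 0 < (w ζ).im) :
    Tendsto (fun ζ => Complex.arg (w ζ)) (𝓝[{ζ : ℂ | 0 < ζ.im}] s)
      (𝓝 (if x < 0 then Real.pi else 0)) := by
  have t : Tendsto w (𝓝[{ζ : ℂ | 0 < ζ.im}] s) (𝓝 (x : ℂ)) :=
    hx ▸ hw.tendsto.mono_left nhdsWithin_le_nhds
  split_ifs with h
  · refine (Complex.tendsto_arg_nhdsWithin_im_nonneg_of_re_neg_of_im_zero (z := x)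
      (by simpa using h) (by simp)).comp ?_
    refine tendsto_nhdsWithin_iff.2 ⟨t, ?_⟩
    filter_upwards [self_mem_nhdsWithin] with ζ hζ using (him ζ hζ).le
  · have hp : 0 < x := lt_of_le_of_ne (not_lt.1 h) (Ne.symm h0)
    have := (Complex.continuousAt_arg (x := x) (Or.inl (by simpa using hp))).tendsto.comp t
    rwa [Complex.arg_ofReal_of_nonneg hp.le] at this

open Filter Topology in
theorem hb_sa_lim (R : Multiset ℝ) {s : ℝ} (hs : s ∉ R) :
    Tendsto (hbSa R) (𝓝[{ζ : ℂ | 0 < ζ.im}] (s : ℂ)) (𝓝 (Real.pi * ab R s)) := by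
  induction R using Multiset.induction_on with
  | empty =>
    have : hbSa 0 = fun _ => 0 := by ext; simp [hbSa]
    rw [this]; simpa [ab] using tendsto_const_nhds
  | cons a R ih =>
    have : hbSa (a ::ₘ R) = fun ζ => Complex.arg (ζ - a) + hbSa R ζ := by ext; simp [hbSa]
    rw [this]
    rw [Multiset.mem_cons, not_or] at hs
    have h1 := hb_lim (w := fun ζ : ℂ => ζ - a) (s := s) (x := s - a) (by fun_prop) (by simp)
      (sub_ne_zero.2 hs.1) (fun ζ hζ => by simpa using hζ)
    have e : Real.pi * ab (a ::ₘ R) s = (if s - a < 0 then Real.pi else 0) + Real.pi * ab R s := by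
      unfold ab
      rw [Multiset.filter_cons]
      by_cases h : s < a
      · rw [if_pos h, if_pos (by linarith)]
        simp only [Multiset.card_add, Multiset.card_singleton]
        push_cast; ring
      · rw [if_neg h, if_neg (by linarith)]
        simp
    rw [e]
    exact h1.add (ih hs.2)

theorem hb_upper (R : Multiset ℝ) : ∃ T, ∀ x ∈ R, x < T := by
  obtain ⟨T, hT⟩ := R.toFinset.exists_le
  exact ⟨T + 1, fun x hx => by linarith [hT x (Multiset.mem_toFinset.2 hx)]⟩

theorem hb_lower (R : Multiset ℝ) : ∃ T, ∀ x ∈ R, T < x := by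
  obtain ⟨T, hT⟩ := hb_upper (R.map fun x => -x)
  exact ⟨-T, fun x hx => by linarith [hT (-x) (Multiset.mem_map_of_mem _ hx)]⟩

theorem ab_zero {R : Multiset ℝ} {s : ℝ} (h : ∀ x ∈ R, x ≤ s) : ab R s = 0 := by
  unfold ab
  rw [Multiset.card_eq_zero, Multiset.filter_eq_nil]
  exact fun x hx => not_lt.2 (h x hx)

theorem ab_cons (a : ℝ) (R : Multiset ℝ) (s : ℝ) :
    ab (a ::ₘ R) s = ab R s + if s < a then 1 else 0 := by
  unfold ab
  rw [Multiset.filter_cons]
  split_ifs <;> simp [add_comm]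

open Filter Topology in
theorem Herg.count {A B : ℝ[X]} (h : Herg A B) {s : ℝ} (hA : A.eval s ≠ 0)
    (hP : (X * A - B).eval s ≠ 0) :
    ab (X * A - B).roots s = ab A.roots s + if s - B.eval s / A.eval s < 0 then 1 else 0 := by
  obtain ⟨m1, m2, m3⟩ := h.monic_P
  have m4 : (X * A - B).roots.card = (X * A - B).natDegree := by rw [m3, m2, h.real]
  have e0 : ∀ s : ℝ, A.eval s ≠ 0 → (X * A - B).eval s / A.eval s = s - B.eval s / A.eval s := by
    intro s hs
    rw [eval_sub, eval_mul, eval_X, sub_div, mul_div_cancel_right₀ _ hs]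
  generalize hPd : X * A - B = P at *
  have him : ∀ ζ : ℂ, 0 < ζ.im → 0 < (aeval ζ P / aeval ζ A).im := fun ζ hζ => hPd ▸ h.im_P hζ
  let Θ : ℂ → ℝ := fun ζ => hbSa P.roots ζ - hbSa A.roots ζ - Complex.arg (aeval ζ P / aeval ζ A)
  have cw : ∀ ζ : ℂ, aeval ζ A ≠ 0 → ContinuousAt (fun ζ : ℂ => aeval ζ P / aeval ζ A) ζ :=
    fun ζ hζ => P.continuous_aeval.continuousAt.div A.continuous_aeval.continuousAt hζ
  have c1 : ContinuousOn Θ {ζ : ℂ | 0 < ζ.im} := by
    refine ((hb_cont _).sub (hb_cont _)).sub fun ζ hζ => ?_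
    exact (ContinuousAt.comp (f := fun ζ : ℂ => aeval ζ P / aeval ζ A)
      (Complex.continuousAt_arg (hb_slit (him ζ hζ))) (cw ζ (h.ne hζ))).continuousWithinAt
  have c2 : Set.MapsTo Θ {ζ : ℂ | 0 < ζ.im} (AddSubgroup.zmultiples (2 * Real.pi)) := by
    intro ζ hζ
    have a1 := hb_angle P.roots hζ
    have a2 := hb_angle A.roots hζ
    have : (Θ ζ : Real.Angle) = 0 := by
      simp only [Θ]
      rw [Real.Angle.coe_sub, Real.Angle.coe_sub, a1.2, a2.2, hb_aeval m1 m4,
        hb_aeval h.monic h.real, Complex.arg_div_coe_angle a1.1 a2.1, sub_self]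
    exact Real.Angle.coe_eq_zero_iff.1 this
  have hI : Complex.I ∈ {ζ : ℂ | 0 < ζ.im} := by simp
  have c3 : ∀ ζ ∈ {ζ : ℂ | 0 < ζ.im}, Θ ζ = Θ Complex.I := fun ζ hζ =>
    (convex_halfSpace_im_gt 0).isPreconnected.constant_of_mapsTo
      (isDiscrete_iff_discreteTopology.2
        (inferInstanceAs (DiscreteTopology (AddSubgroup.zmultiples (2 * Real.pi))))) c1 c2 hζ hI
  have key : ∀ s : ℝ, A.eval s ≠ 0 → P.eval s ≠ 0 → Θ Complex.I =
      Real.pi * ab P.roots s - Real.pi * ab A.roots s -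
        if P.eval s / A.eval s < 0 then Real.pi else 0 := by
    intro s hA hP
    have ev : ∀ Q : ℝ[X], aeval (s : ℂ) Q = (Q.eval s : ℝ) := fun Q => by
      rw [← coe_aeval_eq_eval]
      exact aeval_algebraMap_apply ℂ s Q
    have : (𝓝[{ζ : ℂ | 0 < ζ.im}] (s : ℂ)).NeBot := by
      rw [← mem_closure_iff_nhdsWithin_neBot, Complex.closure_setOfPred_lt_im]
      simp
    have t1 := hb_sa_lim P.roots (s := s) fun hs => hP (isRoot_of_mem_roots hs)
    have t2 := hb_sa_lim A.roots (s := s) fun hs => hA (isRoot_of_mem_roots hs)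
    have t3 := hb_lim (x := P.eval s / A.eval s) (cw s (by rw [ev]; exact_mod_cast hA))
      (by rw [ev, ev]; push_cast; rfl) (div_ne_zero hP hA) him
    refine tendsto_nhds_unique (tendsto_const_nhds.congr' ?_) ((t1.sub t2).sub t3)
    filter_upwards [self_mem_nhdsWithin] with ζ hζ using (c3 ζ hζ).symm
  have z : Θ Complex.I = 0 := by
    obtain ⟨T, hT⟩ := hb_upper (P.roots + A.roots)
    have b1 : ∀ x ∈ P.roots, x < T := fun x hx => hT x (Multiset.mem_add.2 (Or.inl hx))
    have b2 : ∀ x ∈ A.roots, x < T := fun x hx => hT x (Multiset.mem_add.2 (Or.inr hx))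
    have k := key T (fun h0 => lt_irrefl _ (b2 T ((mem_roots h.monic.ne_zero).2 h0)))
      (fun h0 => lt_irrefl _ (b1 T ((mem_roots m1.ne_zero).2 h0)))
    rw [ab_zero fun x hx => (b1 x hx).le, ab_zero fun x hx => (b2 x hx).le] at k
    obtain ⟨n, hn⟩ := c2 hI
    split_ifs at k
    · exfalso
      simp only [zsmul_eq_mul] at hn
      have h2 : ((2 * n + 1 : ℤ) : ℝ) * Real.pi = 0 := by
        push_cast at k ⊢
        linarith
      rcases mul_eq_zero.1 h2 with h3 | h3
      · have : 2 * n + 1 = 0 := by exact_mod_cast h3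
        omega
      · exact Real.pi_ne_zero h3
    · simpa using k
  have k := key s hA hP
  rw [z, e0 s hA] at k
  split_ifs at k ⊢
  · have : Real.pi * (ab P.roots s : ℝ) = Real.pi * ((ab A.roots s + 1 : ℕ) : ℝ) := by
      push_cast; linarith
    exact_mod_cast mul_left_cancel₀ Real.pi_ne_zero this
  · have : Real.pi * (ab P.roots s : ℝ) = Real.pi * ((ab A.roots s + 0 : ℕ) : ℝ) := by
      push_cast; linarith
    exact_mod_cast mul_left_cancel₀ Real.pi_ne_zero this

theorem dom {R S : Multiset ℝ} {t : ℝ} {ψ : ℝ → ℝ} (hψ : Monotone ψ) (h0 : ∀ s ≤ t, ψ s = 0)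
    (N : Finset ℝ) (h : ∀ s, t < s → s ∉ N → ab R s ≤ ab S s) : (R.map ψ).sum ≤ (S.map ψ).sum := by
  have nn : ∀ s, 0 ≤ ψ s := fun s => by
    rcases le_total s t with hs | hs
    · exact (h0 s hs).ge
    · exact (h0 t le_rfl).ge.trans (hψ hs)
  induction hn : R.card generalizing R S with
  | zero =>
    rw [Multiset.card_eq_zero.1 hn]
    simpa using Multiset.sum_nonneg fun x hx => by
      obtain ⟨y, _, rfl⟩ := Multiset.mem_map.1 hx
      exact nn y
  | succ n ih =>
    have ne : R.toFinset.Nonempty := by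
      rw [Multiset.toFinset_nonempty]
      rintro rfl
      simp at hn
    obtain ⟨x, hx, hmax⟩ := R.toFinset.exists_max_image id ne
    have hx' : x ∈ R := Multiset.mem_toFinset.1 hx
    have hm : ∀ y ∈ R, y ≤ x := fun y hy => hmax y (Multiset.mem_toFinset.2 hy)
    rcases le_or_gt x t with hxt | hxt
    · have : (R.map ψ).sum = 0 := Multiset.sum_eq_zero fun z hz => by
        obtain ⟨y, hy, rfl⟩ := Multiset.mem_map.1 hz
        exact h0 y ((hm y hy).trans hxt)
      rw [this]
      exact Multiset.sum_nonneg fun x hx => by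
        obtain ⟨y, _, rfl⟩ := Multiset.mem_map.1 hx
        exact nn y
    obtain ⟨R', rfl⟩ := Multiset.exists_cons_of_mem hx'
    have ex : ∃ y ∈ S, x ≤ y := by
      by_contra hc
      push Not at hc
      obtain ⟨u, hu, hu2⟩ := (insert t S.toFinset).exists_max_image id (insert_nonempty _ _)
      have ux : u < x := by
        rcases mem_insert.1 hu with rfl | hu
        · exact hxt
        · exact hc u (Multiset.mem_toFinset.1 hu)
      obtain ⟨s, hs, hsN⟩ := (Set.Ioo_infinite ux).exists_notMem_finset N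
      have := h s (lt_of_le_of_lt (hu2 t (mem_insert_self _ _)) hs.1) hsN
      rw [ab_cons, if_pos hs.2, ab_zero (R := S) fun y hy =>
        le_trans (hu2 y (mem_insert_of_mem (Multiset.mem_toFinset.2 hy))) hs.1.le] at this
      omega
    obtain ⟨y, hy, hxy⟩ := ex
    obtain ⟨S', rfl⟩ := Multiset.exists_cons_of_mem hy
    rw [Multiset.map_cons, Multiset.map_cons, Multiset.sum_cons, Multiset.sum_cons]
    refine add_le_add (hψ hxy) (ih (fun s hs hsN => ?_) (by simpa using hn))
    rcases lt_or_ge s x with hsx | hsx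
    · have := h s hs hsN
      rw [ab_cons, ab_cons, if_pos hsx, if_pos (hsx.trans_le hxy)] at this
      omega
    · rw [ab_zero fun z hz => (hm z (Multiset.mem_cons_of_mem hz)).trans hsx]
      exact Nat.zero_le _

theorem hb_shift (R : Multiset ℝ) {ψ : ℝ → ℝ} {t : ℝ} (h : ∀ x ∈ R, t ≤ x) :
    (R.map fun s => ψ (max s t) - ψ t).sum = (R.map ψ).sum - R.card * ψ t := by
  induction R using Multiset.induction_on with
  | empty => simp
  | cons a R ih =>
    rw [Multiset.map_cons, Multiset.map_cons, Multiset.sum_cons, Multiset.sum_cons,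
      ih fun x hx => h x (Multiset.mem_cons_of_mem hx), max_eq_left (h a (Multiset.mem_cons_self _ _)),
      Multiset.card_cons]
    push_cast; ring

theorem Herg.il {A B : ℝ[X]} (h : Herg A B) {ψ : ℝ → ℝ} (hψ : Monotone ψ) {lo hi : ℝ}
    (h1 : ∀ s, lo ≤ ψ s) (h2 : ∀ s, ψ s ≤ hi) :
    lo ≤ rs ψ (X * A - B) - rs ψ A ∧ rs ψ (X * A - B) - rs ψ A ≤ hi := by
  obtain ⟨m1, _, m3⟩ := h.monic_P
  have cnt : ∀ s, s ∉ ((X * A - B).roots + A.roots).toFinset →
      ab A.roots s ≤ ab (X * A - B).roots s ∧ ab (X * A - B).roots s ≤ ab A.roots s + 1 := by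
    intro s hs
    rw [Multiset.mem_toFinset, Multiset.mem_add, not_or, mem_roots m1.ne_zero,
      mem_roots h.monic.ne_zero] at hs
    rw [h.count hs.2 hs.1]
    split_ifs <;> omega
  unfold rs
  generalize (X * A - B).roots = R at *
  generalize A.roots = S at *
  obtain ⟨T, hT⟩ := hb_upper R
  obtain ⟨t, ht⟩ := hb_lower (T ::ₘ (R + S))
  have tT : t ≤ T := (ht T (Multiset.mem_cons_self _ _)).le
  have tR : ∀ x ∈ R, t ≤ x := fun x hx =>
    (ht x (Multiset.mem_cons_of_mem (Multiset.mem_add.2 (Or.inl hx)))).le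
  have tS : ∀ x ∈ S, t ≤ x := fun x hx =>
    (ht x (Multiset.mem_cons_of_mem (Multiset.mem_add.2 (Or.inr hx)))).le
  have mo : Monotone fun s => ψ (max s t) - ψ t := fun a b hab =>
    sub_le_sub_right (hψ (max_le_max hab le_rfl)) _
  have z : ∀ s ≤ t, ψ (max s t) - ψ t = 0 := fun s hs => by rw [max_eq_right hs, sub_self]
  have d1 := dom (R := S) (S := R) mo z _ fun s _ hs => (cnt s hs).1
  have d2 := dom (R := R) (S := T ::ₘ S) mo z _ fun s _ hs => by
    rw [ab_cons]
    split_ifs with hsT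
    · exact (cnt s hs).2
    · rw [ab_zero fun x hx => (hT x hx).le.trans (not_lt.1 hsT)]
      exact Nat.zero_le _
  rw [hb_shift _ tR, hb_shift _ tS, m3] at d1
  rw [Multiset.map_cons, Multiset.sum_cons, hb_shift _ tR, hb_shift _ tS, m3, max_eq_left tT] at d2
  push_cast at d1 d2
  constructor
  · linarith [h1 t]
  · linarith [h2 T]

theorem hb_vieta (R : Multiset ℝ) :
    (X ^ 2 * (R.map fun a => X - C a).prod).coeff (R.card + 1) = -R.sum ∧
      2 * (X ^ 2 * (R.map fun a => X - C a).prod).coeff R.card =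
        R.sum ^ 2 - (R.map fun s => s ^ 2).sum := by
  induction R using Multiset.induction_on with
  | empty => simp [coeff_X_pow]
  | cons a R ih =>
    have mo : (R.map fun a => X - C a).prod.Monic := monic_multisetProd_X_sub_C R
    have top : (X ^ 2 * (R.map fun a => X - C a).prod).coeff (R.card + 2) = 1 := by
      rw [coeff_X_pow_mul]
      have := mo.coeff_natDegree
      rwa [natDegree_multiset_prod_X_sub_C_eq_card] at this
    have e : X ^ 2 * ((a ::ₘ R).map fun a => X - C a).prod =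
        X * (X ^ 2 * (R.map fun a => X - C a).prod) -
          C a * (X ^ 2 * (R.map fun a => X - C a).prod) := by
      rw [Multiset.map_cons, Multiset.prod_cons]; ring
    rw [e, Multiset.card_cons, coeff_sub, coeff_sub, coeff_X_mul, coeff_X_mul, coeff_C_mul,
      coeff_C_mul, top, ih.1, Multiset.sum_cons, Multiset.map_cons, Multiset.sum_cons]
    constructor
    · ring
    · linarith [ih.2]

theorem sq_sum {A : ℝ[X]} (hA : A.Monic) (hr : A.roots.card = A.natDegree) {m : ℝ → ℝ}
    (hm : ∀ α, 0 ≤ m α) : rs (fun s => s ^ 2) (X * A - Bm A m) =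
      rs (fun s => s ^ 2) A + 2 * ∑ α ∈ A.roots.toFinset, m α := by
  have h := herg_Bm hA hr hm
  obtain ⟨m1, m2, m3⟩ := h.monic_P
  have m4 : (X * A - Bm A m).roots.card = (X * A - Bm A m).natDegree := by rw [m3, m2, hr]
  have v1 := hb_vieta (X * A - Bm A m).roots
  have v2 := hb_vieta A.roots
  rw [prod_multiset_X_sub_C_of_monic_of_roots_card_eq m1 m4, m3] at v1
  rw [prod_multiset_X_sub_C_of_monic_of_roots_card_eq hA hr] at v2
  have e : X ^ 2 * (X * A - Bm A m) = X * (X ^ 2 * A) - X ^ 2 * Bm A m := by ring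
  have b1 : (X ^ 2 * Bm A m).coeff (A.roots.card + 1 + 1) = 0 := by
    rw [show A.roots.card + 1 + 1 = A.roots.card + 2 from rfl, coeff_X_pow_mul, hr]
    exact coeff_eq_zero_of_degree_lt (h.deg.trans_le degree_le_natDegree)
  have b2 : (X ^ 2 * Bm A m).coeff (A.roots.card + 1) = ∑ α ∈ A.roots.toFinset, m α := by
    unfold Bm
    rw [mul_sum, finsetSum_coeff]
    refine sum_congr rfl fun α hα => ?_
    have r1 : (X - C α) * (A /ₘ (X - C α)) = A :=
      mul_divByMonic_eq_iff_isRoot.2 (isRoot_of_mem_roots (Multiset.mem_toFinset.1 hα))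
    have r2 : (A /ₘ (X - C α)).Monic := (monic_X_sub_C α).of_mul_monic_left (r1.symm ▸ hA)
    have r3 : A.natDegree = (A /ₘ (X - C α)).natDegree + 1 := by
      conv_lhs => rw [← r1]
      rw [(monic_X_sub_C α).natDegree_mul r2, natDegree_X_sub_C, add_comm]
    rw [mul_left_comm, coeff_C_mul, hr, r3, add_assoc, coeff_X_pow_mul, r2.coeff_natDegree, mul_one]
  rw [e, coeff_sub, coeff_sub, coeff_X_mul, coeff_X_mul, b1, b2, v2.1] at v1
  unfold rs
  have s : (X * A - Bm A m).roots.sum = A.roots.sum := by linarith [v1.1]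
  rw [s] at v1
  linarith [v1.2, v2.2]

end Vale.Agent.P078
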