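import Vale.Agent.P078.Stab
import Vale.Agent.P078.HergB

/-!
Polynomial approximation of the potential, and the fully coloured state.

PLAN. `approx_phi`: take a continuous `ψ ≥ phi'` (e.g. `ψ s = 2 s * clamp` ramps of width `ε` just inside `± z`, chosen above the
one-sided derivatives) and by Weierstrass (`exists_polynomial_near_of_continuousOn`) a polynomial `p` with `ψ ≤ p ≤ ψ + 2ε`
on `[-1,1]`; `h` = the antiderivative of `p` with `h (-1) = phi z (-1)`; monotonicity on the three intervals
(`monotoneOn_of_deriv_nonneg`), and the total increase is `O(ε)`. `il_h`: `Herg.il` for `(h - phi) ∘ projIcc`.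
`final_Lam`: `ep_eval`, `Qm_eq` (or `dz_expand`): `ep` is the characteristic polynomial of the Hermitian matrix `yc / 48` on `U`,
so the power sums of the roots are traces of powers (`Matrix.IsHermitian.roots_charpoly_eq_eigenvalues`, spectral theorem), and
`kp` computes the entries of the matrix powers. `dg_local`: walks of length `n` from `v` stay in `R n`.
`dg_gauge`: induction on the power.
-/

open Finset Polynomial
open scoped Classical ComplexConjugate

namespace Vale.Agent.P078

variable {V : Type*} {r : ℕ} {k : V → V → ℂ} {U : Finset V} {h : ℝ[X]}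

/-- `h` approximates `phi z` from above in total variation on `[-1,1]`. -/
def App (z η : ℝ) (h : ℝ[X]) : Prop :=
  MonotoneOn (fun s => h.eval s - phi z s) (Set.Icc (-1) 1) ∧
    ∀ s ∈ Set.Icc (-1 : ℝ) 1, 0 ≤ h.eval s - phi z s ∧ h.eval s - phi z s ≤ η

theorem phi_cont (z : ℝ) : Continuous (phi z) := by
  unfold phi
  fun_prop

theorem phi_inc (z : ℝ) {a b t : ℝ} (hab : a ≤ b) (ht : 0 ≤ t) :
    phi z (a + t) - phi z a ≤ phi z (b + t) - phi z b := by
  have hc : ConvexOn ℝ Set.univ (phi z) :=
    (((even_two.convexOn_pow (𝕜 := ℝ)).add_const (-z ^ 2)).sup (convexOn_const 0 convex_univ)).congr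
      fun s _ => by simp [phi, sub_eq_add_neg]
  rcases ht.eq_or_lt with rfl | ht
  · simp
  have hd : 0 < b + t - a := by linarith
  have l0 : 0 ≤ t / (b + t - a) := by positivity
  have l1 : 0 ≤ (b - a) / (b + t - a) := div_nonneg (by linarith) hd.le
  have l2 : t / (b + t - a) + (b - a) / (b + t - a) = 1 := by
    field_simp
    ring
  have e1 := hc.2 (Set.mem_univ a) (Set.mem_univ (b + t)) l0 l1 l2
  have e2 := hc.2 (Set.mem_univ a) (Set.mem_univ (b + t)) l1 l0 (by linarith)
  simp only [smul_eq_mul] at e1 e2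
  rw [show t / (b + t - a) * a + (b - a) / (b + t - a) * (b + t) = b by
    field_simp
    ring] at e1
  rw [show (b - a) / (b + t - a) * a + t / (b + t - a) * (b + t) = a + t by
    field_simp
    ring] at e2
  have e3 : (t / (b + t - a) + (b - a) / (b + t - a)) * (phi z a + phi z (b + t)) =
      phi z a + phi z (b + t) := by rw [l2, one_mul]
  linarith

theorem phi_lip (z : ℝ) {s t δ : ℝ} (hs : |s| ≤ 1) (ht : 0 ≤ t) (h1 : t ≤ δ) (h2 : δ ≤ 1) :
    |phi z (s + t) - phi z s| ≤ 3 * δ := by
  refine (abs_max_sub_max_le_abs _ _ _).trans ?_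
  obtain ⟨a, b⟩ := abs_le.1 hs
  rw [abs_le]
  constructor <;> nlinarith

theorem exists_prim (p : ℝ[X]) : ∃ P : ℝ[X], derivative P = p := by
  induction p using Polynomial.induction_on' with
  | add p q hp hq =>
    obtain ⟨P, rfl⟩ := hp
    obtain ⟨Q, rfl⟩ := hq
    exact ⟨P + Q, by simp⟩
  | monomial n a =>
    refine ⟨monomial (n + 1) (a / (n + 1)), ?_⟩
    rw [derivative_monomial_succ, div_mul_cancel₀ _ (by positivity)]

theorem approx_phi {z η : ℝ} (hz : 0 < z) (hη : 0 < η) : ∃ h : ℝ[X], App z η h := by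
  obtain ⟨δ, d0, d1, d2⟩ : ∃ δ : ℝ, 0 < δ ∧ δ ≤ 1 ∧ 10 * δ ≤ η :=
    ⟨min 1 (η / 10), by positivity, min_le_left _ _, by linarith [min_le_right 1 (η / 10)]⟩
  have hc := phi_cont z
  let G : ℝ → ℝ := fun x => ∫ t in (0 : ℝ)..x, phi z t
  have hG : ∀ x, HasDerivAt G (phi z x) x := fun x => (hc.integral_hasStrictDerivAt 0 x).hasDerivAt
  let Φ : ℝ → ℝ := fun s => (G (s + δ) - G s) / δ
  let ψ : ℝ → ℝ := fun s => (phi z (s + δ) - phi z s) / δ
  have hΦ : ∀ s, HasDerivAt Φ (ψ s) s := fun s =>
    (((hG (s + δ)).comp_add_const s δ).sub (hG s)).div_const δ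
  have hi : ∀ s, IntervalIntegrable (fun t => phi z (s + t) - phi z s) MeasureTheory.volume 0 δ :=
    fun s => (by fun_prop : Continuous fun t => phi z (s + t) - phi z s).intervalIntegrable _ _
  have hE : ∀ s, Φ s - phi z s = (∫ t in (0 : ℝ)..δ, (phi z (s + t) - phi z s)) / δ := fun s => by
    rw [intervalIntegral.integral_sub
      ((by fun_prop : Continuous fun t => phi z (s + t)).intervalIntegrable _ _) (by simp),
      intervalIntegral.integral_comp_add_left (fun t => phi z t) s]
    simp only [Φ, G]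
    rw [intervalIntegral.integral_interval_sub_left (hc.intervalIntegrable _ _)
      (hc.intervalIntegrable _ _)]
    simp only [add_zero, intervalIntegral.integral_const, sub_zero, smul_eq_mul]
    field_simp
  have E1 : Monotone fun s => Φ s - phi z s := fun a b hab => by
    simp only [hE]
    exact div_le_div_of_nonneg_right (intervalIntegral.integral_mono_on d0.le (hi a) (hi b)
      fun t ht => phi_inc z hab ht.1) d0.le
  have E2 : ∀ s, |s| ≤ 1 → |Φ s - phi z s| ≤ 3 * δ := fun s hs => by
    rw [hE, abs_div, abs_of_pos d0, div_le_iff₀ d0]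
    have := intervalIntegral.norm_integral_le_of_norm_le_const (a := 0) (b := δ) (C := 3 * δ)
      (f := fun t => phi z (s + t) - phi z s) fun t ht => by
        rw [Set.uIoc_of_le d0.le] at ht
        exact phi_lip z hs ht.1.le ht.2 d1
    simpa [abs_of_pos d0] using this
  obtain ⟨p, hp⟩ := exists_polynomial_near_of_continuousOn (-1) 1 (fun s => ψ s + δ)
    (by simp only [ψ]; fun_prop) δ d0
  obtain ⟨P, rfl⟩ := exists_prim p
  have hK : ∀ s, HasDerivAt (fun s => P.eval s - Φ s) (P.derivative.eval s - ψ s) s := fun s =>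
    (P.hasDerivAt s).sub (hΦ s)
  have hKc : ContinuousOn (fun s => P.eval s - Φ s) (Set.Icc (-1) 1) := fun s _ =>
    (hK s).continuousAt.continuousWithinAt
  have hKd : DifferentiableOn ℝ (fun s => P.eval s - Φ s) (interior (Set.Icc (-1) 1)) := fun s _ =>
    (hK s).differentiableAt.differentiableWithinAt
  have K1 : MonotoneOn (fun s => P.eval s - Φ s) (Set.Icc (-1) 1) :=
    monotoneOn_of_deriv_nonneg (convex_Icc _ _) hKc hKd fun s hs => by
      rw [(hK s).deriv]
      linarith [(abs_lt.1 (hp s (interior_subset hs))).1]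
  have K2 := (convex_Icc (-1 : ℝ) 1).image_sub_le_mul_sub_of_deriv_le hKc hKd (C := 2 * δ)
    (fun s hs => by
      rw [(hK s).deriv]
      linarith [(abs_lt.1 (hp s (interior_subset hs))).2])
    (-1) (by simp) 1 (by simp) (by norm_num)
  have M : MonotoneOn (fun s => (P + C (phi z (-1) - P.eval (-1))).eval s - phi z s)
      (Set.Icc (-1) 1) := fun a ha b hb hab => by
    have := K1 ha hb hab
    have := E1 hab
    simp only [eval_add, eval_C] at *
    linarith
  refine ⟨_, M, fun s hs => ?_⟩
  have m1 := M (show (-1 : ℝ) ∈ Set.Icc (-1 : ℝ) 1 by simp) hs hs.1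
  have m2 := M hs (show (1 : ℝ) ∈ Set.Icc (-1 : ℝ) 1 by simp) hs.2
  have b1 := abs_le.1 (E2 1 (by simp))
  have b2 := abs_le.1 (E2 (-1) (by simp))
  simp only [eval_add, eval_C] at *
  constructor <;> linarith [b1.2, b2.1]

theorem il_h {z η : ℝ} (ha : App z η h) {A B : ℝ[X]} (hh : Herg A B) (h1 : ∀ s ∈ A.roots, |s| ≤ 1)
    (h2 : ∀ s ∈ (X * A - B).roots, |s| ≤ 1) :
    rs (phi z) (X * A - B) - rs (phi z) A ≤
        rs (fun s => h.eval s) (X * A - B) - rs (fun s => h.eval s) A ∧
      rs (fun s => h.eval s) (X * A - B) - rs (fun s => h.eval s) A ≤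
        rs (phi z) (X * A - B) - rs (phi z) A + η := by
  let q : ℝ → ℝ := fun s => max (-1) (min 1 s)
  have q1 : ∀ s, q s ∈ Set.Icc (-1 : ℝ) 1 := fun s =>
    ⟨le_max_left _ _, max_le (by norm_num) (min_le_left _ _)⟩
  have q2 : ∀ s, |s| ≤ 1 → q s = s := fun s hs => by
    simp only [q]
    rw [min_eq_right (abs_le.1 hs).2, max_eq_right (abs_le.1 hs).1]
  have key := hh.il (ψ := fun s => h.eval (q s) - phi z (q s)) (lo := 0) (hi := η)
    (fun a b hab => ha.1 (q1 a) (q1 b) (max_le_max le_rfl (min_le_min le_rfl hab)))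
    (fun s => (ha.2 _ (q1 s)).1) fun s => (ha.2 _ (q1 s)).2
  have e : ∀ P : ℝ[X], (∀ s ∈ P.roots, |s| ≤ 1) → rs (fun s => h.eval (q s) - phi z (q s)) P =
      rs (fun s => h.eval s) P - rs (phi z) P := fun P hP => by
    simp only [rs]
    rw [← Multiset.sum_map_sub]
    exact congrArg _ (Multiset.map_congr rfl fun s hs => by rw [q2 s (hP s hs)])
  rw [e _ h1, e _ h2] at key
  constructor <;> linarith [key.1, key.2]

theorem Herg.smul {A B : ℝ[X]} (hh : Herg A B) {t : ℝ} (ht : 0 ≤ t) : Herg A (C t * B) := by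
  refine ⟨hh.monic, hh.real, lt_of_le_of_lt ?_ hh.deg, fun ζ hζ => ?_⟩
  · rw [C_mul']
    exact degree_smul_le _ _
  · rw [map_mul, aeval_C, mul_div_assoc]
    simpa using mul_nonpos_of_nonneg_of_nonpos ht (hh.im ζ hζ)

theorem Herg.sum {A : ℝ[X]} {B : Fin r → ℝ[X]} (hr : 0 < r) (hh : ∀ c, Herg A (B c)) :
    Herg A (∑ c, B c) := by
  have h0 := hh ⟨0, hr⟩
  refine ⟨h0.monic, h0.real, lt_of_le_of_lt (degree_sum_le _ _) ?_, fun ζ hζ => ?_⟩
  · exact (Finset.sup_lt_iff (bot_lt_iff_ne_bot.2 (degree_ne_bot.2 h0.monic.ne_zero))).2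
      fun c _ => (hh c).deg
  · rw [map_sum, sum_div, Complex.im_sum]
    exact sum_nonpos fun c _ => (hh c).im ζ hζ

theorem co_some (k : V → V → ℂ) (c : V → Fin r) (T : Finset V) :
    co (fun v => some (c v)) k T = (Matrix.of fun a b : T => -yc k c a b).det := by
  unfold co
  rw [sum_eq_single (fun a : T => c a)]
  · simp [wt, yc]
  · intro c' _ hc
    obtain ⟨a, ha⟩ := Function.ne_iff.1 hc
    rw [prod_eq_zero (mem_univ a) (by simp [wt, Ne.symm ha]), zero_mul]
  · simp

theorem kp_pow (y : V → V → ℂ) (U : Finset V) (n : ℕ) (a b : U) :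
    kp y U n a b = ((Matrix.of fun a b : U => y a b) ^ n) a b := by
  induction n generalizing a with
  | zero => simp [kp, Matrix.one_apply]
  | succ n ih =>
    rw [pow_succ', Matrix.mul_apply]
    change ∑ v ∈ U, y a v * kp y U n v b = _
    rw [← sum_coe_sort U]
    exact sum_congr rfl fun v _ => by rw [ih]; rfl

theorem trace_pow {n : Type*} [Fintype n] [DecidableEq n] {M : Matrix n n ℂ} (hM : M.IsHermitian)
    (m : ℕ) : (M ^ m).trace = ∑ i, (hM.eigenvalues i : ℂ) ^ m := by
  conv_lhs => rw [hM.spectral_theorem, ← map_pow, Unitary.conjStarAlgAut_apply,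
    Matrix.trace_mul_comm, ← mul_assoc]
  simp [Matrix.diagonal_pow]

theorem final_Lam (hk : Good k U) (c : V → Fin r) :
    Lam h (fun v => some (c v)) k U = ∑ v ∈ U, dg h (yc k c) U v := by
  let Y : Matrix U U ℂ := Matrix.of fun a b : U => yc k c a b
  have hM : ((1 / 48 : ℂ) • Y).IsHermitian := by
    ext a b
    have := hk.1 b b.2 a a.2
    by_cases e : c a = c b
    · simp [Y, yc, e, this]
    · simp [Y, yc, e, Ne.symm e]
  have e1 : (ep (fun v => some (c v)) k U).map (algebraMap ℝ ℂ) = ((1 / 48 : ℂ) • Y).charpoly := by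
    refine Polynomial.funext fun ζ => ?_
    have := ep_eval (σ := fun v => some (c v)) hk ζ
    simp only [Qm, co_some] at this
    rw [← dz_expand (yc k c) U, dz] at this
    rw [eval_map_algebraMap, Matrix.eval_charpoly]
    refine mul_left_cancel₀ (a := (48 : ℂ) ^ U.card) (by norm_num) ?_
    have e : (Matrix.of fun a b : U => (if a = b then ((kap (some (c a)) : ℝ) : ℂ) * ζ else 0) -
        yc k c a b) = (48 : ℂ) • (Matrix.scalar U ζ - (1 / 48 : ℂ) • Y) := by
      ext a b
      by_cases e : a = b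
      · simp [e, kap, Y, mul_sub]
      · simp [e, Y]
    rw [e, Matrix.det_smul] at this
    simpa [kap] using this
  have e2 : ep (fun v => some (c v)) k U = ∏ i, (X - C (hM.eigenvalues i)) := by
    refine map_injective (algebraMap ℝ ℂ) (algebraMap ℝ ℂ).injective ?_
    rw [e1, hM.charpoly_eq, Polynomial.map_prod]
    simp
  have e3 : (ep (fun v => some (c v)) k U).roots = univ.val.map hM.eigenvalues := by
    rw [e2, ← roots_multiset_prod_X_sub_C (univ.val.map hM.eigenvalues), Multiset.map_map]
    rfl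
  have e4 : ∀ n, ∑ i, hM.eigenvalues i ^ n = (∑ v ∈ U, (kp (yc k c) U n v v).re) / 48 ^ n := by
    intro n
    have := congrArg Complex.re (trace_pow hM n)
    rw [_root_.smul_pow, Matrix.trace_smul, Complex.re_sum] at this
    simp only [← Complex.ofReal_pow, Complex.ofReal_re] at this
    rw [← this, ← sum_coe_sort U, ← Complex.re_sum]
    simp only [kp_pow]
    rw [show ((1 / 48 : ℂ)) ^ n = ((1 / 48 ^ n : ℝ) : ℂ) by simp, smul_eq_mul, Complex.re_ofReal_mul]
    simp only [Matrix.trace, Matrix.diag, Y]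
    ring
  unfold Lam rs dg
  rw [e3, Multiset.map_map, sum_comm]
  change ∑ i, h.eval (hM.eigenvalues i) = _
  simp only [eval_eq_sum_range]
  rw [sum_comm]
  refine sum_congr rfl fun n _ => ?_
  rw [← mul_sum, ← mul_sum, e4]
  ring

theorem dg_local {y : V → V → ℂ} {v : V} {R : ℕ → Finset V} (h0 : v ∈ R 0) (hm : Monotone R)
    (hs : ∀ j, ∀ a ∈ R j, ∀ b, y a b ≠ 0 → b ∈ R (j + 1)) {n : ℕ} (hn : h.natDegree ≤ n) :
    dg h y U v = dg h y (U ∩ R n) v := by
  have key : ∀ m j a b, j + m ≤ n → a ∈ R j → kp y U m a b = kp y (U ∩ R n) m a b := by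
    intro m
    induction m with
    | zero => intros; rfl
    | succ m ih =>
      intro j a b hj ha
      simp only [kp]
      rw [← sum_subset (inter_subset_left (s₁ := U) (s₂ := R n)) fun w hw hw' => ?_]
      · refine sum_congr rfl fun w _ => ?_
        by_cases e : y a w = 0
        · simp [e]
        · rw [ih (j + 1) w b (by omega) (hs j a ha w e)]
      · by_cases e : y a w = 0
        · simp [e]
        · exact (hw' (mem_inter.2 ⟨hw, hm (show j + 1 ≤ n by omega) (hs j a ha w e)⟩)).elim
  refine sum_congr rfl fun m hm' => ?_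
  rw [key m 0 v v (by have := mem_range.1 hm'; omega) h0]

theorem dg_gauge {V' : Type*} {y : V → V → ℂ} {y' : V' → V' → ℂ} {e : V → V'} {v : V}
    (he : Set.InjOn e (insert v U : Finset V)) {θ : V → ℂ} (hθ : ∀ a, ‖θ a‖ = 1)
    (hk : ∀ a ∈ insert v U, ∀ b ∈ insert v U, y' (e a) (e b) = conj (θ a) * θ b * y a b) :
    dg h y' (U.image e) (e v) = dg h y U v := by
  have t1 : ∀ a, conj (θ a) * θ a = 1 := fun a => by
    rw [Complex.conj_mul', hθ]
    simp
  have key : ∀ n, ∀ a ∈ insert v U, ∀ b ∈ insert v U,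
      kp y' (U.image e) n (e a) (e b) = conj (θ a) * θ b * kp y U n a b := by
    intro n
    induction n with
    | zero =>
      intro a ha b hb
      by_cases l : a = b
      · simp [kp, l, t1]
      · have : e a ≠ e b := fun l' => l (he (mem_coe.2 ha) (mem_coe.2 hb) l')
        simp [kp, l, this]
    | succ n ih =>
      intro a ha b hb
      simp only [kp]
      rw [sum_image (he.mono (coe_subset.2 (subset_insert v U))), mul_sum]
      refine sum_congr rfl fun w hw => ?_
      rw [hk a ha w (mem_insert_of_mem hw), ih w (mem_insert_of_mem hw) b hb]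
      linear_combination (conj (θ a) * θ b * y a w * kp y U n w b) * t1 w
  refine sum_congr rfl fun n _ => ?_
  rw [key n v (mem_insert_self _ _) v (mem_insert_self _ _), t1, one_mul]

theorem dg_cont {Y : Type*} [TopologicalSpace Y] {κ : Y → V → V → ℂ}
    (hc : ∀ a b, Continuous fun y => κ y a b) (v : V) : Continuous fun y => dg h (κ y) U v := by
  have key : ∀ n a b, Continuous fun y => kp (κ y) U n a b := by
    intro n
    induction n with
    | zero => exact fun a b => continuous_const
    | succ n ih => exact fun a b => continuous_finsetSum _ fun w _ => (hc a w).mul (ih w b)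
  exact continuous_finsetSum _ fun n _ =>
    continuous_const.mul (Complex.continuous_re.comp (key n v v))

end Vale.Agent.P078
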