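import Vale.Agent.P078.Stab

/-!
The multivariate barrier argument: the roots of the uncoloured polynomial are `O(1/√r)`.

PLAN (the proof uses `z₀ = √r`, `γ = z₀ - 2/(z₀+1)`). `z₀ = √r + 1`, `γ = z₀ - 1/√r`, `φ = r/γ`, `δ = (1 - 1/r)² γ`, `z₀ - δ ≤ 5/√r`; `T = fun _ => univ`,
`dp j = Σ_{j₀} pp k (update T j (univ.erase j₀)) D U` (the derivative in `z j`, see `slice`). Invariant, by induction on `D`,
for ALL `U ⊇ D` with `Good k U` and all real `Z` with `Z v ≥ z₀ - δ` on `D` and `Z v ≥ z₀` on `U \ D`: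
`0 < re (pp Z)` and `re (dp j Z) ≤ φ re (pp Z)` for `j ∈ U \ D`.
Start `D = ∅`: `pp = dz^r`, `dp j = r dz(U.erase j) dz(U)^(r-1)`, and `dz U ≥ γ dz (U.erase j)`: with `t₀` the root of the
affine map `t ↦ dz U (update Z j t)` (slope `> 0` by `dz_pos`), a kernel vector `v` of the matrix gives
`t₀ |v j|² + z₀ ‖v'‖² ≤ ⟨v, k v⟩ = ⟨v', k v'⟩ + 2 re (conj (v j) ⟨k_j, v'⟩) ≤ ‖v'‖² + 2 |v j| ‖v'‖`, so `t₀ ≤ 1/(z₀ - 1)`.
Step at `i`: `f` from `slice` at the real point, `g` the sum of the slices for the modified `T`; both have real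
coefficients (`pp_real`). `f` has no zero in the upper half plane: perturb the other variables by `iε`,
`|f_ε(t)| ≥ |coeff r| (im t)^r` (`pp_ne`), let `ε → 0` (`continuous_pp`; `coeff r = pp (U.erase i) > 0` by the invariant).
`im (g/f) ≤ 0`: `f_j'/f_j = Σ 1/(z - λ)` in the variable `j` at the perturbed point, `ε → 0`. Apply `ub` at `t = Z i + δ`.
The lower side follows from `ep_neg` and `Good.neg`.
-/

open Finset Polynomial
open scoped Classical ComplexConjugate

namespace Vale.Agent.P078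

variable {V : Type*} {r : ℕ} {k : V → V → ℂ} {U D : Finset V}

theorem pp_congrT {T T' : V → Finset (Fin r)} (h : ∀ v ∈ U, v ∉ D → T v = T' v) (Z : V → ℂ) :
    pp k T D U Z = pp k T' D U Z := by
  unfold pp
  refine sum_congr rfl fun c _ => prod_congr rfl fun j _ => ?_
  congr 1
  refine filter_congr fun v hv => ?_
  by_cases hD : v ∈ D
  · simp [hD]
  · simp [hD, h v hv hD]

theorem real_poly (F : ℂ[X]) (h : ∀ s : ℝ, (F.eval (s : ℂ)).im = 0) :
    ∃ f : ℝ[X], f.map (algebraMap ℝ ℂ) = F := by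
  have e : F.map (starRingEnd ℂ) = F := by
    refine eq_of_infinite_eval_eq _ _ (Set.Infinite.mono ?_
      (Set.infinite_range_of_injective Complex.ofReal_injective))
    rintro _ ⟨s, rfl⟩
    have := eval₂_at_apply (p := F) (starRingEnd ℂ) (s : ℂ)
    rw [Complex.conj_ofReal] at this
    simp only [Set.mem_setOf_eq, eval_map, this]
    exact Complex.conj_eq_iff_im.2 (h s)
  rw [← mem_lifts, lifts_iff_coeff_lifts]
  intro n
  have := congrArg (fun p => p.coeff n) e
  simp only [coeff_map] at this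
  exact ⟨(F.coeff n).re, Complex.ext (by simp) (by simp [Complex.conj_eq_iff_im.1 this])⟩

theorem norm_lower {F : ℂ[X]} (hd : F.natDegree ≤ r) (h : ∀ t : ℂ, 0 < t.im → F.eval t ≠ 0) {ζ : ℂ}
    (hζ : 0 < ζ.im) : ‖F.coeff r‖ * ζ.im ^ r ≤ ‖F.eval ζ‖ := by
  by_cases h0 : F.coeff r = 0
  · simp [h0]
  have d : F.natDegree = r := le_antisymm hd (le_natDegree_of_ne_zero h0)
  have sp := IsAlgClosed.splits F
  have key : ∀ S : Multiset ℂ, (∀ z ∈ S, z.im ≤ 0) → ζ.im ^ S.card ≤ ‖(S.map (ζ - ·)).prod‖ := by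
    intro S hS
    induction S using Multiset.induction_on with
    | empty => simp
    | cons a S ih =>
      rw [Multiset.card_cons, Multiset.map_cons, Multiset.prod_cons, norm_mul, pow_succ']
      refine mul_le_mul ?_ (ih fun z hz => hS z (Multiset.mem_cons_of_mem hz)) (by positivity)
        (norm_nonneg _)
      have := hS a (Multiset.mem_cons_self _ _)
      refine le_trans ?_ (Complex.im_le_norm _)
      simp only [Complex.sub_im]
      linarith
  rw [sp.eval_eq_prod_roots, norm_mul, leadingCoeff, d]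
  refine mul_le_mul_of_nonneg_left ?_ (norm_nonneg _)
  have := key F.roots fun z hz => not_lt.1 fun hc => h z hc (mem_roots'.1 hz).2
  rwa [← sp.natDegree_eq_card_roots, d] at this

theorem logder_im {F : ℂ[X]} (h : ∀ t : ℂ, 0 < t.im → F.eval t ≠ 0) {ζ : ℂ} (hζ : 0 < ζ.im) :
    (F.derivative.eval ζ / F.eval ζ).im ≤ 0 := by
  rw [(IsAlgClosed.splits F).eval_derivative_div_eval_of_ne_zero (h ζ hζ)]
  have key : ∀ S : Multiset ℂ, (∀ z ∈ S, z.im ≤ 0) → (S.map fun z => 1 / (ζ - z)).sum.im ≤ 0 := by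
    intro S hS
    induction S using Multiset.induction_on with
    | empty => simp
    | cons a S ih =>
      rw [Multiset.map_cons, Multiset.sum_cons, Complex.add_im]
      have k1 := ih fun z hz => hS z (Multiset.mem_cons_of_mem hz)
      have k2 := hS a (Multiset.mem_cons_self _ _)
      have k3 : (1 / (ζ - a)).im ≤ 0 := by
        rw [one_div, Complex.inv_im, Complex.sub_im]
        exact div_nonpos_of_nonpos_of_nonneg (by linarith) (Complex.normSq_nonneg _)
      linarith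
  exact key _ fun z hz => not_lt.1 fun hc => h z hc (mem_roots'.1 hz).2

/-- The derivative in the variable `j`. -/
noncomputable def dp (r : ℕ) (k : V → V → ℂ) (j : V) (D U : Finset V) (Z : V → ℂ) : ℂ :=
  ∑ j₀ : Fin r, pp k (Function.update (fun _ => univ) j (univ.erase j₀)) D U Z

theorem continuous_dp (j : V) : Continuous (dp r k j D U) :=
  continuous_finsetSum _ fun _ _ => continuous_pp _ _ _ _

theorem upd_im {Z : V → ℂ} (hZ : ∀ v ∈ U, 0 < (Z v).im) (i : V) {t : ℂ} (ht : 0 < t.im) :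
    ∀ v ∈ U, 0 < (Function.update Z i t v).im := fun v hv => by
  by_cases hvi : v = i
  · subst hvi
    simpa using ht
  · rw [Function.update_of_ne hvi]
    exact hZ v hv

theorem tend (Z : V → ℝ) (i : V) (ζ : ℂ) {G : (V → ℂ) → ℝ}
    (hG : ContinuousAt G (Function.update (fun v => (Z v : ℂ)) i ζ)) :
    Filter.Tendsto (fun ε : ℝ => G (Function.update (fun v => (Z v : ℂ) + ε * Complex.I) i ζ))
      (nhdsWithin 0 (Set.Ioi 0)) (nhds (G (Function.update (fun v => (Z v : ℂ)) i ζ))) := by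
  have c : Continuous fun ε : ℝ => Function.update (fun v => (Z v : ℂ) + ε * Complex.I) i ζ :=
    Continuous.update (by fun_prop) i continuous_const
  have c2 := c.tendsto 0
  simp only [Complex.ofReal_zero, zero_mul, add_zero] at c2
  exact (hG.tendsto.comp c2).mono_left nhdsWithin_le_nhds

theorem slice_ne (hr : 0 < r) (h : Good k U) (hD : D ⊆ U) {i : V} (hi : i ∈ U) (hiD : i ∉ D)
    (Z : V → ℝ) (h0 : pp k (fun _ => (univ : Finset (Fin r))) D (U.erase i) (fun v => Z v) ≠ 0)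
    {ζ : ℂ} (hζ : 0 < ζ.im) :
    pp k (fun _ => (univ : Finset (Fin r))) D U (Function.update (fun v => (Z v : ℂ)) i ζ) ≠ 0 := by
  have ee : ∀ W : V → ℂ, pp k (fun _ => (univ : Finset (Fin r))) D (U.erase i) (Function.update W i ζ) =
      pp k (fun _ => (univ : Finset (Fin r))) D (U.erase i) W := fun W =>
    sum_congr rfl fun c _ => prod_congr rfl fun j _ => dz_congr fun v hv =>
      Function.update_of_ne (ne_of_mem_erase (filter_subset _ _ hv)) _ _
  have t1 := tend Z i ζ (G := fun W => ‖pp k (fun _ => (univ : Finset (Fin r))) D (U.erase i) W‖ * ζ.im ^ r)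
    (((continuous_pp _ _ _ _).norm.mul continuous_const).continuousAt)
  have t2 := tend Z i ζ (G := fun W => ‖pp k (fun _ => (univ : Finset (Fin r))) D U W‖)
    ((continuous_pp _ _ _ _).norm.continuousAt)
  have k1 := le_of_tendsto_of_tendsto t1 t2 (eventually_nhdsWithin_of_forall fun ε (hε : 0 < ε) => by
    obtain ⟨f, f1, f2, f3, -, -⟩ := slice (k := k) (T := fun _ => (univ : Finset (Fin r))) hr hi hiD rfl
      fun v => (Z v : ℂ) + ε * Complex.I
    have := norm_lower f1 (fun t ht => by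
      rw [f2]
      exact pp_ne hr h hD (upd_im (fun v _ => by simpa using hε) i ht)) hζ
    rw [f2, f3] at this
    simpa only [ee] using this)
  rw [ee] at k1
  exact norm_pos_iff.1 (lt_of_lt_of_le (mul_pos (norm_pos_iff.2 h0) (pow_pos hζ r)) k1)

theorem slice_im (hr : 0 < r) (h : Good k U) (hD : D ⊆ U) {i j : V} (hj : j ∈ U) (hjD : j ∉ D)
    (Z : V → ℝ) {ζ : ℂ} (hζ : 0 < ζ.im)
    (h0 : pp k (fun _ => (univ : Finset (Fin r))) D U (Function.update (fun v => (Z v : ℂ)) i ζ) ≠ 0) :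
    (dp r k j D U (Function.update (fun v => (Z v : ℂ)) i ζ) /
      pp k (fun _ => (univ : Finset (Fin r))) D U (Function.update (fun v => (Z v : ℂ)) i ζ)).im ≤ 0 := by
  have t1 := tend Z i ζ (G := fun W => (dp r k j D U W / pp k (fun _ => (univ : Finset (Fin r))) D U W).im)
    (Complex.continuous_im.continuousAt.comp
      ((continuous_dp j).continuousAt.div (continuous_pp _ _ _ _).continuousAt h0))
  refine le_of_tendsto t1 (eventually_nhdsWithin_of_forall fun ε (hε : 0 < ε) => ?_)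
  have hW := upd_im (U := U) (Z := fun v => (Z v : ℂ) + ε * Complex.I) (fun v _ => by simpa using hε) i hζ
  obtain ⟨f, -, f2, -, f4, -⟩ := slice (k := k) (T := fun _ => (univ : Finset (Fin r))) hr hj hjD rfl
    (Function.update (fun v => (Z v : ℂ) + ε * Complex.I) i ζ)
  have := logder_im (F := f) (fun t ht => by
    rw [f2]
    exact pp_ne hr h hD (upd_im hW j ht)) (hW j hj)
  rwa [f2, f4, Function.update_eq_self] at this

/-- The invariant of the barrier argument. -/
def Inv (r : ℕ) (k : V → V → ℂ) (z φ δ : ℝ) (D : Finset V) : Prop :=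
  ∀ U : Finset V, D ⊆ U → Good k U → ∀ Z : V → ℝ, (∀ v ∈ D, z - δ ≤ Z v) → (∀ v ∈ U, v ∉ D → z ≤ Z v) →
    0 < (pp k (fun _ => (univ : Finset (Fin r))) D U fun v => Z v).re ∧
      ∀ j ∈ U, j ∉ D → (dp r k j D U fun v => Z v).re ≤
        φ * (pp k (fun _ => (univ : Finset (Fin r))) D U fun v => Z v).re

theorem upd_coe (Z : V → ℝ) (i : V) (s : ℝ) :
    Function.update (fun v => (Z v : ℂ)) i (s : ℂ) = fun v => ((Function.update Z i s v : ℝ) : ℂ) := by
  funext v
  by_cases hv : v = i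
  · subst hv; simp
  · simp [Function.update_of_ne hv]

theorem map_facts {f : ℝ[X]} {F : ℂ[X]} (e : f.map (algebraMap ℝ ℂ) = F) :
    f.natDegree = F.natDegree ∧ (∀ n, f.coeff n = (F.coeff n).re) ∧ (∀ ζ : ℂ, aeval ζ f = F.eval ζ) ∧
      ∀ (n : ℕ) (s : ℝ), (derivative^[n] f).eval s = ((derivative^[n] F).eval (s : ℂ)).re := by
  subst e
  refine ⟨(natDegree_map _).symm, fun n => by simp, fun ζ => by rw [eval_map_algebraMap], fun n s => ?_⟩
  rw [iterate_derivative_map, eval_map_algebraMap, aeval_re, Complex.ofReal_re]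

theorem slice_dp (hr : 0 < r) (h : Good k U) {i j : V} (hi : i ∈ U) (hiD : i ∉ D) (hij : i ≠ j) (Z : V → ℝ) :
    ∃ g : ℝ[X], g.natDegree ≤ r ∧
      (∀ ζ : ℂ, aeval ζ g = dp r k j D U (Function.update (fun v => (Z v : ℂ)) i ζ)) ∧
      (derivative^[r - 1] g).eval (Z i) =
        (r - 1).factorial * (dp r k j (insert i D) U fun v => Z v).re := by
  choose f f1 f2 _ _ f5 using fun j₀ : Fin r => slice (k := k)
    (T := Function.update (fun _ => univ) j (univ.erase j₀)) hr hi hiD (Function.update_of_ne hij _ _)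
    fun v => (Z v : ℂ)
  have e1 : ∀ ζ : ℂ, (∑ j₀, f j₀).eval ζ = dp r k j D U (Function.update (fun v => (Z v : ℂ)) i ζ) :=
    fun ζ => by rw [eval_finsetSum, dp]; exact sum_congr rfl fun j₀ _ => f2 j₀ ζ
  obtain ⟨g, e⟩ := real_poly (∑ j₀, f j₀) fun s => by
    rw [e1, upd_coe, dp, Complex.im_sum]
    exact sum_eq_zero fun j₀ _ => pp_real h fun v _ => Complex.ofReal_im _
  obtain ⟨g1, -, g3, g4⟩ := map_facts e
  refine ⟨g, g1.trans_le (natDegree_sum_le_of_forall_le _ _ fun j₀ _ => f1 j₀), fun ζ => by rw [g3, e1], ?_⟩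
  rw [g4, iterate_derivative_sum, eval_finsetSum]
  simp only [f5, Function.update_eq_self]
  rw [← mul_sum, dp, ← Complex.ofReal_natCast, Complex.re_ofReal_mul]

theorem Inv.step (hr : 2 ≤ r) {z φ δ : ℝ} (hδ : 0 ≤ δ) (hδ' : δ * (r * φ) ≤ ((r : ℝ) - 1) ^ 2)
    (hI : Inv r k z φ δ D) {i : V} (hiD : i ∉ D) : Inv r k z φ δ (insert i D) := by
  intro U hU h Z hZ1 hZ2
  have r0 : 0 < r := by omega
  have hi : i ∈ U := hU (mem_insert_self _ _)
  have hD : D ⊆ U := (subset_insert _ _).trans hU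
  have hZi := hZ1 i (mem_insert_self _ _)
  have I1 := fun (s : ℝ) (hs : Z i + δ ≤ s) => hI U hD h (Function.update Z i s)
    (fun v hv => by
      rw [Function.update_of_ne (ne_of_mem_of_not_mem hv hiD)]
      exact hZ1 v (mem_insert_of_mem hv))
    (fun v hv hvD => by
      by_cases hvi : v = i
      · subst hvi
        rw [Function.update_self]
        linarith
      · rw [Function.update_of_ne hvi]
        exact hZ2 v hv (by simp [hvi, hvD]))
  have I2 := (hI (U.erase i) (subset_erase.2 ⟨hD, hiD⟩) (h.mono (erase_subset _ _)) Z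
    (fun v hv => hZ1 v (mem_insert_of_mem hv))
    (fun v hv hvD => hZ2 v (mem_of_mem_erase hv) (by simp [ne_of_mem_erase hv, hvD]))).1
  obtain ⟨F, f1, f2, f3, f4, f5⟩ := slice (k := k) (T := fun _ => (univ : Finset (Fin r))) r0 hi hiD rfl
    fun v => (Z v : ℂ)
  obtain ⟨f, e⟩ := real_poly F fun s => by
    rw [f2, upd_coe]
    exact pp_real h fun v _ => Complex.ofReal_im _
  obtain ⟨g1, g2, g3, g4⟩ := map_facts e
  have n1 : ∀ ζ : ℂ, 0 < ζ.im → pp k (fun _ => (univ : Finset (Fin r))) D U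
      (Function.update (fun v => (Z v : ℂ)) i ζ) ≠ 0 := fun ζ hζ =>
    slice_ne r0 h hD hi hiD Z (fun h0 => by simp [h0] at I2) hζ
  have ev0 : ∀ s : ℝ, f.eval s = (pp k (fun _ => (univ : Finset (Fin r))) D U
      fun v => ((Function.update Z i s v : ℝ) : ℂ)).re := fun s => by
    have := g4 0 s
    rwa [Function.iterate_zero_apply, Function.iterate_zero_apply, f2, upd_coe] at this
  have key := fun (g : ℝ[X]) (hg : g.natDegree ≤ r) him => ub (f := f) (g := g) hr (g1.trans_le f1)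
    (by rwa [g2, f3]) hg (fun ζ hζ => by rw [g3, f2]; exact n1 ζ hζ) him (t := Z i + δ) (φ := φ)
    (fun s hs => by rw [ev0]; exact (I1 s hs).1)
    (by
      have := g4 1 (Z i + δ)
      rw [Function.iterate_one, Function.iterate_one, f4, upd_coe] at this
      rw [this, ev0]
      exact (I1 _ le_rfl).2 i hi hiD) hδ hδ'
  have e5 : (derivative^[r - 1] f).eval (Z i + δ - δ) = (r - 1).factorial *
      (pp k (fun _ => (univ : Finset (Fin r))) (insert i D) U fun v => Z v).re := by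
    rw [add_sub_cancel_right, g4, f5, Function.update_eq_self, ← Complex.ofReal_natCast,
      Complex.re_ofReal_mul]
  have n0 : (0 : ℝ) < (r - 1).factorial := by exact_mod_cast (r - 1).factorial_pos
  have p0 : 0 < (pp k (fun _ => (univ : Finset (Fin r))) (insert i D) U fun v => Z v).re := by
    have := (key 0 (by simp) (by simp)).1
    rw [e5] at this
    exact (mul_pos_iff_of_pos_left n0).1 this
  refine ⟨p0, fun j hj hjD => ?_⟩
  have hjD' : j ∉ D := fun hc => hjD (mem_insert_of_mem hc)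
  obtain ⟨g, d1, d2, d3⟩ := slice_dp r0 h hi hiD (j := j) (fun hc => hjD (hc ▸ mem_insert_self _ _)) Z
  have k1 := (key g d1 fun ζ hζ => by
    rw [g3, f2, d2]
    exact slice_im r0 h hD hj hjD' Z hζ (n1 ζ hζ)).2
  have k2 : g.eval (Z i + δ) = (dp r k j D U fun v => ((Function.update Z i (Z i + δ) v : ℝ) : ℂ)).re := by
    rw [← upd_coe, ← d2, aeval_re, Complex.ofReal_re]
  rw [e5, add_sub_cancel_right, d3, mul_div_mul_left _ _ n0.ne', k2, ev0] at k1
  have k3 := (div_le_iff₀ (I1 _ le_rfl).1).2 ((I1 _ le_rfl).2 j hj hjD')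
  exact (div_le_iff₀ p0).1 (k1.trans k3)

theorem form_le (h : Good k U) {j : V} (hj : j ∈ U) (v : V → ℂ) {l : ℝ} (l1 : l ≤ 1) :
    l * (∑ a ∈ U, ∑ b ∈ U, conj (v a) * k a b * v b).re ≤
      l ^ 2 * ‖v j‖ ^ 2 + (2 - l) * ∑ a ∈ U.erase j, ‖v a‖ ^ 2 := by
  have key : ∀ μ : ℝ, |(∑ a ∈ U, ∑ b ∈ U, conj (if a = j then μ * v a else v a) * k a b *
      (if b = j then μ * v b else v b)).re| ≤ μ ^ 2 * ‖v j‖ ^ 2 + ∑ a ∈ U.erase j, ‖v a‖ ^ 2 := by
    intro μ
    refine (Complex.abs_re_le_norm _).trans ((h.2.2 _).trans (le_of_eq ?_))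
    rw [← add_sum_erase _ _ hj, if_pos rfl, norm_mul, mul_pow, Complex.norm_real, Real.norm_eq_abs, sq_abs]
    congr 1
    exact sum_congr rfl fun a ha => by rw [if_neg (ne_of_mem_erase ha)]
  have e : (l : ℂ) * ∑ a ∈ U, ∑ b ∈ U, conj (v a) * k a b * v b =
      ∑ a ∈ U, ∑ b ∈ U, conj (if a = j then l * v a else v a) * k a b * (if b = j then l * v b else v b) -
      ((1 - l : ℝ) : ℂ) * ∑ a ∈ U, ∑ b ∈ U, conj (if a = j then (0 : ℝ) * v a else v a) * k a b *
        (if b = j then (0 : ℝ) * v b else v b) := by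
    simp only [mul_sum, ← sum_sub_distrib]
    refine sum_congr rfl fun a _ => sum_congr rfl fun b _ => ?_
    by_cases ha : a = j <;> by_cases hb : b = j
    · simp [ha, hb, h.2.1 j hj]
    · simp [ha, hb]; ring
    · simp [ha, hb]; ring
    · simp [ha, hb]; ring
  have e2 := congrArg Complex.re e
  rw [Complex.re_ofReal_mul, Complex.sub_re, Complex.re_ofReal_mul] at e2
  have k1 := (abs_le.1 (key l)).2
  have k2 := mul_le_mul_of_nonneg_left (abs_le.1 (key 0)).1 (sub_nonneg.2 l1)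
  rw [e2]
  nlinarith

theorem schur (h : Good k U) {j : V} (hj : j ∈ U) {z : ℝ} (hz : 1 < z) {Z : V → ℝ}
    (hZ : ∀ v ∈ U, z ≤ Z v) :
    (z - 2 / (z + 1)) * (dz k (U.erase j) fun v => Z v).re ≤ (dz k U fun v => Z v).re := by
  have h' := h.mono (erase_subset j U)
  have d0 := dz_pos (Z := fun v => (Z v : ℂ)) h' fun v hv =>
    ⟨Complex.ofReal_im _, hz.trans_le (hZ v (mem_of_mem_erase hv))⟩
  have d1 := dz_real (Z := fun v => (Z v : ℂ)) h' fun v _ => Complex.ofReal_im _
  obtain ⟨b, hb⟩ := dz_split (k := k) hj fun v => (Z v : ℂ)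
  obtain ⟨d, hd⟩ : ∃ d : ℝ, (dz k (U.erase j) fun v => Z v) = d := ⟨_, Complex.ext rfl d1⟩
  rw [hd] at hb d0 ⊢
  simp only [Complex.ofReal_re] at d0 ⊢
  have b1 : b.im = 0 := by
    have := dz_real (Z := Function.update (fun v => (Z v : ℂ)) j ((0 : ℝ) : ℂ)) h fun v _ => by
      rw [upd_coe]; exact Complex.ofReal_im _
    rw [hb] at this
    simpa using this
  obtain ⟨b, rfl⟩ : ∃ b' : ℝ, b = b' := ⟨_, Complex.ext rfl b1⟩
  have h0 := hb ((b / d : ℝ) : ℂ)
  rw [← Complex.ofReal_mul, div_mul_cancel₀ _ d0.ne', sub_self] at h0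
  obtain ⟨x, hx, hx0⟩ := Matrix.exists_mulVec_eq_zero_iff.2 h0
  obtain ⟨v, hv, e⟩ := quad k U (Function.update (fun v => (Z v : ℂ)) j ((b / d : ℝ) : ℂ)) x
  rw [hx0, dotProduct_zero, eq_comm, sub_eq_zero] at e
  have e2 := congrArg Complex.re e
  rw [← add_sum_erase _ _ hj, Function.update_self, Complex.add_re, Complex.re_sum] at e2
  have k1 : z * ∑ a ∈ U.erase j, ‖v a‖ ^ 2 ≤ ∑ a ∈ U.erase j,
      (Function.update (fun v => (Z v : ℂ)) j ((b / d : ℝ) : ℂ) a * ((‖v a‖ ^ 2 : ℝ) : ℂ)).re := by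
    rw [mul_sum]
    refine sum_le_sum fun a ha => ?_
    rw [Function.update_of_ne (ne_of_mem_erase ha), ← Complex.ofReal_mul, Complex.ofReal_re]
    exact mul_le_mul_of_nonneg_right (hZ a (mem_of_mem_erase ha)) (by positivity)
  rw [← Complex.ofReal_mul, Complex.ofReal_re] at e2
  have l0 : 0 < 2 / (z + 1) := by positivity
  have l1 : 2 / (z + 1) ≤ 1 := by rw [div_le_one (by positivity)]; linarith
  have l2 : 2 / (z + 1) * z = 2 - 2 / (z + 1) := by field_simp; ring
  have k2 := form_le h hj v l1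
  have k3 := form_le h hj v le_rfl
  have s0 : 0 ≤ ∑ a ∈ U.erase j, ‖v a‖ ^ 2 := sum_nonneg fun _ _ => by positivity
  have a0 : 0 < ‖v j‖ ^ 2 := by
    refine lt_of_le_of_ne (by positivity) fun hc => ?_
    obtain ⟨a, ha, ha0⟩ := exists_ne hx hv
    have k4 := single_le_sum (f := fun a => ‖v a‖ ^ 2) (fun _ _ => by positivity) ha
    rw [← add_sum_erase _ _ hj] at k4
    rw [← hc] at e2 k3 k4
    nlinarith
  generalize 2 / (z + 1) = l at *
  have k5 : l * (b / d * ‖v j‖ ^ 2 + z * ∑ a ∈ U.erase j, ‖v a‖ ^ 2) ≤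
      l ^ 2 * ‖v j‖ ^ 2 + (2 - l) * ∑ a ∈ U.erase j, ‖v a‖ ^ 2 :=
    (mul_le_mul_of_nonneg_left (by linarith) l0.le).trans k2
  have k6 : b / d * (l * ‖v j‖ ^ 2) ≤ l * (l * ‖v j‖ ^ 2) := by
    rw [← l2] at k5
    linarith
  have k7 := (div_le_iff₀ d0).1 (le_of_mul_le_mul_right k6 (by positivity))
  have k8 := hb (Z j)
  rw [Function.update_eq_self] at k8
  rw [k8, ← Complex.ofReal_mul, ← Complex.ofReal_sub, Complex.ofReal_re]
  nlinarith [hZ j hj]

theorem Inv.base (hr : 0 < r) {z : ℝ} (hz : 1 < z) (δ : ℝ) :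
    Inv r k z (r / (z - 2 / (z + 1))) δ (∅ : Finset V) := by
  intro U _ h Z _ hZ
  have hZ' : ∀ v ∈ U, z ≤ Z v := fun v hv => hZ v hv (notMem_empty v)
  have re : ∀ S ⊆ U, ∃ d : ℝ, 0 < d ∧ (dz k S fun v => Z v) = d := fun S hS =>
    ⟨_, dz_pos (Z := fun v => (Z v : ℂ)) (h.mono hS) fun v hv =>
      ⟨Complex.ofReal_im _, hz.trans_le (hZ' v (hS hv))⟩,
      Complex.ext rfl (dz_real (Z := fun v => (Z v : ℂ)) (h.mono hS) fun v _ => Complex.ofReal_im _)⟩
  obtain ⟨a, a0, ha⟩ := re U subset_rfl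
  have e1 : (pp k (fun _ => (univ : Finset (Fin r))) ∅ U fun v => Z v) = ((a ^ r : ℝ) : ℂ) := by
    rw [pp, Fintype.sum_unique]
    simp [ha]
  rw [e1, Complex.ofReal_re]
  refine ⟨by positivity, fun j hj _ => ?_⟩
  obtain ⟨d, d0, hd⟩ := re (U.erase j) (erase_subset _ _)
  have k1 := schur h hj hz hZ'
  rw [ha, hd, Complex.ofReal_re, Complex.ofReal_re] at k1
  have e2 : (dp r k j ∅ U fun v => Z v) = ((r * (d * a ^ (r - 1)) : ℝ) : ℂ) := by
    have : ∀ j₀ : Fin r, (pp k (Function.update (fun _ => univ) j (univ.erase j₀)) ∅ U fun v => Z v) =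
        d * a ^ (r - 1) := fun j₀ => by
      rw [pp, Fintype.sum_unique, ← mul_prod_erase _ _ (mem_univ j₀), ← hd]
      refine congrArg₂ (· * ·) ?_ ?_
      · congr 1
        ext v
        by_cases hv : v = j
        · simp [hv]
        · simp [hv]
      · rw [prod_congr rfl (g := fun _ => (a : ℂ)) fun j' hj' => ?_]
        · simp
        · rw [← ha]
          congr 1
          ext v
          by_cases hv : v = j
          · simp [hv, ne_of_mem_erase hj']
          · simp [hv]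
    simp [dp, this]
  have g0 : 0 < z - 2 / (z + 1) := by
    rw [sub_pos, div_lt_iff₀ (by positivity)]
    nlinarith
  rw [e2, Complex.ofReal_re, div_mul_eq_mul_div, le_div_iff₀ g0]
  obtain ⟨n, rfl⟩ : ∃ n, r = n + 1 := ⟨r - 1, by omega⟩
  rw [Nat.add_sub_cancel, pow_succ]
  have := mul_le_mul_of_nonneg_left k1 (show 0 ≤ ((n + 1 : ℕ) : ℝ) * a ^ n by positivity)
  linarith

theorem upper (hr : 2 ≤ r) (h : Good k U) {s : ℝ} (hs : 5 / √(r : ℝ) ≤ s) :
    (ep (fun _ => (none : Option (Fin r))) k U).eval s ≠ 0 := by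
  have r2 : (2 : ℝ) ≤ r := by exact_mod_cast hr
  have w2 : √(r : ℝ) ^ 2 = r := Real.sq_sqrt (by linarith)
  have w0 : 0 ≤ √(r : ℝ) := Real.sqrt_nonneg _
  generalize √(r : ℝ) = w at *
  have w1 : 1 < w := by nlinarith
  have g0 : 0 < w - 2 / (w + 1) := by
    rw [sub_pos, div_lt_iff₀ (by positivity)]
    nlinarith
  have l1 : 2 / (w + 1) ≤ 2 / w := div_le_div_of_nonneg_left (by norm_num) (by linarith) (by linarith)
  have l0 : 0 < 2 / (w + 1) := by positivity
  have hI : ∀ D : Finset V, Inv r k w (r / (w - 2 / (w + 1))) ((1 - 1 / r) ^ 2 * (w - 2 / (w + 1))) D := by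
    intro D
    induction D using Finset.induction_on with
    | empty => exact Inv.base (by omega) w1 _
    | insert i D hi ih =>
      refine ih.step hr (by positivity) (le_of_eq ?_) hi
      generalize w - 2 / (w + 1) = g at g0
      field_simp
  have k1 : w - (1 - 1 / r) ^ 2 * (w - 2 / (w + 1)) ≤ s := by
    refine le_trans ?_ hs
    have e1 : (1 / r : ℝ) * w = 1 / w := by rw [← w2]; field_simp
    have e2 : (5 : ℝ) / w = 5 * (1 / w) := by ring
    have e3 : (2 : ℝ) / w = 2 * (1 / w) := by ring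
    have i0 : (0 : ℝ) < 1 / r := by positivity
    have i1 : (0 : ℝ) < 1 / w := by positivity
    generalize 2 / (w + 1) = l at *
    have := mul_pos (mul_pos i0 i0) g0
    have := mul_pos i0 l0
    nlinarith
  have k2 := (hI U U subset_rfl h (fun _ => s) (fun _ _ => k1) fun v hv hv' => absurd hv hv').1
  intro h0
  have h1 := Qm_eq (show 0 < r by omega) (fun _ => (none : Option (Fin r))) k U fun _ => (s : ℂ)
  have h2 := ep_eval (σ := fun _ => (none : Option (Fin r))) h (s : ℂ)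
  rw [aeval_re, h0] at h2
  simp only [kap, Complex.ofReal_one, one_mul, Complex.ofReal_zero, mul_zero] at h2
  rw [← h2, mul_zero, filter_true_of_mem fun _ _ => rfl,
    pp_congrT (T' := fun _ => univ) fun v hv hv' => absurd hv hv'] at h1
  rw [← h1] at k2
  simp at k2

theorem barrier (hr : 2 ≤ r) (h : Good k U) :
    ∀ s ∈ (ep (fun _ => (none : Option (Fin r))) k U).roots, |s| ≤ 5 / √(r : ℝ) := by
  intro s hs
  have h0 : (ep (fun _ => (none : Option (Fin r))) k U).eval s = 0 := (mem_roots'.1 hs).2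
  rw [abs_le]
  constructor
  · by_contra hlt
    refine upper hr h.neg (s := -s) (by linarith) ?_
    rw [ep_neg, neg_neg, h0, mul_zero]
  · by_contra hlt
    exact upper hr h (by linarith) h0

end Vale.Agent.P078
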