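import Vale.Agent.P078.Gel

/-! The pointwise states `m ↦ ev (E m) x` and the kernels along orbits. -/

open Finset
open scoped Classical ComplexConjugate

namespace Vale.Agent.P078.Ke

variable {H : Type*} [NormedAddCommGroup H] [InnerProductSpace ℂ H] [CompleteSpace H]
  {M : VonNeumannAlgebra H} {A : StarSubalgebra ℂ (H →L[ℂ] H)} {Ω : H}
  {X : Type*} [TopologicalSpace X] [MulAction (NG M A) X] {ev : (H →L[ℂ] H) → C(X, ℂ)}
  {E : (H →L[ℂ] H) → H →L[ℂ] H} {a a' m m' : H →L[ℂ] H}

theorem op_star_mul (w : NG M A) : star (op w) * op w = 1 := by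
  rw [← op_inv, ← op_mul, inv_mul_cancel, op_one]

theorem op_mul_star (w : NG M A) : op w * star (op w) = 1 := by
  rw [← op_inv, ← op_mul, mul_inv_cancel, op_one]

theorem cj_mem (w : NG M A) (ha : a ∈ A) : star (op w) * a * op w ∈ A :=
  (mem_norm.1 (op_norm w)).2.2.2 a ha

theorem mul_op (w : NG M A) (a : H →L[ℂ] H) : a * op w = op w * (star (op w) * a * op w) := by
  rw [← mul_assoc, ← mul_assoc, op_mul_star, one_mul]

theorem star_op_mul (w : NG M A) (a : H →L[ℂ] H) :
    star (op w) * a = star (op w) * a * op w * star (op w) := by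
  rw [mul_assoc _ (op w), op_mul_star, mul_one]

theorem ev_cj (h : IsGel M A ev) (w : NG M A) (ha : a ∈ A) (x : X) :
    ev (star (op w) * a * op w) x = ev a (w • x) := by
  have := h.act w⁻¹ a ha (w • x)
  rwa [op_inv, star_star, inv_smul_smul] at this

theorem ev_zero (h : IsGel M A ev) : ev 0 = 0 := by
  simpa using h.add 0 (zero_mem A) 0 (zero_mem A)

theorem ev_ext (h : IsGel M A ev) (ha : a ∈ A) (ha' : a' ∈ A) (e : ∀ y, ev a y = ev a' y) :
    a = a' := by
  have h1 := h.add a ha _ (A.smul_mem ha' (-1))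
  rw [h.smul a' ha'] at h1
  have h2 := h.inj _ (add_mem ha (A.smul_mem ha' (-1))) (by rw [h1]; ext y; simp [e y])
  simpa [add_neg_eq_zero] using h2

section
variable (hA : IsMASA M A) (hE : IsE M A Ω E) (h : IsGel M A ev)
include hE h

theorem e_left (ha : a ∈ A) (hm : m ∈ M) (x : X) : ev (E (a * m)) x = ev a x * ev (E m) x := by
  rw [hE.left a ha m hm, h.mul a ha _ (hE.mem m hm), ContinuousMap.mul_apply]

theorem e_right (ha : a ∈ A) (hm : m ∈ M) (x : X) : ev (E (m * a)) x = ev (E m) x * ev a x := by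
  rw [hE.right a ha m hm, h.mul _ (hE.mem m hm) a ha, ContinuousMap.mul_apply]

theorem e_star (hm : m ∈ M) (x : X) : ev (E (star m)) x = conj (ev (E m) x) := by
  rw [hE.star m hm, h.star _ (hE.mem m hm)]
  rfl

theorem e_cj (w : NG M A) (hm : m ∈ M) (x : X) :
    ev (E (star (op w) * m * op w)) x = ev (E m) (w • x) := by
  have := hE.conj w⁻¹ m hm
  rw [op_inv, star_star] at this
  rw [this, ev_cj h w (hE.mem m hm)]

theorem e_one (x : X) : ev (E 1) x = 1 := by
  rw [hE.self 1 (one_mem A), h.one, ContinuousMap.one_apply]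

theorem e_sum {ι : Type*} (s : Finset ι) (c : ι → ℂ) {f : ι → H →L[ℂ] H} (hf : ∀ i, f i ∈ M)
    (x : X) : ev (E (∑ i ∈ s, c i • f i)) x = ∑ i ∈ s, c i * ev (E (f i)) x := by
  induction s using Finset.induction_on with
  | empty => simp [hE.self 0 (zero_mem A), ev_zero h]
  | insert i s hi ih =>
    have h1 : c i • f i ∈ M := smul_mem_M (hf i) _
    have h2 : ∑ i ∈ s, c i • f i ∈ M := sum_mem fun i _ => smul_mem_M (hf i) _
    rw [sum_insert hi, sum_insert hi, hE.add _ h1 _ h2, h.add _ (hE.mem _ h1) _ (hE.mem _ h2),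
      ContinuousMap.add_apply, ih, hE.smul _ (hf i), h.smul _ (hE.mem _ (hf i))]
    rfl

variable [CompactSpace X] [T2Space X] [TotallyDisconnectedSpace X] [ContinuousConstSMul (NG M A) X]

theorem e_fix {w : NG M A} {x : X} (hw : ev (E (op w)) x ≠ 0) : w • x = x := by
  by_contra hx
  obtain ⟨C, hC, h1, h2⟩ := compact_exists_isClopen_in_isOpen (x := x) (U := {w • x}ᶜ)
    isOpen_compl_singleton (Ne.symm hx)
  obtain ⟨p, hp, -, hp'⟩ := h.proj hC
  have h3 := e_left hE h hp (op_mem w) x
  rw [mul_op, e_right hE h (cj_mem w hp) (op_mem w), ev_cj h w hp, hp', hp', if_pos h1,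
    if_neg fun h4 => h2 h4 rfl, mul_zero, one_mul] at h3
  exact hw h3.symm

variable (hfix : ∀ w : NG M A, IsClopen {x : X | w • x = x})
include hA hfix

theorem e_mul_op {w : NG M A} {x : X} (hw : w • x = x) (hm : m ∈ M) :
    ev (E (m * op w)) x = ev (E m) x * ev (E (op w)) x := by
  obtain ⟨p, hp, -, hp'⟩ := h.proj (hfix w)
  have h1 : op w * p ∈ A := comm_mem hA (mul_mem (op_mem w) (hA.1 p hp)) fun a ha => by
    rw [← mul_assoc, mul_op w a, mul_assoc, mul_assoc (op w)]
    congr 1
    refine ev_ext h (mul_mem hp ha) (mul_mem (cj_mem w ha) hp) fun y => ?_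
    rw [h.mul _ hp _ ha, h.mul _ (cj_mem w ha) _ hp, ContinuousMap.mul_apply,
      ContinuousMap.mul_apply, ev_cj h w ha, hp']
    by_cases hy : w • y = y <;> simp [hy]
  have h2 : ∀ m ∈ M, ev (E (m * op w)) x = ev (E m) x * ev (op w * p) x := fun m hm => by
    rw [← e_right hE h h1 hm, ← mul_assoc, e_right hE h hp (mul_mem hm (op_mem w)), hp']
    simp [hw]
  have h3 := h2 1 (one_mem M)
  rw [one_mul, e_one hE h, one_mul] at h3
  rw [h2 m hm, h3]

theorem e_star_op_mul {w : NG M A} {x : X} (hw : w • x = x) (hm : m ∈ M) :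
    ev (E (star (op w) * m)) x = conj (ev (E (op w)) x) * ev (E m) x := by
  have h1 := e_star hE h (mul_mem (star_mem hm) (op_mem w)) x
  rw [star_mul, star_star, e_mul_op hA hE h hfix hw (star_mem hm), e_star hE h hm] at h1
  simp [h1, mul_comm]

theorem e_op_mul {w : NG M A} {x : X} (hw : w • x = x) (hm : m ∈ M) :
    ev (E (op w * m)) x = ev (E (op w)) x * ev (E m) x := by
  have h1 := e_star_op_mul hA hE h hfix (w := w⁻¹) (x := x) (by rw [inv_smul_eq_iff, hw]) hm
  rwa [op_inv, star_star, e_star hE h (op_mem w), Complex.conj_conj] at h1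

theorem e_norm {w : NG M A} {x : X} (hw : w • x = x) : ‖ev (E (op w)) x‖ = 1 := by
  have h1 := e_star_op_mul hA hE h hfix hw (op_mem w)
  rw [op_star_mul, e_one hE h, Complex.conj_mul'] at h1
  have h2 : ‖ev (E (op w)) x‖ ^ 2 = 1 := by exact_mod_cast h1.symm
  exact (pow_eq_one_iff_of_nonneg (norm_nonneg _) two_ne_zero).1 h2

end

variable (M A) in
/-- base point of the orbit -/
noncomputable def bp (x : X) : X := (Quotient.mk (MulAction.orbitRel (NG M A) X) x).out

omit [TopologicalSpace X] in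
theorem bp_smul (w : NG M A) (x : X) : bp M A (w • x) = bp M A x :=
  congrArg Quotient.out (Quotient.sound ⟨w, rfl⟩)

omit [TopologicalSpace X] in
theorem exists_om (x : X) : ∃ w : NG M A, w • bp M A x = x :=
  (MulAction.orbitRel (NG M A) X).symm (Quotient.mk_out (s := MulAction.orbitRel (NG M A) X) x)

variable (M A) in
/-- a group element moving the base point to the point -/
noncomputable def om (x : X) : NG M A := (exists_om x).choose

omit [TopologicalSpace X] in
theorem om_smul (x : X) : om M A x • bp M A x = x := (exists_om x).choose_spec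

variable (M A ev E) in
/-- the kernel of an operator -/
noncomputable def km (m : H →L[ℂ] H) (x y : X) : ℂ :=
  if bp M A x = bp M A y then ev (E (star (op (om M A x)) * m * op (om M A y))) (bp M A x) else 0

theorem cm (hm : m ∈ M) (w w' : NG M A) : star (op w) * m * op w' ∈ M :=
  mul_mem (mul_mem (star_mem (op_mem w)) hm) (op_mem w')

variable (hA : IsMASA M A) (hE : IsE M A Ω E) (h : IsGel M A ev)
include hE h

theorem km_self (hm : m ∈ M) (x : X) : km M A ev E m x x = ev (E m) x := by
  rw [km, if_pos rfl, e_cj hE h _ hm, om_smul]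

theorem km_left (ha : a ∈ A) (hm : m ∈ M) (x y : X) :
    km M A ev E (a * m) x y = ev a x * km M A ev E m x y := by
  unfold km
  split_ifs
  · rw [← mul_assoc, star_op_mul _ a, mul_assoc _ _ m, mul_assoc,
      e_left hE h (cj_mem _ ha) (cm hm _ _), ev_cj h _ ha, om_smul]
  · simp

theorem km_star (hm : m ∈ M) (x y : X) :
    km M A ev E (star m) y x = conj (km M A ev E m x y) := by
  unfold km
  by_cases h1 : bp M A x = bp M A y
  · rw [if_pos h1, if_pos h1.symm, ← e_star hE h (cm hm _ _), h1]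
    simp [mul_assoc]
  · simp [h1, Ne.symm h1]

theorem km_sum {ι : Type*} (s : Finset ι) (c : ι → ℂ) {f : ι → H →L[ℂ] H} (hf : ∀ i, f i ∈ M)
    (x y : X) : km M A ev E (∑ i ∈ s, c i • f i) x y = ∑ i ∈ s, c i * km M A ev E (f i) x y := by
  unfold km
  split_ifs
  · rw [← e_sum hE h s c fun i => cm (hf i) _ _]
    simp only [mul_sum, sum_mul, mul_smul_comm, smul_mul_assoc]
  · simp

theorem km_pos (hm : m ∈ M) (h0 : 0 ≤ m) (U : Finset X) (v : X → ℂ) :
    0 ≤ (∑ a ∈ U, ∑ b ∈ U, conj (v a) * km M A ev E m a b * v b).re := by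
  let c : X → X → ℂ := fun z a => if bp M A a = z then v a else 0
  have h1 : ∀ z, ev (E (star (∑ a ∈ U, c z a • op (om M A a)) * m *
      ∑ a ∈ U, c z a • op (om M A a))) z = ∑ a ∈ U, ∑ b ∈ U, conj (c z a) * c z b *
        ev (E (star (op (om M A a)) * m * op (om M A b))) z := fun z => by
    rw [← sum_product', ← e_sum hE h _ _ fun p : X × X => cm hm _ _, sum_product, star_sum,
      sum_mul, sum_mul]
    simp only [mul_sum, star_smul, mul_smul_comm, smul_mul_assoc, smul_smul, mul_comm (c z _)]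
    rfl
  have h2 : ∑ a ∈ U, ∑ b ∈ U, conj (v a) * km M A ev E m a b * v b =
      ∑ z ∈ U.image (bp M A), ∑ a ∈ U, ∑ b ∈ U, conj (c z a) * c z b *
        ev (E (star (op (om M A a)) * m * op (om M A b))) z := by
    rw [sum_comm (s := U.image _)]
    refine sum_congr rfl fun a ha => ?_
    rw [sum_eq_single_of_mem _ (mem_image_of_mem _ ha) fun z _ hz => by simp [c, hz.symm]]
    refine sum_congr rfl fun b _ => ?_
    by_cases hb : bp M A a = bp M A b
    · simp only [km, c, hb, if_true]
      ring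
    · simp [km, c, hb, Ne.symm hb]
  rw [h2, Complex.re_sum]
  refine sum_nonneg fun z _ => ?_
  have h3 : ∑ a ∈ U, c z a • op (om M A a) ∈ M := sum_mem fun a _ => smul_mem_M (op_mem _) _
  have h4 := mul_mem (mul_mem (star_mem h3) hm) h3
  rw [← h1]
  exact h.pos _ (hE.mem _ h4) (hE.pos _ h4 (star_left_conjugate_nonneg h0 _)) z

variable [CompactSpace X] [T2Space X] [TotallyDisconnectedSpace X] [ContinuousConstSMul (NG M A) X]

theorem km_op {u : NG M A} {x y : X} (h0 : km M A ev E (op u) x y ≠ 0) : x = u • y := by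
  unfold km at h0
  split_ifs at h0 with h1
  · rw [← op_inv, ← op_mul, ← op_mul] at h0
    have h2 := e_fix hE h h0
    rw [mul_smul, mul_smul, inv_smul_eq_iff, om_smul, h1, om_smul] at h2
    exact h2.symm
  · exact absurd rfl h0

theorem km_one (x y : X) : km M A ev E 1 x y = if x = y then 1 else 0 := by
  split_ifs with h1
  · rw [h1, km_self hE h (one_mem M), e_one hE h]
  · by_contra h0
    exact h1 (by simpa using km_op hE h (u := 1) h0)

variable (hfix : ∀ w : NG M A, IsClopen {x : X | w • x = x})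
include hA hfix

theorem km_op_mul (u : NG M A) (hm : m ∈ M) (x y : X) {U : Finset X} (hU : u⁻¹ • x ∈ U) :
    km M A ev E (op u * m) x y = ∑ v ∈ U, km M A ev E (op u) x v * km M A ev E m v y := by
  rw [sum_eq_single_of_mem _ hU fun v _ hv => ?_]
  · unfold km
    rw [bp_smul, if_pos rfl]
    split_ifs
    · have h1 : ((om M A x)⁻¹ * u * om M A (u⁻¹ • x)) • bp M A x = bp M A x := by
        rw [mul_smul, mul_smul, inv_smul_eq_iff, om_smul, ← bp_smul u⁻¹, om_smul, smul_inv_smul]
      have h2 := e_op_mul hA hE h hfix h1 (cm hm (om M A (u⁻¹ • x)) (om M A y))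
      rw [op_mul, op_mul, op_inv] at h2
      rw [← h2]
      congr 3
      simp only [mul_assoc]
      rw [← mul_assoc (op (om M A (u⁻¹ • x))), op_mul_star, one_mul]
    · simp
  · have : km M A ev E (op u) x v = 0 := by
      by_contra h0
      exact hv (by rw [km_op hE h h0, inv_smul_smul])
    rw [this, zero_mul]

theorem km_gauge (hm : m ∈ M) (x : X) : ∃ θ : NG M A → ℂ, (∀ w, ‖θ w‖ = 1) ∧ ∀ w w',
    km M A ev E m (w • x) (w' • x) = conj (θ w) * θ w' * ev (E (star (op w) * m * op w')) x := by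
  have h1 : ∀ w : NG M A, ((w * om M A x)⁻¹ * om M A (w • x)) • bp M A x = bp M A x := fun w => by
    rw [mul_smul, inv_smul_eq_iff, mul_smul, om_smul, ← bp_smul w, om_smul]
  refine ⟨_, fun w => e_norm hA hE h hfix (h1 w), fun w w' => ?_⟩
  have h2 := e_cj hE h (om M A x) (cm hm w w') (bp M A x)
  rw [om_smul] at h2
  rw [km, bp_smul, bp_smul, if_pos rfl, ← h2, mul_right_comm,
    ← e_star_op_mul hA hE h hfix (h1 w) (cm (cm hm _ _) _ _),
    ← e_mul_op hA hE h hfix (h1 w') (mul_mem (star_mem (op_mem _)) (cm (cm hm _ _) _ _))]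
  congr 3
  have h3 : ∀ w : NG M A, op w * op (om M A x) * op ((w * om M A x)⁻¹ * om M A (w • x)) =
      op (om M A (w • x)) := fun w => by rw [← op_mul, ← op_mul, mul_inv_cancel_left]
  rw [← h3 w, ← h3 w']
  simp only [star_mul, mul_assoc]

end Vale.Agent.P078.Ke
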