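import Vale.Agent.P078.Gel
import Vale.Agent.P078.KernelAux

/-!
The kernel of an operator on the orbits.

PLAN. `φ x w = ev (E (op w)) x`. If `w • x ≠ x` take a clopen `C ∋ x` with `C ∩ w C = ∅` and its projection `p`: `p w p = p (w p w*) w = 0`,
so `E (op w) * p = E (p w p) = 0` and `φ x w = 0`. If `w • x = x`, `G` the projection of the clopen set `Fix w`: `op w * G` commutes with `A`
(compare `ev (w G a w*)` and `ev (G a)`), so lies in `A` (`comm_mem`); hence `ev (E (m * op w)) x = ev (E m) x * φ x w`, the same on the left,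
and `‖φ x w‖ = 1`. Choose a base point `b x` in each orbit (`Quotient.out` of `MulAction.orbitRel`) and `ω x` with `ω x • b x = x`;
`km m x y = if b x = b y then ev (E (star (op (ω x)) * m * op (ω y))) (b x) else 0`, `k = km x'`. Then
`km (op u * m) x y = km (op u) x (u⁻¹ • x) * km m (u⁻¹ • x) y`, `km (op u) x v = 0` for `v ≠ u⁻¹ • x`, `km (a * m) x y = ev a x * km m x y`,
`km (m * a) x y = km m x y * ev a y` (`a ∈ A`), `km m x x = ev (E m) x`. `κ w w' = ev (E (star (op w) * x' * op w'))`.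
Contraction: on each orbit the form is `ev (E (y* x' y)) b` with `y = Σ v a • op (ω a)`, and `ev (E (y* y)) b = Σ ‖v a‖²`; use
`0 ≤ 1 ± x'`; sum over the orbits (`Finset.sum_fiberwise`).
-/

open Finset
open scoped Classical ComplexConjugate

namespace Vale.Agent.P078

variable {H : Type*} [NormedAddCommGroup H] [InnerProductSpace ℂ H] [CompleteSpace H]
  {M : VonNeumannAlgebra H} {A : StarSubalgebra ℂ (H →L[ℂ] H)} {Ω : H}
  {X : Type*} [TopologicalSpace X] [CompactSpace X] [T2Space X] [TotallyDisconnectedSpace X]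
  [MulAction (NG M A) X] [ContinuousConstSMul (NG M A) X] {ev : (H →L[ℂ] H) → C(X, ℂ)}
  {E : (H →L[ℂ] H) → H →L[ℂ] H}

/-- What the dynamical part needs to know about a kernel. -/
structure IsKer {Γ X : Type*} [Group Γ] [MulAction Γ X] [TopologicalSpace X] (S : Finset Γ)
    (k : X → X → ℂ) : Prop where
  good : ∀ U, Good k U
  range : ∀ a b, k a b ≠ 0 → ∃ w ∈ S, a = w • b
  gauge : ∃ κ : Γ → Γ → C(X, ℂ), ∀ x, ∃ θ : Γ → ℂ, (∀ w, ‖θ w‖ = 1) ∧
    ∀ w w', k (w • x) (w' • x) = conj (θ w) * θ w' * κ w w' x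

theorem kernel (hA : IsMASA M A) (hE : IsE M A Ω E) (h : IsGel M A ev)
    (hfix : ∀ w : NG M A, IsClopen {x : X | w • x = x}) {S : Finset (NG M A)} (hS : Gen S)
    {l : NG M A → ℂ} {x' : H →L[ℂ] H} (hx : x' = ∑ u ∈ S, l u • op u) (hsa : IsSelfAdjoint x')
    (hn : ‖x'‖ ≤ 1) (h0 : E x' = 0) : ∃ k : X → X → ℂ, IsKer S k ∧
      ∀ (r : ℕ) (c : X → Fin r) (p : Fin r → H →L[ℂ] H),
        (∀ i, p i ∈ A ∧ ∀ x, ev (p i) x = if c x = i then 1 else 0) → ∀ n N x, n ≤ N →
          ev (E ((∑ i, p i * x' * p i) ^ n)) x = kp (yc k c) (ball S N x) n x x := by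
  have hM : x' ∈ M := hx ▸ sum_mem fun u _ => smul_mem_M (op_mem u) _
  have hr : ∀ a b : X, Ke.km M A ev E x' a b ≠ 0 → ∃ w ∈ S, a = w • b := fun a b hab => by
    rw [hx, Ke.km_sum hE h S l op_mem] at hab
    obtain ⟨u, hu, h1⟩ := exists_ne_zero_of_sum_ne_zero hab
    exact ⟨u, hu, Ke.km_op hE h (right_ne_zero_of_mul h1)⟩
  have hh : ∀ a b : X, Ke.km M A ev E x' b a = conj (Ke.km M A ev E x' a b) := fun a b => by
    rw [← Ke.km_star hE h hM, hsa.star_eq]
  refine ⟨Ke.km M A ev E x', ⟨fun U => ⟨fun a _ b _ => hh a b, fun a _ => ?_, fun v => ?_⟩, hr,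
    fun w w' => ev (E (star (op w) * x' * op w')), Ke.km_gauge hA hE h hfix hM⟩,
    fun r c p hp n N x hN => ?_⟩
  · rw [Ke.km_self hE h hM, h0, Ke.ev_zero h, ContinuousMap.zero_apply]
  · have h1 : ∀ {y : H →L[ℂ] H}, IsSelfAdjoint y → ‖y‖ ≤ 1 → 0 ≤ 1 - y := fun {y} hy hy' =>
      sub_nonneg.2 (hy.le_algebraMap_norm_self.trans (by
        rw [Algebra.algebraMap_eq_smul_one, ← sub_nonneg, ← one_smul ℝ (1 : H →L[ℂ] H), smul_smul,
          ← sub_smul]
        exact smul_nonneg (by linarith) zero_le_one))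
    have h2 : ∀ t : ℂ, ∑ a ∈ U, ∑ b ∈ U, conj (v a) * Ke.km M A ev E (1 + t • x') a b * v b =
        (∑ a ∈ U, ‖v a‖ ^ 2 : ℝ) +
          t * ∑ a ∈ U, ∑ b ∈ U, conj (v a) * Ke.km M A ev E x' a b * v b := fun t => by
      have h3 := Ke.km_sum hE h univ ![1, t] (f := ![1, x'])
        (Fin.forall_fin_two.2 ⟨one_mem M, hM⟩)
      simp only [Fin.sum_univ_two, Matrix.cons_val_zero, Matrix.cons_val_one, one_smul, one_mul,
        Ke.km_one hE h] at h3
      push_cast
      rw [mul_sum, ← sum_add_distrib]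
      refine sum_congr rfl fun a ha => ?_
      simp only [h3, mul_add, add_mul, sum_add_distrib, mul_ite, ite_mul, mul_one, mul_zero,
        zero_mul, sum_ite_eq, ha, if_true, Complex.conj_mul', mul_sum]
      exact congrArg _ (sum_congr rfl fun _ _ => by ring)
    have h3 := Ke.km_pos hE h (add_mem (one_mem M) (smul_mem_M hM 1))
      (by simpa using h1 hsa.neg (by simpa using hn)) U v
    have h4 := Ke.km_pos hE h (add_mem (one_mem M) (smul_mem_M hM (-1)))
      (by simpa [sub_eq_add_neg] using h1 hsa hn) U v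
    rw [h2] at h3 h4
    have h5 : conj (∑ a ∈ U, ∑ b ∈ U, conj (v a) * Ke.km M A ev E x' a b * v b) =
        ∑ a ∈ U, ∑ b ∈ U, conj (v a) * Ke.km M A ev E x' a b * v b := by
      rw [map_sum, sum_comm]
      refine sum_congr rfl fun a _ => ?_
      rw [map_sum]
      refine sum_congr rfl fun b _ => ?_
      rw [map_mul, map_mul, ← hh, Complex.conj_conj]
      ring
    rw [← Complex.conj_eq_iff_re.1 h5, Complex.norm_real, Real.norm_eq_abs, abs_le]
    simp only [Complex.add_re, Complex.ofReal_re, one_mul, neg_mul, Complex.neg_re] at h3 h4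
    constructor <;> linarith
  · have hy : ∑ i, p i * x' * p i ∈ M :=
      sum_mem fun i _ => mul_mem (mul_mem (hA.1 _ (hp i).1) hM) (hA.1 _ (hp i).1)
    have h1 : ∀ m ∈ M, ∀ a, ball S 1 a ⊆ ball S N x → Ke.km M A ev E (x' * m) a x =
        ∑ v ∈ ball S N x, Ke.km M A ev E x' a v * Ke.km M A ev E m v x := fun m hm a ha => by
      have h2 : x' * m = ∑ u ∈ S, l u • (op u * m) := by simp only [hx, sum_mul, smul_mul_assoc]
      rw [h2, Ke.km_sum hE h S l fun u => mul_mem (op_mem u) hm]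
      simp only [hx, Ke.km_sum hE h S l op_mem, sum_mul]
      rw [sum_comm]
      refine sum_congr rfl fun u hu => ?_
      rw [Ke.km_op_mul hA hE h hfix u hm a x
        (ha (smul_mem_ball (hS.inv u hu) (self_mem_ball hS 0 a))), mul_sum]
      simp only [mul_assoc]
    have h2 : ∀ n a, ball S n a ⊆ ball S N x → Ke.km M A ev E ((∑ i, p i * x' * p i) ^ n) a x =
        kp (yc (Ke.km M A ev E x') c) (ball S N x) n a x := by
      intro n
      induction n with
      | zero => exact fun a _ => by rw [pow_zero, Ke.km_one hE h, kp]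
      | succ n ih =>
        intro a ha
        have h3 : (∑ i, p i * x' * p i) ^ (n + 1) =
            ∑ i, (1 : ℂ) • (p i * (x' * (p i * (∑ i, p i * x' * p i) ^ n))) := by
          rw [pow_succ', sum_mul]
          simp only [one_smul, mul_assoc]
        have h4 := fun i => mul_mem (hA.1 _ (hp i).1) (pow_mem hy n)
        rw [h3, Ke.km_sum hE h _ _ fun i => mul_mem (hA.1 _ (hp i).1) (mul_mem hM (h4 i)), kp]
        simp only [fun i => Ke.km_left hE h (hp i).1 (mul_mem hM (h4 i)),
          fun i => h1 _ (h4 i) a ((ball_mono hS a (Nat.le_add_left 1 n)).trans ha),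
          fun i => Ke.km_left hE h (hp i).1 (pow_mem hy n), fun i => (hp i).2, one_mul, ite_mul,
          zero_mul, sum_ite_eq, mem_univ, if_true]
        refine sum_congr rfl fun v _ => ?_
        by_cases h5 : Ke.km M A ev E x' a v = 0
        · simp [yc, h5]
        · obtain ⟨w, hw, rfl⟩ := hr a v h5
          have h6 : v ∈ ball S 1 (w • v) :=
            ball_symm hS (smul_mem_ball hw (self_mem_ball hS 0 v))
          rw [ih v fun u hu => ha (ball_add h6 hu), yc]
          by_cases h7 : c (w • v) = c v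
          · simp [h7]
          · simp [h7, Ne.symm h7]
    rw [← h2 n x (ball_mono hS x hN), Ke.km_self hE h (pow_mem hy n)]

end Vale.Agent.P078
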