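import Vale.Agent.P078.Dyn

/-!
A local Radon-Nikodym theorem on an extremally disconnected compact space.

PLAN. For `l > 0` put `κ_l C = l μ (ind C) - ν (ind C)` (additive on clopen sets); call a clopen `C` `l`-positive if `0 ≤ κ_l C'` for all clopen
`C' ⊆ C`. `P l` = closure of the union of the `l`-positive sets: clopen (`hed`), `l`-positive (apply `Nrm` to `V = C' ∩ union`; a clopen subset
of `V` is compact, hence inside a finite union of positive sets, which is positive), monotone in `l`. Outside `P l` every clopen `C` has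
`κ_l C ≤ 0`: Zorn gives a maximal pairwise disjoint family of clopen subsets of `C` with `κ_l < 0`, its union is dense in `C`, and by `Nrm`
and compactness `C` is almost a finite subunion. There are `0 < a < b` with `C = B ∩ P b \ P a` nonempty (else `B ⊆ P a` for all `a`, or
`B ∩ P b = ∅` for all `b`, contradicting `hf`). `D x = sInf {l | a ≤ l ∧ x ∈ P l}` on `C`, `1` outside: continuous since `{D < s}` and
`{D > s}` are unions of clopen sets. For `f` supported in `C` cut `C` into finitely many clopen pieces on which `f` and `D` oscillate by `≤ ε`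
(`cover`).
-/

open scoped Classical

namespace Vale.Agent.P078

variable {X : Type*} [TopologicalSpace X] [CompactSpace X] [T2Space X] [TotallyDisconnectedSpace X]

/-- The indicator of a clopen set. -/
noncomputable def ind (C : Set X) : C(X, ℝ) :=
  if h : IsClopen C then ⟨fun x => if x ∈ C then 1 else 0, cont_ite (p := fun x => x ∈ C) h continuous_const continuous_const⟩
  else 0

theorem ind_apply {C : Set X} (hC : IsClopen C) (x : X) : ind C x = if x ∈ C then 1 else 0 := by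
  simp [ind, hC]

/-- Normal functionals. -/
def Nrm (μ : C(X, ℝ) →ₗ[ℝ] ℝ) : Prop :=
  ∀ V : Set X, IsOpen V → ∀ ε : ℝ, 0 < ε → ∃ C, IsClopen C ∧ C ⊆ V ∧ μ (ind (closure V \ C)) < ε

namespace RN

variable {μ ν : C(X, ℝ) →ₗ[ℝ] ℝ} {K L : Set X}

theorem ind_add (hK : IsClopen K) (hL : IsClopen L) : ind K = ind (K ∩ L) + ind (K \ L) := by
  ext x
  rw [ContinuousMap.add_apply, ind_apply hK, ind_apply (hK.inter hL), ind_apply (hK.diff hL)]
  by_cases x ∈ K <;> by_cases x ∈ L <;> simp [*]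

theorem le_of (hμ : ∀ f : C(X, ℝ), (∀ x, 0 ≤ f x) → 0 ≤ μ f) {f g : C(X, ℝ)} (h : ∀ x, f x ≤ g x) :
    μ f ≤ μ g := by
  have := hμ (g - f) fun x => sub_nonneg.2 (h x)
  rwa [map_sub, sub_nonneg] at this

theorem ind_mono (hμ : ∀ f : C(X, ℝ), (∀ x, 0 ≤ f x) → 0 ≤ μ f) (hK : IsClopen K) (hL : IsClopen L)
    (s : K ⊆ L) : μ (ind K) ≤ μ (ind L) := le_of hμ fun x => by
  rw [ind_apply hK, ind_apply hL]
  by_cases k : x ∈ K
  · simp [k, s k]
  · split_ifs <;> simp

theorem ind_nonneg (hμ : ∀ f : C(X, ℝ), (∀ x, 0 ≤ f x) → 0 ≤ μ f) (hK : IsClopen K) : 0 ≤ μ (ind K) :=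
  hμ _ fun x => by
    rw [ind_apply hK]
    split_ifs <;> simp

theorem ind_empty : ind (∅ : Set X) = 0 := by
  ext x
  simp [ind_apply isClopen_empty]

theorem ind_split (μ : C(X, ℝ) →ₗ[ℝ] ℝ) (hK : IsClopen K) (hL : IsClopen L) (s : L ⊆ K) :
    μ (ind K) = μ (ind L) + μ (ind (K \ L)) := by
  rw [ind_add hK hL, Set.inter_eq_self_of_subset_right s, map_add]

theorem glue {α : Set X → ℝ} (ad : ∀ K L, IsClopen K → IsClopen L → α K = α (K ∩ L) + α (K \ L))
    (hK : IsClopen K) (h : ∀ x ∈ K, ∃ N, IsClopen N ∧ x ∈ N ∧ ∀ L, IsClopen L → L ⊆ N → 0 ≤ α L) :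
    0 ≤ α K := by
  have : ∃ N, IsClopen N ∧ K ⊆ N ∧ ∀ L, IsClopen L → L ⊆ N → 0 ≤ α L := by
    refine hK.isClosed.isCompact.induction_on
      (p := fun s => ∃ N, IsClopen N ∧ s ⊆ N ∧ ∀ L, IsClopen L → L ⊆ N → 0 ≤ α L)
      ⟨∅, isClopen_empty, subset_rfl, fun L _ s => ?_⟩ (fun s t l ⟨N, h1, h2, h3⟩ => ⟨N, h1, l.trans h2, h3⟩)
      (fun s t ⟨N, h1, h2, h3⟩ ⟨N', k1, k2, k3⟩ => ⟨N ∪ N', h1.union k1, Set.union_subset_union h2 k2,
        fun L hL l => ?_⟩) fun x hx => ?_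
    · have := ad ∅ ∅ isClopen_empty isClopen_empty
      rw [Set.subset_empty_iff.1 s]
      simp only [Set.inter_self, Set.diff_self] at this
      linarith
    · rw [ad L N hL h1]
      exact add_nonneg (h3 _ (hL.inter h1) Set.inter_subset_right)
        (k3 _ (hL.diff h1) fun y hy => (l hy.1).resolve_left hy.2)
    · obtain ⟨N, h1, h2, h3⟩ := h x hx
      exact ⟨N, mem_nhdsWithin_of_mem_nhds (h1.isOpen.mem_nhds h2), N, h1, subset_rfl, h3⟩
  obtain ⟨N, -, h2, h3⟩ := this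
  exact h3 K hK h2

theorem hahn (hed : ∀ V : Set X, IsOpen V → IsOpen (closure V))
    (hμ : ∀ f : C(X, ℝ), (∀ x, 0 ≤ f x) → 0 ≤ μ f) (hν : ∀ f : C(X, ℝ), (∀ x, 0 ≤ f x) → 0 ≤ ν f)
    (nμ : Nrm μ) (nν : Nrm ν) : ∃ P, IsClopen P ∧ (∀ K, IsClopen K → K ⊆ P → μ (ind K) ≤ ν (ind K)) ∧
      ∀ K, IsClopen K → K ⊆ Pᶜ → ν (ind K) ≤ μ (ind K) := by
  let U := ⋃₀ {N | IsClopen N ∧ ∀ L, IsClopen L → L ⊆ N → 0 ≤ ν (ind L) - μ (ind L)}
  have hU : IsOpen U := isOpen_sUnion fun N l => l.1.isOpen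
  refine ⟨closure U, ⟨isClosed_closure, hed U hU⟩, fun K hK s => le_of_forall_pos_le_add fun ε hε => ?_,
    fun C hC s => ?_⟩
  · obtain ⟨L, hL, l, e⟩ := nμ (K ∩ U) (hK.isOpen.inter hU) ε hε
    rw [show closure (K ∩ U) = K from Set.Subset.antisymm (closure_minimal Set.inter_subset_left hK.isClosed)
      fun x hx => hK.isOpen.inter_closure ⟨hx, s hx⟩] at e
    have l1 : L ⊆ K := fun x hx => (l hx).1
    have := glue (α := fun L => ν (ind L) - μ (ind L)) (fun K L hK hL => by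
      rw [ind_add hK hL, map_add, map_add]; ring) hL fun x hx => by
        obtain ⟨N, h1, h2⟩ := (l hx).2
        exact ⟨N, h1.1, h2, h1.2⟩
    linarith [ind_split μ hK hL l1, ind_mono hν hL hK l1]
  · obtain ⟨W, -, hm⟩ := zorn_subset_nonempty {W : Set X | IsOpen W ∧ W ⊆ C ∧ ∀ K, IsClopen K → K ⊆ W →
        ∃ K', IsClopen K' ∧ K ⊆ K' ∧ K' ⊆ W ∧ ν (ind K') ≤ μ (ind K')}
      (fun c hc ch hn => ⟨⋃₀ c, ⟨isOpen_sUnion fun W l => (hc l).1, Set.sUnion_subset fun W l => (hc l).2.1,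
        fun K hK l => by
          haveI := hn.to_subtype
          obtain ⟨W, k⟩ := hK.isClosed.isCompact.elim_directed_cover (fun W : c => (W : Set X))
            (fun W => (hc W.2).1) (by rwa [← Set.sUnion_eq_iUnion]) ch.directedOn.directed_val
          obtain ⟨K', h1, h2, h3, h4⟩ := (hc W.2).2.2 K hK k
          exact ⟨K', h1, h2, h3.trans (Set.subset_sUnion_of_mem W.2), h4⟩⟩,
        fun W l => Set.subset_sUnion_of_mem l⟩) ∅
      ⟨isOpen_empty, Set.empty_subset _, fun K _ l => ⟨∅, isClopen_empty, l, subset_rfl, by simp [ind_empty]⟩⟩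
    obtain ⟨w1, w2, w3⟩ := hm.prop
    have hW : IsClopen (closure W) := ⟨isClosed_closure, hed W w1⟩
    have w4 : closure W ⊆ C := closure_minimal w2 hC.isClosed
    have w5 : ν (ind (closure W)) ≤ μ (ind (closure W)) := le_of_forall_pos_le_add fun ε hε => by
      obtain ⟨L, hL, l, e⟩ := nν W w1 ε hε
      obtain ⟨K', h1, h2, h3, h4⟩ := w3 L hL l
      linarith [ind_split ν hW hL (l.trans subset_closure), ind_mono hν hL h1 h2,
        ind_mono hμ h1 hW (h3.trans subset_closure)]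
    by_cases n : C ⊆ closure W
    · rwa [Set.Subset.antisymm n w4]
    obtain ⟨x, x1, x2⟩ := Set.not_subset.1 n
    have : ¬ ∀ L, IsClopen L → L ⊆ C \ closure W → 0 ≤ ν (ind L) - μ (ind L) := fun k =>
      s x1 (subset_closure ⟨_, ⟨hC.diff hW, k⟩, x1, x2⟩)
    push Not at this
    obtain ⟨L, hL, l, e⟩ := this
    have e1 : (closure W ∪ L) \ closure W = L := by
      rw [Set.union_diff_left]
      exact Set.Subset.antisymm Set.diff_subset fun y hy => ⟨hy, (l hy).2⟩
    have h1 := ind_split μ (hW.union hL) hW Set.subset_union_left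
    have h2 := ind_split ν (hW.union hL) hW Set.subset_union_left
    rw [e1] at h1 h2
    have : closure W ∪ L ⊆ W := hm.2 ⟨(hW.union hL).isOpen, Set.union_subset w4 fun y hy => (l hy).1,
      fun K _ k => ⟨_, hW.union hL, k, subset_rfl, by linarith⟩⟩ (subset_closure.trans Set.subset_union_left)
    rw [Set.eq_empty_of_forall_notMem fun y (hy : y ∈ L) => (l hy).2 (subset_closure (this (.inr hy))),
      ind_empty] at e
    simp at e

end RN

open RN in
theorem rn_local (hed : ∀ V : Set X, IsOpen V → IsOpen (closure V)) {μ ν : C(X, ℝ) →ₗ[ℝ] ℝ}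
    (hμ : ∀ f : C(X, ℝ), (∀ x, 0 ≤ f x) → 0 ≤ μ f) (hν : ∀ f : C(X, ℝ), (∀ x, 0 ≤ f x) → 0 ≤ ν f)
    (nμ : Nrm μ) (nν : Nrm ν) {B : Set X} (hB : IsClopen B) (hne : B.Nonempty)
    (hf : ∀ C, IsClopen C → C ⊆ B → C.Nonempty → 0 < μ (ind C) ∧ 0 < ν (ind C)) :
    ∃ C, IsClopen C ∧ C ⊆ B ∧ C.Nonempty ∧ ∃ D : C(X, ℝ), (∀ x, 0 < D x) ∧
      ∀ f : C(X, ℝ), (∀ x ∉ C, f x = 0) → ν f = μ (f * D) := by
  choose! P P1 P2 P3 using fun (l : ℝ) (hl : 0 < l) => hahn hed (μ := ν) (ν := l • μ) hν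
    (fun f h => mul_nonneg hl.le (hμ f h)) nν fun V hV ε hε => by
      obtain ⟨C, h1, h2, h3⟩ := nμ V hV (ε / l) (div_pos hε hl)
      exact ⟨C, h1, h2, (lt_div_iff₀' hl).1 h3⟩
  simp only [LinearMap.smul_apply, smul_eq_mul] at P2 P3
  have mo : ∀ l l', 0 < l → l < l' → ∀ x ∈ B, x ∈ P l → x ∈ P l' := fun l l' h1 h2 x x1 x2 => by
    by_contra n
    have hK := (hB.inter (P1 l h1)).diff (P1 l' (h1.trans h2))
    have := (hf _ hK (fun y hy => hy.1.1) ⟨x, ⟨x1, x2⟩, n⟩).1
    nlinarith [P2 l h1 _ hK fun y hy => hy.1.2, P3 l' (h1.trans h2) _ hK fun y hy => hy.2]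
  obtain ⟨b1, b2⟩ := hf B hB subset_rfl hne
  obtain ⟨b, hb, eb⟩ : ∃ b, 0 < b ∧ ν (ind B) < b * μ (ind B) :=
    ⟨ν (ind B) / μ (ind B) + 1, by positivity, by rw [add_mul, div_mul_cancel₀ _ b1.ne']; linarith⟩
  have hB1 := hB.inter (P1 b hb)
  obtain ⟨a1, a2⟩ := hf _ hB1 Set.inter_subset_left (by
    by_contra n
    exact (P3 b hb B hB fun x hx k => n ⟨x, hx, k⟩).not_gt eb)
  obtain ⟨a, ha, ea⟩ : ∃ a, 0 < a ∧ a * μ (ind (B ∩ P b)) < ν (ind (B ∩ P b)) :=
    ⟨ν (ind (B ∩ P b)) / μ (ind (B ∩ P b)) / 2, by positivity, by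
      rw [div_mul_eq_mul_div, div_mul_cancel₀ _ a1.ne']; linarith⟩
  have hC := hB1.diff (P1 a ha)
  obtain ⟨C, eC⟩ : ∃ C, C = (B ∩ P b) \ P a := ⟨_, rfl⟩
  have cn : C.Nonempty := by
    by_contra n
    exact (P2 a ha _ hB1 fun x hx => by_contra fun k => n ⟨x, eC ▸ ⟨hx, k⟩⟩).not_gt ea
  have c1 : ∀ x ∈ C, x ∈ B ∧ x ∈ P b ∧ x ∉ P a := fun x hx => by
    rw [eC] at hx
    exact ⟨hx.1.1, hx.1.2, hx.2⟩
  rw [← eC] at hC
  let d : X → ℝ := fun x => sInf {l | 0 < l ∧ x ∈ P l}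
  have d1 : ∀ x l, 0 < l → x ∈ P l → d x ≤ l := fun x l h1 h2 => csInf_le ⟨0, fun _ k => k.1.le⟩ ⟨h1, h2⟩
  have d2 : ∀ x ∈ C, ∀ l, 0 < l → x ∉ P l → l ≤ d x := fun x hx l h1 h2 =>
    le_csInf ⟨b, hb, (c1 x hx).2.1⟩ fun l' k => not_lt.1 fun n => h2 (mo l' l k.1 n x (c1 x hx).1 k.2)
  have d3 : ∀ x ∈ C, a ≤ d x := fun x hx => d2 x hx a ha (c1 x hx).2.2
  let D : X → ℝ := fun x => if x ∈ C then d x else 1
  have cD : Continuous D := continuous_iff_continuousAt.2 fun x => by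
    by_cases hx : x ∈ C
    · refine tendsto_order.2 ⟨fun s hs => ?_, fun s hs => ?_⟩
      · simp only [D, hx, if_true] at hs
        obtain ⟨l, l1, l2⟩ := exists_between (max_lt hs (ha.trans_le (d3 x hx)))
        have l0 := (le_max_right _ _).trans_lt l1
        filter_upwards [(hC.diff (P1 l l0)).isOpen.mem_nhds ⟨hx, fun k => (d1 x l l0 k).not_gt l2⟩] with y hy
        simp only [D, hy.1, if_true]
        exact ((le_max_left _ _).trans_lt l1).trans_le (d2 y hy.1 l l0 hy.2)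
      · simp only [D, hx, if_true] at hs
        obtain ⟨l, l1, l2⟩ := exists_between hs
        have l0 := (ha.trans_le (d3 x hx)).trans l1
        filter_upwards [(hC.inter (P1 l l0)).isOpen.mem_nhds
          ⟨hx, by_contra fun k => (d2 x hx l l0 k).not_gt l1⟩] with y hy
        simp only [D, hy.1, if_true]
        exact (d1 y l l0 hy.2).trans_lt l2
    · refine (continuousAt_const (y := (1 : ℝ))).congr ?_
      filter_upwards [hC.compl.isOpen.mem_nhds hx] with y hy
      exact (if_neg hy).symm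
  let D' : C(X, ℝ) := ⟨D, cD⟩
  have key : ∀ f : C(X, ℝ), (∀ x ∉ C, f x = 0) → ν f ≤ μ (f * D') := fun f h0 => by
    refine le_of_forall_pos_le_add fun δ hδ => ?_
    have m1 := ind_nonneg hμ hC
    have m2 := ind_nonneg hν hC
    obtain ⟨ε, e0, e1, e2⟩ : ∃ ε, 0 < ε ∧ ε < a ∧ ε * ((‖f‖ + 1) * (μ (ind C) + ν (ind C))) ≤ δ := by
      refine ⟨min (a / 2) (δ / ((‖f‖ + 1) * (μ (ind C) + ν (ind C)) + 1)), by positivity,
        (min_le_left _ _).trans_lt (by linarith), ?_⟩
      refine (mul_le_mul_of_nonneg_right (min_le_right _ _) (by positivity)).trans ?_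
      rw [div_mul_eq_mul_div, div_le_iff₀ (by positivity)]
      nlinarith
    have := glue (α := fun K => μ (ind K * (f * D')) - ν (ind K * f) +
      ε * ((‖f‖ + 1) * (μ (ind K) + ν (ind K)))) (fun K L hK hL => by
        rw [ind_add hK hL]
        simp only [add_mul, map_add]
        ring) hC fun x hx => by
      have l0 : 0 < d x - ε := by linarith [d3 x hx]
      have l1 : 0 < d x + ε := by linarith
      obtain ⟨N, hN, xN, sN⟩ := compact_exists_isClopen_in_isOpen (x := x)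
        (U := ({y | f x * d x - ε < (f * D') y} ∩ {y | f y < f x + ε}) ∩ (P (d x + ε) \ P (d x - ε)))
        (((isOpen_lt continuous_const (f * D').continuous).inter
          (isOpen_lt f.continuous continuous_const)).inter ((P1 _ l1).diff (P1 _ l0)).isOpen)
        ⟨⟨by simp [D', D, hx, e0], by simp [e0]⟩, by_contra fun k => by linarith [d2 x hx _ l1 k],
          fun k => by linarith [d1 x _ l0 k]⟩
      refine ⟨N, hN, xN, fun L hL l => ?_⟩
      have k1 : μ ((f x * d x - ε) • ind L) ≤ μ (ind L * (f * D')) := le_of hμ fun y => by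
        rw [ContinuousMap.smul_apply, ContinuousMap.mul_apply, ind_apply hL]
        split_ifs with k
        · simpa using le_of_lt (show f x * d x - ε < (f * D') y from (sN (l k)).1.1)
        · simp
      have k2 : ν (ind L * f) ≤ ν ((f x + ε) • ind L) := le_of hν fun y => by
        rw [ContinuousMap.smul_apply, ContinuousMap.mul_apply, ind_apply hL]
        split_ifs with k
        · simpa using le_of_lt (show f y < f x + ε from (sN (l k)).1.2)
        · simp
      rw [map_smul, smul_eq_mul] at k1 k2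
      have k3 := P2 _ l1 L hL fun y hy => (sN (l hy)).2.1
      have k4 := P3 _ l0 L hL fun y hy => (sN (l hy)).2.2
      have k5 := abs_le.1 (f.norm_coe_le_norm x)
      have k6 := ind_nonneg hμ hL
      have k7 := ind_nonneg hν hL
      have k8 : -(‖f‖ * (ε * μ (ind L))) ≤ f x * (d x * μ (ind L) - ν (ind L)) := by
        nlinarith [mul_nonneg (sub_nonneg.2 k5.2) (sub_nonneg.2 k4),
          mul_nonneg (sub_nonneg.2 k5.1) (sub_nonneg.2 k3)]
      show 0 ≤ μ (ind L * (f * D')) - ν (ind L * f) + ε * ((‖f‖ + 1) * (μ (ind L) + ν (ind L)))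
      nlinarith [mul_nonneg e0.le (mul_nonneg (norm_nonneg f) k7)]
    have e3 : ∀ g : C(X, ℝ), ind C * (f * g) = f * g := fun g => by
      ext y
      rw [ContinuousMap.mul_apply, ind_apply hC]
      split_ifs with k
      · simp
      · simp [h0 y k]
    have e4 := e3 1
    rw [mul_one] at e4
    simp only [e3, e4] at this
    linarith
  refine ⟨C, hC, fun x hx => (c1 x hx).1, cn, D', fun x => ?_, fun f h0 => le_antisymm (key f h0) ?_⟩
  · show 0 < if x ∈ C then d x else 1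
    split_ifs with k
    exacts [ha.trans_le (d3 x k), one_pos]
  · have := key (-f) fun x hx => by simp [h0 x hx]
    rw [neg_mul, map_neg, map_neg] at this
    linarith

end Vale.Agent.P078
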