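import Vale.Agent.P078.DynW
import Vale.Agent.P078.RN
import Vale.Agent.P078.Kernel

/-!
The subgroup of elements with a continuous positive Radon-Nikodym derivative, and the weight function.

PLAN. Subgroup: `D_{g h} x = D_g (h • x) * D_h x`, `D_{g⁻¹} x = 1 / D_g (g⁻¹ • x)`. `exists_w`: uniqueness of `D` (if `I (f * D) = I (f * D')` for
all `f` supported in a clopen set `C`, then `D = D'` on `C ∩ X₀`: otherwise `D - D' ≥ ε` on a nonempty clopen subset, use `hf`); so `D` is a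
cocycle and `D_g = 1` on the clopen set `Fix g`; `w x = D_{ω x} (b x)` with a base point `b x` of the orbit (`Quotient.out` of
`MulAction.orbitRel`) and `ω x • b x = x`; `w (g • x) = D_g x * w x`. `swap`: `D_v = D` on `C`, `1 / D (u⁻¹ • x)` on `u C`, `1` elsewhere; split
`f` into its parts on `u C`, `C` and the rest.
-/

open Finset
open scoped Classical Pointwise

namespace Vale.Agent.P078

variable {Γ X : Type*} [Group Γ] [MulAction Γ X] [TopologicalSpace X] [CompactSpace X] [T2Space X]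
  [TotallyDisconnectedSpace X] [ContinuousConstSMul Γ X]

namespace BdA

variable {I : C(X, ℝ) →ₗ[ℝ] ℝ} {X₀ : Set X}

/-- translation as a continuous map -/
def sm (g : Γ) : C(X, X) := ⟨fun x => g • x, continuous_const_smul g⟩

/-- `D` is a derivative of `g` -/
def Wit (I : C(X, ℝ) →ₗ[ℝ] ℝ) (X₀ : Set X) (g : Γ) (D : C(X, ℝ)) : Prop :=
  (∀ x, 0 < D x) ∧ (∀ x ∉ X₀, D x = 1) ∧
    ∀ f f' : C(X, ℝ), (∀ x, f' x = f (g • x) * D x) → I f' = I f

omit [CompactSpace X] [T2Space X] [TotallyDisconnectedSpace X] in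
theorem wit_mul {a b : Γ} {D D' : C(X, ℝ)} (ha : Wit I X₀ a D) (hb : Wit I X₀ b D')
    (h : ∀ x, b • x ∈ X₀ ↔ x ∈ X₀) : Wit I X₀ (a * b) (D.comp (sm b) * D') := by
  refine ⟨fun x => mul_pos (ha.1 _) (hb.1 x), fun x hx => ?_, fun f f' hf => ?_⟩
  · show D (b • x) * D' x = 1
    rw [ha.2.1 _ fun h' => hx ((h x).mp h'), hb.2.1 x hx, one_mul]
  · rw [hb.2.2 (f.comp (sm a) * D) f' fun x => by
      rw [hf, mul_smul]
      exact (mul_assoc _ _ _).symm]
    exact ha.2.2 f _ fun x => rfl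

theorem uniq_lt (pos : ∀ f : C(X, ℝ), (∀ x, 0 ≤ f x) → 0 ≤ I f) (hX : IsClopen X₀)
    (hf : ∀ C, IsClopen C → C ⊆ X₀ → C.Nonempty → 0 < I (ind C)) {C : Set X} (hC : IsClopen C)
    {D D' : C(X, ℝ)} (h : ∀ f : C(X, ℝ), (∀ x ∉ C, f x = 0) → I (f * D) = I (f * D')) {x : X}
    (hx : x ∈ C) (hx₀ : x ∈ X₀) : D x ≤ D' x := by
  by_contra hlt
  have hε : 0 < (D x - D' x) / 2 := by linarith [not_le.mp hlt]
  obtain ⟨C', hC', hxC, hsub⟩ := compact_exists_isClopen_in_isOpen (x := x)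
    (U := C ∩ X₀ ∩ {y | (D x - D' x) / 2 < D y - D' y})
    ((hC.isOpen.inter hX.isOpen).inter (isOpen_lt continuous_const (D.continuous.sub D'.continuous)))
    ⟨⟨hx, hx₀⟩, show (D x - D' x) / 2 < D x - D' x by linarith⟩
  have h1 := hf C' hC' (fun y hy => (hsub hy).1.2) ⟨x, hxC⟩
  have h2 := h (ind C') fun y hy => by
    rw [ind_apply hC', if_neg fun h' => hy (hsub h').1.1]
  have h3 := pos (ind C' * D - ind C' * D' - ((D x - D' x) / 2) • ind C') fun y => by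
    simp only [ContinuousMap.sub_apply, ContinuousMap.mul_apply, ContinuousMap.smul_apply,
      ind_apply hC', smul_eq_mul]
    split_ifs with hy
    · have : (D x - D' x) / 2 < D y - D' y := (hsub hy).2
      linarith
    · simp
  rw [map_sub, map_sub, map_smul, h2, smul_eq_mul] at h3
  nlinarith

theorem wit_eq (pos : ∀ f : C(X, ℝ), (∀ x, 0 ≤ f x) → 0 ≤ I f) (hX : IsClopen X₀)
    (hf : ∀ C, IsClopen C → C ⊆ X₀ → C.Nonempty → 0 < I (ind C))
    (fix : ∀ g : Γ, IsClopen {x : X | g • x = x}) {a b : Γ} {D D' : C(X, ℝ)} (ha : Wit I X₀ a D)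
    (hb : Wit I X₀ b D') {x : X} (hx : a • x = b • x) : D x = D' x := by
  by_cases hx₀ : x ∈ X₀
  · have hC := W.coinF fix a b
    have h : ∀ f : C(X, ℝ), (∀ y ∉ {y : X | a • y = b • y}, f y = 0) → I (f * D) = I (f * D') := by
      intro f h0
      rw [ha.2.2 (f.comp (sm a⁻¹)) (f * D) fun y => by simp [sm],
        hb.2.2 (f.comp (sm a⁻¹)) (f * D') fun y => ?_]
      show f y * D' y = f (a⁻¹ • b • y) * D' y
      by_cases hy : a • y = b • y
      · rw [← hy, inv_smul_smul]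
      · rw [h0 y hy, h0 (a⁻¹ • b • y) fun h' => hy ?_]
        have h1 : a • a⁻¹ • b • y = b • a⁻¹ • b • y := h'
        rw [smul_inv_smul] at h1
        have h2 := MulAction.injective b h1
        rw [← inv_smul_eq_iff.mp h2.symm]
    exact le_antisymm (uniq_lt pos hX hf hC h hx hx₀)
      (uniq_lt pos hX hf hC (fun f h0 => (h f h0).symm) hx hx₀)
  · rw [ha.2.1 x hx₀, hb.2.1 x hx₀]

end BdA

variable (Γ) in
def Bd (I : C(X, ℝ) →ₗ[ℝ] ℝ) (X₀ : Set X) : Subgroup Γ where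
  carrier := {g | (∀ x, g • x ∈ X₀ ↔ x ∈ X₀) ∧ ∃ D : C(X, ℝ), (∀ x, 0 < D x) ∧ (∀ x ∉ X₀, D x = 1) ∧
    ∀ f f' : C(X, ℝ), (∀ x, f' x = f (g • x) * D x) → I f' = I f}
  one_mem' := by
    refine ⟨by simp, 1, by simp, by simp, fun f f' h => congrArg I ?_⟩
    ext x
    simpa using h x
  mul_mem' := by
    rintro a b ⟨h1, D, hD⟩ ⟨h2, D', hD'⟩
    exact ⟨fun x => by rw [mul_smul, h1, h2], _, BdA.wit_mul hD hD' h2⟩
  inv_mem' := by
    rintro g ⟨h1, D, d1, d2, d3⟩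
    have h2 : ∀ x, g⁻¹ • x ∈ X₀ ↔ x ∈ X₀ := fun x => by rw [← h1, smul_inv_smul]
    refine ⟨h2, ⟨fun x => (D (g⁻¹ • x))⁻¹,
      (D.continuous.comp (continuous_const_smul g⁻¹)).inv₀ fun x => (d1 _).ne'⟩,
      fun x => inv_pos.mpr (d1 _), fun x hx => ?_, fun f f' h => (d3 f' f fun x => ?_).symm⟩
    · show (D (g⁻¹ • x))⁻¹ = 1
      rw [d2 _ fun h' => hx ((h2 x).mp h'), inv_one]
    · rw [h]
      simp [(d1 x).ne']

variable {I : C(X, ℝ) →ₗ[ℝ] ℝ} {X₀ : Set X}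

theorem Bd_inv {g : Γ} (hg : g ∈ Bd Γ I X₀) (x : X) : g • x ∈ X₀ ↔ x ∈ X₀ := hg.1 x

theorem mem_Bd_triv {g : Γ} (hg : ∀ x : X, g • x = x) : g ∈ Bd Γ I X₀ := by
  refine ⟨fun x => by rw [hg], 1, by simp, by simp, fun f f' h => congrArg I ?_⟩
  ext x
  simpa [hg] using h x

theorem mem_Bd_swap {u v : Γ} {C : Set X} (hC : IsClopen C) (h1 : C ⊆ X₀) (h2 : ∀ x ∈ C, u • x ∈ X₀)
    (h3 : ∀ x ∈ C, u • x ∉ C) (v1 : ∀ x ∈ C, v • x = u • x) (v2 : ∀ x ∈ C, v • u • x = x)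
    (v3 : ∀ x ∉ C, u⁻¹ • x ∉ C → v • x = x) {D : C(X, ℝ)} (hD : ∀ x, 0 < D x)
    (hI : ∀ f f' : C(X, ℝ), (∀ x ∉ C, f x = 0) → (∀ x, f' x = f (u⁻¹ • x)) → I f' = I (f * D)) :
    v ∈ Bd Γ I X₀ := by
  have hC' : IsClopen {x : X | u⁻¹ • x ∈ C} := hC.preimage (continuous_const_smul u⁻¹)
  have a1 : ∀ x, u⁻¹ • x ∈ C → x ∉ C := fun x hx => by simpa using h3 _ hx
  have a2 : ∀ x, u⁻¹ • x ∈ C → v • x = u⁻¹ • x := fun x hx => by simpa using v2 _ hx
  have a3 : ∀ x, u⁻¹ • x ∈ C → x ∈ X₀ := fun x hx => by simpa using h2 _ hx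
  let Di : C(X, ℝ) := ⟨fun x => (D x)⁻¹, D.continuous.inv₀ fun x => (hD x).ne'⟩
  refine ⟨fun x => ?_, ⟨fun x => if x ∈ C then D x else if u⁻¹ • x ∈ C then (D (u⁻¹ • x))⁻¹ else 1,
    cont_ite (p := fun x => x ∈ C) hC D.continuous (cont_ite (p := fun x => u⁻¹ • x ∈ C) hC'
      (Di.continuous.comp (continuous_const_smul u⁻¹)) continuous_const)⟩, fun x => ?_, fun x hx => ?_,
    fun f f' h => ?_⟩
  · by_cases c1 : x ∈ C
    · rw [v1 x c1]
      exact iff_of_true (h2 x c1) (h1 c1)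
    · by_cases c2 : u⁻¹ • x ∈ C
      · rw [a2 x c2]
        exact iff_of_true (h1 c2) (a3 x c2)
      · rw [v3 x c1 c2]
  · simp only [ContinuousMap.coe_mk]
    split_ifs
    · exact hD x
    · exact inv_pos.mpr (hD _)
    · exact one_pos
  · simp only [ContinuousMap.coe_mk]
    rw [if_neg fun h' => hx (h1 h'), if_neg fun h' => hx (a3 x h')]
  · simp only [ContinuousMap.coe_mk] at h
    have b1 := hI (f.comp (BdA.sm u) * ind C) (f * ind {x : X | u⁻¹ • x ∈ C})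
      (fun x hx => by simp [ind_apply hC, hx]) fun x => by
        simp [ind_apply hC, ind_apply hC', BdA.sm]
    have b2 := hI (f * Di * ind C) (f' * ind {x : X | u⁻¹ • x ∈ C})
      (fun x hx => by simp [ind_apply hC, hx]) fun x => by
        simp only [ContinuousMap.mul_apply, ind_apply hC, ind_apply hC', Set.mem_ofPred_eq, h]
        split_ifs with c1 c2 c2
        · exact absurd c1 (a1 x c2)
        · simp
        · rw [a2 x c2]
          rfl
        · simp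
    have b3 : f' - f = f' * ind {x : X | u⁻¹ • x ∈ C} - f * Di * ind C * D -
        (f * ind {x : X | u⁻¹ • x ∈ C} - f.comp (BdA.sm u) * ind C * D) := by
      ext x
      simp only [ContinuousMap.sub_apply, ContinuousMap.mul_apply, ind_apply hC, ind_apply hC',
        Set.mem_ofPred_eq, ContinuousMap.comp_apply, BdA.sm, ContinuousMap.coe_mk, Di]
      by_cases c1 : x ∈ C
      · have c2 : u⁻¹ • x ∉ C := fun c => a1 x c c1
        rw [h, if_pos c1, if_pos c1, if_neg c2, v1 x c1]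
        have := (hD x).ne'
        field_simp
        ring
      · by_cases c2 : u⁻¹ • x ∈ C
        · rw [if_neg c1, if_pos c2]
          ring
        · rw [h, if_neg c1, if_neg c2, if_neg c1, if_neg c2, v3 x c1 c2]
          ring
    have b4 := congrArg I b3
    simp only [map_sub] at b4
    linarith

theorem exists_w (pos : ∀ f : C(X, ℝ), (∀ x, 0 ≤ f x) → 0 ≤ I f) (one : I 1 = 1)
    (fix : ∀ g : Γ, IsClopen {x : X | g • x = x}) (hed : ∀ V : Set X, IsOpen V → IsOpen (closure V))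
    (hX : IsClopen X₀) (hf : ∀ C, IsClopen C → C ⊆ X₀ → C.Nonempty → 0 < I (ind C)) :
    ∃ w, IsDynW (Bd Γ I X₀) I w := by
  choose D hD using fun g : Bd Γ I X₀ => (show ∃ D, BdA.Wit I X₀ (g : Γ) D from g.2.2)
  let b : X → X := fun x => (Quotient.mk (MulAction.orbitRel (Bd Γ I X₀) X) x).out
  have hb : ∀ x, ∃ g : Bd Γ I X₀, g • b x = x := fun x => by
    obtain ⟨g, hg⟩ : b x ∈ MulAction.orbit (Bd Γ I X₀) x :=
      Quotient.mk_out (s := MulAction.orbitRel (Bd Γ I X₀) X) x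
    exact ⟨g⁻¹, by rw [← hg]; exact inv_smul_smul g x⟩
  have hb' : ∀ (g : Bd Γ I X₀) x, b (g • x) = b x := fun g x =>
    congrArg Quotient.out (Quotient.sound (s := MulAction.orbitRel (Bd Γ I X₀) X) ⟨g, rfl⟩)
  choose ω hω using hb
  have key : ∀ (g : Bd Γ I X₀) x, D (ω (g • x)) (b (g • x)) / D (ω x) (b x) = D g x := by
    intro g x
    have h1 : ((ω (g • x) : Bd Γ I X₀) : Γ) • b x = ((g : Γ) * (ω x : Γ)) • b x := by
      have h2 := hω (g • x)
      rw [hb'] at h2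
      rw [mul_smul]
      exact h2.trans (congrArg (fun y => (g : Γ) • y) (hω x).symm)
    rw [hb', BdA.wit_eq pos hX hf fix (hD _) (BdA.wit_mul (hD g) (hD (ω x)) (ω x).2.1) h1,
      div_eq_iff ((hD _).1 _).ne']
    exact congrArg (fun y => D g y * D (ω x) (b x)) (hω x)
  refine ⟨fun x => D (ω x) (b x), pos, one, fun g => fix g, fun x => (hD _).1 _, fun g => ?_,
    fun g f f' h => (hD g).2.2 f f' fun x => ?_, fun g => hed _ (isOpen_lt ?_ continuous_const)⟩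
  · simp only [key]
    exact (D g).continuous
  · rw [h, key]
    rfl
  · simp only [key]
    exact (D g).continuous

theorem gen_sub {G : Subgroup Γ} {S : Finset G} (hS : Gen S) : Gen (S.image fun g : G => (g : Γ)) := by
  refine ⟨mem_image.mpr ⟨1, hS.one, rfl⟩, fun w hw => ?_⟩
  obtain ⟨g, hg, rfl⟩ := mem_image.mp hw
  exact mem_image.mpr ⟨g⁻¹, hS.inv g hg, rfl⟩

theorem ball_sub {G : Subgroup Γ} (S : Finset G) (n : ℕ) (x : X) :
    ball (S.image fun g : G => (g : Γ)) n x = ball S n x := by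
  ext y
  rw [ball, ball, mem_orb, mem_orb]
  simp only [← mem_coe, coe_pow, coe_image]
  have h := Set.image_pow G.subtype (S : Set G) n
  rw [show (fun g : G => (g : Γ)) = G.subtype from rfl, ← h]
  constructor
  · rintro ⟨_, ⟨g, hg, rfl⟩, e⟩
    exact ⟨g, hg, e⟩
  · rintro ⟨g, hg, e⟩
    exact ⟨_, ⟨g, hg, rfl⟩, e⟩

theorem ker_sub {G : Subgroup Γ} {S : Finset G} {k : X → X → ℂ}
    (hk : IsKer (S.image fun g : G => (g : Γ)) k) : IsKer S k := by
  obtain ⟨κ, hκ⟩ := hk.gauge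
  refine ⟨hk.good, fun a b h => ?_, fun w w' => κ w w', fun x => ?_⟩
  · obtain ⟨w, hw, e⟩ := hk.range a b h
    obtain ⟨g, hg, rfl⟩ := mem_image.mp hw
    exact ⟨g, hg, e⟩
  · obtain ⟨θ, h1, h2⟩ := hκ x
    exact ⟨fun w => θ w, fun w => h1 w, fun w w' => h2 w w'⟩

end Vale.Agent.P078
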