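import Vale.Agent.P078.Gel

/-!
The Gelfand space of a MASA is extremally disconnected (no trace, no countability).

PLAN. `sup`: `p` = orthogonal projection onto the closed span `K₀` of the ranges of the projections `q_C` (`IsGel.proj`); it commutes
with `M.commutant` and with `A` (`comm_proj`), so `p ∈ A` (`mem_of_comm`, `comm_mem`); its clopen set `D` (`IsGel.idem`) contains every `C`;
if `D \ closure` is nonempty it contains a nonempty clopen `C'` (`compact_exists_isClopen_in_isOpen`), `q_{C'} q_C = 0` for all `C`, so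
`q_{C'} p = 0`, absurd. `ed`: `sup` for the clopen subsets of `V`. `frolik'`: Zorn for the OPEN sets `C` with `C ∩ φ C = ∅` (chains: unions);
disjoint open sets have disjoint closures, so the maximal `C` is clopen and the fixed point set is the complement of `C ∪ φ C ∪ φ⁻¹ C`.
-/

open scoped Classical

namespace Vale.Agent.P078

variable {H : Type*} [NormedAddCommGroup H] [InnerProductSpace ℂ H] [CompleteSpace H]
  {M : VonNeumannAlgebra H} {A : StarSubalgebra ℂ (H →L[ℂ] H)}
  {X : Type*} [TopologicalSpace X] [CompactSpace X] [T2Space X] [TotallyDisconnectedSpace X]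

theorem frolik' (hed : ∀ V : Set X, IsOpen V → IsOpen (closure V)) (φ : X ≃ₜ X) :
    IsClopen {x | φ x = x} := by
  obtain ⟨D, hm⟩ := zorn_subset {C : Set X | IsOpen C ∧ ∀ x ∈ C, φ x ∉ C} fun c hc ch =>
    ⟨⋃₀ c, ⟨isOpen_sUnion fun C l => (hc l).1, by
      rintro x ⟨C, l, k⟩ ⟨C', l', k'⟩
      rcases ch.total l l' with s | s
      · exact (hc l').2 x (s k) k'
      · exact (hc l).2 x k (s k')⟩, fun C l => Set.subset_sUnion_of_mem l⟩
  have a1 := hm.prop.2
  have a2 : ∀ E, IsOpen E → (∀ x ∈ E, φ x ∉ E) → D ⊆ E → E ⊆ D := fun E h1 h2 l => hm.2 ⟨h1, h2⟩ l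
  have hD : IsClopen D := by
    have d1 : Disjoint D (φ ⁻¹' D) := Set.disjoint_left.2 a1
    have d2 := (d1.closure_left (hm.prop.1.preimage φ.continuous)).closure_right (hed D hm.prop.1)
    rw [← φ.preimage_closure] at d2
    exact ⟨closure_subset_iff_isClosed.1 (a2 _ (hed D hm.prop.1) (Set.disjoint_left.1 d2) subset_closure),
      hm.prop.1⟩
  have pre : ∀ E, IsClopen E → IsClopen (φ ⁻¹' E) := fun E hE => hE.preimage φ.continuous
  have hU : IsClopen (D ∪ φ ⁻¹' D ∪ φ.symm ⁻¹' D)ᶜ :=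
    ((hD.union (pre D hD)).union (hD.preimage φ.symm.continuous)).compl
  have : {x | φ x = x} = (D ∪ φ ⁻¹' D ∪ φ.symm ⁻¹' D)ᶜ := by
    ext x
    constructor
    · rintro (e : φ x = x) ((k | k) | k)
      · exact a1 x k (e.symm ▸ k)
      · exact a1 x (e ▸ k) k
      · have e' : φ.symm x = x := by rw [Homeomorph.symm_apply_eq, e]
        have k' : x ∈ D := e' ▸ k
        exact a1 x k' (e.symm ▸ k')
    · intro hx
      by_contra n
      obtain ⟨U, U', hU1, hU2, xU, xU', dj⟩ := t2_separation (Ne.symm n)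
      obtain ⟨V, hV, xV, sV⟩ := compact_exists_isClopen_in_isOpen
        ((hU1.inter (hU2.preimage φ.continuous)).inter hU.isOpen) ⟨⟨xU, xU'⟩, hx⟩
      refine hx (.inl (.inl (a2 (D ∪ V) (hD.union hV).isOpen ?_ Set.subset_union_left (.inr xV))))
      rintro y (k | k) (l | l)
      · exact a1 y k l
      · exact (sV l).2 (.inr (by simpa using k))
      · exact (sV k).2 (.inl (.inr l))
      · exact Set.disjoint_left.1 dj (sV l).1.1 (sV k).1.2
  rwa [this]

variable [MulAction (NG M A) X] [ContinuousConstSMul (NG M A) X] {ev : (H →L[ℂ] H) → C(X, ℂ)}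

theorem IsGel.sup (hA : IsMASA M A) (h : IsGel M A ev) {𝒞 : Set (Set X)} (hC : ∀ C ∈ 𝒞, IsClopen C) :
    ∃ p ∈ A, IsStarProjection p ∧ (∀ x, ev p x = if x ∈ closure (⋃₀ 𝒞) then 1 else 0) ∧
      ∀ K : Submodule ℂ H, IsClosed (K : Set H) →
        (∀ C ∈ 𝒞, ∀ q ∈ A, (∀ x, ev q x = if x ∈ C then 1 else 0) → ∀ ξ, q ξ ∈ K) → ∀ ξ, p ξ ∈ K := by
  choose! P P1 P2 P3 using fun (C : Set X) (hC : IsClopen C) => h.proj hC
  let K₀ : Submodule ℂ H := (Submodule.span ℂ {η | ∃ C ∈ 𝒞, ∃ ξ, P C ξ = η}).topologicalClosure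
  have cl : IsClosed (K₀ : Set H) := Submodule.isClosed_topologicalClosure _
  haveI : CompleteSpace K₀ := cl.completeSpace_coe
  have m0 : ∀ C ∈ 𝒞, ∀ ξ, P C ξ ∈ K₀ := fun C l ξ =>
    Submodule.le_topologicalClosure _ (Submodule.subset_span ⟨C, l, ξ, rfl⟩)
  have key : ∀ K : Submodule ℂ H, IsClosed (K : Set H) → (∀ C ∈ 𝒞, ∀ ξ, P C ξ ∈ K) → K₀ ≤ K :=
    fun K hK l => Submodule.topologicalClosure_minimal _
      (Submodule.span_le.2 (by rintro _ ⟨C, hC, ξ, rfl⟩; exact l C hC ξ)) hK
  have inv : ∀ T : H →L[ℂ] H, (∀ C ∈ 𝒞, T * P C = P C * T) → ∀ η ∈ K₀, T η ∈ K₀ := fun T hT =>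
    key (K₀.comap (T : H →ₗ[ℂ] H)) (cl.preimage T.continuous) fun C l ξ => by
      have : T (P C ξ) = P C (T ξ) := congrArg (fun S : H →L[ℂ] H => S ξ) (hT C l)
      show T (P C ξ) ∈ K₀
      rw [this]
      exact m0 C l _
  have cm : ∀ T : H →L[ℂ] H, (∀ C ∈ 𝒞, T * P C = P C * T) →
      T * K₀.starProjection = K₀.starProjection * T := fun T hT => ContinuousLinearMap.ext fun ξ =>
    (Vale.Agent.P070h8.comm_proj K₀ T (inv T hT) (inv _ fun C l => by
      have := congrArg Star.star (hT C l)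
      rw [star_mul, star_mul, (P2 C (hC C l)).isSelfAdjoint.star_eq] at this
      exact this.symm) ξ).symm
  have pM : K₀.starProjection ∈ M := mem_of_comm fun T hT => cm T fun C l =>
    (VonNeumannAlgebra.mem_commutant_iff.1 hT _ (hA.1 _ (P1 C (hC C l)))).symm
  have pA : K₀.starProjection ∈ A := comm_mem hA pM fun a ha =>
    (cm a fun C l => hA.2.1 a ha _ (P1 C (hC C l))).symm
  have pp : IsStarProjection K₀.starProjection := isStarProjection_starProjection
  obtain ⟨k1, k2⟩ := h.idem pA pp.isIdempotentElem.eq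
  have e : {x | ev K₀.starProjection x = 1} = closure (⋃₀ 𝒞) := by
    refine Set.Subset.antisymm (fun x (hx : ev K₀.starProjection x = 1) => ?_) (closure_minimal ?_ k2.isClosed)
    · by_contra n
      obtain ⟨V, hV, xV, sV⟩ := compact_exists_isClopen_in_isOpen isClosed_closure.isOpen_compl n
      have z : P V * K₀.starProjection = 0 := ContinuousLinearMap.ext fun ξ =>
        key (LinearMap.ker (P V : H →ₗ[ℂ] H)) (P V).isClosed_ker (fun C l ξ => by
          have : P V * P C = 0 := h.inj _ (mul_mem (P1 V hV) (P1 C (hC C l))) (by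
            ext y
            rw [h.mul _ (P1 V hV) _ (P1 C (hC C l)), ContinuousMap.mul_apply, P3 V hV, P3 C (hC C l)]
            by_cases y ∈ V
            · have : y ∉ C := fun k => sV ‹_› (subset_closure ⟨C, l, k⟩)
              simp [this]
            · simp [*])
          exact congrArg (fun S : H →L[ℂ] H => S ξ) this) (K₀.starProjection_apply_mem ξ)
      have := congrArg (fun a => ev a x) z
      simp [h.mul _ (P1 V hV) _ pA, P3 V hV, xV, hx, h.zero] at this
    · rintro x ⟨C, l, hx⟩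
      have z : K₀.starProjection * P C = P C := ContinuousLinearMap.ext fun ξ =>
        Submodule.starProjection_eq_self_iff.2 (m0 C l ξ)
      have := congrArg (fun a => ev a x) z
      simpa [h.mul _ pA _ (P1 C (hC C l)), P3 C (hC C l), hx] using this
  refine ⟨_, pA, pp, fun x => ?_, fun K hK l ξ =>
    key K hK (fun C k => l C k _ (P1 C (hC C k)) (P3 C (hC C k))) (K₀.starProjection_apply_mem ξ)⟩
  rw [← e]
  rcases k1 x with k | k <;> simp [k]

theorem IsGel.ed (hA : IsMASA M A) (h : IsGel M A ev) : ∀ V : Set X, IsOpen V → IsOpen (closure V) := by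
  intro V hV
  obtain ⟨p, hp, pp, e, -⟩ := h.sup hA (𝒞 := {C | IsClopen C ∧ C ⊆ V}) fun C l => l.1
  have e1 : ⋃₀ {C | IsClopen C ∧ C ⊆ V} = V := Set.Subset.antisymm (Set.sUnion_subset fun C l => l.2)
    fun x hx => (compact_exists_isClopen_in_isOpen hV hx).imp fun C l => ⟨⟨l.1, l.2.2⟩, l.2.1⟩
  rw [e1] at e
  have := (h.idem hp pp.isIdempotentElem.eq).2.isOpen
  rwa [show {x | ev p x = 1} = closure V from Set.ext fun x => by simp [e]] at this

theorem IsGel.fix' (hA : IsMASA M A) (h : IsGel M A ev) (w : NG M A) : IsClopen {x : X | w • x = x} :=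
  frolik' (h.ed hA) (Homeomorph.smul w)

/-- On its fixed point set a normalizing unitary lies in `A`. -/
theorem IsGel.op_mul_mem (hA : IsMASA M A) (h : IsGel M A ev) (w : NG M A) {p : H →L[ℂ] H} (hp : p ∈ A)
    (h0 : ∀ x, w • x ≠ x → ev p x = 0) : op w * p ∈ A := by
  refine comm_mem hA (mul_mem (op_mem w) (hA.1 p hp)) fun a ha => ?_
  have k := (mem_norm.1 (op_norm w)).2.2.2 a ha
  have : p * a = Star.star (op w) * a * op w * p := h.ext (mul_mem hp ha) (mul_mem k hp) fun x => by
    rw [h.mul _ hp _ ha, h.mul _ k _ hp, ContinuousMap.mul_apply, ContinuousMap.mul_apply, h.act' w ha]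
    by_cases e : w • x = x
    · rw [e, mul_comm]
    · simp [h0 x e]
  rw [mul_assoc, this, ← mul_assoc, ← mul_assoc, ← mul_assoc,
    Unitary.mul_star_self_of_mem (op_norm w).2.1, one_mul, mul_assoc]

end Vale.Agent.P078
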