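import Vale.Agent.P078.Kap

/-!
Von Neumann and Kaplansky density theorems.

PLAN. `dens_fin`: on `PiLp 2 (fun _ : F => H)` let `K` be the closure of `{(y ξ)_ξ | y ∈ N}`; the projection onto `K` commutes with the diagonal
action of `N` (`comm_proj`), its matrix entries lie in the centralizer of `N`, so it commutes with the diagonal action of `x`.
`dens_sa`: `K` = closure of the REAL subspace `{(y ξ)_ξ | y ∈ N, y* = y}`; if `(x ξ)` is not in `K`, subtract the best approximation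
(`exists_norm_eq_iInf_of_complete_convex`, or Hahn-Banach) to get `(η_ξ)` with `re Σ ⟪η, y ξ⟫ = 0` for selfadjoint `y ∈ N` and `≠ 0` for `x`;
apply to `(y + y*)/2` and use `dens_fin` on the vectors `ξ, η`. `kaplansky`: `f t = 2t/(1+t²)`, `x = f x₀`, `x₀ = cfc (s / (1 + √(1 - s²))) x`
(in the double centralizer), `f y - f x₀ = 2 (1+y²)⁻¹ (y - x₀) (1+x₀²)⁻¹ + 2 (1+y²)⁻¹ y (x₀ - y) x₀ (1+x₀²)⁻¹`; approximate `f y` in norm by a
real polynomial in `y` and rescale (see `kap1`).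
-/

open scoped InnerProductSpace
open Vale.Agent.P070h8

namespace Vale.Agent.P078

variable {H : Type*} [NormedAddCommGroup H] [InnerProductSpace ℂ H] [CompleteSpace H]
  {N : StarSubalgebra ℂ (H →L[ℂ] H)} {x : H →L[ℂ] H}

theorem Kp.clo (hx : x ∈ Set.centralizer (Set.centralizer (N : Set (H →L[ℂ] H)))) {ι : Type*}
    [Fintype ι] (ξ : ι → H) :
    (fun i => x (ξ i)) ∈ closure {w : ι → H | ∃ y ∈ N, w = fun i => y (ξ i)} := by
  classical
  let e := PiLp.continuousLinearEquiv 2 ℂ (fun _ : ι => H)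
  let τ : (H →L[ℂ] H) → PiLp 2 (fun _ : ι => H) →L[ℂ] PiLp 2 (fun _ : ι => H) := fun T =>
    (e.symm : (ι → H) →L[ℂ] _) ∘L ContinuousLinearMap.pi fun i => T ∘L PiLp.proj 2 (fun _ : ι => H) i
  have τa : ∀ T v i, τ T v i = T (v i) := fun _ _ _ => rfl
  have τs : ∀ T, star (τ T) = τ (star T) := fun T =>
    ((ContinuousLinearMap.eq_adjoint_iff _ _).mpr fun u v => by
      simp only [PiLp.inner_apply, τa, inner_star_left]).symm
  let L : (H →L[ℂ] H) →ₗ[ℂ] PiLp 2 (fun _ : ι => H) :=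
    { toFun := fun T => WithLp.toLp 2 fun i => T (ξ i)
      map_add' := fun a b => rfl
      map_smul' := fun c a => rfl }
  let K0 := (Subalgebra.toSubmodule N.toSubalgebra).map L
  let K := K0.topologicalClosure
  have : CompleteSpace K := K0.isClosed_topologicalClosure.completeSpace_coe
  have inv : ∀ a ∈ N, ∀ v ∈ K, τ a v ∈ K := fun a ha v hv => by
    refine map_mem_closure (τ a).continuous hv ?_
    rintro _ ⟨b, hb, rfl⟩
    exact ⟨a * b, (mul_mem ha (show b ∈ N from hb) : a * b ∈ N), rfl⟩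
  have cm : ∀ a ∈ N, ∀ v, K.starProjection (τ a v) = τ a (K.starProjection v) := fun a ha =>
    comm_proj K _ (inv a ha) (by rw [τs]; exact inv _ (star_mem ha))
  let J : ι → H →L[ℂ] PiLp 2 (fun _ : ι => H) := fun j =>
    (e.symm : (ι → H) →L[ℂ] _) ∘L ContinuousLinearMap.single ℂ (fun _ : ι => H) j
  have Ja : ∀ j v i, J j v i = (Pi.single j v : ι → H) i := fun _ _ _ => rfl
  have τJ : ∀ T j v, τ T (J j v) = J j (T v) := fun T j v => by
    ext i
    rw [τa, Ja, Ja]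
    by_cases h : i = j
    · subst h; simp
    · simp [h]
  have sJ : ∀ v : PiLp 2 (fun _ : ι => H), v = ∑ j, J j (v j) := fun v => by
    ext i
    simp [Ja, Pi.single_apply]
  let P : ι → ι → H →L[ℂ] H := fun i j => PiLp.proj 2 (fun _ : ι => H) i ∘L K.starProjection ∘L J j
  have Pa : ∀ i j v, P i j v = K.starProjection (J j v) i := fun _ _ _ => rfl
  have Pc : ∀ i j, P i j * x = x * P i j := fun i j => hx _ fun a ha => by
    ext v
    change a (P i j v) = P i j (a v)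
    rw [Pa, Pa, ← τJ, cm a ha, τa]
  have Ps : ∀ v i, K.starProjection v i = ∑ j, P i j (v j) := fun v i => by
    conv_lhs => rw [sJ v, map_sum]
    simp [Pa]
  have h1 : L 1 ∈ K := K0.le_topologicalClosure ⟨1, one_mem N, rfl⟩
  have h2 : L x ∈ K := by
    rw [← Submodule.starProjection_eq_self_iff] at h1 ⊢
    ext i
    have h3 : ξ i = ∑ j, P i j (ξ j) := (congrArg (fun v => v i) h1).symm.trans (Ps _ i)
    rw [Ps]
    change ∑ j, (P i j * x) (ξ j) = x (ξ i)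
    rw [h3, map_sum]
    exact Finset.sum_congr rfl fun j _ => by rw [Pc]; rfl
  refine map_mem_closure (f := e) e.continuous h2 ?_
  rintro _ ⟨b, hb, rfl⟩
  exact ⟨b, hb, rfl⟩

theorem Kp.fin {P : (H →L[ℂ] H) → Prop} (F : Finset H) {δ : ℝ} (hδ : 0 < δ)
    (h : (fun i : F => x i) ∈ closure {w : F → H | ∃ y, P y ∧ w = fun i : F => y i}) :
    ∃ y, P y ∧ ∀ ξ ∈ F, ‖(x - y) ξ‖ < δ := by
  obtain ⟨_, ⟨y, hy, rfl⟩, d⟩ := Metric.mem_closure_iff.1 h δ hδ
  refine ⟨y, hy, fun ξ hξ => ?_⟩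
  simpa [dist_eq_norm] using (dist_pi_lt_iff hδ).1 d ⟨ξ, hξ⟩

theorem dens_fin (hx : x ∈ Set.centralizer (Set.centralizer (N : Set (H →L[ℂ] H)))) (F : Finset H)
    {δ : ℝ} (hδ : 0 < δ) : ∃ y ∈ N, ∀ ξ ∈ F, ‖(x - y) ξ‖ < δ :=
  Kp.fin F hδ (Kp.clo hx _)

theorem dens_sa (hx : x ∈ Set.centralizer (Set.centralizer (N : Set (H →L[ℂ] H))))
    (hs : IsSelfAdjoint x) (F : Finset H) {δ : ℝ} (hδ : 0 < δ) :
    ∃ y ∈ N, IsSelfAdjoint y ∧ ∀ ξ ∈ F, ‖(x - y) ξ‖ < δ := by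
  classical
  suffices h : (fun i : F => x i) ∈
      closure {w : F → H | ∃ y, (y ∈ N ∧ IsSelfAdjoint y) ∧ w = fun i : F => y i} by
    obtain ⟨y, hy, k⟩ := Kp.fin F hδ h
    exact ⟨y, hy.1, hy.2, k⟩
  have sm : ∀ (s : ℝ) y, y ∈ N ∧ IsSelfAdjoint y → (s : ℂ) • y ∈ N ∧ IsSelfAdjoint ((s : ℂ) • y) :=
    fun s y hy => ⟨N.smul_mem hy.1 _, by simp [IsSelfAdjoint, hy.2.star_eq]⟩
  have hN : Convex ℝ {w : F → H | ∃ y, (y ∈ N ∧ IsSelfAdjoint y) ∧ w = fun i : F => y i} := by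
    rintro _ ⟨a, ha, rfl⟩ _ ⟨b, hb, rfl⟩ s t _ _ _
    refine ⟨(s : ℂ) • a + (t : ℂ) • b, ⟨add_mem (sm s a ha).1 (sm t b hb).1,
      (sm s a ha).2.add (sm t b hb).2⟩, ?_⟩
    ext i
    simp
  by_contra hn
  obtain ⟨f, u, h1, h2⟩ := RCLike.geometric_hahn_banach_closed_point (𝕜 := ℂ) hN.closure isClosed_closure hn
  let η : F → H := fun i =>
    (InnerProductSpace.toDual ℂ H).symm (f ∘L ContinuousLinearMap.single ℂ (fun _ : F => H) i)
  have hf : ∀ w : F → H, f w = ∑ i, ⟪η i, w i⟫_ℂ := fun w => by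
    conv_lhs => rw [← Finset.univ_sum_single w, map_sum]
    exact Finset.sum_congr rfl fun i _ => by rw [InnerProductSpace.toDual_symm_apply]; rfl
  have z : ∀ y, y ∈ N ∧ IsSelfAdjoint y → (f fun i : F => y i).re = 0 := fun y hy => by
    by_contra hne
    have := h1 _ (subset_closure ⟨_, sm (u / (f fun i : F => y i).re) y hy, rfl⟩)
    rw [show (fun i : F => ((((u / (f fun i : F => y i).re : ℝ) : ℂ)) • y) i) =
      (((u / (f fun i : F => y i).re : ℝ) : ℂ)) • fun i : F => y i from rfl, map_smul, smul_eq_mul] at this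
    change (_ * _ : ℂ).re < u at this
    rw [Complex.re_ofReal_mul, div_mul_cancel₀ _ hne] at this
    exact lt_irrefl _ this
  have u0 : 0 < u := by
    have := h1 _ (subset_closure ⟨0, ⟨zero_mem N, .zero _⟩, rfl⟩)
    change (f fun i : F => (0 : H →L[ℂ] H) i).re < u at this
    rwa [z 0 ⟨zero_mem N, .zero _⟩] at this
  have hc : IsClosed {w : F ⊕ F → H |
      (∑ i, ⟪η i, w (.inl i)⟫_ℂ + ∑ i : F, ⟪w (.inr i), (i : H)⟫_ℂ).re = 0} :=
    isClosed_eq (by fun_prop) continuous_const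
  have k := closure_minimal ?_ hc (Kp.clo hx (Sum.elim (fun i : F => (i : H)) η))
  · have k' : (∑ i, ⟪η i, x i⟫_ℂ + ∑ i : F, ⟪x (η i), (i : H)⟫_ℂ).re = 0 := k
    have e : ∀ i : F, ⟪x (η i), (i : H)⟫_ℂ = ⟪η i, x i⟫_ℂ := fun i => by
      rw [← inner_star_right, hs.star_eq]
    simp only [e, Complex.add_re] at k'
    rw [hf] at h2
    change u < (∑ i, ⟪η i, x i⟫_ℂ).re at h2
    linarith
  · rintro _ ⟨y, hy, rfl⟩
    have := z (y + star y) ⟨add_mem hy (star_mem hy), IsSelfAdjoint.add_star_self y⟩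
    rw [hf] at this
    simpa [inner_add_right, Finset.sum_add_distrib, inner_star_right] using this

theorem Kp.res {y : H →L[ℂ] H} (hy : IsSelfAdjoint y) : ∃ R : H →L[ℂ] H, ‖R‖ ≤ 1 ∧ ‖R * y‖ ≤ 1 ∧
    R * (1 + y * y) = 1 ∧ (1 + y * y) * R = 1 ∧ R * y = y * R ∧
      cfc (fun t : ℝ => (1 + t * t)⁻¹ * t + (1 + t * t)⁻¹ * t) y = R * y + R * y := by
  have p : ∀ t : ℝ, 0 < 1 + t * t := fun t => by nlinarith
  have c : Continuous fun t : ℝ => (1 + t * t)⁻¹ := Continuous.inv₀ (by fun_prop) fun t => (p t).ne'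
  have e1 : cfc (fun t : ℝ => (1 + t * t)⁻¹ * t) y = cfc (fun t : ℝ => (1 + t * t)⁻¹) y * y := by
    rw [cfc_mul _ _ y c.continuousOn, cfc_id' ℝ y]
  have e2 : cfc (fun t : ℝ => 1 + t * t) y = 1 + y * y := by
    rw [cfc_add _ _ _, cfc_mul _ _ y, cfc_id' ℝ y, cfc_const_one ℝ y]
  refine ⟨cfc (fun t : ℝ => (1 + t * t)⁻¹) y, norm_cfc_le zero_le_one fun t _ => ?_, ?_, ?_, ?_,
    (Commute.refl y).cfc_real _, by
      have c' : Continuous fun t : ℝ => (1 + t * t)⁻¹ * t := by fun_prop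
      rw [cfc_add _ _ _ c'.continuousOn c'.continuousOn, e1]⟩
  · rw [Real.norm_eq_abs, abs_of_pos (inv_pos.2 (p t))]
    exact inv_le_one_of_one_le₀ (by nlinarith)
  · rw [← e1]
    refine norm_cfc_le zero_le_one fun t _ => ?_
    rw [Real.norm_eq_abs, abs_mul, abs_of_pos (inv_pos.2 (p t)), inv_mul_le_iff₀ (p t), abs_le]
    constructor <;> nlinarith [sq_nonneg (t - 1), sq_nonneg (t + 1)]
  · rw [← e2, ← cfc_mul _ _ y c.continuousOn, ← cfc_const_one ℝ y]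
    exact cfc_congr fun t _ => inv_mul_cancel₀ (p t).ne'
  · rw [← e2, ← cfc_mul _ _ y (by fun_prop) c.continuousOn, ← cfc_const_one ℝ y]
    exact cfc_congr fun t _ => mul_inv_cancel₀ (p t).ne'

theorem kaplansky (hx : x ∈ Set.centralizer (Set.centralizer (N : Set (H →L[ℂ] H))))
    (hs : IsSelfAdjoint x) (hn : ‖x‖ ≤ 1) (F : Finset H) {δ : ℝ} (hδ : 0 < δ) :
    ∃ y ∈ N, IsSelfAdjoint y ∧ ‖y‖ ≤ 1 ∧ ∀ ξ ∈ F, ‖(x - y) ξ‖ < δ := by
  classical
  rcases subsingleton_or_nontrivial H with _ | _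
  · exact ⟨0, zero_mem N, .zero _, by simp, fun ξ _ => by
      rw [Subsingleton.elim ((x - 0) ξ) 0, norm_zero]; exact hδ⟩
  have p : ∀ t : ℝ, 0 < 1 + t * t := fun t => by nlinarith
  have c : Continuous fun t : ℝ => (1 + t * t)⁻¹ := Continuous.inv₀ (by fun_prop) fun t => (p t).ne'
  have cf : Continuous fun t : ℝ => (1 + t * t)⁻¹ * t + (1 + t * t)⁻¹ * t := by fun_prop
  have cg : Continuous fun s : ℝ => s / (1 + √(1 - s * s)) :=
    Continuous.div (by fun_prop) (by fun_prop) fun s => by positivity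
  obtain ⟨x₀, h0⟩ : ∃ x₀, x₀ = cfc (fun s : ℝ => s / (1 + √(1 - s * s))) x := ⟨_, rfl⟩
  have s0 : IsSelfAdjoint x₀ := h0 ▸ cfc_predicate _ x
  have c0 : x₀ ∈ Set.centralizer (Set.centralizer (N : Set (H →L[ℂ] H))) := fun T hT =>
    h0 ▸ ((show Commute x T from (hx T hT).symm).cfc_real _).eq.symm
  have e0 : cfc (fun t : ℝ => (1 + t * t)⁻¹ * t + (1 + t * t)⁻¹ * t) x₀ = x := by
    rw [h0, ← cfc_comp' _ _ x cf.continuousOn cg.continuousOn]
    conv_rhs => rw [← cfc_id' ℝ x]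
    refine cfc_congr fun s hs => ?_
    have a1 := abs_le.1 ((spectrum.norm_le_norm_of_mem hs).trans hn)
    have a2 : √(1 - s * s) * √(1 - s * s) = 1 - s * s := Real.mul_self_sqrt (by nlinarith)
    have a3 : 0 ≤ √(1 - s * s) := Real.sqrt_nonneg _
    generalize √(1 - s * s) = r at a2 a3
    have a4 : 1 + s / (1 + r) * (s / (1 + r)) = 2 / (1 + r) := by
      field_simp
      nlinarith
    rw [a4]
    field_simp
    ring
  obtain ⟨R₀, -, -, -, r2, r3, r4⟩ := Kp.res s0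
  obtain ⟨y, y1, y2, y3⟩ := dens_sa c0 s0 (F.image R₀ ∪ F.image (x₀ * R₀)) (δ := δ / 8) (by positivity)
  obtain ⟨R, q1, q2, q3, -, -, q4⟩ := Kp.res y2
  obtain ⟨C, C0, C1⟩ : ∃ C : ℝ, 0 < C ∧ ∀ ξ ∈ F, ‖ξ‖ ≤ C := ⟨∑ ξ ∈ F, ‖ξ‖ + 1, by positivity, fun ξ h =>
    (Finset.single_le_sum (f := fun ξ : H => ‖ξ‖) (fun _ _ => norm_nonneg _) h).trans (by linarith)⟩
  obtain ⟨ε, e0', e1, e2⟩ : ∃ ε : ℝ, 0 < ε ∧ ε ≤ 1 ∧ 4 * ε * C ≤ δ :=
    ⟨min 1 (δ / (4 * C)), by positivity, min_le_left _ _, by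
      have := (le_div_iff₀ (show 0 < 4 * C by positivity)).1 (min_le_right 1 (δ / (4 * C)))
      linarith⟩
  obtain ⟨P, hp⟩ := exists_polynomial_near_of_continuousOn (-‖y‖) ‖y‖
    (fun t => (1 - ε) * ((1 + t * t)⁻¹ * t + (1 + t * t)⁻¹ * t)) (by fun_prop) ε e0'
  have k : ∀ t ∈ spectrum ℝ y, |P.eval t| ≤ 1 ∧
      |(1 + t * t)⁻¹ * t + (1 + t * t)⁻¹ * t - P.eval t| ≤ 2 * ε := by
    intro t ht
    obtain ⟨a1, a2⟩ := abs_lt.1 (hp t (abs_le.1 (spectrum.norm_le_norm_of_mem ht)))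
    have b1 : -1 ≤ (1 + t * t)⁻¹ * t + (1 + t * t)⁻¹ * t := by
      rw [← mul_add, le_inv_mul_iff₀ (p t)]; nlinarith [sq_nonneg (t + 1)]
    have b2 : (1 + t * t)⁻¹ * t + (1 + t * t)⁻¹ * t ≤ 1 := by
      rw [← mul_add, inv_mul_le_iff₀ (p t)]; nlinarith [sq_nonneg (t - 1)]
    generalize (1 + t * t)⁻¹ * t + (1 + t * t)⁻¹ * t = v at a1 a2 b1 b2
    rw [abs_le, abs_le]
    refine ⟨⟨?_, ?_⟩, ?_, ?_⟩ <;> nlinarith
  refine ⟨cfc P.eval y, ?_, cfc_predicate _ y, norm_cfc_le zero_le_one fun t ht => (k t ht).1,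
    fun ξ hξ => ?_⟩
  · rw [cfc_polynomial P y, Polynomial.aeval_eq_sum_range]
    refine sum_mem fun n _ => ?_
    rw [← Complex.coe_smul]
    exact N.smul_mem (pow_mem y1 n) _
  have c2 : ‖(R * y + R * y - cfc P.eval y) ξ‖ ≤ 2 * ε * C := by
    refine (ContinuousLinearMap.le_opNorm _ _).trans (mul_le_mul ?_ (C1 ξ hξ) (norm_nonneg _) (by positivity))
    rw [← q4, ← cfc_sub _ _ y cf.continuousOn P.continuous.continuousOn]
    exact norm_cfc_le (by positivity) fun t ht => (k t ht).2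
  have id : x₀ * R₀ - R * y = R * (x₀ - y) * R₀ - R * y * (x₀ - y) * (x₀ * R₀) := by
    calc x₀ * R₀ - R * y = R * (1 + y * y) * (x₀ * R₀) - R * y * ((1 + x₀ * x₀) * R₀) := by
          rw [q3, r2, one_mul, mul_one]
      _ = _ := by noncomm_ring
  have c3 : ‖(x₀ * R₀ - R * y) ξ‖ < δ / 4 := by
    have a1 := (R.le_opNorm ((x₀ - y) (R₀ ξ))).trans (mul_le_of_le_one_left (norm_nonneg _) q1)
    have a2 := ((R * y).le_opNorm ((x₀ - y) ((x₀ * R₀) ξ))).trans (mul_le_of_le_one_left (norm_nonneg _) q2)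
    have a3 := y3 (R₀ ξ) (Finset.mem_union_left _ (Finset.mem_image_of_mem _ hξ))
    have a4 := y3 ((x₀ * R₀) ξ) (Finset.mem_union_right _ (Finset.mem_image_of_mem _ hξ))
    rw [id]
    refine (norm_sub_le (R ((x₀ - y) (R₀ ξ))) ((R * y) ((x₀ - y) ((x₀ * R₀) ξ)))).trans_lt ?_
    linarith
  have e : x - cfc P.eval y = (x₀ * R₀ - R * y) + (x₀ * R₀ - R * y) + (R * y + R * y - cfc P.eval y) := by
    rw [← r3, show R₀ * x₀ - R * y + (R₀ * x₀ - R * y) = R₀ * x₀ + R₀ * x₀ - (R * y + R * y) by abel, ← r4, e0]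
    abel
  rw [e]
  refine (norm_add₃_le (a := (x₀ * R₀ - R * y) ξ) (b := (x₀ * R₀ - R * y) ξ)
    (c := (R * y + R * y - cfc P.eval y) ξ)).trans_lt ?_
  linarith

variable {M : VonNeumannAlgebra H} {A : StarSubalgebra ℂ (H →L[ℂ] H)}

/-- The span of a subgroup of the normalizer. -/
def spanG (G : Subgroup (NG M A)) : StarSubalgebra ℂ (H →L[ℂ] H) where
  carrier := Submodule.span ℂ (Set.range fun g : G => op (g : NG M A))
  mul_mem' := by
    intro a b ha hb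
    have := Submodule.mul_mem_mul ha hb
    rw [Submodule.span_mul_span] at this
    refine Submodule.span_mono ?_ this
    rintro _ ⟨_, ⟨w, rfl⟩, _, ⟨w', rfl⟩, rfl⟩
    exact ⟨w * w', rfl⟩
  add_mem' := fun ha hb => Submodule.add_mem _ ha hb
  algebraMap_mem' := by
    intro c
    rw [Algebra.algebraMap_eq_smul_one]
    exact Submodule.smul_mem _ _ (Submodule.subset_span ⟨1, rfl⟩)
  star_mem' := by
    intro a ha
    induction ha using Submodule.span_induction with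
    | mem _ h => obtain ⟨w, rfl⟩ := h; exact Submodule.subset_span ⟨w⁻¹, rfl⟩
    | zero => rw [star_zero]; exact Submodule.zero_mem _
    | add _ _ _ _ h1 h2 => rw [star_add]; exact Submodule.add_mem _ h1 h2
    | smul c _ _ h => rw [star_smul]; exact Submodule.smul_mem _ _ h

theorem mem_spanG {G : Subgroup (NG M A)} :
    x ∈ spanG G ↔ x ∈ Submodule.span ℂ (Set.range fun g : G => op (g : NG M A)) := Iff.rfl

theorem spanG_le {G : Subgroup (NG M A)} (hx : x ∈ spanG G) : x ∈ M :=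
  N_mem (Submodule.span_mono (by rintro _ ⟨w, rfl⟩; exact ⟨(w : NG M A), rfl⟩) (mem_spanG.1 hx))

theorem mem_bicomm (hR : IsRegular M A) (hx : x ∈ M) : x ∈ Set.centralizer
    (Set.centralizer (spanG (⊤ : Subgroup (NG M A)) : Set (H →L[ℂ] H))) := by
  have hx' : x ∈ Set.centralizer (Set.centralizer (normalizer M A)) := by
    rw [hR]
    exact hx
  refine Set.centralizer_subset (Set.centralizer_subset fun u hu => ?_) hx'
  exact mem_spanG.2 (Submodule.subset_span ⟨⟨⟨⟨u, hu.2.1⟩, hu⟩, trivial⟩, rfl⟩)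

end Vale.Agent.P078
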