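import Vale.Agent.P078.DefsC
import Vale.Agent.P078.Ext
import Vale.Agent.P078.Kapl

/-!
A normal expectation onto a regular MASA is equivariant.

PLAN. `star`: write a selfadjoint `m` as a difference of positive elements of `M` (`m + ‖m‖ - ‖m‖`). `norm`: `0 ≤ E ((m - E m)* (m - E m)) =
E (m* m) - (E m)* (E m)` and `E (m* m) ≤ ‖m‖²`. `conj`: take `exists_gel`. For `u ∈ NG`, `G u` the projection of `Fix u` (`IsGel.fix'`):
`E (op u) = op u * G u` (`op_mul_mem`; at `x ∉ Fix u` take a clopen `C ∋ x` with `C ∩ u C = ∅`, `p (op u) p = 0`, see `Ke.e_fix`), and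
`G (w u w⁻¹) = w (G u) w*`. Extend by linearity to `spanG ⊤`, by `kaplansky` and `normal` to selfadjoint contractions (`⟪ξ, T ξ⟫ = 0` for all `ξ`
gives `T = 0`), and by linearity to `M`.
-/

open Vale.Agent.P070h8
open scoped InnerProductSpace Classical

namespace Vale.Agent.P078

variable {H : Type*} [NormedAddCommGroup H] [InnerProductSpace ℂ H] [CompleteSpace H]
  {M : VonNeumannAlgebra H} {A : StarSubalgebra ℂ (H →L[ℂ] H)}
  {E : (H →L[ℂ] H) →ₗ[ℂ] (H →L[ℂ] H)}

namespace CEx

variable {m : H →L[ℂ] H}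

theorem left (hE : IsNormalExp M A E) {a : H →L[ℂ] H} (ha : a ∈ A) (hm : m ∈ M) :
    E (a * m) = a * E m := by simpa using hE.bimod a ha m hm 1 (one_mem A)

theorem right (hE : IsNormalExp M A E) {a : H →L[ℂ] H} (ha : a ∈ A) (hm : m ∈ M) :
    E (m * a) = E m * a := by simpa using hE.bimod 1 (one_mem A) m hm a ha

theorem self (hE : IsNormalExp M A E) {a : H →L[ℂ] H} (ha : a ∈ A) : E a = a := by
  simpa [hE.one] using left hE ha (one_mem M)

theorem shift (hs : IsSelfAdjoint m) : 0 ≤ ((‖m‖ : ℝ) : ℂ) • (1 : H →L[ℂ] H) - m := by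
  refine nonneg_of_re (by simp [hs.star_eq]) fun ξ => ?_
  have h1 := (Complex.re_le_norm _).trans (norm_inner_le_norm (𝕜 := ℂ) ξ (m ξ))
  have h2 := mul_le_mul_of_nonneg_left (m.le_opNorm ξ) (norm_nonneg ξ)
  have h3 : (⟪ξ, ξ⟫_ℂ).re = ‖ξ‖ ^ 2 := by
    rw [inner_self_eq_norm_sq_to_K]
    norm_cast
  simp only [ContinuousLinearMap.sub_apply, ContinuousLinearMap.smul_apply,
    ContinuousLinearMap.one_apply, inner_sub_right, inner_smul_right, Complex.sub_re,
    Complex.re_ofReal_mul, h3]
  nlinarith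

theorem sa (hE : IsNormalExp M A E) (hm : m ∈ M) (hs : IsSelfAdjoint m) : star (E m) = E m := by
  have h := (IsSelfAdjoint.of_nonneg (hE.pos _ (sub_mem (smul_mem_M (one_mem M) _) hm) (shift hs))).star_eq
  simpa [hE.one] using h

theorem split (m : H →L[ℂ] H) : m = (1 / 2 : ℂ) • (m + star m) +
    (-Complex.I / 2) • (Complex.I • (m - star m)) := by
  rw [smul_smul, div_mul_eq_mul_div, neg_mul, Complex.I_mul_I]
  module

theorem star' (hE : IsNormalExp M A E) (hm : m ∈ M) : E (star m) = star (E m) := by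
  have h1 := sa hE (add_mem hm (star_mem hm)) (by simp [IsSelfAdjoint, add_comm])
  have h2 := sa hE (smul_mem_M (sub_mem hm (star_mem hm)) Complex.I)
    (by simp [IsSelfAdjoint, ← smul_neg])
  rw [map_add, star_add] at h1
  rw [map_smul, map_sub, star_smul, star_sub, Complex.star_def, Complex.conj_I, neg_smul,
    ← smul_neg, neg_sub] at h2
  have h3 := smul_right_injective _ Complex.I_ne_zero h2
  have h4 : (2 : ℂ) • star (E m) = (2 : ℂ) • E (star m) := by
    rw [two_smul, two_smul]
    calc star (E m) + star (E m) = (star (E m) + star (E (star m))) - (star (E (star m)) - star (E m)) := by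
          abel
      _ = _ := by rw [h1, h3]; abel
  exact (smul_right_injective _ two_ne_zero h4).symm

theorem fixu (hA : IsMASA M A) (u : NG M A) {c : H →L[ℂ] H} (hc : c ∈ A) {D : (H →L[ℂ] H) → H →L[ℂ] H}
    (e : D (op u) = c) (h1 : ∀ a ∈ A, D (a * op u) = a * c) (h2 : ∀ a ∈ A, D (op u * a) = c * a)
    (h3 : ∀ a ∈ A, D a = a) : op u * (star c * c) = c := by
  have u1 : op u * star (op u) = 1 := Unitary.mul_star_self_of_mem (op_norm u).2.1
  have u2 : star (op u) * op u = 1 := Unitary.star_mul_self_of_mem (op_norm u).2.1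
  have cj : ∀ a ∈ A, op u * a * star (op u) ∈ A := (mem_norm.1 (op_norm u)).2.2.1
  have k1 : ∀ a ∈ A, c * a = op u * a * star (op u) * c := fun a ha => by
    rw [← h2 a ha, ← h1 _ (cj a ha), mul_assoc, u2, mul_one]
  have k2 : star c * op u ∈ A := comm_mem hA (mul_mem (hA.1 _ (star_mem hc)) (op_mem u)) fun a ha => by
    have := congrArg star (k1 _ (star_mem ha))
    simp only [star_mul, star_star] at this
    rw [← mul_assoc, this]
    simp only [mul_assoc, u2, mul_one]
  have k3 : star c * c = star c * op u := by rw [← h1 _ (star_mem hc), h3 _ k2]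
  have k4 : star c * c = star (op u) * c := by simpa using congrArg star k3
  rw [k4, ← mul_assoc, u1, one_mul]

theorem conj_op (hA : IsMASA M A) (hE : IsNormalExp M A E) (w u : NG M A) :
    E (op w * op u * star (op w)) = op w * E (op u) * star (op w) := by
  have u1 : op w * star (op w) = 1 := Unitary.mul_star_self_of_mem (op_norm w).2.1
  have u2 : star (op w) * op w = 1 := Unitary.star_mul_self_of_mem (op_norm w).2.1
  have c1 : ∀ a ∈ A, op w * a * star (op w) ∈ A := (mem_norm.1 (op_norm w)).2.2.1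
  have c2 : ∀ a ∈ A, star (op w) * a * op w ∈ A := (mem_norm.1 (op_norm w)).2.2.2
  have cm : ∀ m ∈ M, op w * m * star (op w) ∈ M := fun m hm =>
    mul_mem (mul_mem (op_mem w) hm) (star_mem (op_mem w))
  let D : (H →L[ℂ] H) → H →L[ℂ] H := fun m => star (op w) * E (op w * m * star (op w)) * op w
  have un : ∀ a : H →L[ℂ] H, star (op w) * (op w * a) = a := fun a => by rw [← mul_assoc, u2, one_mul]
  have d1 : ∀ a ∈ A, D (a * op u) = a * D (op u) := fun a ha => by
    have : op w * (a * op u) * star (op w) = op w * a * star (op w) * (op w * op u * star (op w)) := by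
      simp only [mul_assoc, un]
    simp only [D]
    rw [this, left hE (c1 a ha) (cm _ (op_mem u))]
    simp only [mul_assoc, un]
  have d2 : ∀ a ∈ A, D (op u * a) = D (op u) * a := fun a ha => by
    have : op w * (op u * a) * star (op w) = op w * op u * star (op w) * (op w * a * star (op w)) := by
      simp only [mul_assoc, un]
    simp only [D]
    rw [this, right hE (c1 a ha) (cm _ (op_mem u))]
    simp only [mul_assoc, u2, mul_one]
  have d3 : ∀ a ∈ A, D a = a := fun a ha => by
    simp only [D]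
    rw [self hE (c1 a ha)]
    simp only [mul_assoc, un, u2, mul_one]
  have a1 := hE.mem _ (op_mem u)
  have a2 : D (op u) ∈ A := c2 _ (hE.mem _ (cm _ (op_mem u)))
  have f1 := fixu hA u a1 (D := E) rfl (fun a ha => left hE ha (op_mem u))
    (fun a ha => right hE ha (op_mem u)) fun a ha => self hE ha
  have f2 := fixu hA u a2 rfl d1 d2 d3
  have b1 := mul_mem (star_mem a1) a1
  have b2 := mul_mem (star_mem a2) a2
  have g1 := d2 _ b1
  have g2 := right hE b2 (op_mem u)
  rw [f1, d3 _ a1] at g1
  rw [f2, self hE a2] at g2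
  have e : D (op u) = E (op u) := by
    rw [g2]
    conv_rhs => rw [g1]
    conv_lhs => lhs; rw [← f1]
    conv_rhs => lhs; rw [← f2]
    rw [mul_assoc, mul_assoc (op u), hA.2.1 _ b1 _ b2]
  rw [← e]
  simp only [D, ← mul_assoc, u1, one_mul]
  rw [mul_assoc _ (op w), u1, mul_one]

theorem conj_sa (hA : IsMASA M A) (hR : IsRegular M A) (hE : IsNormalExp M A E) (w : NG M A)
    (hm : m ∈ M) (hs : IsSelfAdjoint m) (hn : ‖m‖ ≤ 1) :
    E (op w * m * star (op w)) = op w * E m * star (op w) := by
  have sp : ∀ y ∈ spanG (⊤ : Subgroup (NG M A)),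
      E (op w * y * star (op w)) = op w * E y * star (op w) := fun y hy => by
    replace hy := mem_spanG.1 hy
    induction hy using Submodule.span_induction with
    | mem _ h => obtain ⟨u, rfl⟩ := h; exact conj_op hA hE w u
    | zero => simp
    | add _ _ _ _ h1 h2 => simp only [mul_add, add_mul, map_add, h1, h2]
    | smul c _ _ h => simp only [mul_smul_comm, smul_mul_assoc, map_smul, h]
  have wn : ‖op w‖ ≤ 1 := by
    have := CStarRing.norm_star_mul_self (x := op w)
    rw [Unitary.star_mul_self_of_mem (op_norm w).2.1] at this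
    nlinarith [norm_nonneg (op w), ContinuousLinearMap.norm_id_le (𝕜 := ℂ) (E := H),
      show ‖(1 : H →L[ℂ] H)‖ = ‖ContinuousLinearMap.id ℂ H‖ from rfl]
  refine sub_eq_zero.1 (ContinuousLinearMap.coe_injective ((inner_map_self_eq_zero _).1 fun ξ => ?_))
  rw [← inner_conj_symm, map_eq_zero]
  refine norm_eq_zero.1 (le_antisymm (le_of_forall_pos_le_add fun ε hε => ?_) (norm_nonneg _))
  obtain ⟨F, δ, δ0, hF⟩ := hE.normal ξ (ε / 4) (by positivity)
  obtain ⟨F', δ', δ0', hF'⟩ := hE.normal (star (op w) ξ) (ε / 4) (by positivity)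
  obtain ⟨y, y1, -, y3, y4⟩ := kaplansky (mem_bicomm hR hm) hs hn
    (F.image (fun ζ => star (op w) ζ) ∪ F') (lt_min δ0 δ0')
  have dM : (1 / 2 : ℂ) • (m - y) ∈ M := smul_mem_M (sub_mem hm (spanG_le y1)) _
  have dn : ‖(1 / 2 : ℂ) • (m - y)‖ ≤ 1 := by
    have := norm_sub_le m y
    rw [norm_smul]
    norm_num
    linarith
  have dv : ∀ ζ, ‖((1 / 2 : ℂ) • (m - y)) ζ‖ ≤ ‖(m - y) ζ‖ := fun ζ => by
    rw [ContinuousLinearMap.smul_apply, norm_smul]
    norm_num
    linarith [norm_nonneg (m ζ - y ζ)]
  have e : E (op w * m * star (op w)) - op w * E m * star (op w) =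
      (2 : ℂ) • (E (op w * ((1 / 2 : ℂ) • (m - y)) * star (op w)) -
        op w * E ((1 / 2 : ℂ) • (m - y)) * star (op w)) := by
    simp only [mul_smul_comm, smul_mul_assoc, map_smul, mul_sub, sub_mul, map_sub, sp y y1]
    module
  generalize (1 / 2 : ℂ) • (m - y) = d at dM dn dv e
  have k1 := hF (op w * d * star (op w)) (mul_mem (mul_mem (op_mem w) dM) (star_mem (op_mem w)))
    ((norm_mul_le _ _).trans (mul_le_one₀ ((norm_mul_le _ _).trans (mul_le_one₀ wn (norm_nonneg _) dn))
      (norm_nonneg _) (by rwa [norm_star]))) fun ζ hζ =>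
      (((op w).le_opNorm _).trans ((mul_le_of_le_one_left (norm_nonneg _) wn).trans (dv _))).trans_lt
        ((y4 _ (Finset.mem_union_left _ (Finset.mem_image_of_mem _ hζ))).trans_le (min_le_left _ _))
  have k2 := hF' d dM dn fun ζ hζ =>
    (dv ζ).trans_lt ((y4 _ (Finset.mem_union_right _ hζ)).trans_le (min_le_right _ _))
  rw [inner_star_left] at k2
  have k3 := norm_sub_le ⟪ξ, E (op w * d * star (op w)) ξ⟫_ℂ ⟪ξ, op w (E d (star (op w) ξ))⟫_ℂ
  change ‖⟪ξ, (E (op w * m * star (op w)) - op w * E m * star (op w)) ξ⟫_ℂ‖ ≤ 0 + ε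
  rw [e, ContinuousLinearMap.smul_apply, inner_smul_right, norm_mul, ContinuousLinearMap.sub_apply,
    inner_sub_right]
  simp only [Complex.norm_ofNat, ContinuousLinearMap.mul_apply]
  linarith

theorem conj1 (hA : IsMASA M A) (hR : IsRegular M A) (hE : IsNormalExp M A E) (w : NG M A)
    (hm : m ∈ M) (hs : IsSelfAdjoint m) : E (op w * m * star (op w)) = op w * E m * star (op w) := by
  have t0 : 0 < ‖m‖ + 1 := by positivity
  have := conj_sa hA hR hE w (smul_mem_M hm (((‖m‖ + 1)⁻¹ : ℝ) : ℂ))
    (by rw [IsSelfAdjoint, star_smul, hs.star_eq]; simp) (by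
      rw [norm_smul, Complex.norm_real, Real.norm_of_nonneg (by positivity), inv_mul_le_iff₀ t0]
      linarith)
  simp only [mul_smul_comm, smul_mul_assoc, map_smul] at this
  exact smul_right_injective _ (Complex.ofReal_ne_zero.2 (inv_ne_zero t0.ne')) this

end CEx

open CEx

theorem IsNormalExp.ks (hA : IsMASA M A) (hE : IsNormalExp M A E) {m : H →L[ℂ] H} (hm : m ∈ M) :
    star (E m) * E m ≤ E (star m * m) := by
  have a1 := hE.mem m hm
  have d := sub_mem hm (hA.1 _ a1)
  have h := hE.pos _ (mul_mem (star_mem d) d) (star_mul_self_nonneg _)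
  rw [star_sub, sub_mul, mul_sub, mul_sub, map_sub, map_sub, map_sub, right hE a1 (star_mem hm),
    star' hE hm, left hE (star_mem a1) hm, self hE (mul_mem (star_mem a1) a1), sub_self, sub_zero] at h
  exact sub_nonneg.1 h

theorem isE (hA : IsMASA M A) (hR : IsRegular M A) (hE : IsNormalExp M A E) : IsE M A 0 E := by
  refine ⟨hE.mem, fun m _ => by simp [tau], fun m hm => ?_, fun m _ => by simp, hE.pos,
    fun m _ m' _ => map_add E m m', fun m _ c => map_smul E c m, fun m hm => star' hE hm,
    fun a ha m hm => left hE ha hm, fun a ha m hm => right hE ha hm, fun a ha => self hE ha,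
    fun w m hm => ?_⟩
  · have mm := mul_mem (star_mem hm) hm
    have h1 := hE.pos _ (sub_mem (smul_mem_M (one_mem M) _) mm) (shift (IsSelfAdjoint.star_mul_self m))
    rw [map_sub, map_smul, hE.one] at h1
    have h2 := CStarAlgebra.norm_le_norm_of_nonneg_of_le (star_mul_self_nonneg (E m))
      ((hE.ks hA hm).trans (sub_nonneg.1 h1))
    rw [norm_smul, CStarRing.norm_star_mul_self, CStarRing.norm_star_mul_self, Complex.norm_real,
      Real.norm_of_nonneg (by positivity)] at h2
    exact (mul_self_le_mul_self_iff (norm_nonneg _) (norm_nonneg _)).2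
      (h2.trans (mul_le_of_le_one_right (by positivity) ContinuousLinearMap.norm_id_le))
  · have h1 := conj1 hA hR hE w (add_mem hm (star_mem hm)) (by simp [IsSelfAdjoint, add_comm])
    have h2 := conj1 hA hR hE w (smul_mem_M (sub_mem hm (star_mem hm)) Complex.I)
      (by simp [IsSelfAdjoint, ← smul_neg])
    rw [split m]
    generalize m + star m = a at h1
    generalize Complex.I • (m - star m) = b at h2
    simp only [mul_add, add_mul, mul_smul_comm, smul_mul_assoc, map_add, map_smul, h1, h2]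

end Vale.Agent.P078
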