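import Vale.Agent.P078.Stab

/-!
Cluster expansion of the root sums.

PLAN. `Lam h = Σ_n h.coeff n * p n`, `p n` the power sums of the roots. The coefficients of `ep` are
`e j U = Σ_{T ⊆ U, card T = j} b T`, `b T = re (co T)/Π kap`; Newton's identities (`MvPolynomial.psum_eq_mul_esymm_sub_sum`,
or the logarithmic derivative) express `p n` as a universal polynomial in `e 1 .. e n` (and `p 0 = card U`).
Call `f` of degree `≤ j` if `f U = Σ_{W ⊆ U} a W` with `a W = 0` for `card W > j`; this is closed under sums, and degrees add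
under products (`1_{W ⊆ U} 1_{W' ⊆ U} = 1_{W ∪ W' ⊆ U}`); then `mob f = a`. `mob_disc`: `co (T₁ ∪ T₂) = co T₁ * co T₂`
(block diagonal determinants, colourings split), so `ep (U₁ ∪ U₂) = ep U₁ * ep U₂`, `Lam` is additive, and the Moebius transform
of an additive function vanishes (`Finset.sum_powerset_neg_one_pow_card`). `mob_small`: the sets `W ∩ R j` increase
strictly until they are `W` (otherwise `mob_disc`). `Lam_gauge`: `co` is invariant (reindex, diagonal conjugation).
`Lam_cont`: `co` is continuous in the entries, then Newton.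
-/

open Finset Polynomial
open scoped Classical ComplexConjugate

namespace Vale.Agent.P078

variable {V : Type*} {r : ℕ} {k : V → V → ℂ} {U W : Finset V} {σ : V → Option (Fin r)} {h : ℝ[X]}

theorem mob_insert (f : Finset V → ℝ) {v : V} (hv : v ∉ W) :
    mob f (insert v W) = mob (fun W' => f (insert v W')) W - mob f W := by
  unfold mob
  rw [sum_powerset_insert hv, card_insert_of_notMem hv, sub_eq_neg_add, ← sum_neg_distrib]
  congr 1
  · refine sum_congr rfl fun W' hW' => ?_
    rw [Nat.sub_add_comm (card_le_card (mem_powerset.1 hW')), pow_succ]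
    ring
  · refine sum_congr rfl fun W' hW' => ?_
    rw [card_insert_of_notMem fun h => hv (mem_powerset.1 hW' h), Nat.add_sub_add_right]

theorem mob_sum (f : Finset V → ℝ) (U : Finset V) : ∑ W ∈ U.powerset, mob f W = f U := by
  induction U using Finset.induction_on generalizing f with
  | empty => simp [mob]
  | insert v U hv ih =>
    rw [sum_powerset_insert hv, sum_congr rfl fun W hW =>
      mob_insert f (fun h => hv (mem_powerset.1 hW h)), sum_sub_distrib, ih, ih]
    ring

theorem mob_congr {f g : Finset V → ℝ} (hfg : ∀ W' ⊆ W, f W' = g W') : mob f W = mob g W :=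
  sum_congr rfl fun W' hW' => by rw [hfg W' (mem_powerset.1 hW')]

/-- A function that does not see the point `v ∈ W` has no cluster term at `W`. -/
theorem mob_blind {f : Finset V → ℝ} {v : V} (hv : v ∈ W)
    (hf : ∀ W' ⊆ W.erase v, f (insert v W') = f W') : mob f W = 0 := by
  rw [← insert_erase hv, mob_insert f (notMem_erase v W), mob_congr hf, sub_self]

theorem mob_add (f g : Finset V → ℝ) (W : Finset V) :
    mob (fun U => f U + g U) W = mob f W + mob g W := by
  simp [mob, mul_add, sum_add_distrib]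

theorem mob_zeta (a : Finset V → ℝ) (W : Finset V) :
    mob (fun U => ∑ T ∈ U.powerset, a T) W = a W := by
  induction W using Finset.induction_on generalizing a with
  | empty => simp [mob]
  | insert v W hv ih =>
    rw [mob_insert _ hv, mob_congr (g := fun U => ∑ T ∈ U.powerset, a T +
      ∑ T ∈ U.powerset, a (insert v T)) fun U hU => sum_powerset_insert (fun h => hv (hU h)) a,
      mob_add, ih, ih]
    ring

theorem Lam_empty : Lam h σ k ∅ = 0 := by
  have h1 := card_roots' (ep σ k ∅)
  rw [(ep_monic σ k ∅).2, card_empty, Nat.le_zero, Multiset.card_eq_zero] at h1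
  simp [Lam, rs, h1]

/-- Set functions of degree at most `n` below `W`. -/
def LowDeg (W : Finset V) (n : ℕ) (f : Finset V → ℝ) : Prop :=
  ∃ a : Finset V → ℝ, (∀ T, n < T.card → a T = 0) ∧ ∀ U ⊆ W, f U = ∑ T ∈ U.powerset, a T

theorem LowDeg.mono {n m : ℕ} {f : Finset V → ℝ} (hf : LowDeg W n f) (hnm : n ≤ m) :
    LowDeg W m f := by
  obtain ⟨a, h1, h2⟩ := hf
  exact ⟨a, fun T hT => h1 T (by omega), h2⟩

theorem LowDeg.congr {n : ℕ} {f g : Finset V → ℝ} (hf : LowDeg W n f) (hg : ∀ U ⊆ W, g U = f U) :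
    LowDeg W n g := by
  obtain ⟨a, h1, h2⟩ := hf
  exact ⟨a, h1, fun U hU => (hg U hU).trans (h2 U hU)⟩

theorem LowDeg.smul {n : ℕ} {f : Finset V → ℝ} (hf : LowDeg W n f) (c : ℝ) :
    LowDeg W n fun U => c * f U := by
  obtain ⟨a, h1, h2⟩ := hf
  exact ⟨fun T => c * a T, fun T hT => by simp [h1 T hT], fun U hU => by simp only [h2 U hU, mul_sum]⟩

theorem LowDeg.add {n : ℕ} {f g : Finset V → ℝ} (hf : LowDeg W n f) (hg : LowDeg W n g) :
    LowDeg W n fun U => f U + g U := by
  obtain ⟨a, h1, h2⟩ := hf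
  obtain ⟨b, h3, h4⟩ := hg
  exact ⟨fun T => a T + b T, fun T hT => by simp [h1 T hT, h3 T hT],
    fun U hU => by simp only [h2 U hU, h4 U hU, sum_add_distrib]⟩

theorem LowDeg.sum {ι : Type*} {n : ℕ} {s : Finset ι} {f : ι → Finset V → ℝ}
    (hf : ∀ i ∈ s, LowDeg W n (f i)) : LowDeg W n fun U => ∑ i ∈ s, f i U := by
  induction s using Finset.induction_on with
  | empty => exact ⟨0, fun _ _ => rfl, fun U _ => by simp⟩
  | insert i s hi ih =>
    exact ((hf i (mem_insert_self _ _)).add (ih fun j hj => hf j (mem_insert_of_mem hj))).congr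
      fun U _ => sum_insert hi

theorem LowDeg.mul {n m : ℕ} {f g : Finset V → ℝ} (hf : LowDeg W n f) (hg : LowDeg W m g) :
    LowDeg W (n + m) fun U => f U * g U := by
  obtain ⟨a, h1, h2⟩ := hf
  obtain ⟨b, h3, h4⟩ := hg
  refine ⟨fun T => ∑ p ∈ (T.powerset ×ˢ T.powerset) with p.1 ∪ p.2 = T, a p.1 * b p.2,
    fun T hT => sum_eq_zero fun p hp => ?_, fun U hU => ?_⟩
  · have h5 := card_union_le p.1 p.2
    rw [(mem_filter.1 hp).2] at h5
    rcases lt_or_ge n p.1.card with h6 | h6
    · rw [h1 _ h6, zero_mul]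
    · rw [h3 _ (by omega), mul_zero]
  · simp only
    rw [h2 U hU, h4 U hU, sum_mul_sum, ← sum_product',
      ← sum_fiberwise_of_maps_to (t := U.powerset) (g := fun p : Finset V × Finset V => p.1 ∪ p.2)]
    · refine sum_congr rfl fun T hT => sum_congr ?_ fun _ _ => rfl
      ext p
      simp only [mem_filter, mem_product, mem_powerset] at hT ⊢
      constructor
      · rintro ⟨-, rfl⟩
        exact ⟨⟨subset_union_left, subset_union_right⟩, rfl⟩
      · rintro ⟨-, rfl⟩
        exact ⟨⟨subset_union_left.trans hT, subset_union_right.trans hT⟩, rfl⟩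
    · intro p hp
      simp only [mem_product, mem_powerset] at hp ⊢
      exact union_subset hp.1 hp.2

theorem LowDeg.mob_zero {n : ℕ} {f : Finset V → ℝ} (hf : LowDeg W n f) (hn : n < W.card) :
    mob f W = 0 := by
  obtain ⟨a, h1, h2⟩ := hf
  rw [mob_congr h2, mob_zeta, h1 W hn]

/-- The coefficients of `ep`. -/
noncomputable def ej (σ : V → Option (Fin r)) (k : V → V → ℂ) (j : ℕ) (U : Finset V) : ℝ :=
  ∑ T ∈ U.powerset, if T.card = j then (co σ k T).re / ∏ v ∈ T, kap (σ v) else 0

/-- The power sums of the roots of `ep`. -/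
noncomputable def ps (σ : V → Option (Fin r)) (k : V → V → ℂ) (n : ℕ) (U : Finset V) : ℝ :=
  ((ep σ k U).roots.map fun s => s ^ n).sum

theorem Lam_eq (h : ℝ[X]) (σ : V → Option (Fin r)) (k : V → V → ℂ) (U : Finset V) :
    Lam h σ k U = ∑ n ∈ range (h.natDegree + 1), h.coeff n * ps σ k n U := by
  unfold Lam rs ps
  induction (ep σ k U).roots using Multiset.induction_on with
  | empty => simp
  | cons a s ih =>
    simp only [Multiset.map_cons, Multiset.sum_cons, ih, mul_add, sum_add_distrib]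
    rw [eval_eq_sum_range]

theorem ej_eq (hr : 0 < r) (hk : Good k U) (j : ℕ) :
    (ep σ k U).roots.esymm j = (-1) ^ j * ej σ k j U := by
  have h1 := ep_real (σ := σ) hr hk
  obtain ⟨h2, h3⟩ := ep_monic σ k U
  rcases le_or_gt j U.card with hj | hj
  · have h4 := coeff_eq_esymm_roots_of_card (h1.trans h3.symm) (k := U.card - j)
      (by rw [h3]; omega)
    rw [h3, h2.leadingCoeff, one_mul, Nat.sub_sub_self hj] at h4
    have h5 : (ep σ k U).coeff (U.card - j) = ej σ k j U := by
      unfold ep ej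
      rw [finsetSum_coeff]
      refine sum_congr rfl fun T hT => ?_
      have := card_le_card (mem_powerset.1 hT)
      rw [coeff_C_mul_X_pow]
      exact if_congr (by omega) rfl rfl
    rw [← h5, h4, ← mul_assoc, ← mul_pow]
    simp
  · have h5 : ej σ k j U = 0 := sum_eq_zero fun T hT => by
      have := card_le_card (mem_powerset.1 hT)
      rw [if_neg (by omega)]
    rw [h5, mul_zero, Multiset.esymm, Multiset.powersetCard_eq_empty _ (by omega)]
    simp

theorem newton (s : Multiset ℝ) {n : ℕ} (hn : 0 < n) :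
    (s.map fun x => x ^ n).sum = (-1) ^ (n + 1) * n * s.esymm n -
      ∑ a ∈ antidiagonal n with a.1 ∈ Set.Ioo 0 n,
        (-1) ^ a.1 * s.esymm a.1 * (s.map fun x => x ^ a.2).sum := by
  obtain ⟨l, rfl⟩ := Quot.exists_rep s
  have e : (Quot.mk _ l : Multiset ℝ) = (univ : Finset (Fin l.length)).val.map l.get := by
    rw [Fin.univ_val_map, List.ofFn_get]
    rfl
  have hp : ∀ m : ℕ, (((univ : Finset (Fin l.length)).val.map l.get).map fun x => x ^ m).sum =
      MvPolynomial.aeval l.get (MvPolynomial.psum (Fin l.length) ℝ m) := fun m => by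
    rw [MvPolynomial.psum, map_sum, Multiset.map_map]
    simp only [map_pow, MvPolynomial.aeval_X]
    rfl
  rw [e]
  simp only [hp, ← MvPolynomial.aeval_esymm_eq_multiset_esymm (Fin l.length) ℝ]
  rw [MvPolynomial.psum_eq_mul_esymm_sub_sum _ _ n hn]
  simp only [map_sub, map_mul, map_sum, map_pow, map_neg, map_one, map_natCast]

theorem ps_rec (hr : 0 < r) (hk : Good k U) {n : ℕ} (hn : 0 < n) :
    ps σ k n U = -(n : ℝ) * ej σ k n U + (-1) *
      ∑ a ∈ antidiagonal n with a.1 ∈ Set.Ioo 0 n, ej σ k a.1 U * ps σ k a.2 U := by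
  have e : ∀ j : ℕ, (-1 : ℝ) ^ j * (-1) ^ j = 1 := fun j => by rw [← mul_pow]; simp
  unfold ps
  rw [newton _ hn, ej_eq hr hk, sub_eq_add_neg, neg_one_mul]
  congr 1
  · rw [pow_succ]
    linear_combination (-(n : ℝ) * ej σ k n U) * e n
  · congr 1
    refine sum_congr rfl fun a _ => ?_
    rw [ej_eq hr hk, ← mul_assoc, e, one_mul]

theorem ps_zero (hr : 0 < r) (hk : Good k U) : ps σ k 0 U = U.card := by
  simp [ps, ep_real hr hk]

theorem lowDeg_ej (j : ℕ) : LowDeg W j (ej σ k j) :=
  ⟨_, fun T hT => if_neg (by omega), fun _ _ => rfl⟩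

theorem lowDeg_ps (hr : 0 < r) (hk : Good k W) (n : ℕ) (hn : 0 < n) : LowDeg W n (ps σ k n) := by
  induction n using Nat.strong_induction_on with
  | _ n ih =>
    refine (((lowDeg_ej n).smul (-(n : ℝ))).add (LowDeg.smul (LowDeg.sum fun a ha => ?_) (-1))).congr
      fun U hU => ps_rec hr (hk.mono hU) hn
    obtain ⟨h1, h2, h3⟩ := mem_filter.1 ha
    rw [HasAntidiagonal.mem_antidiagonal] at h1
    exact ((lowDeg_ej a.1).mul (ih a.2 (by omega) (by omega))).mono h1.le

theorem mob_deg (hr : 0 < r) (hk : Good k W) (hW : h.natDegree + 1 < W.card) :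
    mob (Lam h σ k) W = 0 := by
  refine LowDeg.mob_zero (LowDeg.congr (LowDeg.sum fun n hn => LowDeg.smul ?_ _)
    fun U _ => Lam_eq h σ k U) hW
  rcases Nat.eq_zero_or_pos n with rfl | h0
  · refine ⟨fun T => if T.card = 1 then 1 else 0, fun T hT => if_neg (by omega), fun U hU => ?_⟩
    rw [ps_zero hr (hk.mono hU), ← sum_filter, ← powersetCard_eq_filter]
    simp
  · exact (lowDeg_ps hr hk n h0).mono (mem_range.1 hn).le

/-- `co` over a finite type. -/
noncomputable def coF {ι : Type*} [Fintype ι] [DecidableEq ι] (σ : ι → Option (Fin r))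
    (k : ι → ι → ℂ) : ℂ :=
  ∑ c : ι → Fin r, (∏ a, wt (σ a) (c a)) *
    (Matrix.of fun a b : ι => -(if c a = c b then k a b else 0)).det

theorem co_eq (σ : V → Option (Fin r)) (k : V → V → ℂ) (T : Finset V) :
    co σ k T = coF (fun a : T => σ a) fun a b : T => k a b := rfl

theorem coF_equiv {ι ι' : Type*} [Fintype ι] [DecidableEq ι] [Fintype ι'] [DecidableEq ι']
    (e : ι ≃ ι') (σ : ι' → Option (Fin r)) (k : ι' → ι' → ℂ) :
    coF σ k = coF (fun a => σ (e a)) fun a b => k (e a) (e b) := by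
  unfold coF
  rw [← (e.arrowCongr (Equiv.refl (Fin r))).symm.sum_comp]
  refine sum_congr rfl fun c _ => ?_
  rw [← e.prod_comp, ← Matrix.det_submatrix_equiv_self e]
  rfl

theorem coF_sum {ι ι' : Type*} [Fintype ι] [DecidableEq ι] [Fintype ι'] [DecidableEq ι']
    (σ : ι ⊕ ι' → Option (Fin r)) (k : ι ⊕ ι' → ι ⊕ ι' → ℂ)
    (hk : ∀ a b, k (Sum.inl a) (Sum.inr b) = 0) :
    coF σ k = coF (fun a => σ (Sum.inl a)) (fun a b => k (Sum.inl a) (Sum.inl b)) *
      coF (fun a => σ (Sum.inr a)) fun a b => k (Sum.inr a) (Sum.inr b) := by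
  unfold coF
  rw [sum_mul_sum, ← Fintype.sum_prod_type', ← (Equiv.sumArrowEquivProdArrow ι ι' (Fin r)).sum_comp]
  refine sum_congr rfl fun c _ => ?_
  have e : (Matrix.of fun a b : ι ⊕ ι' => -(if c a = c b then k a b else 0)) =
      Matrix.fromBlocks
        (Matrix.of fun a b : ι => -(if c (Sum.inl a) = c (Sum.inl b) then k (Sum.inl a) (Sum.inl b) else 0)) 0
        (Matrix.of fun a b => -(if c (Sum.inr a) = c (Sum.inl b) then k (Sum.inr a) (Sum.inl b) else 0))
        (Matrix.of fun a b : ι' =>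
          -(if c (Sum.inr a) = c (Sum.inr b) then k (Sum.inr a) (Sum.inr b) else 0)) := by
    ext (a | a) (b | b) <;> simp [hk]
  rw [e, Matrix.det_fromBlocks_zero₁₂, Fintype.prod_sum_type]
  exact mul_mul_mul_comm _ _ _ _

theorem coF_gauge {ι : Type*} [Fintype ι] [DecidableEq ι] (σ : ι → Option (Fin r))
    (k : ι → ι → ℂ) {θ : ι → ℂ} (hθ : ∀ a, ‖θ a‖ = 1) :
    coF σ (fun a b => conj (θ a) * θ b * k a b) = coF σ k := by
  unfold coF
  refine sum_congr rfl fun c _ => ?_
  have e : (Matrix.of fun a b : ι => -(if c a = c b then conj (θ a) * θ b * k a b else 0)) =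
      Matrix.diagonal (fun a => conj (θ a)) *
        (Matrix.of fun a b : ι => -(if c a = c b then k a b else 0)) * Matrix.diagonal θ := by
    ext a b
    rw [Matrix.mul_diagonal, Matrix.diagonal_mul]
    simp only [Matrix.of_apply]
    split_ifs <;> ring
  have e2 : (∏ a, conj (θ a)) * ∏ a, θ a = 1 := by
    rw [← prod_mul_distrib]
    refine prod_eq_one fun a _ => ?_
    rw [Complex.conj_mul', hθ a]
    simp
  rw [e, Matrix.det_mul, Matrix.det_mul, Matrix.det_diagonal, Matrix.det_diagonal]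
  linear_combination ((∏ a, wt (σ a) (c a)) *
    (Matrix.of fun a b : ι => -(if c a = c b then k a b else 0)).det) * e2

theorem co_union {T₁ T₂ : Finset V} (hd : Disjoint T₁ T₂) (h4 : ∀ a ∈ T₁, ∀ b ∈ T₂, k a b = 0) :
    co σ k (T₁ ∪ T₂) = co σ k T₁ * co σ k T₂ := by
  rw [co_eq, coF_equiv (Equiv.Finset.union T₁ T₂ hd)]
  exact coF_sum _ _ fun (a : T₁) (b : T₂) => h4 a a.2 b b.2

theorem ep_union {U₁ U₂ : Finset V} (hk : Good k U₂) (hd : Disjoint U₁ U₂)
    (h4 : ∀ a ∈ U₁, ∀ b ∈ U₂, k a b = 0) :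
    ep σ k (U₁ ∪ U₂) = ep σ k U₁ * ep σ k U₂ := by
  unfold ep
  rw [sum_mul_sum, ← sum_product']
  symm
  refine sum_bij' (fun p _ => p.1 ∪ p.2) (fun T _ => (T ∩ U₁, T ∩ U₂)) ?_ ?_ ?_ ?_ ?_
  · intro p hp
    simp only [mem_product, mem_powerset] at hp ⊢
    exact union_subset_union hp.1 hp.2
  · intro T _
    simp only [mem_product, mem_powerset]
    exact ⟨inter_subset_right, inter_subset_right⟩
  · intro p hp
    simp only [mem_product, mem_powerset] at hp
    have h1 := disjoint_left.1 hd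
    refine Prod.ext ?_ ?_ <;> ext a <;> simp only [mem_inter, mem_union]
    · exact ⟨fun h => h.1.resolve_right fun h' => h1 h.2 (hp.2 h'), fun h => ⟨Or.inl h, hp.1 h⟩⟩
    · exact ⟨fun h => h.1.resolve_left fun h' => h1 (hp.1 h') h.2, fun h => ⟨Or.inr h, hp.2 h⟩⟩
  · intro T hT
    simp only
    rw [← inter_union_distrib_left, inter_eq_left.2 (mem_powerset.1 hT)]
  · intro p hp
    simp only [mem_product, mem_powerset] at hp
    have hd' : Disjoint p.1 p.2 := hd.mono hp.1 hp.2
    have h1 := card_le_card hp.1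
    have h2 := card_le_card hp.2
    rw [co_union hd' fun a ha b hb => h4 a (hp.1 ha) b (hp.2 hb), Complex.mul_re,
      co_real (hk.mono hp.2), mul_zero, sub_zero, prod_union hd', card_union_of_disjoint hd,
      card_union_of_disjoint hd', show U₁.card + U₂.card - (p.1.card + p.2.card) =
        U₁.card - p.1.card + (U₂.card - p.2.card) by omega, pow_add, mul_div_mul_comm, C_mul]
    ring

theorem Lam_union {U₁ U₂ : Finset V} (hk : Good k U₂) (hd : Disjoint U₁ U₂)
    (h4 : ∀ a ∈ U₁, ∀ b ∈ U₂, k a b = 0) :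
    Lam h σ k (U₁ ∪ U₂) = Lam h σ k U₁ + Lam h σ k U₂ := by
  unfold Lam rs
  rw [ep_union hk hd h4, roots_mul ((ep_monic σ k U₁).1.mul (ep_monic σ k U₂).1).ne_zero,
    Multiset.map_add, Multiset.sum_add]

theorem mob_disc (hr : 0 < r) (hk : Good k W) {W₁ : Finset V} (h1 : W₁ ⊆ W) (h2 : W₁.Nonempty)
    (h3 : W₁ ≠ W) (h4 : ∀ a ∈ W₁, ∀ b ∈ W, b ∉ W₁ → k a b = 0 ∧ k b a = 0) :
    mob (Lam h σ k) W = 0 := by
  have _ := hr
  obtain ⟨u, hu⟩ := h2
  obtain ⟨v, hv, hv'⟩ := exists_of_ssubset (ssubset_of_subset_of_ne h1 h3)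
  rw [mob_congr (g := fun U => Lam h σ k (U ∩ W₁) + Lam h σ k (U \ W₁)) fun U hU => ?_, mob_add,
    mob_blind hv fun W' _ => by rw [insert_inter_of_notMem hv'],
    mob_blind (h1 hu) fun W' _ => by rw [insert_sdiff_of_mem _ hu], add_zero]
  rw [← Lam_union (hk.mono (sdiff_subset.trans hU)) (disjoint_sdiff_inter U W₁).symm
    fun a ha b hb => (h4 a (mem_inter.1 ha).2 b (hU (mem_sdiff.1 hb).1) (mem_sdiff.1 hb).2).1,
    union_comm, sdiff_union_inter]

theorem mob_small (hr : 0 < r) (hk : Good k W) (hne : mob (Lam h σ k) W ≠ 0) {y : V} (hy : y ∈ W)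
    {R : ℕ → Finset V} (h0 : y ∈ R 0) (hm : Monotone R)
    (hs : ∀ j, ∀ a ∈ R j, ∀ b, k b a ≠ 0 ∨ k a b ≠ 0 → b ∈ R (j + 1)) :
    W ⊆ R (h.natDegree + 1) := by
  have hc : W.card ≤ h.natDegree + 1 := not_lt.1 fun hlt => hne (mob_deg hr hk hlt)
  have key : ∀ j, W ⊆ R j ∨ j + 1 ≤ (W ∩ R j).card := by
    intro j
    induction j with
    | zero => exact Or.inr (card_pos.2 ⟨y, mem_inter.2 ⟨hy, h0⟩⟩)
    | succ j ih =>
      have hmj : R j ⊆ R (j + 1) := hm (Nat.le_succ j)
      by_cases hW : W ⊆ R j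
      · exact Or.inl (hW.trans hmj)
      have h1 := ih.resolve_left hW
      right
      by_contra hlt
      have h2 : W ∩ R j = W ∩ R (j + 1) :=
        eq_of_subset_of_card_le (inter_subset_inter_left hmj) (by omega)
      refine hne (mob_disc hr hk (W₁ := W ∩ R j) inter_subset_left (card_pos.1 (by omega))
        (fun h => hW (inter_eq_left.1 h)) fun a ha b hb hb' => ?_)
      by_contra hab
      refine hb' ?_
      rw [h2]
      refine mem_inter.2 ⟨hb, hs j a (mem_inter.1 ha).2 b ?_⟩
      tauto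
  refine (key _).resolve_right fun h1 => ?_
  have := card_le_card (inter_subset_left : W ∩ R (h.natDegree + 1) ⊆ W)
  omega

theorem Lam_gauge {V' : Type*} {k' : V' → V' → ℂ} {σ' : V' → Option (Fin r)} {e : V → V'}
    (he : Set.InjOn e U) {θ : V → ℂ} (hθ : ∀ a, ‖θ a‖ = 1)
    (hk : ∀ a ∈ U, ∀ b ∈ U, k' (e a) (e b) = conj (θ a) * θ b * k a b)
    (hσ : ∀ a ∈ U, σ' (e a) = σ a) : Lam h σ' k' (U.image e) = Lam h σ k U := by
  have key : ep σ' k' (U.image e) = ep σ k U := by
    unfold ep
    rw [powerset_image, sum_image, card_image_of_injOn he]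
    · refine sum_congr rfl fun T hT => ?_
      have hT' := mem_powerset.1 hT
      have heT : Set.InjOn e T := he.mono hT'
      let E : T ≃ (T.image e : Finset V') := Equiv.ofBijective
        (fun a => ⟨e a, mem_image_of_mem e a.2⟩) ⟨fun a b hab =>
          Subtype.ext (heT a.2 b.2 (congrArg Subtype.val hab)), fun b => by
            obtain ⟨a, ha, hb⟩ := mem_image.1 b.2
            exact ⟨⟨a, ha⟩, Subtype.ext hb⟩⟩
      have h1 : co σ' k' (T.image e) = co σ k T := by
        rw [co_eq, coF_equiv E, co_eq]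
        refine Eq.trans ?_ (coF_gauge _ _ (θ := fun a : T => θ a) fun a => hθ a)
        congr 1
        · funext a
          exact hσ a (hT' a.2)
        · funext a b
          exact hk a (hT' a.2) b (hT' b.2)
      rw [h1, card_image_of_injOn heT, prod_image heT,
        prod_congr rfl fun a ha => by rw [hσ a (hT' ha)]]
    · intro T hT T' hT' hTT
      have h1 : T ⊆ U := mem_powerset.1 hT
      have h2 : T' ⊆ U := mem_powerset.1 hT'
      have h3 : T.image e = T'.image e := hTT
      ext a
      constructor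
      · intro ha
        obtain ⟨b, hb, hab⟩ := mem_image.1 (h3 ▸ mem_image_of_mem e ha)
        rwa [← he (h2 hb) (h1 ha) hab]
      · intro ha
        obtain ⟨b, hb, hab⟩ := mem_image.1 (h3.symm ▸ mem_image_of_mem e ha)
        rwa [← he (h1 hb) (h2 ha) hab]
  unfold Lam
  rw [key]

theorem Lam_cont (hr : 0 < r) {Y : Type*} [TopologicalSpace Y] {κ : Y → V → V → ℂ} {N : Set Y}
    (hc : ∀ a b, Continuous fun y => κ y a b) (hg : ∀ y ∈ N, Good (κ y) U) :
    ContinuousOn (fun y => Lam h σ (κ y) U) N := by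
  have h1 : ∀ T : Finset V, Continuous fun y => co σ (κ y) T := fun T => by
    unfold co
    refine continuous_finsetSum _ fun c _ => continuous_const.mul (Continuous.matrix_det ?_)
    refine continuous_matrix fun a b => ?_
    simp only [Matrix.of_apply]
    split_ifs
    · exact (hc a b).neg
    · exact continuous_const
  have h2 : ∀ j, Continuous fun y => ej σ (κ y) j U := fun j => by
    unfold ej
    refine continuous_finsetSum _ fun T _ => ?_
    split_ifs
    · exact (Complex.continuous_re.comp (h1 T)).div_const _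
    · exact continuous_const
  have h3 : ∀ n, ContinuousOn (fun y => ps σ (κ y) n U) N := fun n => by
    induction n using Nat.strong_induction_on with
    | _ n ih =>
      rcases Nat.eq_zero_or_pos n with rfl | hn
      · exact continuousOn_const.congr fun y hy => ps_zero hr (hg y hy)
      refine ContinuousOn.congr ?_ fun y hy => ps_rec hr (hg y hy) hn
      refine (continuousOn_const.mul (h2 n).continuousOn).add (continuousOn_const.mul
        (continuousOn_finsetSum _ fun a ha => (h2 a.1).continuousOn.mul (ih a.2 ?_)))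
      obtain ⟨h4, h5, h6⟩ := mem_filter.1 ha
      rw [HasAntidiagonal.mem_antidiagonal] at h4
      omega
  simp only [Lam_eq]
  exact continuousOn_finsetSum _ fun n _ => continuousOn_const.mul (h3 n)

end Vale.Agent.P078
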