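import Vale.Agent.P078.KLemAux

/-!
The choice of a colour that does not increase the potential.

PLAN. Write `F m = rs (phi z) (X A - Bm A m) - rs (phi z) A`, `𝒜 = A.roots.toFinset`, `I₊ = {|α| > z}`, `I₋` the rest.
`lower`: `X A - Bm A m = A₁ * charpoly N`, `A = A₁ * Π_{𝒜} (X - C α)`, `N` the real symmetric arrow matrix on `Option 𝒜`
(`N none none = 0`, `N none α = √(m α)`, `N α α = α`; compare values at non-poles with the Schur complement, or expand).
For orthonormal `u i`: `Σ_j phi (r j) ≥ Σ_i Σ_j ⟨u i, v j⟩² phi (r j) ≥ Σ_i (‖N u i‖² - z²)` (Bessel, `phi ≥ 0`, `phi ≥ r² - z²`).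
Test with `e_α` (`α ∈ I₊`, `‖N e_α‖² = α² + m α`) and with `u ∝ (1, √(m α)/(± t - α) on I₋, 0 on I₊)`, for which
`‖N u‖² ≥ t² ‖u‖²` when `Σ_{I₋} m/(t ∓ α) ≥ t`.
`upper0`: `phi z s = s² - z² + max (z² - s²) 0`, `sq_sum`, and `max (z²-s²) 0 = u - v` with `u, v` monotone with values in
`[0, z²]` (`il`). `upper`: `phi z - phi t` is a monotone plus an antitone function, each with values in `[0, t² - z²]` (`il`);
for `s > t`: `s - h₋ - h₊ < 0` implies `s - 2 h₊ < 0` as `h₋(s) ≤ h₋(t) ≤ s/2`, so `count` and `dom` compare with the residues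
`2 m 1_{I₊}`; mirror for `s < -t` (apply `dom` to the negated roots); finish with `upper0` at level `t`.
`klem`: `pf`, `Bm` is linear in `m`; `s₀ = F m̄ + η`, `t = √(z²+s₀)`, `t'' = √(z²+s₀/4)`; choose `c` with
`ℓ₁/s₀ + ℓ₂/t + ℓ₃/t ≤ 3` (average); `t - α ≤ 4 (t'' - α)` for `|α| ≤ z`, `t ≤ 2 t''`; `upper` at `t''` for `m c / 48` gives
`s₀/2 + 12 s₀/48 ≤ s₀`.
-/

open Finset Polynomial
open scoped Classical

namespace Vale.Agent.P078

variable {A : ℝ[X]} {m : ℝ → ℝ} {z t : ℝ}

theorem lower (hA : A.Monic) (hr : A.roots.card = A.natDegree) (hm : ∀ α, 0 ≤ m α) (hz : 0 < z) :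
    ∑ α ∈ A.roots.toFinset with z < |α|, m α ≤ rs (phi z) (X * A - Bm A m) - rs (phi z) A ∧
      ∀ t, z < t → rs (phi z) (X * A - Bm A m) - rs (phi z) A < t ^ 2 - z ^ 2 →
        ∑ α ∈ A.roots.toFinset with |α| ≤ z, m α / (t - α) ≤ t ∧
          ∑ α ∈ A.roots.toFinset with |α| ≤ z, m α / (t + α) ≤ t := by
  rw [rs_diff hA hr hm]
  refine ⟨?_, fun t ht hF => ⟨?_, ?_⟩⟩
  · have := arrow_lower A.roots.toFinset hm hz (fun _ => 0) (fun _ _ => rfl) le_rfl (by simp)
    simpa using this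
  · by_contra hc
    have h0 : 0 < t := hz.trans ht
    have := arrow_test A.roots.toFinset hm hz (τ := t) (by rwa [abs_of_pos h0])
      (pow_le_pow_left₀ h0.le (not_le.mp hc).le 2)
    linarith
  · by_contra hc
    have h0 : 0 < t := hz.trans ht
    have e : ∑ α ∈ A.roots.toFinset with |α| ≤ z, m α / (-t - α) =
        -∑ α ∈ A.roots.toFinset with |α| ≤ z, m α / (t + α) := by
      rw [← sum_neg_distrib]
      exact sum_congr rfl fun α _ => by rw [← div_neg, neg_add']
    have := arrow_test A.roots.toFinset hm hz (τ := -t) (by rwa [abs_neg, abs_of_pos h0]) (by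
      rw [e, neg_sq, neg_sq]
      exact pow_le_pow_left₀ h0.le (not_le.mp hc).le 2)
    rw [neg_sq] at this
    linarith

theorem rs_add (f g : ℝ → ℝ) (P : ℝ[X]) : rs (fun s => f s + g s) P = rs f P + rs g P := by
  simp [rs, Multiset.sum_map_add]

theorem rs_neg (f : ℝ → ℝ) (P : ℝ[X]) : rs (fun s => -f s) P = -rs f P := by
  simp [rs, Multiset.sum_map_neg]

theorem rs_const (c : ℝ) (P : ℝ[X]) : rs (fun _ => c) P = P.roots.card * c := by
  simp [rs]

theorem mono_sq_pos : Monotone fun s : ℝ => max s 0 ^ 2 := fun _ _ h =>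
  pow_le_pow_left₀ (le_max_right _ _) (max_le_max_right _ h) 2

theorem upper0 (hA : A.Monic) (hr : A.roots.card = A.natDegree) (hm : ∀ α, 0 ≤ m α) (hz : 0 < z) :
    rs (phi z) (X * A - Bm A m) - rs (phi z) A ≤ 2 * ∑ α ∈ A.roots.toFinset, m α := by
  have hH := herg_Bm hA hr hm
  set v : ℝ → ℝ := fun s => min (max s 0 ^ 2) (z ^ 2) with hv
  have hvm : Monotone v := fun a b h => min_le_min_right _ (mono_sq_pos h)
  have hv0 : ∀ s, 0 ≤ v s := fun s => le_min (sq_nonneg _) (sq_nonneg _)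
  have hv1 : ∀ s, v s ≤ z ^ 2 := fun s => min_le_right _ _
  have e : phi z = fun s => s ^ 2 + (-v s + -v (-s)) := by
    funext s
    simp only [phi, hv]
    rcases le_total s 0 with h | h
    · rw [max_eq_right h, max_eq_left (neg_nonneg.mpr h), neg_sq,
        min_eq_left (by simpa using sq_nonneg z)]
      rcases le_total (s ^ 2) (z ^ 2) with h' | h'
      · rw [min_eq_left h', max_eq_right (by linarith)]; ring
      · rw [min_eq_right h', max_eq_left (by linarith)]; ring
    · rw [max_eq_left h, max_eq_right (neg_nonpos.mpr h),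
        min_eq_left (a := (0 : ℝ) ^ 2) (by simpa using sq_nonneg z)]
      rcases le_total (s ^ 2) (z ^ 2) with h' | h'
      · rw [min_eq_left h', max_eq_right (by linarith)]; ring
      · rw [min_eq_right h', max_eq_left (by linarith)]; ring
  have i1 := (hH.il hvm hv0 hv1).1
  have i2 := (hH.il (ψ := fun s => -v (-s)) (lo := -z ^ 2) (hi := 0)
    (fun a b h => neg_le_neg (hvm (neg_le_neg h))) (fun s => neg_le_neg (hv1 _))
    (fun s => neg_nonpos.mpr (hv0 _))).2
  have i3 := sq_sum hA hr hm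
  rw [e, rs_add, rs_add, rs_add, rs_add, rs_neg v, rs_neg v]
  linarith

theorem ab_neg {R : Multiset ℝ} {s : ℝ} (hs : -s ∉ R) :
    ab (R.map fun x => -x) s + ab R (-s) = R.card := by
  unfold ab
  rw [Multiset.filter_map, Multiset.card_map, ← Multiset.card_add]
  have : R.filter ((fun x => s < x) ∘ fun x => -x) = R.filter fun x => ¬ -s < x := by
    refine Multiset.filter_congr fun x hx => ?_
    have hne : x ≠ -s := fun h => hs (h ▸ hx)
    simp only [Function.comp, not_lt]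
    constructor
    · intro h; linarith
    · intro h
      have := lt_of_le_of_ne h hne
      linarith
  rw [this, add_comm, Multiset.filter_add_not]

theorem sum_split (T : Finset ℝ) (f : ℝ → ℝ) (z : ℝ) :
    ∑ α ∈ T, f α = ∑ α ∈ T with |α| ≤ z, f α + ∑ α ∈ T with z < |α|, f α := by
  rw [← sum_filter_add_sum_filter_not T fun α => |α| ≤ z]
  simp only [not_le]

theorem compare (hA : A.Monic) (hr : A.roots.card = A.natDegree) (hm : ∀ α, 0 ≤ m α) (hz : 0 < z)
    (ht : z < t) (h1 : ∑ α ∈ A.roots.toFinset with |α| ≤ z, m α / (t - α) ≤ t / 2)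
    (h2 : ∑ α ∈ A.roots.toFinset with |α| ≤ z, m α / (t + α) ≤ t / 2) :
    rs (phi t) (X * A - Bm A m) ≤ rs (phi t) (X * A - Bm A fun α => if z < |α| then 2 * m α else 0) := by
  set m' : ℝ → ℝ := fun α => if z < |α| then 2 * m α else 0 with hm'
  have hm0 : ∀ α, 0 ≤ m' α := fun α => by
    simp only [hm']
    split_ifs
    · linarith [hm α]
    · exact le_rfl
  have hH := herg_Bm hA hr hm
  have hH' := herg_Bm hA hr hm0
  set P := X * A - Bm A m with hP
  set P' := X * A - Bm A m' with hP'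
  have h0 : 0 < t := hz.trans ht
  set ψ : ℝ → ℝ := fun s => max (max s 0 ^ 2 - t ^ 2) 0 with hψ
  have hψm : Monotone ψ := fun a b h => max_le_max_right _ (sub_le_sub_right (mono_sq_pos h) _)
  have hψ0 : ∀ s ≤ t, ψ s = 0 := fun s hs => max_eq_right (sub_nonpos.mpr
    (pow_le_pow_left₀ (le_max_right _ _) (max_le hs h0.le) 2))
  have e : phi t = fun s => ψ s + ψ (-s) := by
    funext s
    simp only [phi, hψ]
    have hz' : max ((0 : ℝ) ^ 2 - t ^ 2) 0 = 0 := max_eq_right (by nlinarith)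
    rcases le_total s 0 with h | h
    · rw [max_eq_right h, max_eq_left (neg_nonneg.mpr h), neg_sq, hz', zero_add]
    · rw [max_eq_left h, max_eq_right (neg_nonpos.mpr h), hz', add_zero]
  set N := A.roots.toFinset ∪ P.roots.toFinset ∪ P'.roots.toFinset with hN
  have hgood : ∀ s ∉ N, A.eval s ≠ 0 ∧ P.eval s ≠ 0 ∧ P'.eval s ≠ 0 ∧ s ∉ P.roots ∧ s ∉ P'.roots := by
    intro s hs
    simp only [hN, mem_union, Multiset.mem_toFinset, not_or] at hs
    exact ⟨fun h => hs.1.1 ((mem_roots hA.ne_zero).mpr h),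
      fun h => hs.1.2 ((mem_roots hH.monic_P.1.ne_zero).mpr h),
      fun h => hs.2 ((mem_roots hH'.monic_P.1.ne_zero).mpr h), hs.1.2, hs.2⟩
  have hform : ∀ s, A.eval s ≠ 0 → (Bm A m).eval s / A.eval s =
      ∑ α ∈ A.roots.toFinset with |α| ≤ z, m α / (s - α) +
        ∑ α ∈ A.roots.toFinset with z < |α|, m α / (s - α) ∧
      (Bm A m').eval s / A.eval s = 2 * ∑ α ∈ A.roots.toFinset with z < |α|, m α / (s - α) := by
    intro s hs
    refine ⟨by rw [Bm_div_real hA m hs, sum_split _ _ z], ?_⟩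
    rw [Bm_div_real hA m' hs, sum_filter, mul_sum]
    refine sum_congr rfl fun α _ => ?_
    simp only [hm']
    split_ifs
    · ring
    · simp
  have d1 : (P.roots.map ψ).sum ≤ (P'.roots.map ψ).sum := by
    refine dom hψm hψ0 N fun s hs hsN => ?_
    obtain ⟨g1, g2, g3, -, -⟩ := hgood s hsN
    rw [hH.count g1 g2, hH'.count g1 g3, (hform s g1).1, (hform s g1).2]
    have : ∑ α ∈ A.roots.toFinset with |α| ≤ z, m α / (s - α) ≤
        ∑ α ∈ A.roots.toFinset with |α| ≤ z, m α / (t - α) := by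
      refine sum_le_sum fun α hα => ?_
      have := le_abs_self α
      have := (mem_filter.mp hα).2
      exact div_le_div_of_nonneg_left (hm α) (by linarith) (by linarith)
    split_ifs with c1 c2
    · exact le_rfl
    · exact absurd (by linarith) c2
    · omega
    · exact le_rfl
  have d2 : ((P.roots.map fun x => -x).map ψ).sum ≤ ((P'.roots.map fun x => -x).map ψ).sum := by
    refine dom hψm hψ0 (N.image fun x => -x) fun s hs hsN => ?_
    have hsN' : -s ∉ N := fun h => hsN (mem_image.mpr ⟨-s, h, neg_neg s⟩)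
    obtain ⟨g1, g2, g3, g4, g5⟩ := hgood (-s) hsN'
    have a1 := ab_neg g4
    have a2 := ab_neg g5
    have c1 := hH.count g1 g2
    have c2 := hH'.count g1 g3
    have n1 := hH.monic_P.2.2
    have n2 := hH'.monic_P.2.2
    rw [(hform _ g1).1] at c1
    rw [(hform _ g1).2] at c2
    have : -∑ α ∈ A.roots.toFinset with |α| ≤ z, m α / (t + α) ≤
        ∑ α ∈ A.roots.toFinset with |α| ≤ z, m α / (-s - α) := by
      rw [← sum_neg_distrib]
      refine sum_le_sum fun α hα => ?_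
      have := neg_abs_le α
      have := (mem_filter.mp hα).2
      rw [← neg_add', div_neg]
      exact neg_le_neg (div_le_div_of_nonneg_left (hm α) (by linarith) (by linarith))
    rw [← hP] at c1 n1
    rw [← hP'] at c2 n2
    split_ifs at c1 c2 with k1 k2 k3
    · omega
    · omega
    · exact absurd (by linarith) k1
    · omega
  rw [Multiset.map_map, Multiset.map_map] at d2
  rw [e, rs_add, rs_add]
  exact add_le_add d1 d2

theorem upperK (hA : A.Monic) (hr : A.roots.card = A.natDegree) (hm : ∀ α, 0 ≤ m α) (hz : 0 < z)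
    (ht : z < t) (h1 : ∑ α ∈ A.roots.toFinset with |α| ≤ z, m α / (t - α) ≤ t / 2)
    (h2 : ∑ α ∈ A.roots.toFinset with |α| ≤ z, m α / (t + α) ≤ t / 2) :
    rs (phi z) (X * A - Bm A m) - rs (phi z) A ≤
      2 * (t ^ 2 - z ^ 2) + 4 * ∑ α ∈ A.roots.toFinset with z < |α|, m α := by
  have hH := herg_Bm hA hr hm
  have h0 : 0 < t := hz.trans ht
  have hzt : z ^ 2 ≤ t ^ 2 := pow_le_pow_left₀ hz.le ht.le 2
  have hc := compare hA hr hm hz ht h1 h2
  have hu := upper0 (m := fun α => if z < |α| then 2 * m α else 0) hA hr (fun α => by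
    split_ifs
    · linarith [hm α]
    · exact le_rfl) h0
  rw [← sum_filter, ← mul_sum] at hu
  set w : ℝ → ℝ := fun s => min (max (max s 0 ^ 2 - z ^ 2) 0) (t ^ 2 - z ^ 2) with hw
  have hwm : Monotone w := fun a b h =>
    min_le_min_right _ (max_le_max_right _ (sub_le_sub_right (mono_sq_pos h) _))
  have hw0 : ∀ s, 0 ≤ w s := fun s => le_min (le_max_right _ _) (by linarith)
  have hw1 : ∀ s, w s ≤ t ^ 2 - z ^ 2 := fun s => min_le_right _ _
  have key : ∀ a : ℝ, max (a - z ^ 2) 0 = max (a - t ^ 2) 0 + min (max (a - z ^ 2) 0) (t ^ 2 - z ^ 2) := by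
    intro a
    rcases le_total a (z ^ 2) with h | h
    · rw [max_eq_right (by linarith), max_eq_right (by linarith), min_eq_left (by linarith), add_zero]
    · rw [max_eq_left (by linarith)]
      rcases le_total a (t ^ 2) with h' | h'
      · rw [max_eq_right (by linarith), min_eq_left (by linarith), zero_add]
      · rw [max_eq_left (by linarith), min_eq_right (by linarith)]; ring
  have e : phi z = fun s => phi t s + (w s + - -w (-s)) := by
    funext s
    simp only [phi, hw, neg_neg]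
    have hz' : min (max ((0 : ℝ) ^ 2 - z ^ 2) 0) (t ^ 2 - z ^ 2) = 0 := by
      rw [max_eq_right (by nlinarith), min_eq_left (by linarith)]
    rcases le_total s 0 with h | h
    · rw [max_eq_right h, max_eq_left (neg_nonneg.mpr h), neg_sq, hz', zero_add]
      exact key _
    · rw [max_eq_left h, max_eq_right (neg_nonpos.mpr h), hz', add_zero]
      exact key _
  have i1 := (hH.il hwm hw0 hw1).2
  have i2 := (hH.il (ψ := fun s => -w (-s)) (lo := -(t ^ 2 - z ^ 2)) (hi := 0)
    (fun a b h => neg_le_neg (hwm (neg_le_neg h))) (fun s => neg_le_neg (hw1 _))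
    (fun s => neg_nonpos.mpr (hw0 _))).1
  rw [e, rs_add, rs_add, rs_add, rs_add, rs_neg fun s => -w (-s), rs_neg fun s => -w (-s)]
  linarith

theorem Bm_smul (A : ℝ[X]) (m : ℝ → ℝ) (a : ℝ) : C a * Bm A m = Bm A fun α => a * m α := by
  simp only [Bm, mul_sum, C_mul, mul_assoc]

theorem Bm_sum {ι : Type*} (s : Finset ι) (A : ℝ[X]) (m : ι → ℝ → ℝ) :
    ∑ c ∈ s, Bm A (m c) = Bm A fun α => ∑ c ∈ s, m c α := by
  simp only [Bm, map_sum, sum_mul]
  exact sum_comm

theorem avg_choice {r : ℕ} (hr : 0 < r) (f : Fin r → ℝ) {b : ℝ} (h : 1 / (r : ℝ) * ∑ c, f c ≤ b) :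
    ∃ c, f c ≤ b := by
  have hr' : (0 : ℝ) < r := by exact_mod_cast hr
  have : Nonempty (Fin r) := ⟨⟨0, hr⟩⟩
  obtain ⟨c, -, hc⟩ := exists_le_of_sum_le (s := univ) (f := f) (g := fun _ => b) univ_nonempty (by
    rw [sum_const, card_univ, Fintype.card_fin, nsmul_eq_mul]
    rw [one_div, inv_mul_le_iff₀ hr'] at h
    exact h)
  exact ⟨c, hc⟩

theorem shrink {a α t t' z : ℝ} (ha : 0 ≤ a) (hα : α ≤ z) (ht : z < t) (ht' : z < t')
    (h : t + 3 * z ≤ 4 * t') : 1 / 48 * a / (t' - α) ≤ 1 / 12 * (a / (t - α)) := by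
  have h1 : 0 < t - α := by linarith
  have h2 : 0 < t' - α := by linarith
  rw [← mul_div_assoc, div_le_div_iff₀ h2 h1]
  have := mul_le_mul_of_nonneg_left (show t - α ≤ 4 * (t' - α) by linarith) ha
  linarith

theorem klem {r : ℕ} (hr : 0 < r) {B : Fin r → ℝ[X]} (h : ∀ c, Herg A (B c)) (hz : 0 < z) {η : ℝ}
    (hη : 0 < η) : ∃ c, rs (phi z) (X * A - C (1 / 48) * B c) ≤
      rs (phi z) (X * A - C (1 / (r : ℝ)) * ∑ c, B c) + η := by
  have hA := (h ⟨0, hr⟩).monic
  have hre := (h ⟨0, hr⟩).real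
  have hr' : (0 : ℝ) < r := by exact_mod_cast hr
  choose μ hμ hB using fun c => pf (h c)
  have e1 : C (1 / (r : ℝ)) * ∑ c, B c = Bm A fun α => 1 / (r : ℝ) * ∑ c, μ c α := by
    rw [sum_congr rfl fun c _ => hB c, Bm_sum, Bm_smul]
  have hbar : ∀ α, 0 ≤ 1 / (r : ℝ) * ∑ c, μ c α := fun α =>
    mul_nonneg (by positivity) (sum_nonneg fun c _ => hμ c α)
  obtain ⟨l1, l2⟩ := lower (z := z) hA hre hbar hz
  rw [e1]
  set F := rs (phi z) (X * A - Bm A fun α => 1 / (r : ℝ) * ∑ c, μ c α) - rs (phi z) A with hF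
  have hF0 : 0 ≤ F := (sum_nonneg fun α _ => hbar α).trans l1
  have hs : 0 < F + η := by linarith
  set t := √(z ^ 2 + (F + η)) with ht
  set t' := √(z ^ 2 + (F + η) / 4) with ht'
  have t2 : t ^ 2 = z ^ 2 + (F + η) := Real.sq_sqrt (by positivity)
  have t2' : t' ^ 2 = z ^ 2 + (F + η) / 4 := Real.sq_sqrt (by positivity)
  have zt : z < t := Real.lt_sqrt_of_sq_lt (by linarith)
  have zt' : z < t' := Real.lt_sqrt_of_sq_lt (by linarith)
  have t0 : 0 < t := hz.trans zt
  have q1 : t + 3 * z ≤ 4 * t' :=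
    (abs_le_of_sq_le_sq' (by nlinarith [sq_nonneg (t - z)]) (by linarith)).2
  have q2 : t ≤ 2 * t' :=
    (abs_le_of_sq_le_sq' (by nlinarith [sq_nonneg z]) (by linarith)).2
  obtain ⟨l3, l4⟩ := l2 t zt (by linarith)
  obtain ⟨c, hc⟩ := avg_choice hr (fun c =>
      (∑ α ∈ A.roots.toFinset with z < |α|, μ c α) / (F + η) +
      (∑ α ∈ A.roots.toFinset with |α| ≤ z, μ c α / (t - α)) / t +
      (∑ α ∈ A.roots.toFinset with |α| ≤ z, μ c α / (t + α)) / t) (b := 3) (by
    have a1 : 1 / (r : ℝ) * ∑ c, ∑ α ∈ A.roots.toFinset with z < |α|, μ c α ≤ F + η := by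
      rw [sum_comm, mul_sum]
      linarith
    have a2 : 1 / (r : ℝ) * ∑ c, ∑ α ∈ A.roots.toFinset with |α| ≤ z, μ c α / (t - α) ≤ t := by
      rw [sum_comm, mul_sum]
      refine le_of_eq_of_le (sum_congr rfl fun α _ => ?_) l3
      rw [← sum_div, mul_div_assoc]
    have a3 : 1 / (r : ℝ) * ∑ c, ∑ α ∈ A.roots.toFinset with |α| ≤ z, μ c α / (t + α) ≤ t := by
      rw [sum_comm, mul_sum]
      refine le_of_eq_of_le (sum_congr rfl fun α _ => ?_) l4
      rw [← sum_div, mul_div_assoc]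
    rw [sum_add_distrib, sum_add_distrib, ← sum_div, ← sum_div, ← sum_div, mul_add, mul_add,
      ← mul_div_assoc, ← mul_div_assoc, ← mul_div_assoc]
    have b1 := (div_le_one hs).mpr a1
    have b2 := (div_le_one t0).mpr a2
    have b3 := (div_le_one t0).mpr a3
    linarith)
  have p1 : 0 ≤ (∑ α ∈ A.roots.toFinset with z < |α|, μ c α) / (F + η) :=
    div_nonneg (sum_nonneg fun α _ => hμ c α) hs.le
  have p2 : 0 ≤ (∑ α ∈ A.roots.toFinset with |α| ≤ z, μ c α / (t - α)) / t :=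
    div_nonneg (sum_nonneg fun α hα => div_nonneg (hμ c α) (by
      linarith [le_abs_self α, (mem_filter.mp hα).2])) t0.le
  have p3 : 0 ≤ (∑ α ∈ A.roots.toFinset with |α| ≤ z, μ c α / (t + α)) / t :=
    div_nonneg (sum_nonneg fun α hα => div_nonneg (hμ c α) (by
      linarith [neg_abs_le α, (mem_filter.mp hα).2])) t0.le
  have c1 : ∑ α ∈ A.roots.toFinset with z < |α|, μ c α ≤ 3 * (F + η) :=
    (div_le_iff₀ hs).mp (by linarith)
  have c2 : ∑ α ∈ A.roots.toFinset with |α| ≤ z, μ c α / (t - α) ≤ 3 * t :=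
    (div_le_iff₀ t0).mp (by linarith)
  have c3 : ∑ α ∈ A.roots.toFinset with |α| ≤ z, μ c α / (t + α) ≤ 3 * t :=
    (div_le_iff₀ t0).mp (by linarith)
  have d2 : ∑ α ∈ A.roots.toFinset with |α| ≤ z, 1 / 48 * μ c α / (t' - α) ≤
      1 / 12 * ∑ α ∈ A.roots.toFinset with |α| ≤ z, μ c α / (t - α) := by
    rw [mul_sum]
    exact sum_le_sum fun α hα =>
      shrink (hμ c α) ((le_abs_self α).trans (mem_filter.mp hα).2) zt zt' q1
  have d3 : ∑ α ∈ A.roots.toFinset with |α| ≤ z, 1 / 48 * μ c α / (t' + α) ≤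
      1 / 12 * ∑ α ∈ A.roots.toFinset with |α| ≤ z, μ c α / (t + α) := by
    rw [mul_sum]
    refine sum_le_sum fun α hα => ?_
    have := shrink (hμ c α) ((neg_le_abs α).trans (mem_filter.mp hα).2) zt zt' q1
    rwa [sub_neg_eq_add, sub_neg_eq_add] at this
  have hu := upperK (m := fun α => 1 / 48 * μ c α) hA hre
    (fun α => mul_nonneg (by norm_num) (hμ c α)) hz zt' (by linarith) (by linarith)
  rw [← mul_sum] at hu
  refine ⟨c, ?_⟩
  rw [hB c, Bm_smul]
  linarith

end Vale.Agent.P078
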