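import Vale.Agent.P078.Kernel
import Vale.Agent.P078.Barrier
import Vale.Agent.P078.KLem
import Vale.Agent.P078.Approx

/-!
The greedy colouring on the dynamical system.
-/

open Finset Polynomial
open scoped Classical ComplexConjugate Pointwise

namespace Vale.Agent.P078

variable {Γ X : Type*} [Group Γ] [MulAction Γ X] [TopologicalSpace X] [CompactSpace X] [T2Space X]
  [TotallyDisconnectedSpace X] [ContinuousConstSMul Γ X] {I : C(X, ℝ) →ₗ[ℝ] ℝ} {S : Finset Γ}
  {k : X → X → ℂ} {r : ℕ} {h : ℝ[X]}

theorem good_gauge {V V' : Type*} {k : V → V → ℂ} {k' : V' → V' → ℂ} {U : Finset V} {e : V → V'}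
    (he : Set.InjOn e U) {θ : V → ℂ} (hθ : ∀ a, ‖θ a‖ = 1)
    (hk : ∀ a ∈ U, ∀ b ∈ U, k' (e a) (e b) = conj (θ a) * θ b * k a b) (hg : Good k' (U.image e)) :
    Good k U := by
  have t1 : ∀ a, θ a * conj (θ a) = 1 := fun a => by
    rw [Complex.mul_conj, Complex.normSq_eq_norm_sq, hθ a]; simp
  have e1 : ∀ a ∈ U, ∀ b ∈ U, k a b = θ a * conj (θ b) * k' (e a) (e b) := fun a ha b hb => by
    rw [hk a ha b hb]
    linear_combination (-(k a b) * (θ b * conj (θ b))) * t1 a - k a b * t1 b
  refine ⟨fun a ha b hb => ?_, fun a ha => ?_, fun v => ?_⟩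
  · rw [e1 a ha b hb, e1 b hb a ha, hg.1 _ (mem_image_of_mem e ha) _ (mem_image_of_mem e hb)]
    simp only [map_mul, Complex.conj_conj]
    ring
  · rw [e1 a ha a ha, hg.2.1 _ (mem_image_of_mem e ha), mul_zero]
  · obtain ⟨v', hv'⟩ : ∃ v' : V' → ℂ, ∀ a ∈ U, v' (e a) = conj (θ a) * v a := by
      refine ⟨fun b => if hb : ∃ a ∈ U, e a = b then conj (θ hb.choose) * v hb.choose else 0,
        fun a ha => ?_⟩
      have hb : ∃ a' ∈ U, e a' = e a := ⟨a, ha, rfl⟩
      have : hb.choose = a := he hb.choose_spec.1 ha hb.choose_spec.2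
      simp only [dif_pos hb, this]
    have := hg.2.2 v'
    rw [sum_image he, sum_image he] at this
    have e2 : ∑ a ∈ U, ‖v' (e a)‖ ^ 2 = ∑ a ∈ U, ‖v a‖ ^ 2 :=
      sum_congr rfl fun a ha => by rw [hv' a ha, norm_mul, Complex.norm_conj, hθ a, one_mul]
    have e3 : ∑ a ∈ U, ∑ b ∈ U.image e, conj (v' (e a)) * k' (e a) b * v' b =
        ∑ a ∈ U, ∑ b ∈ U, conj (v a) * k a b * v b := by
      refine sum_congr rfl fun a ha => ?_
      rw [sum_image he]
      refine sum_congr rfl fun b hb => ?_
      rw [hv' a ha, hv' b hb, e1 a ha b hb]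
      simp only [map_mul, Complex.conj_conj]
      ring
    rwa [e2, e3] at this

theorem lc_nhds {St : Type*} {σ : X → St} (hσ : IsLocallyConstant σ) (T : Finset Γ) (x₀ : X) :
    ∃ N : Set X, IsOpen N ∧ x₀ ∈ N ∧ ∀ x ∈ N, ∀ w ∈ T, σ (w • x) = σ (w • x₀) := by
  refine ⟨⋂ w ∈ T, {x | σ (w • x) = σ (w • x₀)}, isOpen_biInter_finset fun w _ => ?_, by simp,
    fun x hx w hw => ?_⟩
  · exact (hσ.comp_continuous (continuous_const_smul w)).isOpen_fiber _
  · exact Set.mem_iInter₂.1 hx w hw

theorem pattern (hI : IsDyn Γ I) (w : Γ) (T : Finset Γ) (x₀ : X) :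
    ∃ N : Set X, IsOpen N ∧ x₀ ∈ N ∧ ∀ x ∈ N, ∀ t ∈ T, (w • x = t • x ↔ w • x₀ = t • x₀) := by
  refine ⟨⋂ t ∈ T, {x | w • x = t • x ↔ w • x₀ = t • x₀}, isOpen_biInter_finset fun t _ => ?_,
    by simp, fun x hx t ht => Set.mem_iInter₂.1 hx t ht⟩
  have e : {x : X | w • x = t • x} = {x : X | (t⁻¹ * w) • x = x} := by
    ext x; simp only [Set.mem_setOf_eq, mul_smul, inv_smul_eq_iff]
  by_cases h0 : w • x₀ = t • x₀
  · simp only [h0, iff_true]
    rw [e]; exact (hI.fix _).isOpen
  · simp only [h0, iff_false]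
    have := (hI.fix (t⁻¹ * w)).compl.isOpen
    rw [← e] at this
    exact this

theorem cont_of_local {f : X → ℝ} (hf : ∀ x₀, ∃ N : Set X, IsOpen N ∧ x₀ ∈ N ∧ ∃ g : X → ℝ,
    ContinuousOn g N ∧ ∀ x ∈ N, f x = g x) : Continuous f := by
  refine continuous_iff_continuousAt.2 fun x₀ => ?_
  obtain ⟨N, h1, h2, g, h3, h4⟩ := hf x₀
  exact (h3.congr h4).continuousAt (h1.mem_nhds h2)

/-- The set function of a state: present vertices with their colours. -/
noncomputable def LL (h : ℝ[X]) (k : X → X → ℂ) (σ : X → Bool × Option (Fin r)) (U : Finset X) : ℝ :=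
  Lam h (fun v => (σ v).2) k (U.filter fun v => (σ v).1 = true)

theorem sys_LL (hI : IsDyn Γ I) (hS : Gen S) (hk : IsKer S k) (hr : 0 < r) :
    Sys S (h.natDegree + 1) (LL (r := r) h k) := by
  refine ⟨fun σ σ' U he => ?_, fun σ W hW y hy => ?_, fun σ hσ W => ?_⟩
  · unfold LL Lam
    rw [filter_congr (q := fun v => (σ' v).1 = true) fun v hv => by rw [he v hv],
      ep_congr (σ' := fun v => (σ' v).2) fun v hv => by rw [he v (mem_filter.1 hv).1]]
  · have hp : ∀ v ∈ W, (σ v).1 = true := by
      intro v hv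
      by_contra h1
      refine hW (mob_blind hv fun W' _ => ?_)
      unfold LL
      rw [filter_insert, if_neg h1]
    rw [mob_congr (g := Lam h (fun v => (σ v).2) k) fun W' hW' => by
      unfold LL; rw [filter_true_of_mem fun v hv => hp v (hW' hv)]] at hW
    refine mob_small hr (hk.good W) hW hy (R := fun j => ball S j y) (self_mem_ball hS 0 y)
      (ball_mono hS y) fun j a ha b hb => ?_
    rcases hb with hb | hb
    · obtain ⟨w, hw, rfl⟩ := hk.range _ _ hb
      exact smul_mem_ball hw ha
    · obtain ⟨w, hw, rfl⟩ := hk.range _ _ hb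
      have := smul_mem_ball (hS.inv w hw) ha
      rwa [inv_smul_smul] at this
  · obtain ⟨κ, hκ⟩ := hk.gauge
    refine cont_of_local fun x₀ => ?_
    obtain ⟨T, -, N, N1, N2, hN⟩ := transversal hI W x₀
    obtain ⟨N', N1', N2', hN'⟩ := lc_nhds hσ T x₀
    have inj : ∀ x ∈ N ∩ N', Set.InjOn (fun w : Γ => w • x)
        (T.filter fun w => (σ (w • x₀)).1 = true : Finset Γ) := fun x hx =>
      (hN x hx.1).1.mono (coe_subset.2 (filter_subset _ _))
    refine ⟨N ∩ N', N1.inter N1', ⟨N2, N2'⟩, fun x => Lam h (fun w => (σ (w • x₀)).2)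
      (fun w w' => κ w w' x) (T.filter fun w => (σ (w • x₀)).1 = true),
      Lam_cont hr (fun a b => (κ a b).continuous) fun x hx => ?_, fun x hx => ?_⟩
    · obtain ⟨θ, h1, h2⟩ := hκ x
      exact good_gauge (inj x hx) h1 (fun a _ b _ => h2 a b) (hk.good _)
    · obtain ⟨θ, h1, h2⟩ := hκ x
      beta_reduce
      rw [← Lam_gauge (k' := k) (σ' := fun v => (σ v).2) (inj x hx) h1 (fun a _ b _ => h2 a b)
        fun a ha => by rw [hN' x hx.2 a (mem_filter.1 ha).1]]
      unfold LL
      rw [← (hN x hx.1).2, orb, filter_image]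
      congr 2
      exact filter_congr fun w hw => by rw [hN' x hx.2 w hw]

theorem ct_dg (hI : IsDyn Γ I) (hk : IsKer S k) {c : X → Fin r} (hc : IsLocallyConstant c) (w : Γ) :
    Ct Γ fun x U => dg h (yc k c) U (w • x) := by
  intro W
  obtain ⟨κ, hκ⟩ := hk.gauge
  refine cont_of_local fun x₀ => ?_
  obtain ⟨T, -, N, N1, N2, hN⟩ := transversal hI W x₀
  obtain ⟨N', N1', N2', hN'⟩ := pattern hI w T x₀
  obtain ⟨v, hv⟩ : ∃ v : Γ, ∀ x ∈ N ∩ N', w • x = v • x ∧
      Set.InjOn (fun w : Γ => w • x) (insert v T : Finset Γ) := by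
    by_cases h0 : ∃ t ∈ T, w • x₀ = t • x₀
    · obtain ⟨t, ht, h0⟩ := h0
      refine ⟨t, fun x hx => ⟨(hN' x hx.2 t ht).2 h0, ?_⟩⟩
      rw [insert_eq_of_mem ht]
      exact (hN x hx.1).1
    · refine ⟨w, fun x hx => ⟨rfl, ?_⟩⟩
      have k1 : ∀ t ∈ T, w • x ≠ t • x := fun t ht h1 => h0 ⟨t, ht, (hN' x hx.2 t ht).1 h1⟩
      intro a ha b hb hab
      rcases mem_insert.1 (mem_coe.1 ha) with ha' | ha' <;>
        rcases mem_insert.1 (mem_coe.1 hb) with hb' | hb'
      · rw [ha', hb']
      · exact absurd (ha' ▸ hab) (k1 b hb')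
      · exact absurd (hb' ▸ hab).symm (k1 a ha')
      · exact (hN x hx.1).1 ha' hb' hab
  obtain ⟨N'', N1'', N2'', hN''⟩ := lc_nhds hc (insert v T) x₀
  refine ⟨N ∩ N' ∩ N'', (N1.inter N1').inter N1'', ⟨⟨N2, N2'⟩, N2''⟩, fun x => dg h
    (fun a b => if c (a • x₀) = c (b • x₀) then κ a b x else 0) T v,
    (dg_cont (fun a b => ?_) v).continuousOn, fun x hx => ?_⟩
  · split_ifs
    exacts [(κ a b).continuous, continuous_const]
  · obtain ⟨θ, h1, h2⟩ := hκ x
    beta_reduce
    rw [← dg_gauge (y' := yc k c) (hv x hx.1).2 h1 fun a ha b hb => ?_, (hv x hx.1).1,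
      ← (hN x hx.1.1).2, orb]
    unfold yc
    rw [hN'' x hx.2 a ha, hN'' x hx.2 b hb, h2]
    split_ifs <;> simp

theorem rs_phi_zero {z : ℝ} {P : ℝ[X]} (hP : ∀ s ∈ P.roots, |s| ≤ z) : rs (phi z) P = 0 := by
  refine Multiset.sum_eq_zero fun t ht => ?_
  obtain ⟨s, hs, rfl⟩ := Multiset.mem_map.1 ht
  have := sq_le_sq' (abs_le.1 (hP s hs)).1 (abs_le.1 (hP s hs)).2
  exact max_eq_right (by linarith)

theorem add_step {V : Type*} {k : V → V → ℂ} {U : Finset V} (hr : 2 ≤ r) (hk : Good k U) {η : ℝ}
    (ha : App (5 / √(r : ℝ)) η h) {y : V} (hy : y ∈ U) :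
    Lam h (fun _ => (none : Option (Fin r))) k U -
      Lam h (fun _ => (none : Option (Fin r))) k (U.erase y) ≤ η := by
  have r0 : 0 < r := by omega
  obtain ⟨B, h1, -, h3⟩ := ratio (σ := fun _ => (none : Option (Fin r))) r0 hk hy
  rw [Function.update_eq_self_iff.2 rfl] at h3
  have hk' := hk.mono (erase_subset y U)
  have k1 := (il_h ha ((Herg.sum r0 h1).smul (t := 1 / (r : ℝ)) (by positivity)) (ep_roots r0 hk')
    (by rw [← h3]; exact ep_roots r0 hk)).2
  rw [← h3, rs_phi_zero (barrier hr hk), rs_phi_zero (barrier hr hk')] at k1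
  unfold Lam
  linarith

theorem col_step {V : Type*} {k : V → V → ℂ} {U : Finset V} (r0 : 0 < r) (hk : Good k U) {z η : ℝ}
    (hz : 0 < z) (hη : 0 < η) (ha : App z η h) {y : V} (hy : y ∈ U) (σ : V → Option (Fin r))
    (hσ : σ y = none) : ∃ c, Lam h (Function.update σ y (some c)) k U - Lam h σ k U < 3 * η := by
  obtain ⟨B, h1, h2, h3⟩ := ratio (σ := σ) r0 hk hy
  rw [Function.update_eq_self_iff.2 hσ.symm] at h3
  have hk' := hk.mono (erase_subset y U)
  obtain ⟨c, hc⟩ := klem r0 h1 hz hη
  have k1 := (il_h ha ((Herg.sum r0 h1).smul (t := 1 / (r : ℝ)) (by positivity)) (ep_roots r0 hk')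
    (by rw [← h3]; exact ep_roots r0 hk)).1
  have k2 := (il_h ha ((h1 c).smul (t := 1 / 48) (by positivity)) (ep_roots r0 hk')
    (by rw [← h2]; exact ep_roots r0 hk)).2
  refine ⟨c, ?_⟩
  unfold Lam
  rw [h2, h3]
  linarith

theorem core (hI : IsDyn Γ I) (hS : Gen S) (hk : IsKer S k) (hr : 2 ≤ r) {η : ℝ} (hη : 0 < η)
    (ha : App (5 / √(r : ℝ)) η h) : ∃ c : X → Fin r, IsLocallyConstant c ∧
      Continuous (fun x => dg h (yc k c) (ball S (h.natDegree + 1) x) x) ∧
      ii I (fun x => dg h (yc k c) (ball S (h.natDegree + 1) x) x) ≤ 4 * η := by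
  have r0 : 0 < r := by omega
  have hz : 0 < 5 / √(r : ℝ) := by positivity
  have sys := sys_LL (h := h) hI hS hk r0
  set n := h.natDegree + 1 with hn
  obtain ⟨m, cl, hcl, hsp⟩ := classes hI (S ^ n)
  have sp : ∀ y y', y' ∈ ball S n y → (cl y' : ℕ) = cl y → y' = y := by
    intro y y' h1 h2
    obtain ⟨w, hw, rfl⟩ := mem_orb.1 h1
    exact hsp w hw y (Fin.ext h2)
  have lc : ∀ {St : Type} (f : Fin m → St), IsLocallyConstant fun x => f (cl x) :=
    fun f => hcl.comp f
  have clop : ∀ j : ℕ, IsClopen {x | (cl x : ℕ) = j} := fun j =>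
    (lc fun i => (i : ℕ)).isClopen_fiber j
  have cind : ∀ (j : ℕ) (a : ℝ), Continuous fun x => if x ∈ {x | (cl x : ℕ) = j} then a else 0 :=
    fun j a => (lc fun i => if (i : ℕ) = j then a else 0).continuous
  have tot : ∀ a : ℝ, ∑ j ∈ range m, ii I (fun x => if x ∈ {x | (cl x : ℕ) = j} then a else 0) = a := by
    intro a
    rw [← ii_sum _ fun j _ => cind j a]
    conv_rhs => rw [← ii_const hI a]
    congr 1
    funext x
    simp only [Set.mem_setOf_eq, sum_ite_eq, mem_range, (cl x).2, if_true]
  have p1 : ∀ j : ℕ, ii I (dens S n (LL h k fun x => (decide ((cl x : ℕ) < j), (none : Option (Fin r))))) ≤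
      ∑ i ∈ range j, ii I fun x => if x ∈ {x | (cl x : ℕ) = i} then η else 0 := by
    intro j
    induction j with
    | zero =>
      have : dens S n (LL h k fun x => (decide ((cl x : ℕ) < 0), (none : Option (Fin r)))) =
          fun _ => 0 := by
        funext x
        refine sum_eq_zero fun W _ => ?_
        have : mob (LL h k fun x => (decide ((cl x : ℕ) < 0), (none : Option (Fin r)))) W = 0 :=
          sum_eq_zero fun W' _ => by simp [LL, Lam_empty]
        rw [this, zero_div]
      rw [this, ii_const hI, sum_range_zero]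
    | succ j ih =>
      rw [sum_range_succ]
      refine (step hI hS sys (lc fun i => (decide ((i : ℕ) < j), (none : Option (Fin r))))
        (lc fun i => (decide ((i : ℕ) < j + 1), (none : Option (Fin r)))) (clop j) (η := η)
        (fun x hx => ?_) (fun y hy y' hy' h1 => sp y y' h1 (hy'.trans hy.symm))
        fun y hy => ?_).trans (add_le_add ih (le_of_eq (by congr 1; funext x; congr)))
      · have : (cl x : ℕ) ≠ j := hx
        simp only [Prod.mk.injEq, decide_eq_decide, and_true]
        omega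
      · have hy' : (cl y : ℕ) = j := hy
        have e : (ball S n y).filter (fun v => decide ((cl v : ℕ) < j) = true) =
            ((ball S n y).filter fun v => decide ((cl v : ℕ) < j + 1) = true).erase y := by
          ext v
          simp only [mem_filter, mem_erase, decide_eq_true_eq]
          constructor
          · rintro ⟨h1, h2⟩
            exact ⟨by rintro rfl; omega, h1, by omega⟩
          · rintro ⟨h1, h2, h3⟩
            refine ⟨h2, ?_⟩
            by_contra h4
            exact h1 (sp y v h2 (by omega))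
        unfold LL
        simp only
        rw [e]
        exact add_step hr (hk.good _) ha
          (mem_filter.2 ⟨self_mem_ball hS n y, by simp only [decide_eq_true_eq]; omega⟩)
  have p2 : ∀ j : ℕ, ∃ col : X → Option (Fin r), IsLocallyConstant col ∧
      (∀ x, col x = none ↔ j ≤ (cl x : ℕ)) ∧ ii I (dens S n (LL h k fun x => (true, col x))) ≤
        η + ∑ i ∈ range j, ii I fun x => if x ∈ {x | (cl x : ℕ) = i} then 3 * η else 0 := by
    intro j
    induction j with
    | zero =>
      refine ⟨fun _ => none, IsLocallyConstant.const _, fun x => by simp, ?_⟩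
      have := p1 m
      rw [tot] at this
      simpa using this
    | succ j ih =>
      obtain ⟨col, c1, c2, c3⟩ := ih
      have lcs : ∀ c : X → Fin r, IsLocallyConstant c → IsLocallyConstant
          fun x => if (cl x : ℕ) = j then some (c x) else col x := fun c hc =>
        ((hcl.prodMk (hc.prodMk c1)).comp fun q : Fin m × Fin r × Option (Fin r) =>
          if (q.1 : ℕ) = j then some q.2.1 else q.2.2)
      have tt : ∀ col : X → Option (Fin r), IsLocallyConstant col →
          IsLocallyConstant fun x => (true, col x) := fun col hc => hc.comp fun o => (true, o)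
      obtain ⟨c, d1, d2⟩ := select r0 (a := 3 * η) (Δ := fun c x => (if (cl x : ℕ) = j then 1 else 0) *
        (LL h k (fun v => (true, if (cl v : ℕ) = j then some c else col v)) (ball S n x) -
          LL h k (fun v => (true, col v)) (ball S n x)))
        (fun c => (lc fun i => if (i : ℕ) = j then (1 : ℝ) else 0).continuous.mul
          ((sys.cont _ (tt _ (lcs _ (IsLocallyConstant.const c))) (S ^ n)).sub
            (sys.cont _ (tt _ c1) (S ^ n))))
        (fun x => by
          by_cases hx : (cl x : ℕ) = j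
          · obtain ⟨c, hc⟩ := col_step r0 (hk.good (ball S n x)) hz hη ha (self_mem_ball hS n x) col
              ((c2 x).2 hx.ge)
            refine ⟨c, ?_⟩
            rw [if_pos hx, one_mul]
            unfold LL
            simp only [filter_true_of_mem, implies_true]
            unfold Lam at hc ⊢
            rw [ep_congr (σ' := Function.update col x (some c)) fun v hv => ?_]
            · exact hc
            · by_cases h1 : v = x
              · subst h1; simp [hx]
              · rw [Function.update_of_ne h1, if_neg fun h2 => h1 (sp x v hv (h2.trans hx.symm))]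
          · exact ⟨⟨0, r0⟩, by rw [if_neg hx, zero_mul]; positivity⟩)
      refine ⟨fun x => if (cl x : ℕ) = j then some (c x) else col x, lcs c d1, fun x => ?_, ?_⟩
      · by_cases hx : (cl x : ℕ) = j
        · simp only [hx, if_true]
          simp
        · simp only [hx, if_false, c2]
          omega
      · rw [sum_range_succ, ← add_assoc]
        refine (step hI hS sys (tt _ c1) (tt _ (lcs c d1)) (clop j) (η := 3 * η)
          (fun x hx => ?_) (fun y hy y' hy' h1 => sp y y' h1 (hy'.trans hy.symm))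
          fun y hy => ?_).trans (add_le_add c3 (le_of_eq (by congr 1; funext x; congr)))
        · have : ¬(cl x : ℕ) = j := hx
          simp only [this, if_false]
        · have hy' : (cl y : ℕ) = j := hy
          have := d2 y
          rw [if_pos hy', one_mul] at this
          rw [sys.loc _ (fun v => (true, if (cl v : ℕ) = j then some (c y) else col v)) _
            fun v hv => ?_]
          · exact this.le
          · by_cases h1 : (cl v : ℕ) = j
            · rw [sp y v hv (h1.trans hy'.symm)]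
            · simp only [h1, if_false]
  obtain ⟨col, c1, c2, c3⟩ := p2 m
  rw [tot] at c3
  have hc : IsLocallyConstant fun x => (col x).getD ⟨0, r0⟩ := c1.comp fun o => o.getD ⟨0, r0⟩
  have e : ∀ x, col x = some ((col x).getD ⟨0, r0⟩) := by
    intro x
    cases hx : col x with
    | none => exact absurd ((c2 x).1 hx) (not_le.2 (cl x).2)
    | some a => rfl
  refine ⟨_, hc, ?_, ?_⟩
  · simpa only [one_smul, ball] using ct_dg (h := h) hI hk hc 1 (S ^ n)
  · rw [← final_id hI hS sys (c1.comp fun o => (true, o))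
      (D := fun v U => dg h (yc k fun x => (col x).getD ⟨0, r0⟩) U v) (fun U => ?_) (fun v U => ?_)
      (ct_dg hI hk hc)]
    · have : (fun o => (true, o)) ∘ col = fun x => (true, col x) := rfl
      rw [this]
      linarith
    · rw [← final_Lam (hk.good U)]
      unfold LL Lam
      simp only [Function.comp, filter_true_of_mem, implies_true]
      rw [ep_congr fun v _ => e v]
    · refine dg_local (R := fun j => ball S j v) (self_mem_ball hS 0 v) (ball_mono hS v)
        (fun j a ha b hb => ?_) (Nat.le_succ _)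
      have : k a b ≠ 0 := fun h0 => hb (by simp [yc, h0])
      obtain ⟨w, hw, rfl⟩ := hk.range _ _ this
      have := smul_mem_ball (hS.inv w hw) ha
      rwa [inv_smul_smul] at this

end Vale.Agent.P078
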