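import Vale.Agent.P078.Dyn

/-!
Mass transport with weights (quasi-invariant functional). `w` is a global (discontinuous) weight, only ratios along the action are continuous.

PLAN. Copy the proofs of `Dyn.lean` (only `hI.fix` is used in the topological lemmas). `transport`: both integrands are divided by the weight
of the base point, `Σ_{y ∈ orb B x} t y x / w x` and `Σ_{x ∈ orb B y} t y x / w y`; use `inv`. `mob (fun U => f U / w x) W = mob f W / w x`.
`init`: `lt a b := ∃ g, a = g • b ∧ b ∈ closure {x | w (g • x) / w x < 1}`; for every `g` with `a = g • b` the last condition is equivalent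
(`coin`: two such `g` agree on a clopen neighbourhood), so `{x | lt (g • x) (g' • x)}` is clopen (`ed`); `lt a b → w a ≤ w b`,
`a = g • b → ¬ lt a b → w b ≤ w a`, `lt` is asymmetric (disjoint open sets have disjoint closures) and negatively transitive on orbits
(closure of a union). With `cl` from `classes hI (S ^ n)`: `a ≺ b := lt a b ∨ (¬ lt b a ∧ cl a < cl b)` is a strict total order on every `W`
with `∀ y ∈ W, W ⊆ ball S n y`. Use `trans2` with `φ y W = if y ∈ W ∧ ∀ v ∈ W, v = y ∨ v ≺ y then mob f W else 0`; with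
`U = (ball S n y).filter (v = y ∨ v ≺ y)`, `Σ_W φ y W = f U - f (U.erase y)` (`mob_sum`).
-/

open Finset
open scoped Classical Pointwise

namespace Vale.Agent.P078

variable {Γ X : Type*} [Group Γ] [MulAction Γ X] [TopologicalSpace X] [CompactSpace X] [T2Space X]
  [TotallyDisconnectedSpace X] [ContinuousConstSMul Γ X]

structure IsDynW (Γ : Type*) {X : Type*} [Group Γ] [MulAction Γ X] [TopologicalSpace X]
    (I : C(X, ℝ) →ₗ[ℝ] ℝ) (w : X → ℝ) : Prop where
  pos : ∀ f : C(X, ℝ), (∀ x, 0 ≤ f x) → 0 ≤ I f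
  one : I 1 = 1
  fix : ∀ g : Γ, IsClopen {x : X | g • x = x}
  wpos : ∀ x, 0 < w x
  wcont : ∀ g : Γ, Continuous fun x => w (g • x) / w x
  inv : ∀ (g : Γ) (f f' : C(X, ℝ)), (∀ x, f' x = f (g • x) * (w (g • x) / w x)) → I f' = I f
  ed : ∀ g : Γ, IsOpen (closure {x | w (g • x) / w x < 1})

structure SysW {St : Type*} (S : Finset Γ) (n : ℕ) (w : X → ℝ) (Λ : (X → St) → Finset X → ℝ) : Prop where
  loc : ∀ σ σ' U, (∀ v ∈ U, σ v = σ' v) → Λ σ U = Λ σ' U
  clus : ∀ σ W, mob (Λ σ) W ≠ 0 → ∀ y ∈ W, W ⊆ ball S n y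
  cont : ∀ σ, IsLocallyConstant σ → Ct Γ fun x U => Λ σ U / w x

namespace W

variable {I : C(X, ℝ) →ₗ[ℝ] ℝ} {w : X → ℝ} {S : Finset Γ} {n : ℕ} {St : Type*}
  {Λ : (X → St) → Finset X → ℝ}

/-- Fixed point sets are clopen. -/
def Fx (Γ X : Type*) [Group Γ] [MulAction Γ X] [TopologicalSpace X] : Prop :=
  ∀ g : Γ, IsClopen {x : X | g • x = x}

theorem coinF (hX : Fx Γ X) (w w' : Γ) : IsClopen {x : X | w • x = w' • x} := by
  have e : {x : X | w • x = w' • x} = {x : X | (w'⁻¹ * w) • x = x} := by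
    ext x
    simp only [Set.mem_ofPred_eq, mul_smul, inv_smul_eq_iff]
  rw [e]
  exact hX _

theorem clopen_memF (hX : Fx Γ X) (w : Γ) (W : Finset Γ) : IsClopen {x : X | w • x ∈ orb W x} := by
  have e : {x : X | w • x ∈ orb W x} = ⋃ w' ∈ W, {x : X | w' • x = w • x} := by
    ext x
    simp [mem_orb]
  rw [e]
  exact isClopen_biUnion_finset fun w' _ => coinF hX w' w

/-- Locally, a finite family of group elements has a constant transversalF. -/
theorem transversalF (hX : Fx Γ X) (W : Finset Γ) (x₀ : X) : ∃ T ⊆ W, ∃ N : Set X, IsOpen N ∧ x₀ ∈ N ∧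
    ∀ x ∈ N, Set.InjOn (fun w : Γ => w • x) T ∧ orb T x = orb W x := by
  obtain ⟨T, h1, h2, h3⟩ := exists_subset_injOn_image_eq_of_surjOn (f := fun w : Γ => w • x₀)
    (W : Set Γ) (orb W x₀) fun y hy => by simpa [mem_orb] using hy
  have h4 : ∀ᶠ x in nhds x₀, ∀ w ∈ W, ∀ w' ∈ W, (w • x = w' • x ↔ w • x₀ = w' • x₀) :=
    (Filter.eventually_all_finset W).2 fun w _ => (Filter.eventually_all_finset W).2 fun w' _ =>
      clopen_ev (coinF hX w w') x₀
  obtain ⟨N, h5, h6, h7⟩ := eventually_nhds_iff.1 h4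
  have h1' : T ⊆ W := h1
  refine ⟨T, h1', N, h6, h7, fun x hx => ⟨fun w hw w' hw' h => h2 hw hw'
    ((h5 x hx w (h1 hw) w' (h1 hw')).1 h), Subset.antisymm (image_subset_image h1') fun y hy => ?_⟩⟩
  obtain ⟨w, hw, rfl⟩ := mem_orb.1 hy
  obtain ⟨t, ht, e⟩ := mem_image.1 (h3.symm ▸ mem_orb.2 ⟨w, hw, rfl⟩ : w • x₀ ∈ T.image _)
  exact mem_orb.2 ⟨t, ht, (h5 x hx t (h1' ht) w hw).2 e⟩

theorem ct_sumF (hX : Fx Γ X) {F : X → Finset X → ℝ} (hF : Ct Γ F) :
    Ct Γ fun x U => ∑ W ∈ U.powerset, F x W := by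
  intro W
  refine continuous_iff_continuousAt.2 fun x₀ => ?_
  obtain ⟨T, -, N, h1, h2, h3⟩ := transversalF hX W x₀
  refine (continuous_finsetSum T.powerset fun T' _ => hF T').continuousAt.congr ?_
  filter_upwards [h1.mem_nhds h2] with x hx
  rw [← (h3 x hx).2]
  exact (sum_powerset_image (h3 x hx).1 (F x)).symm

theorem ct_cardF (hX : Fx Γ X) (g : ℕ → ℝ) : Ct Γ fun (_ : X) U => g U.card := by
  intro W
  refine continuous_iff_continuousAt.2 fun x₀ => ?_
  obtain ⟨T, -, N, h1, h2, h3⟩ := transversalF hX W x₀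
  refine (continuous_const (y := g T.card)).continuousAt.congr ?_
  filter_upwards [h1.mem_nhds h2] with x hx
  rw [← (h3 x hx).2, orb, card_image_of_injOn (h3 x hx).1]

theorem ct_mobF (hX : Fx Γ X) {F : X → Finset X → ℝ} (hF : Ct Γ F) :
    Ct Γ fun x U => mob (F x) U := by
  intro W
  have h1 : Ct Γ fun x U => (-1) ^ U.card * F x U := fun W' =>
    (ct_cardF hX (fun j => (-1) ^ j) W').mul (hF W')
  refine ((ct_cardF hX (fun j => (-1) ^ j) W).mul (ct_sumF hX h1 W)).congr fun x => ?_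
  simp only [Pi.mul_apply, mob, mul_sum]
  refine sum_congr rfl fun W' hW' => ?_
  obtain ⟨j, hj⟩ := Nat.exists_eq_add_of_le (card_le_card (mem_powerset.1 hW'))
  have e : (-1 : ℝ) ^ W'.card * (-1) ^ W'.card = 1 := by
    rw [← mul_pow]
    simp
  rw [hj, Nat.add_sub_cancel_left, pow_add]
  linear_combination ((-1) ^ j * F x W') * e

theorem classesF (hX : Fx Γ X) (B : Finset Γ) : ∃ (m : ℕ) (cl : X → Fin m), IsLocallyConstant cl ∧
    ∀ w ∈ B, ∀ x, cl (w • x) = cl x → w • x = x := by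
  have h1 : ∀ (w : Γ) (x : X), ∃ C : Set X, IsClopen C ∧ x ∈ C ∧ ∀ y ∈ C, w • y ∈ C → w • y = y := by
    intro w x
    by_cases h : w • x = x
    · exact ⟨_, hX w, h, fun y hy _ => hy⟩
    · obtain ⟨D, hD, hx, hs⟩ := compact_exists_isClopen_in_isOpen (x := x) (U := {w • x}ᶜ)
        isOpen_compl_singleton (Ne.symm h)
      exact ⟨D ∩ (fun y => w • y) ⁻¹' Dᶜ, hD.inter (hD.compl.preimage (continuous_const_smul w)),
        ⟨hx, fun h' => hs h' rfl⟩, fun y hy hy' => (hy.2 hy'.1).elim⟩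
  choose C h2 h3 h4 using h1
  obtain ⟨t, h5, h6⟩ := cover (C := fun x => ⋂ w ∈ B, C w x)
    (fun x => isClopen_biInter_finset fun w _ => h2 w x) fun x => Set.mem_iInter₂.2 fun w _ => h3 w x
  refine ⟨_, _, h5.comp (Fintype.equivFin (t → Prop)), fun w hw x h => ?_⟩
  obtain ⟨i, hi⟩ := h6 x
  have h7 := congrFun ((Fintype.equivFin (t → Prop)).injective h) i
  exact h4 w i x (Set.mem_iInter₂.1 hi w hw) (Set.mem_iInter₂.1 (h7.mpr hi) w hw)

theorem ii_mono (hI : IsDynW Γ I w) {f g : X → ℝ} (hf : Continuous f) (hg : Continuous g)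
    (h : ∀ x, f x ≤ g x) : ii I f ≤ ii I g := by
  have h1 := hI.pos (⟨g, hg⟩ - ⟨f, hf⟩) fun x => sub_nonneg.2 (h x)
  rw [map_sub] at h1
  simp only [ii, dif_pos hf, dif_pos hg]
  linarith

theorem ii_const (hI : IsDynW Γ I w) (a : ℝ) : ii I (fun _ => a) = a := by
  have h : Continuous fun _ : X => a := continuous_const
  have e : (⟨fun _ => a, h⟩ : C(X, ℝ)) = a • 1 := by
    ext x
    simp
  simp only [ii, dif_pos h]
  rw [e, map_smul, hI.one, smul_eq_mul, mul_one]

theorem transversal (hI : IsDynW Γ I w) (W : Finset Γ) (x₀ : X) : ∃ T ⊆ W, ∃ N : Set X, IsOpen N ∧ x₀ ∈ N ∧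
    ∀ x ∈ N, Set.InjOn (fun w : Γ => w • x) T ∧ orb T x = orb W x :=
  transversalF hI.fix W x₀

theorem classes (hI : IsDynW Γ I w) (B : Finset Γ) : ∃ (m : ℕ) (cl : X → Fin m), IsLocallyConstant cl ∧
    ∀ g ∈ B, ∀ x, cl (g • x) = cl x → g • x = x :=
  classesF hI.fix B

theorem ii_inv (hI : IsDynW Γ I w) (g : Γ) {f : X → ℝ} (hf : Continuous f) :
    ii I (fun x => f (g • x) * (w (g • x) / w x)) = ii I f := by
  have h : Continuous fun x => f (g • x) * (w (g • x) / w x) :=
    (hf.comp (continuous_const_smul g)).mul (hI.wcont g)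
  simp only [ii, dif_pos hf, dif_pos h]
  exact hI.inv g _ _ fun _ => rfl

theorem transport (hI : IsDynW Γ I w) {B : Finset Γ} (hB : Gen B) {t : X → X → ℝ}
    (ht : ∀ g : Γ, Continuous fun x => t (g • x) x / w x) :
    ii I (fun x => (∑ y ∈ orb B x, t y x) / w x) = ii I fun y => (∑ x ∈ orb B y, t y x) / w y := by
  have h1 : ∀ g ∈ B, Continuous fun x => t (g • x) x / w x / mult B x (g • x) := fun g hg =>
    (ht g).div (continuous_finsetSum _ fun g' _ =>
      cont_ite (coinF hI.fix g' g) continuous_const continuous_const) (mult_ne hg)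
  have h2 : ∀ y, (∑ x ∈ orb B y, t y x) / w y = ∑ g ∈ B, t (g • g⁻¹ • y) (g⁻¹ • y) / w (g⁻¹ • y) /
      mult B (g⁻¹ • y) (g • g⁻¹ • y) * (w (g⁻¹ • y) / w y) := fun y => by
    rw [sum_orb, sum_div]
    refine sum_bij' (fun g _ => g⁻¹) (fun g _ => g⁻¹) hB.inv hB.inv (fun _ _ => inv_inv _)
      (fun _ _ => inv_inv _) fun g _ => ?_
    rw [inv_inv, inv_smul_smul, mult_symm hB]
    have := (hI.wpos (g • y)).ne'
    field_simp
  have h0 : ∀ x, (∑ y ∈ orb B x, t y x) / w x = ∑ g ∈ B, t (g • x) x / w x / mult B x (g • x) :=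
    fun x => by
      rw [sum_orb, sum_div]
      exact sum_congr rfl fun g _ => div_right_comm _ _ _
  simp only [h2, h0]
  have h3 : ∀ g ∈ B, Continuous fun y => t (g • g⁻¹ • y) (g⁻¹ • y) / w (g⁻¹ • y) /
      mult B (g⁻¹ • y) (g • g⁻¹ • y) * (w (g⁻¹ • y) / w y) := fun g hg =>
    ((h1 g hg).comp (continuous_const_smul g⁻¹)).mul (hI.wcont g⁻¹)
  rw [ii_sum _ h1, ii_sum _ h3]
  exact sum_congr rfl fun g hg => (ii_inv hI g⁻¹ (h1 g hg)).symm

theorem mob_div (f : Finset X → ℝ) (c : ℝ) (W : Finset X) :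
    mob (fun U => f U / c) W = mob f W / c := by
  simp only [mob, sum_div, mul_div_assoc]

theorem ct_mobW (hI : IsDynW Γ I w) {F : X → Finset X → ℝ} (hF : Ct Γ fun x U => F x U / w x) :
    Ct Γ fun x U => mob (F x) U / w x := fun W =>
  (ct_mobF hI.fix hF W).congr fun x => mob_div _ _ _

theorem ct_sumW (hI : IsDynW Γ I w) {F : X → Finset X → ℝ} (hF : Ct Γ fun x U => F x U / w x) :
    Ct Γ fun x U => (∑ W ∈ U.powerset, F x W) / w x := fun W =>
  (ct_sumF hI.fix hF W).congr fun x => (sum_div _ _ _).symm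

theorem ct_ite {F : X → Finset X → ℝ} (hF : Ct Γ fun x U => F x U / w x)
    {p : X → Finset X → Prop} [∀ x U, Decidable (p x U)] (hp : ∀ W : Finset Γ, IsClopen {x | p x (orb W x)}) :
    Ct Γ fun x U => (if p x U then F x U else 0) / w x := fun W =>
  (cont_ite (hp W) (hF W) (continuous_const (y := 0))).congr fun x => by
    by_cases h : p x (orb W x) <;> simp [h]

theorem ct_divc (hI : IsDynW Γ I w) {F : X → Finset X → ℝ} (hF : Ct Γ fun x U => F x U / w x) :
    Ct Γ fun x U => F x U / U.card / w x := fun W =>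
  ((hF W).mul (ct_cardF hI.fix (fun j => (j : ℝ)⁻¹) W)).congr fun x => by
    simp only [Pi.mul_apply, div_eq_mul_inv]
    ring

theorem cont_dens (hI : IsDynW Γ I w) {f : Finset X → ℝ} (hf : Ct Γ fun x U => f U / w x)
    (S : Finset Γ) (n : ℕ) : Continuous fun x => dens S n f x / w x := by
  have h1 := ct_ite (ct_divc hI (ct_mobW hI (F := fun _ => f) hf)) (p := fun x U => (1 : Γ) • x ∈ U)
    (clopen_memF hI.fix 1)
  refine (ct_sumW hI h1 (S ^ n)).congr fun x => ?_
  simp only [dens, sum_filter, one_smul, ball]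

theorem trans2 (hI : IsDynW Γ I w) (hS : Gen S) {φ : X → Finset X → ℝ}
    (h1 : ∀ y W, φ y W ≠ 0 → y ∈ W ∧ W ⊆ ball S n y)
    (h2 : ∀ g : Γ, Ct Γ fun x U => φ (g • x) U / w x) :
    ii I (fun x => (∑ W ∈ (ball S (n + n) x).powerset,
      if x ∈ W then (∑ y ∈ W, φ y W) / W.card else 0) / w x) =
        ii I fun y => (∑ W ∈ (ball S n y).powerset, φ y W) / w y := by
  have key := transport hI (hS.pow n)
    (t := fun y x => ∑ W ∈ (ball S n y).powerset, if x ∈ W then φ y W / W.card else 0) fun g => by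
      have h3 := ct_ite (ct_divc hI (h2 g)) (p := fun x U => (1 : Γ) • x ∈ U)
        (clopen_memF hI.fix 1)
      refine (ct_sumW hI h3 ((S ^ n).image (· * g))).congr fun x => ?_
      have e : orb ((S ^ n).image (· * g)) x = ball S n (g • x) := by
        simp only [ball, orb, image_image]
        exact image_congr fun u _ => mul_smul u g x
      simp only [e, one_smul]
  refine Eq.trans (congrArg _ (funext fun x => congrArg (· / w x) ?_))
    (key.trans (congrArg _ (funext fun y => congrArg (· / w y) ?_)))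
  · change _ = ∑ y ∈ ball S n x, _
    rw [sum_congr rfl (g := fun y => ∑ W ∈ (ball S (n + n) x).powerset,
      if x ∈ W then φ y W / W.card else 0) fun y hy => sum_eq_of_ne fun W hW => ?_, sum_comm]
    · refine sum_congr rfl fun W _ => ?_
      split_ifs with hx
      · rw [← sum_div]
        congr 1
        exact sum_eq_of_ne fun y hy => iff_of_true (h1 y W hy).1 (ball_symm hS ((h1 y W hy).2 hx))
      · simp
    · have h4 : φ y W ≠ 0 := fun h0 => hW (by simp [h0])
      exact iff_of_true (mem_powerset.2 (h1 y W h4).2)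
        (mem_powerset.2 fun v hv => ball_add hy ((h1 y W h4).2 hv))
  · change ∑ x ∈ ball S n y, _ = _
    rw [sum_comm]
    refine sum_congr rfl fun W hW => ?_
    by_cases h0 : φ y W = 0
    · simp [h0]
    have h5 : (W.card : ℝ) ≠ 0 := Nat.cast_ne_zero.2 (card_pos.2 ⟨y, (h1 y W h0).1⟩).ne'
    rw [← sum_filter, filter_mem_eq_inter, inter_eq_right.2 (mem_powerset.1 hW), sum_const,
      nsmul_eq_mul, mul_div_cancel₀ _ h5]

theorem step (hI : IsDynW Γ I w) (hS : Gen S) (h : SysW S n w Λ) {σ σ' : X → St}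
    (hσ : IsLocallyConstant σ) (hσ' : IsLocallyConstant σ') {T : Set X} (hT : IsClopen T)
    (he : ∀ x ∉ T, σ' x = σ x) (hs : ∀ y ∈ T, ∀ y' ∈ T, y' ∈ ball S n y → y' = y) {η : ℝ}
    (hb : ∀ y ∈ T, Λ σ' (ball S n y) - Λ σ (ball S n y) ≤ η * w y) :
    ii I (fun x => dens S n (Λ σ') x / w x) ≤
      ii I (fun x => dens S n (Λ σ) x / w x) + ii I fun x => if x ∈ T then η else 0 := by
  have hd : ∀ W, mob (Λ σ') W - mob (Λ σ) W ≠ 0 → (∃ v ∈ W, v ∈ T) ∧ ∀ v ∈ W, W ⊆ ball S n v := by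
    intro W hW
    refine ⟨?_, fun v hv => ?_⟩
    · by_contra hc
      refine hW (sub_eq_zero.2 (mob_congr fun W' hW' => h.loc _ _ _ fun v hv => he v fun hv' => ?_))
      exact hc ⟨v, hW' hv, hv'⟩
    · by_cases h0 : mob (Λ σ) W = 0
      · exact h.clus σ' W (by simpa [h0] using hW) v hv
      · exact h.clus σ W h0 v hv
  have hφ : ∀ g : Γ, Ct Γ fun x U =>
      (if g • x ∈ T ∧ g • x ∈ U then mob (Λ σ') U - mob (Λ σ) U else 0) / w x := fun g =>
    ct_ite (F := fun _ U => mob (Λ σ') U - mob (Λ σ) U) (p := fun x U => g • x ∈ T ∧ g • x ∈ U)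
      (fun W => ((ct_mobW hI (F := fun _ => Λ σ') (h.cont σ' hσ') W).sub
        (ct_mobW hI (F := fun _ => Λ σ) (h.cont σ hσ) W)).congr fun x => (sub_div _ _ _).symm)
      fun W => (hT.preimage (continuous_const_smul g)).inter (clopen_memF hI.fix g W)
  have key := trans2 hI hS (n := n)
    (φ := fun y W => if y ∈ T ∧ y ∈ W then mob (Λ σ') W - mob (Λ σ) W else 0) (fun y W hW => by
      have h1 : y ∈ T ∧ y ∈ W := by
        by_contra hc
        exact hW (if_neg hc)
      rw [if_pos h1] at hW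
      exact ⟨h1.2, (hd W hW).2 y h1.2⟩) hφ
  have e1 : ∀ x, (∑ W ∈ (ball S (n + n) x).powerset, if x ∈ W then
      (∑ y ∈ W, if y ∈ T ∧ y ∈ W then mob (Λ σ') W - mob (Λ σ) W else 0) / W.card else 0) =
        dens S n (Λ σ') x - dens S n (Λ σ) x := fun x => by
    rw [dens_eq hS (h.clus σ'), dens_eq hS (h.clus σ), ← sum_sub_distrib]
    refine sum_congr rfl fun W _ => ?_
    split_ifs with hx
    · rw [← sub_div]
      congr 1
      by_cases h0 : mob (Λ σ') W - mob (Λ σ) W = 0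
      · simp [h0]
      obtain ⟨⟨v, hv, hv'⟩, h1⟩ := hd W h0
      rw [sum_eq_single_of_mem v hv, if_pos ⟨hv', hv⟩]
      exact fun u hu huv => if_neg fun h2 => huv (hs v hv' u h2.1 (h1 v hv hu))
    · simp
  have e2 : ∀ y, (∑ W ∈ (ball S n y).powerset,
      if y ∈ T ∧ y ∈ W then mob (Λ σ') W - mob (Λ σ) W else 0) / w y ≤ if y ∈ T then η else 0 := by
    intro y
    by_cases hy : y ∈ T
    · rw [if_pos hy, div_le_iff₀ (hI.wpos y)]
      refine le_of_eq_of_le ?_ (hb y hy)
      rw [← mob_sum (Λ σ'), ← mob_sum (Λ σ), ← sum_sub_distrib]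
      refine sum_congr rfl fun W hW => ?_
      by_cases h0 : mob (Λ σ') W - mob (Λ σ) W = 0
      · simp [h0]
      obtain ⟨v, hv, hv'⟩ := (hd W h0).1
      exact if_pos ⟨hy, hs y hy v hv' (mem_powerset.1 hW hv) ▸ hv⟩
    · simp [hy]
  have c1 := cont_dens hI (h.cont σ hσ) S n
  have c2 := cont_dens hI (h.cont σ' hσ') S n
  have c3 : Continuous fun x => (dens S n (Λ σ') x - dens S n (Λ σ) x) / w x :=
    (c2.sub c1).congr fun x => (sub_div _ _ _).symm
  have e3 := ii_add (I := I) c1 c3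
  simp only [← add_div, add_sub_cancel] at e3
  simp only [e1] at key
  have c4 := ct_sumW hI (hφ 1) (S ^ n)
  simp only [one_smul] at c4
  have e4 := ii_mono hI c4 (cont_ite (p := fun x => x ∈ T) hT continuous_const continuous_const) e2
  rw [key] at e3
  exact e3.trans_le (add_le_add_right e4 _)

theorem final_id (hI : IsDynW Γ I w) (hS : Gen S) (h : SysW S n w Λ) {σ : X → St}
    (hσ : IsLocallyConstant σ) {D : X → Finset X → ℝ} (h1 : ∀ U, Λ σ U = ∑ v ∈ U, D v U)
    (h2 : ∀ v U, D v U = D v (U ∩ ball S n v))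
    (h3 : ∀ g : Γ, Ct Γ fun x U => D (g • x) U / w x) :
    ii I (fun x => dens S n (Λ σ) x / w x) = ii I fun x => D x (ball S n x) / w x := by
  have key := trans2 hI hS (n := n)
    (φ := fun v W => mob (fun U => if v ∈ U then D v U else 0) W) (fun v W hW => ?_) fun g =>
      ct_mobW hI (F := fun x U => if g • x ∈ U then D (g • x) U else 0)
        (ct_ite (h3 g) (p := fun x U => g • x ∈ U) (clopen_memF hI.fix g))
  · refine Eq.trans (congrArg _ (funext fun x => congrArg (· / w x) ?_))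
      (key.trans (congrArg _ (funext fun y => congrArg (· / w y) ?_)))
    · rw [dens_eq hS (h.clus σ)]
      refine sum_congr rfl fun W _ => if_congr Iff.rfl ?_ rfl
      congr 1
      simp only [mob]
      rw [sum_comm]
      refine sum_congr rfl fun U hU => ?_
      rw [← mul_sum, ← sum_filter, filter_mem_eq_inter, inter_eq_right.2 (mem_powerset.1 hU), h1]
    · rw [mob_sum, if_pos (self_mem_ball hS n y)]
  · have h4 : v ∈ W := by
      by_contra hc
      refine hW ((mob_congr (g := fun _ => 0) fun U hU => if_neg fun hv => hc (hU hv)).trans ?_)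
      simp [mob]
    refine ⟨h4, fun u hu => ?_⟩
    by_contra hc
    have h5 : v ≠ u := fun e => hc (e ▸ self_mem_ball hS n v)
    refine hW (mob_blind hu fun U _ => if_congr (by simp [h5]) ?_ rfl)
    rw [h2 v (insert u U), h2 v U, insert_inter_of_notMem hc]

/-- The closure of the set where `g` lowers the weight. -/
def Cw (w : X → ℝ) (g : Γ) : Set X := closure {x | w (g • x) / w x < 1}

theorem open_O (hI : IsDynW Γ I w) (g : Γ) : IsOpen {x | w (g • x) / w x < 1} :=
  isOpen_lt (hI.wcont g) continuous_const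

theorem clopen_Cw (hI : IsDynW Γ I w) (g : Γ) : IsClopen (Cw w g) :=
  ⟨isClosed_closure, hI.ed g⟩

theorem Cw_congr (hI : IsDynW Γ I w) {g g' : Γ} {b : X} (e : g • b = g' • b) (h : b ∈ Cw w g) :
    b ∈ Cw w g' := by
  have h1 := (coinF hI.fix g g').isOpen.inter_closure (t := {x | w (g • x) / w x < 1}) ⟨e, h⟩
  refine closure_mono (fun x hx => ?_) h1
  have h2 : g • x = g' • x := hx.1
  have h3 : w (g • x) / w x < 1 := hx.2
  change w (g' • x) / w x < 1
  rwa [← h2]

/-- The strict weak order. -/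
def Lt (Γ : Type*) {X : Type*} [Group Γ] [MulAction Γ X] [TopologicalSpace X] (w : X → ℝ) (a b : X) :
    Prop := ∃ g : Γ, a = g • b ∧ b ∈ Cw w g

theorem lt_iff (hI : IsDynW Γ I w) {g : Γ} {a b : X} (e : a = g • b) : Lt Γ w a b ↔ b ∈ Cw w g :=
  ⟨fun ⟨_, h1, h2⟩ => Cw_congr hI (h1.symm.trans e) h2, fun h => ⟨g, e, h⟩⟩

theorem clopen_lt (hI : IsDynW Γ I w) (g g' : Γ) : IsClopen {x : X | Lt Γ w (g • x) (g' • x)} := by
  have e : {x : X | Lt Γ w (g • x) (g' • x)} = (fun x => g' • x) ⁻¹' Cw w (g * g'⁻¹) := by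
    ext x
    exact lt_iff hI (by rw [mul_smul, inv_smul_smul])
  rw [e]
  exact (clopen_Cw hI _).preimage (continuous_const_smul g')

theorem le_of_lt' (hI : IsDynW Γ I w) {a b : X} (h : Lt Γ w a b) : w a ≤ w b := by
  obtain ⟨g, rfl, h⟩ := h
  have h1 : b ∈ {x | w (g • x) / w x ≤ 1} :=
    closure_minimal (fun x (hx : w (g • x) / w x < 1) => hx.le)
      (isClosed_le (hI.wcont g) continuous_const) h
  exact (div_le_one (hI.wpos b)).1 h1

theorem le_of_not (hI : IsDynW Γ I w) {g : Γ} {a b : X} (e : a = g • b) (h : ¬Lt Γ w a b) :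
    w b ≤ w a := by
  by_contra hc
  refine h ⟨g, e, subset_closure ?_⟩
  change w (g • b) / w b < 1
  rw [div_lt_one (hI.wpos b), ← e]
  exact not_le.1 hc

theorem lt_asymm' (hI : IsDynW Γ I w) {a b : X} (h : Lt Γ w a b) (h' : Lt Γ w b a) : False := by
  obtain ⟨g, rfl, h⟩ := h
  rw [lt_iff hI (g := g⁻¹) (inv_smul_smul g b).symm] at h'
  have h1 : IsOpen ((fun x => g • x) ⁻¹' Cw w g⁻¹) :=
    (clopen_Cw hI _).isOpen.preimage (continuous_const_smul g)
  obtain ⟨x, hx, hx'⟩ := mem_closure_iff.1 h _ h1 h'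
  have h2 : IsOpen ((fun y => g⁻¹ • y) ⁻¹' {x | w (g • x) / w x < 1}) :=
    (open_O hI g).preimage (continuous_const_smul g⁻¹)
  obtain ⟨y, hy, hy'⟩ := mem_closure_iff.1 hx _ h2 (by simpa using hx')
  have h3 : w (g • g⁻¹ • y) / w (g⁻¹ • y) < 1 := hy
  have h4 : w (g⁻¹ • y) / w y < 1 := hy'
  rw [smul_inv_smul, div_lt_one (hI.wpos _)] at h3
  rw [div_lt_one (hI.wpos _)] at h4
  exact lt_asymm h3 h4

theorem lt_neg (hI : IsDynW Γ I w) {a b c : X} (hb : ∃ g : Γ, b = g • c) (h : Lt Γ w a c) :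
    Lt Γ w a b ∨ Lt Γ w b c := by
  obtain ⟨g, rfl, h⟩ := h
  obtain ⟨k, rfl⟩ := hb
  rw [lt_iff hI (g := g * k⁻¹) (by rw [mul_smul, inv_smul_smul]), lt_iff hI rfl]
  refine closure_minimal (t := (fun x => k • x) ⁻¹' Cw w (g * k⁻¹) ∪ Cw w k) (fun x hx => ?_)
    ((isClosed_closure.preimage (continuous_const_smul k)).union isClosed_closure) h
  have h1 : w (g • x) / w x < 1 := hx
  rw [div_lt_one (hI.wpos _)] at h1
  rcases lt_or_ge (w (g • x)) (w (k • x)) with h2 | h2
  · refine Or.inl (subset_closure ?_)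
    change w ((g * k⁻¹) • k • x) / w (k • x) < 1
    rwa [mul_smul, inv_smul_smul, div_lt_one (hI.wpos _)]
  · refine Or.inr (subset_closure ?_)
    change w (k • x) / w x < 1
    rw [div_lt_one (hI.wpos _)]
    exact h2.trans_lt h1

theorem exists_top {α : Type*} {r : α → α → Prop} (W : Finset α) (hne : W.Nonempty)
    (h1 : ∀ a ∈ W, ∀ b ∈ W, a ≠ b → r a b ∨ r b a)
    (h2 : ∀ a ∈ W, ∀ b ∈ W, ∀ c ∈ W, r a b → r b c → r a c) : ∃ y ∈ W, ∀ v ∈ W, v = y ∨ r v y := by
  induction hne using Finset.Nonempty.cons_induction with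
  | singleton a => exact ⟨a, by simp, by simp⟩
  | cons a s ha hs ih =>
    have m : ∀ {b}, b ∈ s → b ∈ cons a s ha := fun hb => mem_cons.2 (Or.inr hb)
    have m0 : a ∈ cons a s ha := mem_cons_self _ _
    obtain ⟨y, hy, hy'⟩ := ih (fun b hb c hc => h1 b (m hb) c (m hc))
      fun b hb c hc d hd => h2 b (m hb) c (m hc) d (m hd)
    rcases h1 a m0 y (m hy) (fun e => ha (e ▸ hy)) with h | h
    · refine ⟨y, m hy, fun v hv => ?_⟩
      rcases mem_cons.1 hv with rfl | hv
      · exact Or.inr h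
      · exact hy' v hv
    · refine ⟨a, m0, fun v hv => ?_⟩
      rcases mem_cons.1 hv with rfl | hv
      · exact Or.inl rfl
      · rcases hy' v hv with rfl | h'
        · exact Or.inr h
        · exact Or.inr (h2 v (m hv) y (m hy) a m0 h' h)

theorem init (hI : IsDynW Γ I w) (hS : Gen S) {f : Finset X → ℝ}
    (hc : ∀ W, mob f W ≠ 0 → ∀ y ∈ W, W ⊆ ball S n y) (hf : Ct Γ fun x U => f U / w x) {η : ℝ}
    (hb : ∀ y U, y ∈ U → U ⊆ ball S n y → (∀ v ∈ U, w v ≤ w y) → f U - f (U.erase y) ≤ η * w y) :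
    ii I (fun x => dens S n f x / w x) ≤ η := by
  obtain ⟨m, cl, hcl, hcl'⟩ := classes hI (S ^ n)
  let r : X → X → Prop := fun a b => Lt Γ w a b ∨ (¬Lt Γ w b a ∧ cl a < cl b)
  have r1 : ∀ a b, r a b → r b a → False := by
    rintro a b (h | h) (h' | h')
    · exact lt_asymm' hI h h'
    · exact h'.1 h
    · exact h.1 h'
    · exact lt_asymm h.2 h'.2
  have r2 : ∀ g g' : Γ, IsClopen {x : X | r (g • x) (g' • x)} := fun g g' => by
    have h1 : IsLocallyConstant fun x => (cl (g • x), cl (g' • x)) :=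
      (hcl.comp_continuous (continuous_const_smul g)).prodMk
        (hcl.comp_continuous (continuous_const_smul g'))
    have h2 : IsClopen {x : X | cl (g • x) < cl (g' • x)} :=
      ⟨⟨h1 {p | p.1 < p.2}ᶜ⟩, h1 {p | p.1 < p.2}⟩
    exact (clopen_lt hI g g').union ((clopen_lt hI g' g).compl.inter h2)
  have hφ : ∀ g : Γ, Ct Γ fun x U =>
      (if g • x ∈ U ∧ ∀ v ∈ U, v = g • x ∨ r v (g • x) then mob f U else 0) / w x := fun g =>
    ct_ite (ct_mobW hI (F := fun _ => f) hf)
      (p := fun x U => g • x ∈ U ∧ ∀ v ∈ U, v = g • x ∨ r v (g • x)) fun W => by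
        have e : {x : X | ∀ v ∈ orb W x, v = g • x ∨ r v (g • x)} =
            ⋂ k ∈ W, ({x : X | k • x = g • x} ∪ {x : X | r (k • x) (g • x)}) := by
          ext x
          simp [mem_orb]
        refine (clopen_memF hI.fix g W).inter (t := {x : X | ∀ v ∈ orb W x, v = g • x ∨ r v (g • x)}) ?_
        rw [e]
        exact isClopen_biInter_finset fun k _ => (coinF hI.fix k g).union (r2 k g)
  have key := trans2 hI hS (n := n)
    (φ := fun y W => if y ∈ W ∧ ∀ v ∈ W, v = y ∨ r v y then mob f W else 0) (fun y W hW => by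
      have h1 : y ∈ W ∧ ∀ v ∈ W, v = y ∨ r v y := by
        by_contra hc
        exact hW (if_neg hc)
      rw [if_pos h1] at hW
      exact ⟨h1.1, hc W hW y h1.1⟩) hφ
  have e1 : ∀ x, (∑ W ∈ (ball S (n + n) x).powerset, if x ∈ W then
      (∑ y ∈ W, if y ∈ W ∧ ∀ v ∈ W, v = y ∨ r v y then mob f W else 0) / W.card else 0) =
        dens S n f x := fun x => by
    rw [dens_eq hS hc]
    refine sum_congr rfl fun W _ => ?_
    by_cases hx : x ∈ W
    swap
    · rw [if_neg hx, if_neg hx]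
    rw [if_pos hx, if_pos hx]
    refine congrArg (· / (W.card : ℝ)) ?_
    by_cases h0 : mob f W = 0
    · simp [h0]
    have o : ∀ a ∈ W, ∀ b ∈ W, ∃ g ∈ S ^ n, g • a = b := fun a ha b hb =>
      mem_orb.1 (hc W h0 a ha hb)
    have o' : ∀ a ∈ W, ∀ b ∈ W, ∃ g : Γ, b = g • a := fun a ha b hb =>
      (o a ha b hb).imp fun g hg => hg.2.symm
    obtain ⟨y, hy, hy'⟩ := exists_top (r := r) W ⟨x, hx⟩ (fun a ha b hb hab => by
      by_cases h1 : Lt Γ w a b
      · exact Or.inl (Or.inl h1)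
      by_cases h2 : Lt Γ w b a
      · exact Or.inr (Or.inl h2)
      obtain ⟨g, hg, rfl⟩ := o a ha b hb
      rcases lt_trichotomy (cl a) (cl (g • a)) with h | h | h
      · exact Or.inl (Or.inr ⟨h2, h⟩)
      · exact (hab (hcl' g hg a h.symm).symm).elim
      · exact Or.inr (Or.inr ⟨h1, h⟩)) (by
      rintro a ha b hb c hc' (h | h) (h' | h')
      · exact Or.inl ((lt_neg hI (o' b hb c hc') h).resolve_right fun k => lt_asymm' hI k h')
      · exact Or.inl ((lt_neg hI (o' b hb c hc') h).resolve_right h'.1)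
      · exact Or.inl ((lt_neg hI (o' c hc' a ha) h').resolve_left h.1)
      · exact Or.inr ⟨fun k => (lt_neg hI (o' a ha b hb) k).elim h'.1 h.1, h.2.trans h'.2⟩)
    rw [sum_eq_single_of_mem y hy, if_pos ⟨hy, hy'⟩]
    refine fun u hu huy => if_neg fun h2 => ?_
    exact r1 u y ((hy' u hu).resolve_left huy) ((h2.2 y hy).resolve_left (Ne.symm huy))
  have e2 : ∀ y, (∑ W ∈ (ball S n y).powerset,
      if y ∈ W ∧ ∀ v ∈ W, v = y ∨ r v y then mob f W else 0) / w y ≤ η := fun y => by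
    rw [div_le_iff₀ (hI.wpos y)]
    have hy : y ∈ (ball S n y).filter fun v => v = y ∨ r v y :=
      mem_filter.2 ⟨self_mem_ball hS n y, Or.inl rfl⟩
    refine le_of_eq_of_le ?_ (hb y _ hy (filter_subset _ _) fun v hv => ?_)
    · rw [← mob_sum f, ← mob_sum f (erase _ y), eq_sub_iff_add_eq, ← sum_filter,
        ← sum_union]
      · refine sum_congr ?_ fun _ _ => rfl
        ext W
        simp only [mem_union, mem_filter, mem_powerset, subset_iff, mem_erase]
        constructor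
        · rintro (⟨h1, -, h2⟩ | h) v hv
          · exact ⟨h1 hv, h2 v hv⟩
          · exact (h hv).2
        · intro h
          by_cases hW : y ∈ W
          · exact Or.inl ⟨fun v hv => (h hv).1, hW, fun v hv => (h hv).2⟩
          · exact Or.inr fun v hv => ⟨fun e => hW (e ▸ hv), h hv⟩
      · refine disjoint_left.2 fun W h1 h2 => ?_
        exact notMem_erase y _ (mem_powerset.1 h2 (mem_filter.1 h1).2.1)
    · obtain ⟨h1, h2⟩ := mem_filter.1 hv
      rcases h2 with rfl | h2 | h2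
      · exact le_rfl
      · exact le_of_lt' hI h2
      · obtain ⟨g, -, hg⟩ := mem_orb.1 (ball_symm hS h1)
        exact le_of_not hI hg.symm h2.1
  simp only [e1] at key
  have c4 := ct_sumW hI (hφ 1) (S ^ n)
  simp only [one_smul] at c4
  rw [key]
  exact (ii_mono hI c4 continuous_const e2).trans_eq (ii_const hI η)

end W

end Vale.Agent.P078
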