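import Vale.Agent.P078.KP
import Vale.Agent.P078.Barrier
import Vale.Agent.P078.Cluster
import Vale.Agent.P078.Approx

/-!
Weighted kernels and the homogeneous potential.

PLAN. `co σ (t k) T = t^|T| co σ k T`, so the roots of `ep σ (t k) U` are `t` times the roots of `ep σ k U` (`ep σ (t k) U = scaleRoots`, or
compare `eval` and use `ep_real`); `kw (t ρ) k = t² kw ρ k`. Every statement reduces to a `Good` kernel by `t = 1/(Σ_U ρ)` (`good_kw`).
`LW_col`: `ratio`, `klemP`. `LW_add`: `t = 1/ρ y`, `barrier`, `Herg.il` for `min (max s 0) z ^ p` and its mirror image (see `add_step` in Core).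
`LW_small`: `mob_small` (`mob` of a multiple). `LW_cont`: `Lam_cont` with `t y = 1/(Σ_U ρ y)`. `mom`: `s^(2m) ≤ t^(2m) + t^(2m)/t^(2q) s^(2q)`
and the spectral theorem (`kp_pow`, see `trace_pow`, `final_Lam`).
-/

open Finset Polynomial
open scoped Classical ComplexConjugate

namespace Vale.Agent.P078

variable {V : Type*} {r q : ℕ} {k : V → V → ℂ} {U W : Finset V} {σ : V → Option (Fin r)} {ρ : V → ℝ}

noncomputable def kw (ρ : V → ℝ) (k : V → V → ℂ) (a b : V) : ℂ := ((ρ a * ρ b : ℝ) : ℂ) * k a b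

noncomputable def LW (q : ℕ) (ρ : V → ℝ) (k : V → V → ℂ) (σ : V → Option (Fin r)) (U : Finset V) : ℝ :=
  Lam (X ^ (2 * q)) σ (kw ρ k) U

theorem good_kw (hk : Good k U) (h : ∀ v ∈ U, 0 ≤ ρ v ∧ ρ v ≤ 1) : Good (kw ρ k) U := by
  refine ⟨fun a ha b hb => ?_, fun a ha => by simp [kw, hk.2.1 a ha], fun v => ?_⟩
  · simp [kw, hk.1 a ha b hb, mul_comm]
  · have := hk.2.2 fun a => (ρ a : ℂ) * v a
    have e : ∑ a ∈ U, ∑ b ∈ U, conj (v a) * kw ρ k a b * v b =
        ∑ a ∈ U, ∑ b ∈ U, conj ((ρ a : ℂ) * v a) * k a b * (ρ b * v b) :=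
      sum_congr rfl fun a _ => sum_congr rfl fun b _ => by
        simp only [kw, map_mul, Complex.conj_ofReal, Complex.ofReal_mul]
        ring
    rw [e]
    refine this.trans (sum_le_sum fun a ha => pow_le_pow_left₀ (norm_nonneg _) ?_ 2)
    rw [norm_mul, Complex.norm_real, Real.norm_of_nonneg (h a ha).1]
    exact mul_le_of_le_one_left (norm_nonneg _) (h a ha).2

namespace ScAux

theorem co_scale (t : ℂ) (σ : V → Option (Fin r)) (k : V → V → ℂ) (T : Finset V) :
    co σ (fun a b => t * k a b) T = t ^ T.card * co σ k T := by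
  unfold co
  rw [mul_sum]
  refine sum_congr rfl fun c _ => ?_
  have e : (Matrix.of fun a b : T => -(if c a = c b then t * k a b else 0)) =
      t • Matrix.of fun a b : T => -(if c a = c b then k a b else 0) := by
    ext a b
    simp only [Matrix.of_apply, Matrix.smul_apply, smul_eq_mul]
    split_ifs <;> ring
  rw [e, Matrix.det_smul, Fintype.card_coe]
  ring

theorem ep_scale (t : ℝ) (σ : V → Option (Fin r)) (k : V → V → ℂ) (U : Finset V) :
    ep σ (fun a b => (t : ℂ) * k a b) U = (ep σ k U).scaleRoots t := by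
  ext i
  rw [coeff_scaleRoots, (ep_monic σ k U).2]
  unfold ep
  rw [finsetSum_coeff, finsetSum_coeff, sum_mul]
  refine sum_congr rfl fun T hT => ?_
  have := card_le_card (mem_powerset.1 hT)
  rw [coeff_C_mul_X_pow, coeff_C_mul_X_pow]
  split_ifs with h
  · rw [co_scale, ← Complex.ofReal_pow, Complex.re_ofReal_mul, show U.card - i = T.card by omega]
    ring
  · simp

theorem Lam_pow (n : ℕ) (σ : V → Option (Fin r)) (k : V → V → ℂ) (U : Finset V) :
    Lam (X ^ n) σ k U = rs (fun s => s ^ n) (ep σ k U) := by simp [Lam]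

theorem kw_scale (t : ℝ) (ρ : V → ℝ) (k : V → V → ℂ) :
    kw (fun v => t * ρ v) k = fun a b => ((t ^ 2 : ℝ) : ℂ) * kw ρ k a b := by
  funext a b
  simp only [kw]
  push_cast
  ring

theorem scale {t : ℝ} (ht : 0 < t) (q : ℕ) (ρ : V → ℝ) (k : V → V → ℂ) (σ : V → Option (Fin r))
    (U : Finset V) : LW q (fun v => t * ρ v) k σ U = t ^ (4 * q) * LW q ρ k σ U := by
  rw [LW, LW, Lam_pow, Lam_pow, kw_scale, ep_scale, rs, rs,
    roots_scaleRoots _ (isUnit_iff_ne_zero.2 (by positivity)), Multiset.map_map,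
    ← Multiset.sum_map_mul_left]
  refine congrArg _ (Multiset.map_congr rfl fun s _ => ?_)
  simp only [Function.comp]
  ring

theorem good_t (hk : Good k U) (hρ : ∀ v, 0 < ρ v) :
    0 < 1 / (1 + ∑ v ∈ U, ρ v) ∧ Good (kw (fun v => 1 / (1 + ∑ v ∈ U, ρ v) * ρ v) k) U := by
  have h0 : 0 ≤ ∑ v ∈ U, ρ v := sum_nonneg fun v _ => (hρ v).le
  refine ⟨by positivity, good_kw hk fun v hv => ⟨mul_nonneg (by positivity) (hρ v).le, ?_⟩⟩
  rw [one_div_mul_eq_div, div_le_one (by positivity)]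
  linarith [single_le_sum (fun v _ => (hρ v).le) hv]

theorem diag_pow {n : Type*} [Fintype n] [DecidableEq n] {M : Matrix n n ℂ} (hM : M.IsHermitian)
    (v : n) : ∃ w : n → ℝ, (∀ i, 0 ≤ w i) ∧
      ∀ m : ℕ, ((M ^ m) v v).re = ∑ i, w i * hM.eigenvalues i ^ m := by
  refine ⟨fun i => Complex.normSq ((hM.eigenvectorUnitary : Matrix n n ℂ) v i),
    fun i => Complex.normSq_nonneg _, fun m => ?_⟩
  conv_lhs => rw [hM.spectral_theorem, ← map_pow, Unitary.conjStarAlgAut_apply, Matrix.mul_apply,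
    Complex.re_sum]
  refine sum_congr rfl fun i _ => ?_
  rw [Matrix.diagonal_pow, Matrix.mul_diagonal, Matrix.star_apply, mul_right_comm,
    Complex.star_def, Complex.mul_conj]
  simp [← Complex.ofReal_pow]

theorem kp_bd {y : V → V → ℂ} (hy : ∀ a ∈ U, ∀ b ∈ U, ‖y a b‖ ≤ 3) (n : ℕ) {a : V} (ha : a ∈ U)
    (b : V) : ‖kp y U n a b‖ ≤ (3 * (U.card + 1)) ^ n := by
  induction n generalizing a with
  | zero =>
    simp only [kp]
    split_ifs <;> simp
  | succ n ih =>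
    refine (norm_sum_le _ _).trans ((sum_le_card_nsmul _ _ (3 * (3 * (U.card + 1 : ℝ)) ^ n)
      fun v hv => ?_).trans ?_)
    · rw [norm_mul]
      exact mul_le_mul (hy a ha v hv) (ih hv) (norm_nonneg _) (by norm_num)
    · have : (0 : ℝ) ≤ (3 * (U.card + 1)) ^ n := by positivity
      rw [nsmul_eq_mul, pow_succ]
      linarith

end ScAux

open ScAux

theorem LW_scale (hr : 0 < r) (hk : Good k U) (hρ : ∀ v, 0 < ρ v) {t : ℝ} (ht : 0 < t) :
    LW q (fun v => t * ρ v) k σ U = t ^ (4 * q) * LW q ρ k σ U := by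
  have _ := And.intro hr (And.intro hk hρ)
  exact scale ht q ρ k σ U

theorem LW_col (hr : 0 < r) (hq : 10 ≤ q) (hk : Good k U) (hρ : ∀ v, 0 < ρ v) {y : V} (hy : y ∈ U)
    (hσ : σ y = none) {η : ℝ} (hη : 0 < η) :
    ∃ c, LW q ρ k (Function.update σ y (some c)) U - LW q ρ k σ U < η := by
  obtain ⟨ht, hg⟩ := good_t hk hρ
  set t := 1 / (1 + ∑ v ∈ U, ρ v)
  obtain ⟨B, h1, h2, h3⟩ := ratio (σ := σ) hr hg hy
  rw [Function.update_eq_self_iff.2 hσ.symm] at h3
  have t4 : 0 < t ^ (4 * q) := by positivity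
  obtain ⟨c, hc⟩ := klemP hr h1 hq (η := t ^ (4 * q) * (η / 2)) (by positivity)
  rw [← h2, ← h3, ← Lam_pow, ← Lam_pow] at hc
  have e1 := scale ht q ρ k (Function.update σ y (some c)) U
  have e2 := scale ht q ρ k σ U
  refine ⟨c, lt_of_mul_lt_mul_left (a := t ^ (4 * q)) ?_ t4.le⟩
  unfold LW at e1 e2 ⊢
  have := mul_pos t4 hη
  linarith

theorem LW_add (hr : 2 ≤ r) (hq : 1 ≤ q) (hk : Good k U) (hρ : ∀ v, 0 < ρ v) {y : V} (hy : y ∈ U)
    (h : ∀ v ∈ U, ρ v ≤ ρ y) : LW q ρ k (fun _ => (none : Option (Fin r))) U -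
      LW q ρ k (fun _ => (none : Option (Fin r))) (U.erase y) ≤
        2 * (5 / √(r : ℝ)) ^ (2 * q) * ρ y ^ (4 * q) := by
  have r0 : 0 < r := by omega
  have y0 := hρ y
  have hg : Good (kw (fun v => 1 / ρ y * ρ v) k) U := good_kw hk fun v hv =>
    ⟨mul_nonneg (by positivity) (hρ v).le, by rw [one_div_mul_eq_div, div_le_one y0]; exact h v hv⟩
  obtain ⟨B, h1, -, h3⟩ := ratio (σ := fun _ => (none : Option (Fin r))) r0 hg hy
  rw [Function.update_eq_self_iff.2 rfl] at h3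
  have hh := (Herg.sum r0 h1).smul (t := 1 / (r : ℝ)) (by positivity)
  have hz : 0 ≤ 5 / √(r : ℝ) := by positivity
  have b1 := barrier hr hg
  have b2 := barrier hr (hg.mono (erase_subset y U))
  set z := 5 / √(r : ℝ)
  let ψ : ℝ → ℝ := fun s => min (max s 0) z ^ (2 * q)
  have p0 : ∀ s, 0 ≤ min (max s 0) z := fun s => le_min (le_max_right _ _) hz
  have p1 : Monotone ψ := fun a b hab =>
    pow_le_pow_left₀ (p0 a) (min_le_min (max_le_max hab le_rfl) le_rfl) _
  have p2 : ∀ s, 0 ≤ ψ s := fun s => pow_nonneg (p0 s) _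
  have p3 : ∀ s, ψ s ≤ z ^ (2 * q) := fun s => pow_le_pow_left₀ (p0 s) (min_le_right _ _) _
  have k1 := (hh.il p1 p2 p3).2
  have k2 := (hh.il (ψ := fun s => -ψ (-s)) (lo := -z ^ (2 * q)) (hi := 0)
    (fun a b hab => neg_le_neg (p1 (neg_le_neg hab))) (fun s => neg_le_neg (p3 _))
    fun s => neg_nonpos.2 (p2 _)).1
  have e : ∀ P : ℝ[X], (∀ s ∈ P.roots, |s| ≤ z) →
      rs (fun s => s ^ (2 * q)) P = rs ψ P - rs (fun s => -ψ (-s)) P := fun P hP => by
    simp only [rs]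
    rw [← Multiset.sum_map_sub]
    refine congrArg _ (Multiset.map_congr rfl fun s hs => ?_)
    obtain ⟨u1, u2⟩ := abs_le.1 (hP s hs)
    simp only [ψ]
    rcases le_total 0 s with u | u
    · rw [max_eq_left u, min_eq_left u2, max_eq_right (neg_nonpos.2 u), min_eq_left hz,
        zero_pow (by omega)]
      simp
    · rw [max_eq_right u, min_eq_left hz, max_eq_left (neg_nonneg.2 u), min_eq_left (by linarith),
        zero_pow (by omega), (even_two_mul q).neg_pow]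
      simp
  rw [← h3] at k1 k2
  have e1 := scale (t := 1 / ρ y) (by positivity) q ρ k (fun _ => (none : Option (Fin r))) U
  have e2 := scale (t := 1 / ρ y) (by positivity) q ρ k (fun _ => (none : Option (Fin r)))
    (U.erase y)
  rw [LW, Lam_pow, e _ b1] at e1
  rw [LW, Lam_pow, e _ b2] at e2
  refine le_of_mul_le_mul_left (a := (1 / ρ y) ^ (4 * q)) ?_ (by positivity)
  have e3 : (1 / ρ y) ^ (4 * q) * (2 * z ^ (2 * q) * ρ y ^ (4 * q)) = 2 * z ^ (2 * q) := by
    rw [one_div, inv_pow]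
    field_simp
  linarith

theorem LW_small (hr : 0 < r) (hk : Good k W) (hρ : ∀ v, 0 < ρ v) (hne : mob (LW q ρ k σ) W ≠ 0)
    {y : V} (hy : y ∈ W) {R : ℕ → Finset V} (h0 : y ∈ R 0) (hm : Monotone R)
    (hs : ∀ j, ∀ a ∈ R j, ∀ b, k b a ≠ 0 ∨ k a b ≠ 0 → b ∈ R (j + 1)) : W ⊆ R (2 * q + 1) := by
  obtain ⟨ht, hg⟩ := good_t hk hρ
  set t := 1 / (1 + ∑ v ∈ W, ρ v)
  have e : mob (Lam (X ^ (2 * q)) σ (kw (fun v => t * ρ v) k)) W =
      t ^ (4 * q) * mob (LW q ρ k σ) W := by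
    rw [mob, mob, mul_sum]
    exact sum_congr rfl fun U _ => by rw [mul_left_comm, ← scale ht, LW]
  have := mob_small hr hg (h := X ^ (2 * q)) (σ := σ) (by rw [e]; exact mul_ne_zero (by positivity) hne)
    hy h0 hm fun j a ha b hb => hs j a ha b (hb.imp right_ne_zero_of_mul right_ne_zero_of_mul)
  rwa [natDegree_X_pow] at this

theorem dg_pow (n : ℕ) (y : V → V → ℂ) (U : Finset V) (v : V) :
    dg (X ^ n) y U v = (kp y U n v v).re / 48 ^ n := by
  rw [dg, natDegree_X_pow, sum_eq_single n (fun m _ hm => by simp [coeff_X_pow, hm]) (by simp)]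
  simp [div_eq_inv_mul]

theorem kp_scale (t : ℝ) (y : V → V → ℂ) (U : Finset V) (n : ℕ) (a b : V) :
    kp (fun a b => (t : ℂ) * y a b) U n a b = (t : ℂ) ^ n * kp y U n a b := by
  induction n generalizing a with
  | zero => simp [kp]
  | succ n ih =>
    simp only [kp, ih, mul_sum]
    exact sum_congr rfl fun v _ => by ring

theorem LW_final (hr : 0 < r) (hk : Good k U) (hρ : ∀ v, 0 < ρ v) (c : V → Fin r) :
    LW q ρ k (fun v => some (c v)) U = ∑ v ∈ U, dg (X ^ (2 * q)) (yc (kw ρ k) c) U v := by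
  have _ := hr
  obtain ⟨ht, hg⟩ := good_t hk hρ
  set t := 1 / (1 + ∑ v ∈ U, ρ v)
  refine mul_left_cancel₀ (a := t ^ (4 * q)) (by positivity) ?_
  rw [← scale ht, LW, final_Lam hg, mul_sum]
  refine sum_congr rfl fun v _ => ?_
  have e : yc (kw (fun v => t * ρ v) k) c = fun a b => ((t ^ 2 : ℝ) : ℂ) * yc (kw ρ k) c a b := by
    funext a b
    simp only [yc, kw_scale]
    split_ifs <;> simp
  rw [e, dg_pow, dg_pow, kp_scale, ← Complex.ofReal_pow, Complex.re_ofReal_mul]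
  ring

theorem LW_cont (hr : 0 < r) {Y : Type*} [TopologicalSpace Y] {κ : Y → V → V → ℂ} {ρ : Y → V → ℝ}
    {N : Set Y} (hc : ∀ a b, Continuous fun y => κ y a b) (h1 : ∀ a, Continuous fun y => ρ y a)
    (h2 : ∀ y a, 0 < ρ y a) (hg : ∀ y ∈ N, Good (κ y) U) :
    ContinuousOn (fun y => LW q (ρ y) (κ y) σ U) N := by
  have p : ∀ y, 0 < 1 + ∑ v ∈ U, ρ y v := fun y =>
    add_pos_of_pos_of_nonneg one_pos (sum_nonneg fun v _ => (h2 y v).le)
  have c0 : Continuous fun y => 1 + ∑ v ∈ U, ρ y v :=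
    continuous_const.add (continuous_finsetSum _ fun v _ => h1 v)
  have c1 : Continuous fun y => 1 / (1 + ∑ v ∈ U, ρ y v) :=
    continuous_const.div c0 fun y => (p y).ne'
  have c2 := Lam_cont (h := X ^ (2 * q)) (σ := σ) hr
    (κ := fun y => kw (fun v => 1 / (1 + ∑ v ∈ U, ρ y v) * ρ y v) (κ y))
    (fun a b => (Complex.continuous_ofReal.comp ((c1.mul (h1 a)).mul (c1.mul (h1 b)))).mul (hc a b))
    fun y hy => (good_t (hg y hy) (h2 y)).2
  refine ((c0.pow (4 * q)).continuousOn.mul c2).congr fun y _ => ?_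
  have := scale (one_div_pos.2 (p y)) q (ρ y) (κ y) σ U
  have h3 := (p y).ne'
  rw [LW] at this
  simp only [Pi.mul_apply, Pi.pow_apply]
  rw [this, one_div, inv_pow]
  field_simp

theorem mom {y : V → V → ℂ} (hy : ∀ a ∈ U, ∀ b ∈ U, y b a = conj (y a b)) {v : V} (hv : v ∈ U) {t : ℝ}
    (ht : 0 < t) {m : ℕ} (hm : m ≤ q) : (kp y U (2 * m) v v).re ≤
      t ^ (2 * m) + t ^ (2 * m) / t ^ (2 * q) * (kp y U (2 * q) v v).re := by
  have hM : (Matrix.of fun a b : U => y a b).IsHermitian := by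
    ext a b
    simpa using (hy b b.2 a a.2).symm
  obtain ⟨w, w0, w1⟩ := diag_pow hM ⟨v, hv⟩
  have w2 : ∑ i, w i = 1 := by simpa using (w1 0).symm
  have e := fun n => kp_pow y U n ⟨v, hv⟩ ⟨v, hv⟩
  simp only at e
  have w3 : ∑ i, w i * t ^ (2 * m) = t ^ (2 * m) := by rw [← sum_mul, w2, one_mul]
  rw [e, e, w1, w1, mul_sum]
  refine le_of_le_of_eq ?_ (congrArg (· + _) w3)
  rw [← sum_add_distrib]
  refine sum_le_sum fun i _ => ?_
  rw [mul_left_comm, ← mul_add]
  refine mul_le_mul_of_nonneg_left ?_ (w0 i)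
  generalize hM.eigenvalues i = s
  have u1 : s ^ (2 * m) = t ^ (2 * m) * ((s / t) ^ 2) ^ m := by
    rw [← pow_mul, div_pow]
    field_simp
  have u2 : t ^ (2 * m) / t ^ (2 * q) * s ^ (2 * q) = t ^ (2 * m) * ((s / t) ^ 2) ^ q := by
    rw [← pow_mul, div_pow]
    field_simp
  rw [u1, u2, ← mul_one_add]
  refine mul_le_mul_of_nonneg_left ?_ (by positivity)
  have u3 := sq_nonneg (s / t)
  rcases le_total ((s / t) ^ 2) 1 with u | u
  · exact (pow_le_one₀ u3 u).trans (le_add_of_nonneg_right (by positivity))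
  · exact (pow_le_pow_right₀ u hm).trans (le_add_of_nonneg_left zero_le_one)

theorem Good.entry (hk : Good k U) {a b : V} (ha : a ∈ U) (hb : b ∈ U) : ‖k a b‖ ≤ 2 := by
  by_cases h : a = b
  · simp [h, hk.2.1 b hb]
  obtain ⟨c, c1, c2⟩ := Complex.exists_norm_eq_mul_self (k a b)
  have := (hk.mono (U' := {a, b}) (insert_subset ha (singleton_subset_iff.2 hb))).2.2
    fun v => if v = a then 1 else c
  simp only [sum_pair h, if_true, if_neg (Ne.symm h), hk.2.1 a ha, hk.2.1 b hb, hk.1 a ha b hb,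
    map_one, one_mul, mul_one, mul_zero, zero_mul, zero_add, add_zero, ← map_mul, mul_comm (k a b),
    ← c2, Complex.conj_ofReal, ← Complex.ofReal_add, Complex.norm_real, c1, norm_one] at this
  linarith [le_abs_self (‖k a b‖ + ‖k a b‖), Real.norm_eq_abs (‖k a b‖ + ‖k a b‖),
    norm_nonneg (k a b)]

theorem kp_close {y y' : V → V → ℂ} {θ : ℝ} (h0 : 0 ≤ θ) (h1 : θ ≤ 1) (hy : ∀ a ∈ U, ∀ b ∈ U, ‖y a b‖ ≤ 2)
    (hd : ∀ a ∈ U, ∀ b ∈ U, ‖y' a b - y a b‖ ≤ θ) (n : ℕ) {a : V} (ha : a ∈ U) (b : V) :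
    ‖kp y' U n a b - kp y U n a b‖ ≤ n * θ * (3 * (U.card + 1)) ^ n := by
  have hy' : ∀ a ∈ U, ∀ b ∈ U, ‖y' a b‖ ≤ 3 := fun a ha b hb => by
    linarith [norm_le_norm_add_norm_sub' (y' a b) (y a b), hy a ha b hb, hd a ha b hb]
  induction n generalizing a with
  | zero => simp [kp]
  | succ n ih =>
    simp only [kp]
    rw [← sum_sub_distrib]
    refine (norm_sum_le _ _).trans ((sum_le_card_nsmul _ _ (θ * (3 * (U.card + 1)) ^ n +
      2 * (n * θ * (3 * (U.card + 1)) ^ n)) fun v hv => ?_).trans ?_)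
    · rw [show y' a v * kp y' U n v b - y a v * kp y U n v b = (y' a v - y a v) * kp y' U n v b +
        y a v * (kp y' U n v b - kp y U n v b) by ring]
      refine (norm_add_le _ _).trans (add_le_add ?_ ?_) <;> rw [norm_mul]
      · exact mul_le_mul (hd a ha v hv) (kp_bd hy' n hv b) (norm_nonneg _) h0
      · exact mul_le_mul (hy a ha v hv) (ih hv) (norm_nonneg _) (by norm_num)
    · have p1 : (0 : ℝ) ≤ θ * (3 * (U.card + 1)) ^ n := by positivity
      have p2 : (U.card : ℝ) * (1 + 2 * n) ≤ (n + 1) * (3 * (U.card + 1)) := by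
        nlinarith [(U.card.cast_nonneg : (0 : ℝ) ≤ _), (n.cast_nonneg : (0 : ℝ) ≤ _)]
      have := mul_le_mul_of_nonneg_left p2 p1
      rw [nsmul_eq_mul, pow_succ]
      push_cast
      linarith

end Vale.Agent.P078
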