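import Vale.Agent.P078.Core
import Vale.Agent.P078.DynW
import Vale.Agent.P078.Sc

/-!
The greedy colouring on the weighted dynamical system.
-/

open Finset Polynomial
open scoped Classical ComplexConjugate Pointwise

namespace Vale.Agent.P078.W

variable {Γ X : Type*} [Group Γ] [MulAction Γ X] [TopologicalSpace X] [CompactSpace X] [T2Space X]
  [TotallyDisconnectedSpace X] [ContinuousConstSMul Γ X] {I : C(X, ℝ) →ₗ[ℝ] ℝ} {w : X → ℝ}
  {S : Finset Γ} {k : X → X → ℂ} {r q : ℕ} {ρ : X → ℝ}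

theorem pattern (hI : IsDynW Γ I w) (g : Γ) (T : Finset Γ) (x₀ : X) :
    ∃ N : Set X, IsOpen N ∧ x₀ ∈ N ∧ ∀ x ∈ N, ∀ t ∈ T, (g • x = t • x ↔ g • x₀ = t • x₀) := by
  refine ⟨⋂ t ∈ T, {x | g • x = t • x ↔ g • x₀ = t • x₀}, isOpen_biInter_finset fun t _ => ?_,
    by simp, fun x hx t ht => Set.mem_iInter₂.1 hx t ht⟩
  have e : {x : X | g • x = t • x} = {x : X | (t⁻¹ * g) • x = x} := by
    ext x; simp only [Set.mem_setOf_eq, mul_smul, inv_smul_eq_iff]
  by_cases h0 : g • x₀ = t • x₀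
  · simp only [h0, iff_true]
    rw [e]; exact (hI.fix _).isOpen
  · simp only [h0, iff_false]
    have := (hI.fix (t⁻¹ * g)).compl.isOpen
    rw [← e] at this
    exact this

theorem ii_smul {f : X → ℝ} (hf : Continuous f) (a : ℝ) : ii I (fun x => a * f x) = a * ii I f := by
  have h : Continuous fun x => a * f x := continuous_const.mul hf
  simp only [ii, dif_pos hf, dif_pos h]
  rw [← smul_eq_mul, ← map_smul]
  rfl

theorem sys_LW (hI : IsDynW Γ I w) (hS : Gen S) (hk : IsKer S k) (hr : 0 < r) (h0 : ∀ x, 0 < ρ x)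
    (h1 : ∀ x, ρ x ^ (4 * q) = w x) (h2 : ∀ g : Γ, Continuous fun x => ρ (g • x) / ρ x) :
    SysW S (2 * q + 1) w (LW (r := r) q ρ k) := by
  refine ⟨fun σ σ' U he => ?_, fun σ W hW y hy => ?_, fun σ hσ W => ?_⟩
  · unfold LW Lam
    rw [ep_congr he]
  · refine LW_small hr (hk.good W) h0 hW hy (R := fun j => ball S j y) (self_mem_ball hS 0 y)
      (ball_mono hS y) fun j a ha b hb => ?_
    rcases hb with hb | hb
    · obtain ⟨g, hg, rfl⟩ := hk.range _ _ hb
      exact smul_mem_ball hg ha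
    · obtain ⟨g, hg, rfl⟩ := hk.range _ _ hb
      have := smul_mem_ball (hS.inv g hg) ha
      rwa [inv_smul_smul] at this
  · obtain ⟨κ, hκ⟩ := hk.gauge
    refine cont_of_local fun x₀ => ?_
    obtain ⟨T, -, N, N1, N2, hN⟩ := transversal hI W x₀
    obtain ⟨N', N1', N2', hN'⟩ := lc_nhds hσ T x₀
    refine ⟨N ∩ N', N1.inter N1', ⟨N2, N2'⟩, fun x => LW q (fun g : Γ => ρ (g • x) / ρ x)
      (fun g g' => κ g g' x) (fun g => σ (g • x₀)) T,
      LW_cont hr (fun a b => (κ a b).continuous) h2 (fun x a => div_pos (h0 _) (h0 _)) fun x hx => ?_,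
      fun x hx => ?_⟩
    · obtain ⟨θ, t1, t2⟩ := hκ x
      exact good_gauge (hN x hx.1).1 t1 (fun a _ b _ => t2 a b) (hk.good _)
    · obtain ⟨θ, t1, t2⟩ := hκ x
      have e := LW_scale (q := q) (σ := σ) hr (hk.good (orb W x)) h0 (inv_pos.2 (h0 x))
      beta_reduce
      rw [div_eq_inv_mul, ← h1 x, ← inv_pow, ← e, ← (hN x hx.1).2, orb]
      unfold LW
      refine Lam_gauge (hN x hx.1).1 t1 (fun a _ b _ => ?_) fun a ha => hN' x hx.2 a ha
      unfold kw
      beta_reduce
      rw [t2, div_eq_inv_mul, div_eq_inv_mul]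
      ring

theorem ct_dg (hI : IsDynW Γ I w) (hk : IsKer S k) {c : X → Fin r} (hc : IsLocallyConstant c)
    (h2 : ∀ g : Γ, Continuous fun x => ρ (g • x) / ρ x) (h : ℝ[X]) (g : Γ) :
    Ct Γ fun x U => dg h (yc (kw (fun v => ρ v / ρ x) k) c) U (g • x) := by
  intro W
  obtain ⟨κ, hκ⟩ := hk.gauge
  refine cont_of_local fun x₀ => ?_
  obtain ⟨T, -, N, N1, N2, hN⟩ := transversal hI W x₀
  obtain ⟨N', N1', N2', hN'⟩ := pattern hI g T x₀
  obtain ⟨v, hv⟩ : ∃ v : Γ, ∀ x ∈ N ∩ N', g • x = v • x ∧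
      Set.InjOn (fun w : Γ => w • x) (insert v T : Finset Γ) := by
    by_cases h0 : ∃ t ∈ T, g • x₀ = t • x₀
    · obtain ⟨t, ht, h0⟩ := h0
      refine ⟨t, fun x hx => ⟨(hN' x hx.2 t ht).2 h0, ?_⟩⟩
      rw [insert_eq_of_mem ht]
      exact (hN x hx.1).1
    · refine ⟨g, fun x hx => ⟨rfl, ?_⟩⟩
      have k1 : ∀ t ∈ T, g • x ≠ t • x := fun t ht h1 => h0 ⟨t, ht, (hN' x hx.2 t ht).1 h1⟩
      intro a ha b hb hab
      rcases mem_insert.1 (mem_coe.1 ha) with ha' | ha' <;>
        rcases mem_insert.1 (mem_coe.1 hb) with hb' | hb'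
      · rw [ha', hb']
      · exact absurd (ha' ▸ hab) (k1 b hb')
      · exact absurd (hb' ▸ hab).symm (k1 a ha')
      · exact (hN x hx.1).1 ha' hb' hab
  obtain ⟨N'', N1'', N2'', hN''⟩ := lc_nhds hc (insert v T) x₀
  refine ⟨N ∩ N' ∩ N'', (N1.inter N1').inter N1'', ⟨⟨N2, N2'⟩, N2''⟩, fun x => dg h
    (fun a b => if c (a • x₀) = c (b • x₀) then
      ((ρ (a • x) / ρ x * (ρ (b • x) / ρ x) : ℝ) : ℂ) * κ a b x else 0) T v,
    (dg_cont (fun a b => ?_) v).continuousOn, fun x hx => ?_⟩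
  · split_ifs
    exacts [(Complex.continuous_ofReal.comp ((h2 a).mul (h2 b))).mul (κ a b).continuous, continuous_const]
  · obtain ⟨θ, t1, t2⟩ := hκ x
    beta_reduce
    rw [← dg_gauge (y' := yc (kw (fun v => ρ v / ρ x) k) c) (hv x hx.1).2 t1 fun a ha b hb => ?_,
      (hv x hx.1).1, ← (hN x hx.1.1).2, orb]
    unfold yc kw
    rw [hN'' x hx.2 a ha, hN'' x hx.2 b hb, t2]
    split_ifs
    · ring
    · simp

theorem dg_div (h0 : ∀ x, 0 < ρ x) (h1 : ∀ x, ρ x ^ (4 * q) = w x) (c : X → Fin r) (U : Finset X)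
    (x v : X) : dg (Polynomial.X ^ (2 * q)) (yc (kw ρ k) c) U v / w x =
      dg (Polynomial.X ^ (2 * q)) (yc (kw (fun v => ρ v / ρ x) k) c) U v := by
  have e : yc (kw (fun v => ρ v / ρ x) k) c = fun a b => (((ρ x ^ 2)⁻¹ : ℝ) : ℂ) * yc (kw ρ k) c a b := by
    funext a b
    have : (ρ x : ℂ) ≠ 0 := by exact_mod_cast (h0 x).ne'
    unfold yc kw
    split_ifs
    · push_cast
      field_simp
    · simp
  rw [e, dg_pow, dg_pow, kp_scale, ← Complex.ofReal_pow, Complex.re_ofReal_mul, inv_pow, ← pow_mul,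
    show 2 * (2 * q) = 4 * q by ring, h1]
  ring

theorem colour (hI : IsDynW Γ I w) (hS : Gen S) (hk : IsKer S k) (hr : 2 ≤ r) (hq : 10 ≤ q)
    (h0 : ∀ x, 0 < ρ x) (h1 : ∀ x, ρ x ^ (4 * q) = w x)
    (h2 : ∀ g : Γ, Continuous fun x => ρ (g • x) / ρ x) : ∃ c : X → Fin r, IsLocallyConstant c ∧
      ii I (fun x => dg (Polynomial.X ^ (2 * q)) (yc (kw (fun v => ρ v / ρ x) k) c)
        (ball S (2 * q + 1) x) x) ≤ 3 * (5 / √(r : ℝ)) ^ (2 * q) := by
  have r0 : 0 < r := by omega
  have sys := sys_LW hI hS hk r0 h0 h1 h2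
  have hη : 0 < (5 / √(r : ℝ)) ^ (2 * q) := by positivity
  have p1 : ii I (fun x => dens S (2 * q + 1) (LW q ρ k fun _ => (none : Option (Fin r))) x / w x) ≤
      2 * (5 / √(r : ℝ)) ^ (2 * q) := by
    refine init hI hS (sys.clus _) (sys.cont _ (IsLocallyConstant.const _)) fun y U hy _ hw => ?_
    rw [← h1 y]
    refine LW_add hr (by omega) (hk.good U) h0 hy fun v hv => ?_
    refine le_of_pow_le_pow_left₀ (n := 4 * q) (by omega) (h0 y).le ?_
    rw [h1, h1]
    exact hw v hv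
  generalize (5 / √(r : ℝ)) ^ (2 * q) = η at *
  set n := 2 * q + 1 with hn
  obtain ⟨m, cl, hcl, hsp⟩ := classes hI (S ^ n)
  have sp : ∀ y y', y' ∈ ball S n y → (cl y' : ℕ) = cl y → y' = y := by
    intro y y' h1 h2
    obtain ⟨w, hw, rfl⟩ := mem_orb.1 h1
    exact hsp w hw y (Fin.ext h2)
  have lc : ∀ {St : Type} (f : Fin m → St), IsLocallyConstant fun x => f (cl x) :=
    fun f => hcl.comp f
  have clop : ∀ j : ℕ, IsClopen {x | (cl x : ℕ) = j} := fun j =>
    (lc fun i => (i : ℕ)).isClopen_fiber j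
  have cind : ∀ (j : ℕ) (a : ℝ), Continuous fun x => if x ∈ {x | (cl x : ℕ) = j} then a else 0 :=
    fun j a => (lc fun i => if (i : ℕ) = j then a else 0).continuous
  have tot : ∀ a : ℝ, ∑ j ∈ range m, ii I (fun x => if x ∈ {x | (cl x : ℕ) = j} then a else 0) = a := by
    intro a
    rw [← ii_sum _ fun j _ => cind j a]
    conv_rhs => rw [← ii_const hI a]
    congr 1
    funext x
    simp only [Set.mem_setOf_eq, sum_ite_eq, mem_range, (cl x).2, if_true]
  have p2 : ∀ j : ℕ, ∃ col : X → Option (Fin r), IsLocallyConstant col ∧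
      (∀ x, col x = none ↔ j ≤ (cl x : ℕ)) ∧ ii I (fun x => dens S n (LW q ρ k col) x / w x) ≤
        2 * η + ∑ i ∈ range j, ii I fun x => if x ∈ {x | (cl x : ℕ) = i} then η else 0 := by
    intro j
    induction j with
    | zero =>
      refine ⟨fun _ => none, IsLocallyConstant.const _, fun x => by simp, ?_⟩
      simpa using p1
    | succ j ih =>
      obtain ⟨col, c1, c2, c3⟩ := ih
      have lcs : ∀ c : X → Fin r, IsLocallyConstant c → IsLocallyConstant
          fun x => if (cl x : ℕ) = j then some (c x) else col x := fun c hc =>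
        ((hcl.prodMk (hc.prodMk c1)).comp fun q : Fin m × Fin r × Option (Fin r) =>
          if (q.1 : ℕ) = j then some q.2.1 else q.2.2)
      obtain ⟨c, d1, d2⟩ := select r0 (a := η) (Δ := fun c x => (if (cl x : ℕ) = j then 1 else 0) *
        (LW q ρ k (fun v => if (cl v : ℕ) = j then some c else col v) (ball S n x) / w x -
          LW q ρ k col (ball S n x) / w x))
        (fun c => (lc fun i => if (i : ℕ) = j then (1 : ℝ) else 0).continuous.mul
          ((sys.cont _ (lcs _ (IsLocallyConstant.const c)) (S ^ n)).sub (sys.cont _ c1 (S ^ n))))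
        (fun x => by
          by_cases hx : (cl x : ℕ) = j
          · obtain ⟨c, hc⟩ := LW_col r0 hq (hk.good (ball S n x)) h0 (self_mem_ball hS n x)
              ((c2 x).2 hx.ge) (mul_pos hη (hI.wpos x))
            refine ⟨c, ?_⟩
            rw [if_pos hx, one_mul, ← sub_div, div_lt_iff₀ (hI.wpos x),
              sys.loc _ (Function.update col x (some c)) _ fun v hv => ?_]
            · exact hc
            · by_cases h1 : v = x
              · subst h1; simp [hx]
              · rw [Function.update_of_ne h1, if_neg fun h2 => h1 (sp x v hv (h2.trans hx.symm))]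
          · exact ⟨⟨0, r0⟩, by rw [if_neg hx, zero_mul]; exact hη⟩)
      refine ⟨fun x => if (cl x : ℕ) = j then some (c x) else col x, lcs c d1, fun x => ?_, ?_⟩
      · by_cases hx : (cl x : ℕ) = j
        · simp only [hx, if_true]
          simp
        · simp only [hx, if_false, c2]
          omega
      · rw [sum_range_succ, ← add_assoc]
        refine (step hI hS sys c1 (lcs c d1) (clop j) (η := η)
          (fun x hx => ?_) (fun y hy y' hy' h1 => sp y y' h1 (hy'.trans hy.symm))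
          fun y hy => ?_).trans (add_le_add c3 (le_of_eq (by congr 1; funext x; congr)))
        · have : ¬(cl x : ℕ) = j := hx
          simp only [this, if_false]
        · have hy' : (cl y : ℕ) = j := hy
          have := d2 y
          rw [if_pos hy', one_mul, ← sub_div, div_lt_iff₀ (hI.wpos y)] at this
          rw [sys.loc _ (fun v => if (cl v : ℕ) = j then some (c y) else col v) _ fun v hv => ?_]
          · exact this.le
          · by_cases h1 : (cl v : ℕ) = j
            · rw [sp y v hv (h1.trans hy'.symm)]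
            · simp only [h1, if_false]
  obtain ⟨col, c1, c2, c3⟩ := p2 m
  rw [tot] at c3
  have hc : IsLocallyConstant fun x => (col x).getD ⟨0, r0⟩ := c1.comp fun o => o.getD ⟨0, r0⟩
  have e : ∀ x, col x = some ((col x).getD ⟨0, r0⟩) := by
    intro x
    cases hx : col x with
    | none => exact absurd ((c2 x).1 hx) (not_le.2 (cl x).2)
    | some a => rfl
  refine ⟨_, hc, ?_⟩
  simp only [← dg_div h0 h1]
  rw [← final_id hI hS sys c1 (D := fun v U => dg (Polynomial.X ^ (2 * q))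
    (yc (kw ρ k) fun x => (col x).getD ⟨0, r0⟩) U v) (fun U => ?_) (fun v U => ?_) fun g => ?_]
  · linarith
  · rw [← LW_final r0 (hk.good U) h0]
    exact sys.loc _ _ _ fun v _ => e v
  · refine dg_local (R := fun j => ball S j v) (self_mem_ball hS 0 v) (ball_mono hS v)
      (fun j a ha b hb => ?_) (by rw [natDegree_X_pow]; omega)
    have : k a b ≠ 0 := fun h0 => hb (by simp [yc, kw, h0])
    obtain ⟨g, hg, rfl⟩ := hk.range _ _ this
    have := smul_mem_ball (hS.inv g hg) ha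
    rwa [inv_smul_smul] at this
  · simp only [dg_div h0 h1]
    exact ct_dg hI hk hc h2 _ g

theorem near_one {a L θ : ℝ} {n : ℕ} (ha : 0 < a) (hθ : 0 < θ) (h1 : a ^ n ≤ L) (h2 : a⁻¹ ^ n ≤ L)
    (hn : L ≤ n * θ) : |a - 1| ≤ θ := by
  have key : ∀ b : ℝ, b ^ n ≤ L → b ≤ 1 + θ := fun b hb => by
    by_contra hc
    have k1 := one_add_mul_le_pow (show -2 ≤ θ by linarith) n
    have k2 := pow_le_pow_left₀ (by linarith) (not_le.1 hc).le n
    linarith
  have k1 := key a h1
  have k2 := key _ h2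
  rw [inv_le_iff_one_le_mul₀ ha] at k2
  rw [abs_le]
  constructor
  · by_contra hc
    have : a * θ ≤ θ := mul_le_of_le_one_left hθ.le (by linarith)
    nlinarith
  · linarith

theorem exists_L (hI : IsDynW Γ I w) (B : Finset Γ) :
    ∃ L : ℝ, ∀ x, ∀ a ∈ orb B x, w a / w x ≤ L ∧ (w a / w x)⁻¹ ≤ L := by
  have c : Continuous fun x => ∑ g ∈ B, (w (g • x) / w x + (w (g • x) / w x)⁻¹) :=
    continuous_finsetSum _ fun g _ => (hI.wcont g).add ((hI.wcont g).inv₀ fun x =>
      (div_pos (hI.wpos _) (hI.wpos _)).ne')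
  obtain ⟨L, hL⟩ := (isCompact_range c).bddAbove
  refine ⟨L, fun x a ha => ?_⟩
  obtain ⟨g, hg, rfl⟩ := mem_orb.1 ha
  have k0 : ∀ g : Γ, 0 < w (g • x) / w x := fun g => div_pos (hI.wpos _) (hI.wpos _)
  have k1 := single_le_sum (f := fun g : Γ => w (g • x) / w x + (w (g • x) / w x)⁻¹)
    (fun g _ => (add_pos (k0 g) (inv_pos.2 (k0 g))).le) hg
  have k2 := hL ⟨x, rfl⟩
  have := k0 g
  have := inv_pos.2 (k0 g)
  constructor <;> linarith

theorem core (hI : IsDynW Γ I w) (hS : Gen S) (hk : IsKer S k) (hr : 2 ≤ r) (m : ℕ) :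
    ∃ c : X → Fin r, IsLocallyConstant c ∧
      Continuous (fun x => (kp (yc k c) (ball S (2 * m) x) (2 * m) x x).re) ∧
      ii I (fun x => (kp (yc k c) (ball S (2 * m) x) (2 * m) x x).re) ≤ 5 * (240 / √(r : ℝ)) ^ (2 * m) := by
  have r0 : 0 < r := by omega
  have ht : 0 < 240 / √(r : ℝ) := by positivity
  have et : (240 / √(r : ℝ)) = 48 * (5 / √(r : ℝ)) := by ring
  set t := 240 / √(r : ℝ) with htd
  obtain ⟨L, hL⟩ := exists_L hI (S ^ (2 * m))
  set K : ℝ := ((2 * m : ℕ) + 1) * (3 * ((S ^ (2 * m)).card + 1)) ^ (2 * m) with hK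
  have K0 : 0 < K := by positivity
  obtain ⟨θ, θ0, θ1, θ2⟩ : ∃ θ : ℝ, 0 < θ ∧ 6 * θ ≤ 1 ∧ 6 * θ * K ≤ t ^ (2 * m) := by
    have m1 := min_le_left (1 / 6 : ℝ) (t ^ (2 * m) / (6 * K))
    refine ⟨min (1 / 6) (t ^ (2 * m) / (6 * K)), by positivity, by linarith, ?_⟩
    have := (le_div_iff₀ (by positivity)).1 (min_le_right (1 / 6 : ℝ) (t ^ (2 * m) / (6 * K)))
    linarith
  obtain ⟨q, q1, q2, q3⟩ : ∃ q : ℕ, 10 ≤ q ∧ m ≤ q ∧ L ≤ (4 * q : ℕ) * θ := by
    obtain ⟨q, hq⟩ := exists_nat_ge (L / θ)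
    refine ⟨q + m + 10, by omega, by omega, ?_⟩
    rw [div_le_iff₀ θ0] at hq
    refine hq.trans (mul_le_mul_of_nonneg_right ?_ θ0.le)
    exact_mod_cast (by omega : q ≤ 4 * (q + m + 10))
  set ρ : X → ℝ := fun x => w x ^ (((4 * q : ℕ) : ℝ)⁻¹) with hρ
  have h0 : ∀ x, 0 < ρ x := fun x => Real.rpow_pos_of_pos (hI.wpos x) _
  have h1 : ∀ x, ρ x ^ (4 * q) = w x := fun x =>
    Real.rpow_inv_natCast_pow (hI.wpos x).le (by omega)
  have h2 : ∀ g : Γ, Continuous fun x => ρ (g • x) / ρ x := fun g => by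
    refine ((hI.wcont g).rpow_const (p := ((4 * q : ℕ) : ℝ)⁻¹) fun x => Or.inr (by positivity)).congr
      fun x => ?_
    exact Real.div_rpow (hI.wpos _).le (hI.wpos _).le _
  obtain ⟨c, hc, d⟩ := colour hI hS hk hr q1 h0 h1 h2
  have c1 : Continuous fun x => (kp (yc k c) (ball S (2 * m) x) (2 * m) x x).re := by
    have := ct_dg (ρ := fun _ => 1) hI hk hc (fun _ => continuous_const) (Polynomial.X ^ (2 * m)) 1
      (S ^ (2 * m))
    have e : kw (fun _ : X => (1 : ℝ) / 1) k = k := by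
      funext a b
      simp [kw]
    simp only [one_smul, dg_pow, e] at this
    refine (this.mul (continuous_const (y := (48 : ℝ) ^ (2 * m)))).congr fun x => ?_
    simp only [ball, Pi.mul_apply]
    field_simp
  have c2 : Continuous fun x => dg (Polynomial.X ^ (2 * q)) (yc (kw (fun v => ρ v / ρ x) k) c)
      (ball S (2 * q + 1) x) x := by
    simpa only [one_smul, ball] using ct_dg hI hk hc h2 (Polynomial.X ^ (2 * q)) 1 (S ^ (2 * q + 1))
  refine ⟨c, hc, c1, ?_⟩
  have key : ∀ x, (kp (yc k c) (ball S (2 * m) x) (2 * m) x x).re ≤ 2 * t ^ (2 * m) +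
      t ^ (2 * m) / t ^ (2 * q) * 48 ^ (2 * q) * dg (Polynomial.X ^ (2 * q))
        (yc (kw (fun v => ρ v / ρ x) k) c) (ball S (2 * q + 1) x) x := by
    intro x
    have k1 := mom (y := yc (kw (fun v => ρ v / ρ x) k) c) (U := ball S (2 * q + 1) x) (fun a ha b hb => by
      unfold yc kw
      rw [(hk.good _).1 a ha b hb]
      by_cases h : c a = c b
      · simp [h, mul_comm]
      · simp [h, Ne.symm h]) (self_mem_ball hS _ x) ht q2
    have k2 := dg_local (h := Polynomial.X ^ (2 * m)) (y := yc (kw (fun v => ρ v / ρ x) k) c)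
      (U := ball S (2 * q + 1) x) (R := fun j => ball S j x) (self_mem_ball hS 0 x) (ball_mono hS x)
      (fun j a ha b hb => by
        have : k a b ≠ 0 := fun h0 => hb (by simp [yc, kw, h0])
        obtain ⟨g, hg, rfl⟩ := hk.range _ _ this
        have := smul_mem_ball (hS.inv g hg) ha
        rwa [inv_smul_smul] at this) (natDegree_X_pow (2 * m)).le
    rw [inter_eq_right.2 (ball_mono hS x (by omega)), dg_pow, dg_pow,
      div_left_inj' (by positivity)] at k2
    have n1 : ∀ a ∈ ball S (2 * m) x, |ρ a / ρ x - 1| ≤ θ := fun a ha =>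
      near_one (n := 4 * q) (div_pos (h0 _) (h0 _)) θ0 (by rw [div_pow, h1, h1]; exact (hL x a ha).1)
        (by rw [inv_pow, div_pow, h1, h1]; exact (hL x a ha).2) q3
    have en : ∀ a ∈ ball S (2 * m) x, ∀ b ∈ ball S (2 * m) x, ‖yc k c a b‖ ≤ 2 := fun a ha b hb => by
      unfold yc
      split_ifs
      · exact (hk.good _).entry ha hb
      · simp
    have k3 := kp_close (y := yc k c) (y' := yc (kw (fun v => ρ v / ρ x) k) c) (U := ball S (2 * m) x)
      (θ := 6 * θ) (by positivity) θ1 en (fun a ha b hb => by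
        have e : yc (kw (fun v => ρ v / ρ x) k) c a b - yc k c a b =
            ((ρ a / ρ x * (ρ b / ρ x) - 1 : ℝ) : ℂ) * yc k c a b := by
          unfold yc kw
          split_ifs
          · push_cast; ring
          · simp
        rw [e, norm_mul, Complex.norm_real, Real.norm_eq_abs]
        have a1 := abs_le.1 (n1 a ha)
        have a2 := abs_le.1 (n1 b hb)
        have a3 : |ρ a / ρ x * (ρ b / ρ x) - 1| ≤ 3 * θ := by
          generalize ρ a / ρ x = u at *
          generalize ρ b / ρ x = v at *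
          rw [abs_le]
          constructor <;> nlinarith
        have := mul_le_mul a3 (en a ha b hb) (norm_nonneg _) (by positivity)
        linarith) (2 * m) (self_mem_ball hS _ x) x
    have k4 : ((2 * m : ℕ) : ℝ) * (6 * θ) * (3 * ((ball S (2 * m) x).card + 1)) ^ (2 * m) ≤ 6 * θ * K := by
      have b1 : ((ball S (2 * m) x).card : ℝ) ≤ (S ^ (2 * m)).card := by exact_mod_cast card_image_le
      have b2 := pow_le_pow_left₀ (by positivity) (show (3 : ℝ) * ((ball S (2 * m) x).card + 1) ≤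
        3 * ((S ^ (2 * m)).card + 1) by linarith) (2 * m)
      rw [hK, mul_comm _ (6 * θ), mul_assoc (6 * θ)]
      refine mul_le_mul_of_nonneg_left (mul_le_mul (by linarith) b2 (by positivity) (by positivity))
        (by positivity)
    have k5 := (abs_le.1 ((Complex.abs_re_le_norm _).trans k3)).1
    rw [Complex.sub_re] at k5
    rw [dg_pow, mul_assoc, mul_div_cancel₀ _ (by positivity)]
    linarith
  have c3 : Continuous fun x => t ^ (2 * m) / t ^ (2 * q) * 48 ^ (2 * q) * dg (Polynomial.X ^ (2 * q))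
      (yc (kw (fun v => ρ v / ρ x) k) c) (ball S (2 * q + 1) x) x := continuous_const.mul c2
  have c4 : Continuous fun x => 2 * t ^ (2 * m) + t ^ (2 * m) / t ^ (2 * q) * 48 ^ (2 * q) *
      dg (Polynomial.X ^ (2 * q)) (yc (kw (fun v => ρ v / ρ x) k) c) (ball S (2 * q + 1) x) x :=
    continuous_const.add c3
  refine (ii_mono hI c1 c4 key).trans ?_
  rw [ii_add continuous_const c3, ii_const hI, ii_smul c2]
  have k6 := mul_le_mul_of_nonneg_left d (show 0 ≤ t ^ (2 * m) / t ^ (2 * q) * 48 ^ (2 * q) by positivity)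
  have e : t ^ (2 * m) / t ^ (2 * q) * 48 ^ (2 * q) * (3 * (5 / √(r : ℝ)) ^ (2 * q)) = 3 * t ^ (2 * m) := by
    have : t ^ (2 * q) = 48 ^ (2 * q) * (5 / √(r : ℝ)) ^ (2 * q) := by rw [et, mul_pow]
    rw [this]
    field_simp
  rw [e] at k6
  exact le_of_le_of_eq (add_le_add le_rfl k6) (by ring)

end Vale.Agent.P078.W
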