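import Mathlib

/-!
Definitions used in the statement: MASAs, normalizers, trace vectors and so-paving.
-/

open scoped InnerProductSpace

namespace Vale.Agent.P078

variable {H : Type*} [NormedAddCommGroup H] [InnerProductSpace ℂ H] [CompleteSpace H]

/-- `A` is a maximal abelian self-adjoint subalgebra of `M`. -/
def IsMASA (M : VonNeumannAlgebra H) (A : StarSubalgebra ℂ (H →L[ℂ] H)) : Prop :=
  (∀ a ∈ A, a ∈ M) ∧ (∀ a ∈ A, ∀ b ∈ A, a * b = b * a) ∧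
    ∀ B : StarSubalgebra ℂ (H →L[ℂ] H), (∀ b ∈ B, b ∈ M) → (∀ a ∈ B, ∀ b ∈ B, a * b = b * a) →
      A ≤ B → B = A

/-- The unitaries `u` of `M` with `u A u* = A`. -/
def normalizer (M : VonNeumannAlgebra H) (A : StarSubalgebra ℂ (H →L[ℂ] H)) : Set (H →L[ℂ] H) :=
  {u | u ∈ M ∧ u ∈ unitary (H →L[ℂ] H) ∧
    (fun a => u * a * star u) '' (A : Set (H →L[ℂ] H)) = (A : Set (H →L[ℂ] H))}

/-- The normalizer of `A` generates `M` as a von Neumann algebra. -/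
def IsRegular (M : VonNeumannAlgebra H) (A : StarSubalgebra ℂ (H →L[ℂ] H)) : Prop :=
  Set.centralizer (Set.centralizer (normalizer M A)) = (M : Set (H →L[ℂ] H))

/-- The vector state of `Ω` is a faithful tracial state on `M`. -/
def IsTraceVector (M : VonNeumannAlgebra H) (Ω : H) : Prop :=
  ‖Ω‖ = 1 ∧ (∀ a ∈ M, ∀ b ∈ M, ⟪Ω, (a * b) Ω⟫_ℂ = ⟪Ω, (b * a) Ω⟫_ℂ) ∧ ∀ a ∈ M, a Ω = 0 → a = 0

/-- `x` is `(ε, r)` so-pavable over `A`. -/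
def SoPavable (M : VonNeumannAlgebra H) (A : StarSubalgebra ℂ (H →L[ℂ] H)) (x : H →L[ℂ] H)
    (ε : ℝ) (r : ℕ) : Prop :=
  ∀ (F : Finset H) (δ : ℝ), 0 < δ → ∃ p : Fin r → (H →L[ℂ] H),
    (∀ i, p i ∈ A ∧ IsStarProjection (p i)) ∧ (∀ i j, i ≠ j → p i * p j = 0) ∧ ∑ i, p i = 1 ∧
      ∃ a ∈ A, IsSelfAdjoint a ∧ ‖a‖ ≤ ‖x‖ ∧ ∃ q ∈ M, IsStarProjection q ∧
        (∀ ξ ∈ F, ‖(1 - q) ξ‖ < δ) ∧ ‖q * (∑ i, p i * x * p i - a) * q‖ ≤ ε * ‖x‖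

end Vale.Agent.P078
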