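import Vale.Agent.P078.Defs

/-!
Cartan subalgebras of arbitrary von Neumann algebras.
-/

open scoped InnerProductSpace

namespace Vale.Agent.P078

variable {H : Type*} [NormedAddCommGroup H] [InnerProductSpace ℂ H] [CompleteSpace H]

/-- `E` restricts to a faithful normal conditional expectation of `M` onto `A`. Normality: every functional
`m ↦ ⟪ξ, E m ξ⟫` is strong-operator continuous on the unit ball of `M`. -/
structure IsNormalExp (M : VonNeumannAlgebra H) (A : StarSubalgebra ℂ (H →L[ℂ] H))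
    (E : (H →L[ℂ] H) →ₗ[ℂ] (H →L[ℂ] H)) : Prop where
  mem : ∀ m ∈ M, E m ∈ A
  one : E 1 = 1
  bimod : ∀ a ∈ A, ∀ m ∈ M, ∀ b ∈ A, E (a * m * b) = a * E m * b
  pos : ∀ m ∈ M, 0 ≤ m → 0 ≤ E m
  faithful : ∀ m ∈ M, 0 ≤ m → E m = 0 → m = 0
  normal : ∀ (ξ : H) (ε : ℝ), 0 < ε → ∃ (F : Finset H) (δ : ℝ), 0 < δ ∧
    ∀ m ∈ M, ‖m‖ ≤ 1 → (∀ ζ ∈ F, ‖m ζ‖ < δ) → ‖⟪ξ, E m ξ⟫_ℂ‖ < ε

/-- `A` is a Cartan subalgebra of `M`. -/
def IsCartan (M : VonNeumannAlgebra H) (A : StarSubalgebra ℂ (H →L[ℂ] H)) : Prop :=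
  IsMASA M A ∧ IsRegular M A ∧ ∃ E, IsNormalExp M A E

end Vale.Agent.P078
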