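import Vale.Agent.P078.Cluster

/-!
Mass transport and local potentials for a group acting on a compact totally disconnected space.

PLAN. `{x | w • x = w' • x}` is clopen (`fix (w'⁻¹ * w)`). `ct_sum`: near `x₀` the coincidence pattern of `W` is constant; take a
transversal `T ⊆ W` (injective at `x₀`, same image); subsets of the image are the images of subsets of `T`
(`Finset.powerset_image`-like bijection). `transport`: `Σ_{y ∈ orb B x} t y x = Σ_{w∈B} t (w•x) x / N w x`,
`N w x = card {w' ∈ B | w' • x = w • x}` locally constant, and `N w x = card {w' ∈ B | w' • (w • x) = x}` (inverse); use `inv`.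
`classes`: every point has a clopen neighbourhood `C` with `C ⊆ Fix w` or `w C ∩ C = ∅` for each `w ∈ B`; finite subcover, take the
first index. `select`: same with the open sets `{Δ c < a}` (`compact_exists_isClopen_in_isOpen`).
`step`: `t y x = 1_T y * Σ_{W ⊆ ball y, x ∈ W, y ∈ W} (mob (Λ (update σ y (σ' y))) W - mob (Λ σ) W)/card W`; a set `W` with a nonzero
cluster term meets `T` in at most one point, and if it misses `T` the terms for `σ`, `σ'` agree (`loc`, `mob_congr`); on subsets of such a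
`W`, `update σ y (σ' y)` and `σ'` agree (for continuity of `x ↦ t (w • x) x` write the terms with `σ'' = ` the locally constant state
or use `σ'` on `W` whenever `W ∩ T = {y}`; note `W ⊆ ball y` forces `W ∩ T ⊆ {y}`, so simply use `σ'` in the definition of `t`).
`Σ_x t y x = 1_T y (Λ σ' (ball y) - Λ σ (ball y))` by `mob_sum`.
`final_id`: `φ v W = mob (fun U => if v ∈ U then D v U else 0) W`, `mob (Λ σ) W = Σ_{v∈W} φ v W`, `φ v W = 0` unless `v ∈ W ⊆ ball n v`
(`mob_blind`); transport with `B = S^n` and `t y x = Σ_{W ⊆ ball n y, x ∈ W, y ∈ W} φ y W / card W`, comparing with the sum over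
`W ⊆ ball (2n) x`.
-/

open Finset
open scoped Classical Pointwise

namespace Vale.Agent.P078

variable {Γ X : Type*} [Group Γ] [MulAction Γ X]

noncomputable def orb (W : Finset Γ) (x : X) : Finset X := W.image fun w => w • x

noncomputable def ball (S : Finset Γ) (n : ℕ) (x : X) : Finset X := orb (S ^ n) x

structure Gen (S : Finset Γ) : Prop where
  one : 1 ∈ S
  inv : ∀ w ∈ S, w⁻¹ ∈ S

variable {S : Finset Γ} {n : ℕ} {x y : X}

theorem mem_orb {W : Finset Γ} : y ∈ orb W x ↔ ∃ w ∈ W, w • x = y := mem_image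

theorem self_mem_ball (hS : Gen S) (n : ℕ) (x : X) : x ∈ ball S n x :=
  mem_orb.2 ⟨1, one_mem_pow hS.one, one_smul _ _⟩

theorem ball_mono (hS : Gen S) (x : X) : Monotone fun n => ball S n x :=
  fun _ _ h => image_subset_image (pow_subset_pow_right hS.one h)

theorem smul_mem_ball {w : Γ} (hw : w ∈ S) (hy : y ∈ ball S n x) : w • y ∈ ball S (n + 1) x := by
  obtain ⟨u, hu, rfl⟩ := mem_orb.1 hy
  exact mem_orb.2 ⟨w * u, by rw [pow_succ']; exact mul_mem_mul hw hu, mul_smul _ _ _⟩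

theorem inv_mem_pow (hS : Gen S) (n : ℕ) : ∀ w ∈ S ^ n, w⁻¹ ∈ S ^ n := by
  induction n with
  | zero => simp
  | succ n ih =>
    intro w hw
    rw [pow_succ] at hw
    obtain ⟨a, ha, b, hb, rfl⟩ := mem_mul.1 hw
    rw [mul_inv_rev, pow_succ']
    exact mul_mem_mul (hS.inv b hb) (ih a ha)

theorem ball_symm (hS : Gen S) (hy : y ∈ ball S n x) : x ∈ ball S n y := by
  obtain ⟨u, hu, rfl⟩ := mem_orb.1 hy
  exact mem_orb.2 ⟨u⁻¹, inv_mem_pow hS n u hu, inv_smul_smul _ _⟩

theorem ball_add {m : ℕ} {v : X} (hy : y ∈ ball S n x) (hv : v ∈ ball S m y) :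
    v ∈ ball S (m + n) x := by
  obtain ⟨u, hu, rfl⟩ := mem_orb.1 hy
  obtain ⟨u', hu', rfl⟩ := mem_orb.1 hv
  exact mem_orb.2 ⟨u' * u, by rw [pow_add]; exact mul_mem_mul hu' hu, mul_smul _ _ _⟩

theorem Gen.pow (hS : Gen S) (n : ℕ) : Gen (S ^ n) :=
  ⟨one_mem_pow hS.one, inv_mem_pow hS n⟩

variable [TopologicalSpace X] [CompactSpace X] [T2Space X] [TotallyDisconnectedSpace X]
  [ContinuousConstSMul Γ X]

structure IsDyn (Γ : Type*) {X : Type*} [Group Γ] [MulAction Γ X] [TopologicalSpace X]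
    (I : C(X, ℝ) →ₗ[ℝ] ℝ) : Prop where
  pos : ∀ f : C(X, ℝ), (∀ x, 0 ≤ f x) → 0 ≤ I f
  one : I 1 = 1
  inv : ∀ (w : Γ) (f g : C(X, ℝ)), (∀ x, g x = f (w • x)) → I g = I f
  fix : ∀ w : Γ, IsClopen {x : X | w • x = x}

/-- The integral of a continuous function. -/
noncomputable def ii (I : C(X, ℝ) →ₗ[ℝ] ℝ) (f : X → ℝ) : ℝ :=
  if h : Continuous f then I ⟨f, h⟩ else 0

variable {I : C(X, ℝ) →ₗ[ℝ] ℝ}

theorem ii_mono (hI : IsDyn Γ I) {f g : X → ℝ} (hf : Continuous f) (hg : Continuous g)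
    (h : ∀ x, f x ≤ g x) : ii I f ≤ ii I g := by
  have h1 := hI.pos (⟨g, hg⟩ - ⟨f, hf⟩) fun x => sub_nonneg.2 (h x)
  rw [map_sub] at h1
  simp only [ii, dif_pos hf, dif_pos hg]
  linarith

theorem ii_add {f g : X → ℝ} (hf : Continuous f) (hg : Continuous g) :
    ii I (fun x => f x + g x) = ii I f + ii I g := by
  have h : Continuous fun x => f x + g x := hf.add hg
  simp only [ii, dif_pos hf, dif_pos hg, dif_pos h]
  rw [← map_add]
  rfl

theorem ii_const (hI : IsDyn Γ I) (a : ℝ) : ii I (fun _ => a) = a := by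
  have h : Continuous fun _ : X => a := continuous_const
  have e : (⟨fun _ => a, h⟩ : C(X, ℝ)) = a • 1 := by
    ext x
    simp
  simp only [ii, dif_pos h]
  rw [e, map_smul, hI.one, smul_eq_mul, mul_one]

theorem ii_sum {ι : Type*} (s : Finset ι) {f : ι → X → ℝ} (hf : ∀ i ∈ s, Continuous (f i)) :
    ii I (fun x => ∑ i ∈ s, f i x) = ∑ i ∈ s, ii I (f i) := by
  induction s using Finset.induction_on with
  | empty =>
    have h : Continuous fun _ : X => (0 : ℝ) := continuous_const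
    simp only [sum_empty]
    rw [ii, dif_pos h]
    exact map_zero I
  | insert i s hi ih =>
    have h := fun j hj => hf j (mem_insert_of_mem hj)
    simp only [sum_insert hi]
    rw [ii_add (hf i (mem_insert_self _ _)) (continuous_finsetSum _ h), ih h]

theorem ii_inv (hI : IsDyn Γ I) (w : Γ) {f : X → ℝ} (hf : Continuous f) :
    ii I (fun x => f (w • x)) = ii I f := by
  have h : Continuous fun x => f (w • x) := hf.comp (continuous_const_smul w)
  simp only [ii, dif_pos hf, dif_pos h]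
  exact hI.inv w _ _ fun _ => rfl

theorem coin (hI : IsDyn Γ I) (w w' : Γ) : IsClopen {x : X | w • x = w' • x} := by
  have e : {x : X | w • x = w' • x} = {x : X | (w'⁻¹ * w) • x = x} := by
    ext x
    simp only [Set.mem_ofPred_eq, mul_smul, inv_smul_eq_iff]
  rw [e]
  exact hI.fix _

theorem clopen_ev {C : Set X} (hC : IsClopen C) (x₀ : X) : ∀ᶠ x in nhds x₀, (x ∈ C ↔ x₀ ∈ C) := by
  by_cases h : x₀ ∈ C
  · filter_upwards [hC.isOpen.mem_nhds h] with x hx using by simp [hx, h]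
  · filter_upwards [hC.compl.isOpen.mem_nhds h] with x hx using iff_of_false hx h

theorem cont_ite {p : X → Prop} [∀ x, Decidable (p x)] (hp : IsClopen {x | p x}) {f g : X → ℝ}
    (hf : Continuous f) (hg : Continuous g) : Continuous fun x => if p x then f x else g x :=
  Continuous.if (by simp [hp.frontier_eq]) hf hg

theorem clopen_mem (hI : IsDyn Γ I) (w : Γ) (W : Finset Γ) : IsClopen {x : X | w • x ∈ orb W x} := by
  have e : {x : X | w • x ∈ orb W x} = ⋃ w' ∈ W, {x : X | w' • x = w • x} := by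
    ext x
    simp [mem_orb]
  rw [e]
  exact isClopen_biUnion_finset fun w' _ => coin hI w' w

theorem sum_powerset_image {α β : Type*} {e : α → β} {T : Finset α} (he : Set.InjOn e T)
    (G : Finset β → ℝ) : ∑ W ∈ (T.image e).powerset, G W = ∑ T' ∈ T.powerset, G (T'.image e) := by
  rw [powerset_image, sum_image]
  intro T₁ h₁ T₂ h₂ h
  have h1 : T₁ ⊆ T := mem_powerset.1 h₁
  have h2 : T₂ ⊆ T := mem_powerset.1 h₂
  have h3 : T₁.image e = T₂.image e := h
  ext a
  constructor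
  · intro ha
    obtain ⟨b, hb, hab⟩ := mem_image.1 (h3 ▸ mem_image_of_mem e ha)
    rwa [← he (h2 hb) (h1 ha) hab]
  · intro ha
    obtain ⟨b, hb, hab⟩ := mem_image.1 (h3.symm ▸ mem_image_of_mem e ha)
    rwa [← he (h1 hb) (h2 ha) hab]

theorem sum_eq_of_ne {ι : Type*} {s s' : Finset ι} {f : ι → ℝ} (h : ∀ i, f i ≠ 0 → (i ∈ s ↔ i ∈ s')) :
    ∑ i ∈ s, f i = ∑ i ∈ s', f i := by
  rw [← sum_filter_ne_zero s, ← sum_filter_ne_zero s']
  refine sum_congr ?_ fun _ _ => rfl
  ext i
  simp only [mem_filter]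
  exact and_congr_left (h i)

/-- Continuity of a pointed set function along finite families of group elements. -/
def Ct (Γ : Type*) {X : Type*} [Group Γ] [MulAction Γ X] [TopologicalSpace X]
    (F : X → Finset X → ℝ) : Prop :=
  ∀ W : Finset Γ, Continuous fun x => F x (orb W x)

/-- Locally, a finite family of group elements has a constant transversal. -/
theorem transversal (hI : IsDyn Γ I) (W : Finset Γ) (x₀ : X) : ∃ T ⊆ W, ∃ N : Set X, IsOpen N ∧ x₀ ∈ N ∧
    ∀ x ∈ N, Set.InjOn (fun w : Γ => w • x) T ∧ orb T x = orb W x := by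
  obtain ⟨T, h1, h2, h3⟩ := exists_subset_injOn_image_eq_of_surjOn (f := fun w : Γ => w • x₀)
    (W : Set Γ) (orb W x₀) fun y hy => by simpa [mem_orb] using hy
  have h4 : ∀ᶠ x in nhds x₀, ∀ w ∈ W, ∀ w' ∈ W, (w • x = w' • x ↔ w • x₀ = w' • x₀) :=
    (Filter.eventually_all_finset W).2 fun w _ => (Filter.eventually_all_finset W).2 fun w' _ =>
      clopen_ev (coin hI w w') x₀
  obtain ⟨N, h5, h6, h7⟩ := eventually_nhds_iff.1 h4
  have h1' : T ⊆ W := h1
  refine ⟨T, h1', N, h6, h7, fun x hx => ⟨fun w hw w' hw' h => h2 hw hw'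
    ((h5 x hx w (h1 hw) w' (h1 hw')).1 h), Subset.antisymm (image_subset_image h1') fun y hy => ?_⟩⟩
  obtain ⟨w, hw, rfl⟩ := mem_orb.1 hy
  obtain ⟨t, ht, e⟩ := mem_image.1 (h3.symm ▸ mem_orb.2 ⟨w, hw, rfl⟩ : w • x₀ ∈ T.image _)
  exact mem_orb.2 ⟨t, ht, (h5 x hx t (h1' ht) w hw).2 e⟩

theorem ct_sum (hI : IsDyn Γ I) {F : X → Finset X → ℝ} (hF : Ct Γ F) :
    Ct Γ fun x U => ∑ W ∈ U.powerset, F x W := by
  intro W
  refine continuous_iff_continuousAt.2 fun x₀ => ?_
  obtain ⟨T, -, N, h1, h2, h3⟩ := transversal hI W x₀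
  refine (continuous_finsetSum T.powerset fun T' _ => hF T').continuousAt.congr ?_
  filter_upwards [h1.mem_nhds h2] with x hx
  rw [← (h3 x hx).2]
  exact (sum_powerset_image (h3 x hx).1 (F x)).symm

theorem ct_card (hI : IsDyn Γ I) (g : ℕ → ℝ) : Ct Γ fun (_ : X) U => g U.card := by
  intro W
  refine continuous_iff_continuousAt.2 fun x₀ => ?_
  obtain ⟨T, -, N, h1, h2, h3⟩ := transversal hI W x₀
  refine (continuous_const (y := g T.card)).continuousAt.congr ?_
  filter_upwards [h1.mem_nhds h2] with x hx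
  rw [← (h3 x hx).2, orb, card_image_of_injOn (h3 x hx).1]

theorem ct_mob (hI : IsDyn Γ I) {F : X → Finset X → ℝ} (hF : Ct Γ F) :
    Ct Γ fun x U => mob (F x) U := by
  intro W
  have h1 : Ct Γ fun x U => (-1) ^ U.card * F x U := fun W' =>
    (ct_card hI (fun j => (-1) ^ j) W').mul (hF W')
  refine ((ct_card hI (fun j => (-1) ^ j) W).mul (ct_sum hI h1 W)).congr fun x => ?_
  simp only [Pi.mul_apply, mob, mul_sum]
  refine sum_congr rfl fun W' hW' => ?_
  obtain ⟨j, hj⟩ := Nat.exists_eq_add_of_le (card_le_card (mem_powerset.1 hW'))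
  have e : (-1 : ℝ) ^ W'.card * (-1) ^ W'.card = 1 := by
    rw [← mul_pow]
    simp
  rw [hj, Nat.add_sub_cancel_left, pow_add]
  linear_combination ((-1) ^ j * F x W') * e

/-- Multiplicity of `y` in the family `B • x`. -/
noncomputable def mult (B : Finset Γ) (x y : X) : ℝ := ∑ w ∈ B, if w • x = y then 1 else 0

theorem mult_ne {B : Finset Γ} {w : Γ} (hw : w ∈ B) (x : X) : mult B x (w • x) ≠ 0 := by
  refine (lt_of_lt_of_le one_pos ?_).ne'
  have := single_le_sum (f := fun w' : Γ => if w' • x = w • x then (1 : ℝ) else 0)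
    (fun _ _ => by positivity) hw
  simpa [mult] using this

theorem mult_symm {B : Finset Γ} (hB : Gen B) (x y : X) : mult B x y = mult B y x := by
  refine sum_bij' (fun w _ => w⁻¹) (fun w _ => w⁻¹) hB.inv hB.inv (fun _ _ => inv_inv _)
    (fun _ _ => inv_inv _) fun w _ => if_congr ?_ rfl rfl
  rw [inv_smul_eq_iff, eq_comm]

theorem sum_orb (B : Finset Γ) (x : X) (g : X → ℝ) :
    ∑ y ∈ orb B x, g y = ∑ w ∈ B, g (w • x) / mult B x (w • x) := by
  rw [← sum_fiberwise_of_maps_to (s := B) (t := orb B x) (g := fun w => w • x)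
    fun w hw => mem_orb.2 ⟨w, hw, rfl⟩]
  refine sum_congr rfl fun y hy => ?_
  obtain ⟨w, hw, rfl⟩ := mem_orb.1 hy
  rw [sum_congr rfl fun w' hw' => by rw [(mem_filter.1 hw').2], sum_const, nsmul_eq_mul,
    show ((B.filter fun w' => w' • x = w • x).card : ℝ) = mult B x (w • x) by simp [mult],
    mul_div_cancel₀ _ (mult_ne hw x)]

theorem transport (hI : IsDyn Γ I) {B : Finset Γ} (hB : Gen B) {t : X → X → ℝ}
    (ht : ∀ w : Γ, Continuous fun x => t (w • x) x) :
    ii I (fun x => ∑ y ∈ orb B x, t y x) = ii I fun y => ∑ x ∈ orb B y, t y x := by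
  have h1 : ∀ w ∈ B, Continuous fun x => t (w • x) x / mult B x (w • x) := fun w hw =>
    (ht w).div (continuous_finsetSum _ fun w' _ =>
      cont_ite (coin hI w' w) continuous_const continuous_const) (mult_ne hw)
  have h2 : ∀ y, ∑ x ∈ orb B y, t y x =
      ∑ w ∈ B, t (w • w⁻¹ • y) (w⁻¹ • y) / mult B (w⁻¹ • y) (w • w⁻¹ • y) := fun y => by
    rw [sum_orb]
    refine sum_bij' (fun w _ => w⁻¹) (fun w _ => w⁻¹) hB.inv hB.inv (fun _ _ => inv_inv _)
      (fun _ _ => inv_inv _) fun w _ => ?_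
    rw [inv_inv, inv_smul_smul, mult_symm hB]
  simp only [h2]
  simp only [sum_orb]
  have h3 : ∀ w ∈ B, Continuous fun y =>
      t (w • w⁻¹ • y) (w⁻¹ • y) / mult B (w⁻¹ • y) (w • w⁻¹ • y) := fun w hw =>
    (h1 w hw).comp (continuous_const_smul w⁻¹)
  rw [ii_sum _ h1, ii_sum _ h3]
  exact sum_congr rfl fun w hw => (ii_inv hI w⁻¹ (h1 w hw)).symm

theorem cover {C : X → Set X} (h1 : ∀ x, IsClopen (C x)) (h2 : ∀ x, x ∈ C x) :
    ∃ t : Finset X, IsLocallyConstant (fun x (i : t) => x ∈ C i) ∧ ∀ x, ∃ i : t, x ∈ C i := by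
  obtain ⟨t, ht⟩ := CompactSpace.elim_nhds_subcover C fun x => (h1 x).isOpen.mem_nhds (h2 x)
  refine ⟨t, (IsLocallyConstant.iff_eventually_eq _).2 fun x₀ => ?_, fun x => ?_⟩
  · filter_upwards [Filter.eventually_all.2 fun i : t => clopen_ev (h1 i) x₀] with x hx
    exact funext fun i => propext (hx i)
  · have : x ∈ ⋃ x ∈ t, C x := ht ▸ Set.mem_univ x
    obtain ⟨i, hi, hx⟩ := Set.mem_iUnion₂.1 this
    exact ⟨⟨i, hi⟩, hx⟩

theorem classes (hI : IsDyn Γ I) (B : Finset Γ) : ∃ (m : ℕ) (cl : X → Fin m), IsLocallyConstant cl ∧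
    ∀ w ∈ B, ∀ x, cl (w • x) = cl x → w • x = x := by
  have h1 : ∀ (w : Γ) (x : X), ∃ C : Set X, IsClopen C ∧ x ∈ C ∧ ∀ y ∈ C, w • y ∈ C → w • y = y := by
    intro w x
    by_cases h : w • x = x
    · exact ⟨_, hI.fix w, h, fun y hy _ => hy⟩
    · obtain ⟨D, hD, hx, hs⟩ := compact_exists_isClopen_in_isOpen (x := x) (U := {w • x}ᶜ)
        isOpen_compl_singleton (Ne.symm h)
      exact ⟨D ∩ (fun y => w • y) ⁻¹' Dᶜ, hD.inter (hD.compl.preimage (continuous_const_smul w)),
        ⟨hx, fun h' => hs h' rfl⟩, fun y hy hy' => (hy.2 hy'.1).elim⟩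
  choose C h2 h3 h4 using h1
  obtain ⟨t, h5, h6⟩ := cover (C := fun x => ⋂ w ∈ B, C w x)
    (fun x => isClopen_biInter_finset fun w _ => h2 w x) fun x => Set.mem_iInter₂.2 fun w _ => h3 w x
  refine ⟨_, _, h5.comp (Fintype.equivFin (t → Prop)), fun w hw x h => ?_⟩
  obtain ⟨i, hi⟩ := h6 x
  have h7 := congrFun ((Fintype.equivFin (t → Prop)).injective h) i
  exact h4 w i x (Set.mem_iInter₂.1 hi w hw) (Set.mem_iInter₂.1 (h7.mpr hi) w hw)

theorem select {r : ℕ} (hr : 0 < r) {Δ : Fin r → X → ℝ} (hΔ : ∀ c, Continuous (Δ c)) {a : ℝ}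
    (h : ∀ x, ∃ c, Δ c x < a) : ∃ c : X → Fin r, IsLocallyConstant c ∧ ∀ x, Δ (c x) x < a := by
  choose c hc using h
  have h1 : ∀ x, ∃ C : Set X, IsClopen C ∧ x ∈ C ∧ C ⊆ {y | Δ (c x) y < a} := fun x =>
    compact_exists_isClopen_in_isOpen (isOpen_lt (hΔ _) continuous_const) (hc x)
  choose C h2 h3 h4 using h1
  obtain ⟨t, h5, h6⟩ := cover h2 h3
  refine ⟨_, h5.comp fun Q : t → Prop => if h : ∃ i, Q i then c h.choose else ⟨0, hr⟩, fun x => ?_⟩
  simp only [Function.comp, dif_pos (h6 x)]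
  exact h4 _ (h6 x).choose_spec

variable {St : Type*}

/-- A local system of set functions. -/
structure Sys (S : Finset Γ) (n : ℕ) (Λ : (X → St) → Finset X → ℝ) : Prop where
  loc : ∀ σ σ' U, (∀ v ∈ U, σ v = σ' v) → Λ σ U = Λ σ' U
  clus : ∀ σ W, mob (Λ σ) W ≠ 0 → ∀ y ∈ W, W ⊆ ball S n y
  cont : ∀ σ, IsLocallyConstant σ → Ct Γ fun _ U => Λ σ U

noncomputable def dens (S : Finset Γ) (n : ℕ) (f : Finset X → ℝ) (x : X) : ℝ :=
  ∑ W ∈ (ball S n x).powerset with x ∈ W, mob f W / W.card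

variable {Λ : (X → St) → Finset X → ℝ}

theorem cont_dens (hI : IsDyn Γ I) {f : Finset X → ℝ} (hf : Ct Γ fun _ U => f U) (S : Finset Γ)
    (n : ℕ) : Continuous (dens S n f) := by
  have h1 : Ct Γ fun x U => if (1 : Γ) • x ∈ U then mob f U * (U.card : ℝ)⁻¹ else 0 := fun W =>
    cont_ite (clopen_mem hI 1 W) ((ct_mob hI hf W).mul (ct_card hI (fun j => (j : ℝ)⁻¹) W))
      continuous_const
  refine (ct_sum hI h1 (S ^ n)).congr fun x => ?_
  simp only [dens, sum_filter, one_smul, div_eq_mul_inv, ball]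

theorem dens_eq (hS : Gen S) {f : Finset X → ℝ} (hf : ∀ W, mob f W ≠ 0 → ∀ y ∈ W, W ⊆ ball S n y)
    (x : X) : dens S n f x =
      ∑ W ∈ (ball S (n + n) x).powerset, if x ∈ W then mob f W / W.card else 0 := by
  rw [dens, sum_filter]
  refine sum_eq_of_ne fun W hW => ?_
  have h1 : x ∈ W := by
    by_contra hc
    exact hW (if_neg hc)
  rw [if_pos h1] at hW
  have h2 := hf W (fun h0 => hW (by simp [h0])) x h1
  exact iff_of_true (mem_powerset.2 h2)
    (mem_powerset.2 (h2.trans (ball_mono hS x (Nat.le_add_right n n))))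

theorem trans2 (hI : IsDyn Γ I) (hS : Gen S) {φ : X → Finset X → ℝ}
    (h1 : ∀ y W, φ y W ≠ 0 → y ∈ W ∧ W ⊆ ball S n y) (h2 : ∀ w : Γ, Ct Γ fun x U => φ (w • x) U) :
    ii I (fun x => ∑ W ∈ (ball S (n + n) x).powerset,
      if x ∈ W then (∑ y ∈ W, φ y W) / W.card else 0) =
        ii I fun y => ∑ W ∈ (ball S n y).powerset, φ y W := by
  have key := transport hI (hS.pow n)
    (t := fun y x => ∑ W ∈ (ball S n y).powerset, if x ∈ W then φ y W / W.card else 0) fun w => by
      have h3 : Ct Γ fun x U => if (1 : Γ) • x ∈ U then φ (w • x) U * (U.card : ℝ)⁻¹ else 0 :=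
        fun W => cont_ite (clopen_mem hI 1 W) ((h2 w W).mul (ct_card hI (fun j => (j : ℝ)⁻¹) W))
          continuous_const
      refine (ct_sum hI h3 ((S ^ n).image (· * w))).congr fun x => ?_
      have e : orb ((S ^ n).image (· * w)) x = ball S n (w • x) := by
        simp only [ball, orb, image_image]
        exact image_congr fun u _ => mul_smul u w x
      simp only [e, one_smul, div_eq_mul_inv]
  refine Eq.trans (congrArg _ (funext fun x => ?_)) (key.trans (congrArg _ (funext fun y => ?_)))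
  · change _ = ∑ y ∈ ball S n x, _
    rw [sum_congr rfl (g := fun y => ∑ W ∈ (ball S (n + n) x).powerset,
      if x ∈ W then φ y W / W.card else 0) fun y hy => sum_eq_of_ne fun W hW => ?_, sum_comm]
    · refine sum_congr rfl fun W _ => ?_
      split_ifs with hx
      · rw [← sum_div]
        congr 1
        exact sum_eq_of_ne fun y hy => iff_of_true (h1 y W hy).1 (ball_symm hS ((h1 y W hy).2 hx))
      · simp
    · have h4 : φ y W ≠ 0 := fun h0 => hW (by simp [h0])
      exact iff_of_true (mem_powerset.2 (h1 y W h4).2)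
        (mem_powerset.2 fun v hv => ball_add hy ((h1 y W h4).2 hv))
  · change ∑ x ∈ ball S n y, _ = _
    rw [sum_comm]
    refine sum_congr rfl fun W hW => ?_
    by_cases h0 : φ y W = 0
    · simp [h0]
    have h5 : (W.card : ℝ) ≠ 0 := Nat.cast_ne_zero.2 (card_pos.2 ⟨y, (h1 y W h0).1⟩).ne'
    rw [← sum_filter, filter_mem_eq_inter, inter_eq_right.2 (mem_powerset.1 hW), sum_const,
      nsmul_eq_mul, mul_div_cancel₀ _ h5]

theorem step (hI : IsDyn Γ I) (hS : Gen S) (h : Sys S n Λ) {σ σ' : X → St}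
    (hσ : IsLocallyConstant σ) (hσ' : IsLocallyConstant σ') {T : Set X} (hT : IsClopen T)
    (he : ∀ x ∉ T, σ' x = σ x) (hs : ∀ y ∈ T, ∀ y' ∈ T, y' ∈ ball S n y → y' = y) {η : ℝ}
    (hb : ∀ y ∈ T, Λ σ' (ball S n y) - Λ σ (ball S n y) ≤ η) :
    ii I (dens S n (Λ σ')) ≤ ii I (dens S n (Λ σ)) + ii I fun x => if x ∈ T then η else 0 := by
  have hd : ∀ W, mob (Λ σ') W - mob (Λ σ) W ≠ 0 → (∃ v ∈ W, v ∈ T) ∧ ∀ v ∈ W, W ⊆ ball S n v := by
    intro W hW
    refine ⟨?_, fun v hv => ?_⟩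
    · by_contra hc
      refine hW (sub_eq_zero.2 (mob_congr fun W' hW' => h.loc _ _ _ fun v hv => he v fun hv' => ?_))
      exact hc ⟨v, hW' hv, hv'⟩
    · by_cases h0 : mob (Λ σ) W = 0
      · exact h.clus σ' W (by simpa [h0] using hW) v hv
      · exact h.clus σ W h0 v hv
  have hφ : ∀ w : Γ, Ct Γ fun x U =>
      if w • x ∈ T ∧ w • x ∈ U then mob (Λ σ') U - mob (Λ σ) U else 0 := fun w W =>
    cont_ite (p := fun x => w • x ∈ T ∧ w • x ∈ orb W x)
      ((hT.preimage (continuous_const_smul w)).inter (clopen_mem hI w W))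
      ((ct_mob hI (h.cont σ' hσ') W).sub (ct_mob hI (h.cont σ hσ) W)) continuous_const
  have key := trans2 hI hS (n := n)
    (φ := fun y W => if y ∈ T ∧ y ∈ W then mob (Λ σ') W - mob (Λ σ) W else 0) (fun y W hW => by
      have h1 : y ∈ T ∧ y ∈ W := by
        by_contra hc
        exact hW (if_neg hc)
      rw [if_pos h1] at hW
      exact ⟨h1.2, (hd W hW).2 y h1.2⟩) hφ
  have e1 : ∀ x, (∑ W ∈ (ball S (n + n) x).powerset, if x ∈ W then
      (∑ y ∈ W, if y ∈ T ∧ y ∈ W then mob (Λ σ') W - mob (Λ σ) W else 0) / W.card else 0) =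
        dens S n (Λ σ') x - dens S n (Λ σ) x := fun x => by
    rw [dens_eq hS (h.clus σ'), dens_eq hS (h.clus σ), ← sum_sub_distrib]
    refine sum_congr rfl fun W _ => ?_
    split_ifs with hx
    · rw [← sub_div]
      congr 1
      by_cases h0 : mob (Λ σ') W - mob (Λ σ) W = 0
      · simp [h0]
      obtain ⟨⟨v, hv, hv'⟩, h1⟩ := hd W h0
      rw [sum_eq_single_of_mem v hv, if_pos ⟨hv', hv⟩]
      exact fun u hu huv => if_neg fun h2 => huv (hs v hv' u h2.1 (h1 v hv hu))
    · simp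
  have e2 : ∀ y, (∑ W ∈ (ball S n y).powerset,
      if y ∈ T ∧ y ∈ W then mob (Λ σ') W - mob (Λ σ) W else 0) ≤ if y ∈ T then η else 0 := by
    intro y
    by_cases hy : y ∈ T
    · rw [if_pos hy]
      refine le_of_eq_of_le ?_ (hb y hy)
      rw [← mob_sum (Λ σ'), ← mob_sum (Λ σ), ← sum_sub_distrib]
      refine sum_congr rfl fun W hW => ?_
      by_cases h0 : mob (Λ σ') W - mob (Λ σ) W = 0
      · simp [h0]
      obtain ⟨v, hv, hv'⟩ := (hd W h0).1
      exact if_pos ⟨hy, hs y hy v hv' (mem_powerset.1 hW hv) ▸ hv⟩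
    · simp [hy]
  have c1 := cont_dens hI (h.cont σ hσ) S n
  have c2 := cont_dens hI (h.cont σ' hσ') S n
  have c3 : Continuous fun x => dens S n (Λ σ') x - dens S n (Λ σ) x := c2.sub c1
  have e3 := ii_add (I := I) c1 c3
  simp only [add_sub_cancel] at e3
  simp only [e1] at key
  have c4 := ct_sum hI (hφ 1) (S ^ n)
  simp only [one_smul] at c4
  have e4 := ii_mono hI c4 (cont_ite (p := fun x => x ∈ T) hT continuous_const continuous_const) e2
  rw [key] at e3
  exact e3.trans_le (add_le_add_right e4 _)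

theorem final_id (hI : IsDyn Γ I) (hS : Gen S) (h : Sys S n Λ) {σ : X → St}
    (hσ : IsLocallyConstant σ) {D : X → Finset X → ℝ} (h1 : ∀ U, Λ σ U = ∑ v ∈ U, D v U)
    (h2 : ∀ v U, D v U = D v (U ∩ ball S n v)) (h3 : ∀ w : Γ, Ct Γ fun x U => D (w • x) U) :
    ii I (dens S n (Λ σ)) = ii I fun x => D x (ball S n x) := by
  have key := trans2 hI hS (n := n)
    (φ := fun v W => mob (fun U => if v ∈ U then D v U else 0) W) (fun v W hW => ?_) fun w =>
      ct_mob hI (F := fun x U => if w • x ∈ U then D (w • x) U else 0) fun W =>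
        cont_ite (clopen_mem hI w W) (h3 w W) continuous_const
  · refine Eq.trans (congrArg _ (funext fun x => ?_)) (key.trans (congrArg _ (funext fun y => ?_)))
    · rw [dens_eq hS (h.clus σ)]
      refine sum_congr rfl fun W _ => if_congr Iff.rfl ?_ rfl
      congr 1
      simp only [mob]
      rw [sum_comm]
      refine sum_congr rfl fun U hU => ?_
      rw [← mul_sum, ← sum_filter, filter_mem_eq_inter, inter_eq_right.2 (mem_powerset.1 hU), h1]
    · rw [mob_sum, if_pos (self_mem_ball hS n y)]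
  · have h4 : v ∈ W := by
      by_contra hc
      refine hW ((mob_congr (g := fun _ => 0) fun U hU => if_neg fun hv => hc (hU hv)).trans ?_)
      simp [mob]
    refine ⟨h4, fun u hu => ?_⟩
    by_contra hc
    have h5 : v ≠ u := fun e => hc (e ▸ self_mem_ball hS n v)
    refine hW (mob_blind hu fun U _ => if_congr (by simp [h5]) ?_ rfl)
    rw [h2 v (insert u U), h2 v U, insert_inter_of_notMem hc]

end Vale.Agent.P078
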