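import Vale.Agent.P078.Op
import Vale.Agent.P078.Dyn
import Vale.Agent.P078.Approx

/-!
Kaplansky approximation, and the passage from a small trace to a large projection.

PLAN. `N = span ℂ (range op)` is a star subalgebra containing `A` (`span_A`; unitaries of `A` normalise `A`). `dense_N`: the projection onto
the closure of `N Ω` commutes with the normalizer, so with `m ∈ M = N''`. `kap1`: `f t = 2t/(1+t²)`, `x = f x₀`,
`x₀ = cfc (s / (1 + √(1 - s²))) x ∈ M`; take `y ∈ N` selfadjoint with `‖(y - x₀) Ω‖` small (`(y + y*)/2`, `norm_star_Om`);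
`f y - f x₀ = 2 (1+y²)⁻¹ (y - x₀) (1+x₀²)⁻¹ + 2 (1+y²)⁻¹ y (x₀ - y) x₀ (1+x₀²)⁻¹` and `norm_mul_Om`; approximate `f y` in norm by a real
polynomial in `y` (Weierstrass on `[-‖y‖, ‖y‖]`) and rescale. `kap`: `x' = (x'' - E x'')/2`; enlarge the finite support to a symmetric set.
`tauh_lip`: `‖(y₁^n - y₂^n) Ω‖ ≤ n ‖(y₁ - y₂) Ω‖`. `big_proj`: `cut` for `b = (y/48)² - 2 z²`; with `hy = aeval (y/48) h`:
`0 ≤ hy` and `(y/48)² - z² ≤ hy` (`cfc`), `re tau hy ≥ re tau ((1-g) hy (1-g)) ≥ z² ‖(1-g) Ω‖²` as `g` commutes with `y`;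
`‖g y g‖² = ‖g y² g‖ ≤ 2 (48 z)²`.
-/

open Finset Polynomial
open scoped Classical InnerProductSpace
open Vale.Agent.P070h8

namespace Vale.Agent.P078

variable {H : Type*} [NormedAddCommGroup H] [InnerProductSpace ℂ H] [CompleteSpace H]
  {M : VonNeumannAlgebra H} {A : StarSubalgebra ℂ (H →L[ℂ] H)} {Ω : H}
  {E : (H →L[ℂ] H) → H →L[ℂ] H} {x y : H →L[ℂ] H}

theorem N_mem (hy : y ∈ Submodule.span ℂ (Set.range (op : NG M A → H →L[ℂ] H))) : y ∈ M := by
  induction hy using Submodule.span_induction with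
  | mem _ h => obtain ⟨w, rfl⟩ := h; exact op_mem w
  | zero => exact zero_mem _
  | add _ _ _ _ h1 h2 => exact add_mem h1 h2
  | smul c _ _ h => exact smul_mem_M h c

theorem N_one : (1 : H →L[ℂ] H) ∈ Submodule.span ℂ (Set.range (op : NG M A → H →L[ℂ] H)) :=
  Submodule.subset_span ⟨1, rfl⟩

theorem N_mul (hx : x ∈ Submodule.span ℂ (Set.range (op : NG M A → H →L[ℂ] H)))
    (hy : y ∈ Submodule.span ℂ (Set.range (op : NG M A → H →L[ℂ] H))) :
    x * y ∈ Submodule.span ℂ (Set.range (op : NG M A → H →L[ℂ] H)) := by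
  have := Submodule.mul_mem_mul hx hy
  rw [Submodule.span_mul_span] at this
  refine Submodule.span_mono ?_ this
  rintro _ ⟨_, ⟨w, rfl⟩, _, ⟨w', rfl⟩, rfl⟩
  exact ⟨w * w', rfl⟩

theorem N_star (hy : y ∈ Submodule.span ℂ (Set.range (op : NG M A → H →L[ℂ] H))) :
    star y ∈ Submodule.span ℂ (Set.range (op : NG M A → H →L[ℂ] H)) := by
  induction hy using Submodule.span_induction with
  | mem _ h => obtain ⟨w, rfl⟩ := h; exact Submodule.subset_span ⟨w⁻¹, rfl⟩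
  | zero => simp
  | add _ _ _ _ h1 h2 => rw [star_add]; exact add_mem h1 h2
  | smul c _ _ h => rw [star_smul]; exact Submodule.smul_mem _ _ h

theorem N_aeval (hy : y ∈ Submodule.span ℂ (Set.range (op : NG M A → H →L[ℂ] H))) (p : ℝ[X]) :
    aeval y p ∈ Submodule.span ℂ (Set.range (op : NG M A → H →L[ℂ] H)) := by
  rw [aeval_eq_sum_range]
  refine Submodule.sum_mem _ fun n _ => Submodule.smul_of_tower_mem _ _ ?_
  induction n with
  | zero => exact N_one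
  | succ n ih => rw [pow_succ]; exact N_mul (ih (by simp_all; omega)) hy

theorem A_le_N (hA : IsMASA M A) (hy : y ∈ A) :
    y ∈ Submodule.span ℂ (Set.range (op : NG M A → H →L[ℂ] H)) := by
  refine Submodule.span_mono ?_ (span_A hA hy)
  rintro u ⟨u1, u2⟩
  exact ⟨⟨⟨u, u2⟩, mem_norm.2 ⟨hA.1 u u1, u2, fun a ha => mul_mem (mul_mem u1 ha) (star_mem u1),
    fun a ha => mul_mem (mul_mem (star_mem u1) ha) u1⟩⟩, rfl⟩

theorem cfc_mem_M (hy : y ∈ M) (f : ℝ → ℝ) : cfc f y ∈ M := mem_of_comm fun T hT =>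
  (Commute.cfc_real (VonNeumannAlgebra.mem_commutant_iff.1 hT y hy) f).symm

theorem one_sub_nonneg (hs : IsSelfAdjoint x) (hn : ‖x‖ ≤ 1) : 0 ≤ 1 - x := by
  refine nonneg_of_re (by simp [hs.star_eq]) fun ξ => ?_
  have h1 := (Complex.re_le_norm _).trans (norm_inner_le_norm (𝕜 := ℂ) ξ (x ξ))
  have h2 := (x.le_opNorm ξ).trans (mul_le_of_le_one_left (norm_nonneg _) hn)
  have h3 : (⟪ξ, ξ⟫_ℂ).re = ‖ξ‖ ^ 2 := by
    rw [inner_self_eq_norm_sq_to_K]
    norm_cast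
  simp only [ContinuousLinearMap.sub_apply, ContinuousLinearMap.one_apply, inner_sub_right,
    Complex.sub_re, h3]
  nlinarith [norm_nonneg ξ]

theorem tau_cfc_mul (hΩ : IsTraceVector M Ω) (hy : y ∈ M) (hs : IsSelfAdjoint y) (hx : x ∈ M)
    (h0 : 0 ≤ x) {g : ℝ → ℝ} (hg : Continuous g) (g0 : ∀ t, 0 ≤ g t) :
    0 ≤ (tau Ω (cfc g y * x)).re := by
  have e : cfc g y = cfc (fun t => √(g t)) y * cfc (fun t => √(g t)) y := by
    rw [← cfc_mul ..]
    exact cfc_congr fun t _ => (Real.mul_self_sqrt (g0 t)).symm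
  have c1 := cfc_mem_M hy fun t => √(g t)
  rw [e, mul_assoc, tau_comm hΩ c1 (mul_mem c1 hx), mul_assoc, tau_mul,
    (cfc_predicate (fun t => √(g t)) y : IsSelfAdjoint _).star_eq]
  exact re_inner_nonneg h0 _

theorem clamp_le (hΩ : IsTraceVector M Ω) (hx : x ∈ M) (hs : IsSelfAdjoint x) (hn : ‖x‖ ≤ 1)
    (hy : y ∈ M) (hs' : IsSelfAdjoint y) :
    ‖(x - cfc (fun t : ℝ => max (-1) (min 1 t)) y) Ω‖ ≤ ‖(x - y) Ω‖ := by
  set f := cfc (fun t : ℝ => max (-1) (min 1 t)) y with hf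
  set a := cfc (fun t : ℝ => max (t - 1) 0) y with ha
  set b := cfc (fun t : ℝ => max (-t - 1) 0) y with hb
  have e1 : y - f = a - b := by
    rw [show y - f = cfc (fun t : ℝ => t) y - f by rw [cfc_id' ℝ y], hf, ha, hb, ← cfc_sub ..,
      ← cfc_sub ..]
    refine cfc_congr fun t _ => ?_
    simp only [max_def, min_def]
    split_ifs <;> linarith
  have e2 : a * f = a := by
    rw [hf, ha, ← cfc_mul ..]
    refine cfc_congr fun t _ => ?_
    simp only [max_def, min_def]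
    split_ifs <;> linarith
  have e3 : b * f = -b := by
    rw [hf, hb, ← cfc_mul .., ← cfc_neg]
    refine cfc_congr fun t _ => ?_
    simp only [max_def, min_def]
    split_ifs <;> linarith
  have p1 := tau_cfc_mul hΩ hy hs' (sub_mem (one_mem M) hx) (one_sub_nonneg hs hn)
    (g := fun t => max (t - 1) 0) (by fun_prop) fun t => le_max_right _ _
  have p2 := tau_cfc_mul hΩ hy hs' (sub_mem (one_mem M) (neg_mem hx))
    (one_sub_nonneg hs.neg (by rwa [norm_neg])) (g := fun t => max (-t - 1) 0) (by fun_prop)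
    fun t => le_max_right _ _
  have e4 : (y - f) * (f - x) = a * (1 - x) + b * (1 - -x) := by
    rw [e1, sub_mul, mul_sub, mul_sub, e2, e3]
    noncomm_ring
  have p3 : 0 ≤ (⟪(y - f) Ω, (f - x) Ω⟫_ℂ).re := by
    have : star (y - f) = y - f := (hs'.sub (cfc_predicate _ y)).star_eq
    rw [← this, ← tau_mul, e4, tau_add, Complex.add_re]
    exact add_nonneg p1 p2
  have e5 := norm_add_sq (𝕜 := ℂ) ((y - f) Ω) ((f - x) Ω)
  rw [← ContinuousLinearMap.add_apply, sub_add_sub_cancel] at e5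
  rw [← neg_sub f, ← neg_sub y, ContinuousLinearMap.neg_apply, ContinuousLinearMap.neg_apply,
    norm_neg, norm_neg]
  refine (pow_le_pow_iff_left₀ (norm_nonneg _) (norm_nonneg _) two_ne_zero).1 ?_
  rw [e5]
  change _ ≤ _ + 2 * (⟪(y - f) Ω, (f - x) Ω⟫_ℂ).re + _
  linarith [sq_nonneg ‖(y - f) Ω‖]

theorem dense_N (hR : IsRegular M A) (hx : x ∈ M) {η : ℝ} (hη : 0 < η) :
    ∃ y ∈ Submodule.span ℂ (Set.range (op : NG M A → H →L[ℂ] H)), ‖(x - y) Ω‖ ≤ η := by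
  let K0 : Submodule ℂ H := (Submodule.span ℂ (Set.range (op : NG M A → H →L[ℂ] H))).map
    (ContinuousLinearMap.apply ℂ H Ω).toLinearMap
  let K := K0.topologicalClosure
  haveI : CompleteSpace K := K0.isClosed_topologicalClosure.completeSpace_coe
  have inv : ∀ w : NG M A, ∀ v ∈ K, op w v ∈ K := fun w v hv => by
    refine map_mem_closure (op w).continuous hv ?_
    rintro _ ⟨S, hS, rfl⟩
    exact ⟨op w * S, N_mul (Submodule.subset_span ⟨w, rfl⟩) hS, rfl⟩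
  have hP : K.starProjection ∈ Set.centralizer (normalizer M A) := fun u hu => by
    ext v
    exact (comm_proj K (op (⟨⟨u, hu.2.1⟩, hu⟩ : NG M A)) (inv _) (inv (⟨⟨u, hu.2.1⟩, hu⟩ : NG M A)⁻¹)
      v).symm
  have hx' : x ∈ Set.centralizer (Set.centralizer (normalizer M A)) := by
    rw [hR]
    exact hx
  have h1 : Ω ∈ K := K0.le_topologicalClosure ⟨1, N_one, rfl⟩
  have h2 : x Ω ∈ K := by
    rw [← Submodule.starProjection_eq_self_iff]
    have := congrArg (fun S : H →L[ℂ] H => S Ω) (hx' _ hP)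
    simpa [Submodule.starProjection_eq_self_iff.2 h1] using this
  obtain ⟨_, ⟨y, hy, rfl⟩, d⟩ := Metric.mem_closure_iff.1 h2 η hη
  exact ⟨y, hy, by simpa [dist_eq_norm] using d.le⟩

theorem kap1 (hR : IsRegular M A) (hΩ : IsTraceVector M Ω) (hx : x ∈ M) (hs : IsSelfAdjoint x)
    (hn : ‖x‖ ≤ 1) {η : ℝ} (hη : 0 < η) :
    ∃ y ∈ Submodule.span ℂ (Set.range (op : NG M A → H →L[ℂ] H)), IsSelfAdjoint y ∧ ‖y‖ ≤ 1 ∧
      ‖(x - y) Ω‖ ≤ η := by
  haveI : Nontrivial H := ⟨⟨Ω, 0, fun h => by simpa [h] using hΩ.1⟩⟩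
  obtain ⟨y0, h0, d0⟩ := dense_N (Ω := Ω) hR hx (half_pos hη)
  let y := (1 / 2 : ℂ) • (y0 + star y0)
  have y1 : y ∈ Submodule.span ℂ (Set.range (op : NG M A → H →L[ℂ] H)) :=
    Submodule.smul_mem _ _ (add_mem h0 (N_star h0))
  have y2 : IsSelfAdjoint y := by simp [y, IsSelfAdjoint, add_comm]
  have y3 : ‖(x - y) Ω‖ ≤ η / 2 := by
    have e : x - y = (1 / 2 : ℂ) • ((x - y0) + star (x - y0)) := by
      rw [star_sub, hs.star_eq]
      simp only [y]
      module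
    have := norm_add_le ((x - y0) Ω) (star (x - y0) Ω)
    rw [norm_star_Om hΩ (sub_mem hx (N_mem h0))] at this
    rw [e, ContinuousLinearMap.smul_apply, norm_smul, ContinuousLinearMap.add_apply]
    norm_num at this d0 ⊢
    linarith
  obtain ⟨ε, e0, e1, e2⟩ : ∃ ε : ℝ, 0 < ε ∧ ε ≤ 1 ∧ 4 * ε ≤ η :=
    ⟨min 1 (η / 4), by positivity, min_le_left _ _, by linarith [min_le_right 1 (η / 4)]⟩
  obtain ⟨p, hp⟩ := exists_polynomial_near_of_continuousOn (-‖y‖) ‖y‖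
    (fun t => (1 - ε) * max (-1) (min 1 t)) (by fun_prop) ε e0
  have k : ∀ t ∈ spectrum ℝ y, |p.eval t| ≤ 1 ∧ |max (-1) (min 1 t) - p.eval t| ≤ 2 * ε := by
    intro t ht
    obtain ⟨a1, a2⟩ := abs_lt.1 (hp t (abs_le.1 (spectrum.norm_le_norm_of_mem ht)))
    have b1 : -1 ≤ max (-1) (min 1 t) := le_max_left _ _
    have b2 : max (-1) (min 1 t) ≤ 1 := max_le (by norm_num) (min_le_left _ _)
    rw [abs_le, abs_le]
    refine ⟨⟨?_, ?_⟩, ?_, ?_⟩ <;> nlinarith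
  refine ⟨cfc p.eval y, cfc_polynomial p y ▸ N_aeval y1 p, cfc_predicate _ y,
    norm_cfc_le zero_le_one fun t ht => (k t ht).1, ?_⟩
  have c1 := (clamp_le hΩ hx hs hn (N_mem y1) y2).trans y3
  have c2 : ‖(cfc (fun t : ℝ => max (-1) (min 1 t)) y - cfc p.eval y) Ω‖ ≤ 2 * ε := by
    refine (ContinuousLinearMap.le_opNorm _ _).trans ?_
    rw [hΩ.1, mul_one, ← cfc_sub ..]
    exact norm_cfc_le (by positivity) fun t ht => (k t ht).2
  have c3 := norm_add_le ((x - cfc (fun t : ℝ => max (-1) (min 1 t)) y) Ω)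
    ((cfc (fun t : ℝ => max (-1) (min 1 t)) y - cfc p.eval y) Ω)
  rw [← ContinuousLinearMap.add_apply, sub_add_sub_cancel] at c3
  linarith

theorem IsE.sub (hE : IsE M A Ω E) (hx : x ∈ M) (hy : y ∈ M) : E (x - y) = E x - E y := by
  rw [eq_sub_iff_add_eq, ← hE.add _ (sub_mem hx hy) _ hy, sub_add_cancel]

theorem kap2 (hA : IsMASA M A) (hR : IsRegular M A) (hΩ : IsTraceVector M Ω) (hE : IsE M A Ω E)
    (hx : x ∈ M) (hs : IsSelfAdjoint x) (hn : ‖x‖ ≤ 1) {η : ℝ} (hη : 0 < η) :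
    ∃ (S : Finset (NG M A)) (l : NG M A → ℂ) (x' : H →L[ℂ] H), Gen S ∧ x' = ∑ u ∈ S, l u • op u ∧
      x' ∈ M ∧ IsSelfAdjoint x' ∧ ‖x'‖ ≤ 1 ∧ E x' = 0 ∧
        ‖((1 / 2 : ℂ) • (x - E x) - x') Ω‖ ≤ η := by
  obtain ⟨y, y1, y2, y3, y4⟩ := kap1 hR hΩ hx hs hn hη
  have yM := N_mem y1
  have EA := hE.mem y yM
  have h1 : (1 / 2 : ℂ) • (y - E y) ∈ Submodule.span ℂ (Set.range (op : NG M A → H →L[ℂ] H)) :=
    Submodule.smul_mem _ _ (sub_mem y1 (A_le_N hA EA))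
  obtain ⟨l, hl⟩ := Finsupp.mem_span_range_iff_exists_finsupp.1 h1
  refine ⟨insert 1 (l.support ∪ l.support.image (·⁻¹)), l, _, ⟨mem_insert_self _ _, fun w hw => ?_⟩,
    ?_, N_mem h1, ?_, ?_, ?_, ?_⟩
  · simp only [mem_insert, mem_union, mem_image] at hw ⊢
    rcases hw with rfl | hw | ⟨v, hv, rfl⟩
    exacts [.inl inv_one, .inr (.inr ⟨w, hw, rfl⟩), .inr (.inl (by rwa [inv_inv]))]
  · rw [← hl]
    exact Finsupp.sum_of_support_subset _ (subset_union_left.trans (subset_insert _ _)) _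
      fun _ _ => zero_smul _ _
  · have := hE.star y yM
    rw [y2.star_eq] at this
    simp [IsSelfAdjoint, y2.star_eq, ← this]
  · have := norm_sub_le y (E y)
    have := hE.norm y yM
    rw [norm_smul]
    norm_num
    linarith
  · rw [hE.smul _ (sub_mem yM (hA.1 _ EA)), hE.sub yM (hA.1 _ EA), hE.self _ EA, sub_self, smul_zero]
  · have e : (1 / 2 : ℂ) • (x - E x) - (1 / 2 : ℂ) • (y - E y) =
        (1 / 2 : ℂ) • ((x - y) - E (x - y)) := by
      rw [hE.sub hx yM]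
      module
    have := norm_sub_le ((x - y) Ω) (E (x - y) Ω)
    have := hE.norm2 _ (sub_mem hx yM)
    rw [e, ContinuousLinearMap.smul_apply, norm_smul, ContinuousLinearMap.sub_apply _ (E _)]
    rw [show ‖(1 / 2 : ℂ)‖ = 1 / 2 by simp]
    linarith

/-- The trace of `h (y / 48)`. -/
noncomputable def tauh (Ω : H) (h : ℝ[X]) (y : H →L[ℂ] H) : ℝ :=
  ∑ n ∈ range (h.natDegree + 1), h.coeff n / 48 ^ n * (tau Ω (y ^ n)).re

theorem tauh_lip (hΩ : IsTraceVector M Ω) (h : ℝ[X]) : ∃ C : ℝ, 0 < C ∧ ∀ y₁ ∈ M, ∀ y₂ ∈ M,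
    ‖y₁‖ ≤ 1 → ‖y₂‖ ≤ 1 → tauh Ω h y₁ ≤ tauh Ω h y₂ + C * ‖(y₁ - y₂) Ω‖ := by
  refine ⟨1 + ∑ n ∈ range (h.natDegree + 1), |h.coeff n / 48 ^ n| * n, by positivity,
    fun y₁ h1 y₂ h2 n1 n2 => ?_⟩
  have p1 : ∀ n, ‖y₂ ^ n‖ ≤ 1 := fun n => by
    induction n with
    | zero => exact ContinuousLinearMap.norm_id_le
    | succ n ih => exact pow_succ y₂ n ▸ (norm_mul_le _ _).trans (mul_le_one₀ ih (norm_nonneg _) n2)
  have p2 : ∀ n : ℕ, ‖(y₁ ^ n - y₂ ^ n) Ω‖ ≤ n * ‖(y₁ - y₂) Ω‖ := fun n => by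
    induction n with
    | zero => simp
    | succ n ih =>
      have a := (norm_mul_Om hΩ (sub_mem h1 h2) (pow_mem h2 n)).trans
        (mul_le_of_le_one_right (norm_nonneg _) (p1 n))
      have b := (y₁.le_opNorm ((y₁ ^ n - y₂ ^ n) Ω)).trans
        (mul_le_of_le_one_left (norm_nonneg _) n1)
      rw [show y₁ ^ (n + 1) - y₂ ^ (n + 1) = y₁ * (y₁ ^ n - y₂ ^ n) + (y₁ - y₂) * y₂ ^ n by
        rw [pow_succ', pow_succ']; noncomm_ring]
      refine (norm_add_le _ _).trans ?_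
      rw [Nat.cast_succ, add_mul, one_mul]
      exact add_le_add (b.trans ih) a
  have p3 : ∀ n : ℕ, |(tau Ω (y₁ ^ n)).re - (tau Ω (y₂ ^ n)).re| ≤ n * ‖(y₁ - y₂) Ω‖ := fun n => by
    rw [← Complex.sub_re, ← tau_sub]
    refine (Complex.abs_re_le_norm _).trans ((norm_inner_le_norm _ _).trans ?_)
    rw [hΩ.1, one_mul]
    exact p2 n
  rw [← sub_le_iff_le_add', tauh, tauh, ← sum_sub_distrib, add_mul, sum_mul]
  refine le_add_of_nonneg_of_le (by positivity) (sum_le_sum fun n _ => ?_)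
  rw [← mul_sub, mul_assoc]
  refine (le_abs_self _).trans ?_
  rw [abs_mul]
  exact mul_le_mul_of_nonneg_left (p3 n) (abs_nonneg _)

theorem big_proj (hΩ : IsTraceVector M Ω) (hy : y ∈ M) (hs : IsSelfAdjoint y) (hn : ‖y‖ ≤ 1)
    {z η : ℝ} (hz : 0 < z) {h : ℝ[X]} (ha : App z η h) :
    ∃ q ∈ M, IsStarProjection q ∧ ‖q * y * q‖ ≤ 72 * z ∧ z ^ 2 * ‖(1 - q) Ω‖ ^ 2 ≤ tauh Ω h y := by
  haveI : Nontrivial H := ⟨⟨Ω, 0, fun h => by simpa [h] using hΩ.1⟩⟩
  obtain ⟨Y, hY⟩ : ∃ Y : H →L[ℂ] H, Y = (1 / 48 : ℝ) • y := ⟨_, rfl⟩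
  have Ys : IsSelfAdjoint Y := by simp [hY, IsSelfAdjoint, hs.star_eq]
  have pos : ∀ p : ℝ[X], (∀ t ∈ Set.Icc (-1 : ℝ) 1, 0 ≤ p.eval t) → 0 ≤ aeval Y p := fun p hp => by
    rw [← cfc_polynomial p Y]
    refine cfc_nonneg fun t ht => hp t (abs_le.1 ((spectrum.norm_le_norm_of_mem ht).trans ?_))
    rw [hY, norm_smul]
    norm_num
    linarith
  have q1 := pos h fun t ht => (le_max_right (t ^ 2 - z ^ 2) 0).trans (sub_nonneg.1 (ha.2 t ht).1)
  have q2 := pos (h - (X * X - Polynomial.C (z ^ 2))) fun t ht => by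
    have := (le_max_left (t ^ 2 - z ^ 2) 0).trans (sub_nonneg.1 (ha.2 t ht).1)
    simp only [eval_sub, eval_mul, eval_X, eval_C]
    linarith
  simp only [map_sub, map_mul, aeval_X, aeval_C, Algebra.algebraMap_eq_smul_one] at q2
  have cb : ∀ T, Commute T y → Commute T (Y * Y - (2 * z ^ 2 : ℝ) • (1 : H →L[ℂ] H)) := fun T hT =>
    have : Commute T Y := hY ▸ hT.smul_right _
    (this.mul_right this).sub_right ((Commute.one_right T).smul_right _)
  obtain ⟨g, g1, g2, g3, g4⟩ := cut (b := Y * Y - (2 * z ^ 2 : ℝ) • (1 : H →L[ℂ] H))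
    (by simp [IsSelfAdjoint, Ys.star_eq])
  have cM : ∀ T ∈ M.commutant, Commute T y := fun T hT =>
    (VonNeumannAlgebra.mem_commutant_iff.1 hT y hy).symm
  have gs := g1.isSelfAdjoint.star_eq
  refine ⟨g, mem_of_comm fun T hT => g2 T (cb T (cM T hT)) (cb _ (cM _ (star_mem hT))), g1,
    ContinuousLinearMap.opNorm_le_bound _ (by positivity) fun ξ => ?_, ?_⟩
  · have a1 := re_inner_nonneg (neg_nonneg.2 g3) ξ
    have a2 : ⟪ξ, (-(g * (Y * Y - (2 * z ^ 2 : ℝ) • (1 : H →L[ℂ] H)) * g)) ξ⟫_ℂ =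
        ((2 * z ^ 2 : ℝ) : ℂ) * ⟪ξ, g ξ⟫_ℂ - ⟪ξ, (star (Y * g) * (Y * g)) ξ⟫_ℂ := by
      rw [← inner_smul_right, ← inner_sub_right, star_mul, gs, Ys.star_eq, mul_sub, sub_mul,
        mul_smul_comm, smul_mul_assoc, mul_one, g1.isIdempotentElem.eq, neg_sub]
      simp only [mul_assoc]
      rfl
    rw [a2, Complex.sub_re, Complex.re_ofReal_mul, proj_norm_sq g1, re_inner_star_mul] at a1
    have a3 : ∀ v, ‖g v‖ ≤ ‖v‖ := fun v =>
      (g.le_opNorm v).trans (mul_le_of_le_one_left (norm_nonneg _) g1.norm_le)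
    have a4 : ‖(Y * g) ξ‖ = ‖y (g ξ)‖ / 48 := by
      rw [hY]
      change ‖(1 / 48 : ℝ) • y (g ξ)‖ = _
      rw [norm_smul]
      norm_num
      ring
    refine (a3 (y (g ξ))).trans
      ((pow_le_pow_iff_left₀ (norm_nonneg _) (by positivity) two_ne_zero).1 ?_)
    rw [a4] at a1
    have a5 := mul_le_mul_of_nonneg_left
      (pow_le_pow_left₀ (norm_nonneg _) (a3 ξ) 2) (sq_nonneg z)
    nlinarith [mul_nonneg (sq_nonneg z) (sq_nonneg ‖ξ‖)]
  · have cy : Commute y g := g2 y (cb y (Commute.refl y)) (hs.star_eq.symm ▸ cb y (Commute.refl y))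
    have ch : Commute (aeval Y h) g := by
      rw [← cfc_polynomial h Y]
      exact (show Commute Y g from hY ▸ cy.smul_left _).cfc_real _
    have gg := g1.isIdempotentElem.eq
    have b1 := star_left_conjugate_nonneg q1 g
    have b2 := star_left_conjugate_nonneg q2 (1 - g)
    rw [gs] at b1
    rw [g1.one_sub.isSelfAdjoint.star_eq] at b2
    have b3 : 0 ≤ aeval Y h - (z ^ 2 : ℝ) • (1 - g) := by
      refine (add_nonneg (add_nonneg b1 b2) g4).trans (le_of_eq ?_)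
      have e1 : g * aeval Y h * g = aeval Y h * g := by rw [← ch.eq, mul_assoc, gg]
      have e2 : (1 - g) * aeval Y h * (1 - g) = aeval Y h - aeval Y h * g := by
        rw [sub_mul, one_mul, ← ch.eq, mul_sub, mul_one, sub_mul, mul_assoc, gg, sub_self, sub_zero]
      have e3 : (1 - g) * (1 - g) = 1 - g := g1.one_sub.isIdempotentElem.eq
      generalize 1 - g = k at e2 e3 ⊢
      simp only [mul_sub k, sub_mul _ _ k, mul_smul_comm, smul_mul_assoc, mul_one, e1, e2, e3]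
      module
    have b4 := re_inner_nonneg b3 Ω
    have b5 : (⟪Ω, aeval Y h Ω⟫_ℂ).re = tauh Ω h y := by
      rw [aeval_eq_sum_range, tauh, ContinuousLinearMap.sum_apply, inner_sum, Complex.re_sum]
      refine sum_congr rfl fun n _ => ?_
      rw [hY, _root_.smul_pow, smul_smul, ← Complex.coe_smul, ContinuousLinearMap.smul_apply,
        inner_smul_right, Complex.re_ofReal_mul, one_div_pow, mul_one_div]
      rfl
    rw [ContinuousLinearMap.sub_apply, inner_sub_right, Complex.sub_re, b5, ← Complex.coe_smul,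
      ContinuousLinearMap.smul_apply, inner_smul_right, Complex.re_ofReal_mul,
      proj_norm_sq g1.one_sub] at b4
    linarith

/-- Pinching by a partition contracts both norms. -/
theorem pinch (hΩ : IsTraceVector M Ω) {r : ℕ} {p : Fin r → H →L[ℂ] H} (hp : ∀ i, p i ∈ M)
    (h1 : ∀ i, IsStarProjection (p i)) (h2 : ∀ i j, i ≠ j → p i * p j = 0) (h3 : ∑ i, p i = 1)
    (hy : y ∈ M) : ‖∑ i, p i * y * p i‖ ≤ ‖y‖ ∧ ‖(∑ i, p i * y * p i) Ω‖ ≤ ‖y Ω‖ := by
  have o : ∀ v : Fin r → H, ‖∑ i, p i (v i)‖ ^ 2 = ∑ i, ‖p i (v i)‖ ^ 2 := fun v => by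
    have : ⟪∑ i, p i (v i), ∑ i, p i (v i)⟫_ℂ = ∑ i, ⟪p i (v i), p i (v i)⟫_ℂ := by
      rw [sum_inner]
      refine sum_congr rfl fun i _ => ?_
      rw [inner_sum, sum_eq_single i (fun j _ hj => ?_) (by simp)]
      rw [← inner_star_right, (h1 i).isSelfAdjoint.star_eq, ← ContinuousLinearMap.mul_apply,
        h2 i j hj.symm]
      simp
    simp only [inner_self_eq_norm_sq_to_K] at this
    exact_mod_cast this
  have o1 : ∀ v, ∑ i, ‖p i v‖ ^ 2 = ‖v‖ ^ 2 := fun v => by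
    rw [← o, ← ContinuousLinearMap.sum_apply, h3]
    rfl
  have a3 : ∀ i v, ‖p i v‖ ≤ ‖v‖ := fun i v =>
    ((p i).le_opNorm v).trans (mul_le_of_le_one_left (norm_nonneg _) (h1 i).norm_le)
  have o2 : ∀ v, ‖(∑ i, p i * y * p i) v‖ ^ 2 = ∑ i, ‖p i (y (p i v))‖ ^ 2 := fun v => by
    rw [← o, ContinuousLinearMap.sum_apply]
    rfl
  refine ⟨ContinuousLinearMap.opNorm_le_bound _ (norm_nonneg _) fun v =>
    (pow_le_pow_iff_left₀ (norm_nonneg _) (by positivity) two_ne_zero).1 ?_,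
    (pow_le_pow_iff_left₀ (norm_nonneg _) (by positivity) two_ne_zero).1 ?_⟩
  · rw [o2, mul_pow, ← o1 v, mul_sum]
    refine sum_le_sum fun i _ => ?_
    rw [← mul_pow]
    exact pow_le_pow_left₀ (norm_nonneg _) ((a3 _ _).trans (y.le_opNorm _)) 2
  · rw [o2, ← o1 (y Ω)]
    exact sum_le_sum fun i _ => pow_le_pow_left₀ (norm_nonneg _)
      ((norm_mul_Om hΩ (mul_mem (hp i) hy) (hp i)).trans
        (mul_le_of_le_one_right (norm_nonneg _) (h1 i).norm_le)) 2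

end Vale.Agent.P078
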