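import Vale.Agent.P078.Core
import Vale.Agent.P078.Kap

/-!
Assembly.
-/

open Finset Polynomial
open scoped Classical

namespace Vale.Agent.P078

variable {H : Type*} [NormedAddCommGroup H] [InnerProductSpace ℂ H] [CompleteSpace H]
  {M : VonNeumannAlgebra H} {A : StarSubalgebra ℂ (H →L[ℂ] H)} {Ω : H} {x : H →L[ℂ] H}

theorem pave_one (hA : IsMASA M A) (hR : IsRegular M A) (hΩ : IsTraceVector M Ω) (hx : x ∈ M)
    (hs : IsSelfAdjoint x) (hn : ‖x‖ ≤ 1) {E : (H →L[ℂ] H) → H →L[ℂ] H} (hE : IsE M A Ω E) {r : ℕ}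
    (hr : 2 ≤ r) (F : Finset H) {δ : ℝ} (hδ : 0 < δ) : ∃ p : Fin r → (H →L[ℂ] H),
      (∀ i, p i ∈ A ∧ IsStarProjection (p i)) ∧ (∀ i j, i ≠ j → p i * p j = 0) ∧ ∑ i, p i = 1 ∧
        ∃ q ∈ M, IsStarProjection q ∧ (∀ ξ ∈ F, ‖(1 - q) ξ‖ < δ) ∧
          ‖q * (∑ i, p i * x * p i - E x) * q‖ ≤ 720 / √(r : ℝ) := by
  obtain ⟨X, _, _, _, _, _, _, ev, hG⟩ := exists_gel hA
  obtain ⟨I, hI, hτ⟩ := exists_dyn hA hΩ hG
  obtain ⟨η₀, η₀0, hη₀⟩ := small_of_tau hΩ F hδ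
  have r0 : 0 < r := by omega
  have hz : 0 < 5 / √(r : ℝ) := by positivity
  set z := 5 / √(r : ℝ) with hzd
  have η0 : 0 < z ^ 2 * η₀ ^ 2 / 5 := by positivity
  set η := z ^ 2 * η₀ ^ 2 / 5 with hη
  obtain ⟨h, ha⟩ := approx_phi hz η0
  obtain ⟨C, C0, hC⟩ := tauh_lip hΩ h
  obtain ⟨S, l, x', hS, e1, x1, x2, x3, x4, x5⟩ := kap2 hA hR hΩ hE hx hs hn
    (show 0 < η / C by positivity)
  obtain ⟨k, hk, hkp⟩ := kernel hA hE hG hI.fix hS e1 x2 x3 x4
  obtain ⟨c, hc, d1, d2⟩ := core hI hS hk hr η0 ha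
  have hp : ∀ i : Fin r, ∃ p ∈ A, IsStarProjection p ∧ ∀ y, ev p y = if c y = i then 1 else 0 :=
    fun i => by
      obtain ⟨p, p1, p2, p3⟩ := hG.proj (C := {y | c y = i}) (hc.isClopen_fiber i)
      exact ⟨p, p1, p2, fun y => by rw [p3]; simp⟩
  choose p p1 p2 p3 using hp
  have pM : ∀ i, p i ∈ M := fun i => hA.1 _ (p1 i)
  have evsum : ∀ (s : Finset ℕ) (f : ℕ → H →L[ℂ] H), (∀ i, f i ∈ A) →
      ev (∑ i ∈ s, f i) = ∑ i ∈ s, ev (f i) := by
    intro s f hf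
    induction s using Finset.induction_on with
    | empty => simpa using hG.smul 1 (one_mem A) 0
    | insert a s ha ih => rw [sum_insert ha, sum_insert ha, hG.add _ (hf a) _ (sum_mem fun i _ => hf i), ih]
  have evsum' : ∀ s : Finset (Fin r), ev (∑ i ∈ s, p i) = ∑ i ∈ s, ev (p i) := by
    intro s
    induction s using Finset.induction_on with
    | empty => simpa using hG.smul 1 (one_mem A) 0
    | insert a s ha ih => rw [sum_insert ha, sum_insert ha, hG.add _ (p1 a) _ (sum_mem fun i _ => p1 i), ih]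
  have q1 : ∀ i j, i ≠ j → p i * p j = 0 := by
    intro i j hij
    refine hG.inj _ (mul_mem (p1 i) (p1 j)) ?_
    rw [hG.mul _ (p1 i) _ (p1 j)]
    ext y
    simp only [ContinuousMap.mul_apply, p3, ContinuousMap.zero_apply]
    split_ifs with h1 h2
    · exact absurd (h1.symm.trans h2) hij
    all_goals simp
  have q2 : ∑ i, p i = 1 := by
    have sA : ∑ i, p i ∈ A := sum_mem fun i _ => p1 i
    have : ∑ i, p i + (-1 : ℂ) • (1 : H →L[ℂ] H) = 0 := by
      refine hG.inj _ (add_mem sA (A.smul_mem (one_mem A) _)) ?_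
      rw [hG.add _ sA _ (A.smul_mem (one_mem A) _), hG.smul _ (one_mem A), hG.one, evsum']
      ext y
      simp [ContinuousMap.sum_apply, p3]
    rw [neg_one_smul, add_neg_eq_zero] at this
    exact this
  have EM : E x ∈ M := hA.1 _ (hE.mem x hx)
  have Es : IsSelfAdjoint (E x) := by
    rw [IsSelfAdjoint, ← hE.star x hx, hs.star_eq]
  set x₀ := (1 / 2 : ℂ) • (x - E x) with hx₀
  have x₀M : x₀ ∈ M := smul_mem_M (sub_mem hx EM) _
  have x₀s : IsSelfAdjoint x₀ := by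
    rw [IsSelfAdjoint, hx₀, star_smul, star_sub, hs.star_eq, Es.star_eq]
    simp
  have x₀n : ‖x₀‖ ≤ 1 := by
    rw [hx₀, norm_smul]
    have := norm_sub_le x (E x)
    have := hE.norm x hx
    simp only [one_div, norm_inv, Complex.norm_ofNat]
    linarith
  have pm : ∀ y ∈ M, ∑ i, p i * y * p i ∈ M := fun y hy =>
    sum_mem fun i _ => mul_mem (mul_mem (pM i) hy) (pM i)
  have pn := fun y (hy : y ∈ M) => pinch hΩ pM p2 q1 q2 hy
  -- the trace of h of the pinched approximant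
  have t1 : tauh Ω h (∑ i, p i * x' * p i) ≤ 4 * η := by
    set y' := ∑ i, p i * x' * p i with hy'
    have yM : ∀ n, y' ^ n ∈ M := fun n => pow_mem (pm x' x1) n
    have fA : ∀ n, ((h.coeff n / 48 ^ n : ℝ) : ℂ) • E (y' ^ n) ∈ A :=
      fun n => A.smul_mem (hE.mem _ (yM n)) _
    have k1 := hτ (∑ n ∈ range (h.natDegree + 1), ((h.coeff n / 48 ^ n : ℝ) : ℂ) • E (y' ^ n))
      (sum_mem fun n _ => fA n) ⟨_, d1⟩ fun y => by
        rw [evsum _ _ fA, ContinuousMap.sum_apply, Complex.re_sum]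
        change dg h (yc k c) (ball S (h.natDegree + 1) y) y = _
        unfold dg
        refine sum_congr rfl fun n hn => ?_
        rw [hG.smul _ (hE.mem _ (yM n)), ContinuousMap.smul_apply, smul_eq_mul, Complex.re_ofReal_mul,
          hkp r c p (fun i => ⟨p1 i, p3 i⟩) n (h.natDegree + 1) y (mem_range.1 hn).le]
    rw [ii, dif_pos d1, k1] at d2
    refine le_trans (le_of_eq ?_) d2
    unfold tauh
    simp only [tau, ContinuousLinearMap.sum_apply, inner_sum, Complex.re_sum,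
      ContinuousLinearMap.smul_apply, inner_smul_right, Complex.re_ofReal_mul]
    refine sum_congr rfl fun n _ => ?_
    have := hE.tr _ (yM n)
    unfold tau at this
    rw [this]
  have t2 : tauh Ω h (∑ i, p i * x₀ * p i) ≤ 5 * η := by
    have k1 := hC _ (pm x₀ x₀M) _ (pm x' x1) ((pn x₀ x₀M).1.trans x₀n) ((pn x' x1).1.trans x3)
    have e : ∑ i, p i * x₀ * p i - ∑ i, p i * x' * p i = ∑ i, p i * (x₀ - x') * p i := by
      rw [← sum_sub_distrib]
      exact sum_congr rfl fun i _ => by noncomm_ring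
    rw [e] at k1
    have k2 := mul_le_mul_of_nonneg_left ((pn _ (sub_mem x₀M x1)).2.trans x5) C0.le
    rw [mul_div_cancel₀ _ C0.ne'] at k2
    linarith
  have ys : IsSelfAdjoint (∑ i, p i * x₀ * p i) := by
    rw [IsSelfAdjoint, star_sum]
    refine sum_congr rfl fun i _ => ?_
    rw [star_mul, star_mul, (p2 i).isSelfAdjoint.star_eq, x₀s.star_eq, mul_assoc]
  obtain ⟨q, qM, qp, q3, q4⟩ := big_proj hΩ (pm x₀ x₀M) ys ((pn x₀ x₀M).1.trans x₀n) hz ha
  refine ⟨p, fun i => ⟨p1 i, p2 i⟩, q1, q2, q, qM, qp,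
    hη₀ _ (sub_mem (one_mem M) qM) qp.one_sub.norm_le ?_, ?_⟩
  · have k1 : z ^ 2 * ‖(1 - q) Ω‖ ^ 2 ≤ z ^ 2 * η₀ ^ 2 := by rw [hη] at t2; linarith
    exact le_of_pow_le_pow_left₀ two_ne_zero η₀0.le (le_of_mul_le_mul_left k1 (by positivity))
  · have e : ∑ i, p i * x * p i - E x = (2 : ℂ) • ∑ i, p i * x₀ * p i := by
      have e1 : ∑ i, p i * E x * p i = E x := by
        have : ∀ i, p i * E x * p i = p i * E x := fun i => by
          rw [mul_assoc, hA.2.1 _ (hE.mem x hx) _ (p1 i), ← mul_assoc, (p2 i).isIdempotentElem.eq]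
        simp only [this]
        rw [← sum_mul, q2, one_mul]
      rw [smul_sum]
      conv_lhs => rw [← e1, ← sum_sub_distrib]
      refine sum_congr rfl fun i _ => ?_
      rw [hx₀, mul_smul_comm, smul_mul_assoc, smul_smul]
      simp [mul_sub, sub_mul]
    rw [e, mul_smul_comm, smul_mul_assoc, norm_smul]
    have : (720 : ℝ) / √r = 2 * (72 * z) := by rw [hzd]; ring
    rw [this]
    simp only [Complex.norm_ofNat]
    linarith

theorem pave (hA : IsMASA M A) (hR : IsRegular M A) (hΩ : IsTraceVector M Ω) {ε : ℝ} (hε : 0 < ε)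
    {r : ℕ} (hr : 2 ≤ r) (h : 720 ^ 2 / ε ^ 2 ≤ r) (hx : x ∈ M) (hs : IsSelfAdjoint x) :
    SoPavable M A x ε r := by
  intro F δ hδ
  obtain ⟨E, hE⟩ := exists_E hA hΩ
  have Es : IsSelfAdjoint (E x) := by
    rw [IsSelfAdjoint, ← hE.star x hx, hs.star_eq]
  have k : 720 / √(r : ℝ) ≤ ε := by
    have r0 : (0 : ℝ) < r := by exact_mod_cast (by omega : 0 < r)
    rw [div_le_iff₀ (by positivity)] at h ⊢
    refine le_of_pow_le_pow_left₀ two_ne_zero (by positivity) ?_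
    rw [mul_pow, Real.sq_sqrt r0.le]
    linarith
  obtain ⟨t, t0, x₁, x1, x2, x3, e, tn⟩ : ∃ t : ℝ, 0 ≤ t ∧ ∃ x₁ ∈ M, IsSelfAdjoint x₁ ∧ ‖x₁‖ ≤ 1 ∧
      x = (t : ℂ) • x₁ ∧ t = ‖x‖ := by
    by_cases h0 : x = 0
    · exact ⟨0, le_rfl, 0, zero_mem M, IsSelfAdjoint.zero _, by simp, by simp [h0], by simp [h0]⟩
    · have n0 : ‖x‖ ≠ 0 := norm_ne_zero_iff.2 h0
      refine ⟨‖x‖, norm_nonneg _, ((‖x‖⁻¹ : ℝ) : ℂ) • x, smul_mem_M hx _, ?_, ?_, ?_, rfl⟩
      · rw [IsSelfAdjoint, star_smul, hs.star_eq]; simp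
      · rw [norm_smul]; simp [n0]
      · rw [smul_smul, ← Complex.ofReal_mul, mul_inv_cancel₀ n0]; simp
  obtain ⟨p, p1, p2, p3, q, q1, q2, q3, q4⟩ := pave_one hA hR hΩ x1 x2 x3 hE hr F hδ
  refine ⟨p, p1, p2, p3, E x, hE.mem x hx, Es, hE.norm x hx, q, q1, q2, q3, ?_⟩
  have e2 : q * (∑ i, p i * x * p i - E x) * q = (t : ℂ) • (q * (∑ i, p i * x₁ * p i - E x₁) * q) := by
    conv_lhs => rw [e, hE.smul _ x1]
    simp only [mul_smul_comm, smul_mul_assoc, ← smul_sum, ← smul_sub]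
  rw [e2, norm_smul, ← tn, Complex.norm_real, Real.norm_of_nonneg t0, mul_comm]
  exact mul_le_mul_of_nonneg_right (q4.trans k) t0

end Vale.Agent.P078
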