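import Vale.Agent.P078.St
import Vale.Agent.P078.Bd
import Vale.Agent.P078.CE

/-!
The corner of `M` is generated by the normalizers with bounded Radon-Nikodym derivative.

PLAN. `A_le`: unitaries of `A` act trivially (`span_A`, `mem_Bd_triv`; continuous functions separate points). `piece`: if `B ∩ Fix u ≠ ∅` use
`op_mul_mem`. Otherwise shrink `B` to a nonempty clopen `B'` with `u B' ∩ B' = ∅`, apply `rn_local` to `μ = I`, `ν f = I (f (u⁻¹ • ·))`, and put
`v = u p + (u p)* + (1 - p - u p u*)`, a selfadjoint unitary normalizing `A` with `v p = u p`; compute `ev (v* a v)` (`IsGel.act'`) to get the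
action of `v`, then `mem_Bd_swap`. `corner`: `T` in the centralizer of `spanG`; for `u ∈ NG`, `p₀ u p₀ = u p_C`, `C = X₀ ∩ u⁻¹ X₀`; the clopen
`C' ⊆ C` with `u p_{C'} ∈ spanG` have dense union in `C` (`piece`), apply `IsGel.sup` with `K = ker (T u - u T)`; `T` commutes with `A`. Extend to
`spanG ⊤` by linearity and to `M` by `dens_fin`, `mem_bicomm`. `kapW`: `kaplansky` for `p₀ x p₀`, `x' = (x'' - E x'')/2` (see `kap2`);
`b = p₀ x p₀ - x''`, `(b - E b)* (b - E b)` has `E (...) = E (b* b) - (E b)* (E b) ≤ E (b* b)`; `ph_cont` for `b* b / 4`. Elements of `Bd` commute with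
`p₀` (`Bd_inv`).
-/

open Finset
open scoped Classical

namespace Vale.Agent.P078

variable {H : Type*} [NormedAddCommGroup H] [InnerProductSpace ℂ H] [CompleteSpace H]
  {M : VonNeumannAlgebra H} {A : StarSubalgebra ℂ (H →L[ℂ] H)}
  {X : Type*} [TopologicalSpace X] [CompactSpace X] [T2Space X] [TotallyDisconnectedSpace X]
  [MulAction (NG M A) X] [ContinuousConstSMul (NG M A) X] {ev : (H →L[ℂ] H) → C(X, ℂ)}
  {F : Finset H} {I : C(X, ℝ) →ₗ[ℝ] ℝ} {X₀ : Set X} {p₀ x : H →L[ℂ] H}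
  {E : (H →L[ℂ] H) →ₗ[ℂ] (H →L[ℂ] H)}

namespace Sw

theorem act_eq (h : IsGel M A ev) {v : NG M A} {y y' : X}
    (e : ∀ a ∈ A, ev (star (op v) * a * op v) y = ev a y') : v • y = y' := by
  by_contra n
  obtain ⟨C, hC, h1, h2⟩ := compact_exists_isClopen_in_isOpen (x := y') (U := {v • y}ᶜ)
    isOpen_compl_singleton (Ne.symm n)
  obtain ⟨p, hp, -, hp'⟩ := h.proj hC
  have := e p hp
  rw [h.act' v hp, hp', hp', if_pos h1, if_neg fun h4 => h2 h4 rfl] at this
  exact zero_ne_one this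

theorem op_span {G : Subgroup (NG M A)} {w : NG M A} (hw : w ∈ G) : op w ∈ spanG G :=
  mem_spanG.2 (Submodule.subset_span ⟨⟨w, hw⟩, rfl⟩)

section
variable {R : Type*} [Ring R] {U V p a : R}

theorem vv (h1 : V * U = 1) (h3 : p * p = p) (h4 : p * U * p = 0) (h5 : p * V * p = 0) :
    (U * p + p * V + (1 - p - U * p * V)) * (U * p + p * V + (1 - p - U * p * V)) = 1 := by
  have a1 : ∀ z, V * (U * z) = z := fun z => by rw [← mul_assoc, h1, one_mul]
  have a3 : ∀ z, p * (p * z) = p * z := fun z => by rw [← mul_assoc, h3]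
  have a4 : ∀ z, p * (U * (p * z)) = 0 := fun z => by rw [← mul_assoc, ← mul_assoc, h4, zero_mul]
  have a5 : ∀ z, p * (V * (p * z)) = 0 := fun z => by rw [← mul_assoc, ← mul_assoc, h5, zero_mul]
  have b4 : p * (U * p) = 0 := by rw [← mul_assoc, h4]
  have b5 : p * (V * p) = 0 := by rw [← mul_assoc, h5]
  simp only [mul_add, add_mul, mul_sub, sub_mul, mul_assoc, a1, a3, a4, a5, b4, b5, h3, mul_one, one_mul,
    mul_zero]
  abel

theorem vp (h3 : p * p = p) (h5 : p * V * p = 0) :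
    (U * p + p * V + (1 - p - U * p * V)) * p = U * p := by
  have b5 : p * (V * p) = 0 := by rw [← mul_assoc, h5]
  simp only [add_mul, sub_mul, mul_assoc, b5, h3, one_mul, mul_zero]
  abel

theorem vav (h1 : V * U = 1) (h3 : p * p = p) (h4 : p * U * p = 0) (h5 : p * V * p = 0)
    (c1 : p * a = a * p) (c2 : U * p * V * a = a * (U * p * V)) (c3 : p * (V * a * U) = V * a * U * p) :
    (U * p + p * V + (1 - p - U * p * V)) * a * (U * p + p * V + (1 - p - U * p * V)) =
      U * (a * p) * V + V * a * U * p + a * (1 - p - U * p * V) := by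
  obtain ⟨r, hr⟩ : ∃ r, r = 1 - p - U * p * V := ⟨_, rfl⟩
  have a1 : ∀ z, V * (U * z) = z := fun z => by rw [← mul_assoc, h1, one_mul]
  have a3 : ∀ z, p * (p * z) = p * z := fun z => by rw [← mul_assoc, h3]
  have a4 : ∀ z, p * (U * (p * z)) = 0 := fun z => by rw [← mul_assoc, ← mul_assoc, h4, zero_mul]
  have a5 : ∀ z, p * (V * (p * z)) = 0 := fun z => by rw [← mul_assoc, ← mul_assoc, h5, zero_mul]
  have b4 : p * (U * p) = 0 := by rw [← mul_assoc, h4]
  have b5 : p * (V * p) = 0 := by rw [← mul_assoc, h5]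
  have r0 : r * a = a * r := by rw [hr, sub_mul, sub_mul, mul_sub, mul_sub, c1, c2, one_mul, mul_one]
  have r1 : p * r = 0 := by
    simp only [hr, mul_sub, mul_assoc, a4, h3, mul_one, sub_self]
  have r2 : p * V * r = 0 := by
    simp only [hr, mul_sub, mul_assoc, a1, a3, b5, mul_one, sub_zero, sub_self]
  have r3 : r * (U * p) = 0 := by
    simp only [hr, sub_mul, mul_assoc, a1, b4, h3, one_mul, sub_zero, sub_self]
  have r4 : r * p = 0 := by
    simp only [hr, sub_mul, mul_assoc, b5, h3, one_mul, mul_zero, sub_self]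
  have r5 : r * r = r := by
    nth_rewrite 1 [hr]
    rw [sub_mul, sub_mul, r1, mul_assoc U, mul_assoc U, r2, one_mul, mul_zero, sub_zero, sub_zero]
  have t1 : U * p * a * (U * p) = 0 := by rw [mul_assoc U, c1, mul_assoc U, mul_assoc a, b4, mul_zero, mul_zero]
  have t2 : U * p * a * (p * V) = U * (a * p) * V := by
    rw [mul_assoc U p, c1, mul_assoc U, mul_assoc a, a3, mul_assoc U, mul_assoc a]
  have t3 : U * p * a * r = 0 := by rw [mul_assoc U, c1, mul_assoc U, mul_assoc a, r1, mul_zero, mul_zero]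
  have t4 : p * V * a * (U * p) = V * a * U * p := by
    rw [← mul_assoc, mul_assoc p, mul_assoc p, c3, mul_assoc _ p, h3]
  have t5 : p * V * a * (p * V) = 0 := by
    rw [← mul_assoc, mul_assoc _ a, ← c1, ← mul_assoc, h5, zero_mul, zero_mul]
  have t6 : p * V * a * r = 0 := by rw [mul_assoc, ← r0, ← mul_assoc, r2, zero_mul]
  have t7 : r * a * (U * p) = 0 := by rw [r0, mul_assoc, r3, mul_zero]
  have t8 : r * a * (p * V) = 0 := by rw [r0, mul_assoc, ← mul_assoc r, r4, zero_mul, mul_zero]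
  have t9 : r * a * r = a * r := by rw [r0, mul_assoc, r5]
  rw [← hr]
  simp only [mul_add, add_mul, t1, t2, t3, t4, t5, t6, t7, t8, t9]
  abel

end

theorem psi_le {a b : H →L[ℂ] H} (h : 0 ≤ b - a) : psi F a ≤ psi F b := by
  refine sum_le_sum fun ξ _ => ?_
  have := Vale.Agent.P070h8.re_inner_nonneg h ξ
  rw [ContinuousLinearMap.sub_apply, inner_sub_right, Complex.sub_re] at this
  linarith

end Sw

open Sw

theorem A_le (hA : IsMASA M A) (h : IsGel M A ev) (hx : x ∈ A) : x ∈ spanG (Bd (NG M A) I X₀) := by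
  refine mem_spanG.2 (Submodule.span_mono ?_ (span_A hA hx))
  rintro u ⟨u1, u2⟩
  let w : NG M A := ⟨⟨u, u2⟩, mem_norm.2 ⟨hA.1 u u1, u2, fun a ha => mul_mem (mul_mem u1 ha) (star_mem u1),
    fun a ha => mul_mem (mul_mem (star_mem u1) ha) u1⟩⟩
  refine ⟨⟨w, mem_Bd_triv fun y => act_eq h fun a ha => ?_⟩, rfl⟩
  change ev (star u * a * u) y = _
  rw [mul_assoc, hA.2.1 a ha u u1, ← mul_assoc, Unitary.star_mul_self_of_mem u2, one_mul]

theorem piece (hA : IsMASA M A) (h : IsGel M A ev) (hs : IsSt M A ev F I X₀ p₀) (u : NG M A)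
    {B : Set X} (hB : IsClopen B) (hne : B.Nonempty) (h1 : B ⊆ X₀) (h2 : ∀ y ∈ B, u • y ∈ X₀) :
    ∃ C, IsClopen C ∧ C ⊆ B ∧ C.Nonempty ∧ ∀ p ∈ A, (∀ y, ev p y = if y ∈ C then 1 else 0) →
      op u * p ∈ spanG (Bd (NG M A) I X₀) := by
  obtain ⟨y0, hy0⟩ := hne
  by_cases hf : u • y0 = y0
  · refine ⟨B ∩ {y | u • y = y}, hB.inter (h.fix' hA u), Set.inter_subset_left, ⟨y0, hy0, hf⟩,
      fun p hp e => A_le hA h (h.op_mul_mem hA u hp fun y hy => ?_)⟩
    rw [e, if_neg fun k => hy k.2]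
  obtain ⟨C0, hC0, k1, k2⟩ := compact_exists_isClopen_in_isOpen (x := y0) (U := {u • y0}ᶜ)
    isOpen_compl_singleton (Ne.symm hf)
  let φ : C(X, X) := ⟨fun y => u⁻¹ • y, continuous_const_smul _⟩
  let ν : C(X, ℝ) →ₗ[ℝ] ℝ :=
    { toFun := fun f => I (f.comp φ)
      map_add' := fun f g => by rw [← map_add]; rfl
      map_smul' := fun c f => by rw [RingHom.id_apply, ← map_smul]; rfl }
  have hν : ∀ f f' : C(X, ℝ), (∀ y, f' y = f (u⁻¹ • y)) → ν f = I f' := fun f f' e =>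
    congrArg I (ContinuousMap.ext fun y => (e y).symm)
  have hB' : IsClopen (B ∩ C0 ∩ (fun y => u • y) ⁻¹' C0ᶜ) :=
    (hB.inter hC0).inter (hC0.compl.preimage (continuous_const_smul u))
  obtain ⟨C, hC, c1, c2, D, d1, d2⟩ := rn_local (h.ed hA) (μ := I) (ν := ν) hs.pos
    (fun f hf => hs.pos _ fun y => hf _)
    (hs.nrm 1 I fun f f' e => congrArg I (ContinuousMap.ext fun y => by rw [e, one_smul]))
    (hs.nrm u⁻¹ ν hν) hB' ⟨y0, ⟨hy0, k1⟩, fun k => k2 k rfl⟩ fun C hC c1 c2 => by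
      refine ⟨hs.faith C hC (fun y hy => h1 (c1 hy).1.1) c2, ?_⟩
      have hC' : IsClopen ((fun y => u⁻¹ • y) ⁻¹' C) := hC.preimage (continuous_const_smul _)
      rw [hν _ (ind ((fun y => u⁻¹ • y) ⁻¹' C)) fun y => by rw [ind_apply hC, ind_apply hC']; rfl]
      obtain ⟨y, hy⟩ := c2
      refine hs.faith _ hC' (fun z hz => ?_) ⟨u • y, by simpa using hy⟩
      simpa using h2 _ (c1 hz).1.1
  have h3 : ∀ y ∈ C, u • y ∉ C := fun y hy k => (c1 hy).2 (c1 k).1.2
  have h3' : ∀ y ∈ C, u⁻¹ • y ∉ C := fun y hy k => h3 _ k (by simpa using hy)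
  refine ⟨C, hC, fun y hy => (c1 hy).1.1, c2, fun p hp e => ?_⟩
  have uA : ∀ a ∈ A, op u * a * star (op u) ∈ A := (mem_norm.1 (op_norm u)).2.2.1
  have uA' : ∀ a ∈ A, star (op u) * a * op u ∈ A := (mem_norm.1 (op_norm u)).2.2.2
  have eu : ∀ a ∈ A, ∀ y, ev (op u * a * star (op u)) y = ev a (u⁻¹ • y) := fun a ha y => by
    rw [← h.act u a ha, smul_inv_smul]
  have pp : p * p = p := h.ext (mul_mem hp hp) hp fun y => by
    rw [h.mul p hp p hp, ContinuousMap.mul_apply, e]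
    split_ifs <;> simp
  have ps : star p = p := h.ext (star_mem hp) hp fun y => by
    rw [h.star p hp, ContinuousMap.star_apply, e]
    split_ifs <;> simp
  have pq : p * (op u * p * star (op u)) = 0 := h.ext (mul_mem hp (uA p hp)) (zero_mem A) fun y => by
    rw [h.mul p hp _ (uA p hp), ContinuousMap.mul_apply, eu p hp, e, e, h.zero]
    by_cases k : y ∈ C
    · simp [h3' y k]
    · simp [k]
  have u1 : star (op u) * op u = 1 := Ke.op_star_mul u
  have q4 : p * op u * p = 0 := by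
    have := congrArg (· * op u) pq
    simpa only [mul_assoc, u1, mul_one, zero_mul] using this
  have q5 : p * star (op u) * p = 0 := by
    have := congrArg star q4
    simpa only [star_mul, ps, star_zero, mul_assoc] using this
  obtain ⟨v, hv⟩ : ∃ v, v = op u * p + p * star (op u) + (1 - p - op u * p * star (op u)) := ⟨_, rfl⟩
  have rA : 1 - p - op u * p * star (op u) ∈ A := sub_mem (sub_mem (one_mem A) hp) (uA p hp)
  have vs : star v = v := by
    simp only [hv, star_add, star_sub, star_mul, star_one, star_star, ps, mul_assoc]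
    abel
  have v2 : v * v = 1 := hv ▸ vv u1 pp q4 q5
  have vU : v ∈ unitary (H →L[ℂ] H) := Unitary.mem_iff.2 ⟨by rw [vs, v2], by rw [vs, v2]⟩
  have va : ∀ a ∈ A, v * a * v = op u * (a * p) * star (op u) + star (op u) * a * op u * p +
      a * (1 - p - op u * p * star (op u)) := fun a ha =>
    hv ▸ vav u1 pp q4 q5 (hA.2.1 p hp a ha) (hA.2.1 _ (uA p hp) a ha) (hA.2.1 p hp _ (uA' a ha))
  have vA : ∀ a ∈ A, v * a * v ∈ A := fun a ha =>
    va a ha ▸ add_mem (add_mem (uA _ (mul_mem ha hp)) (mul_mem (uA' a ha) hp)) (mul_mem ha rA)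
  have vM : v ∈ M := hv ▸ add_mem (add_mem (mul_mem (op_mem u) (hA.1 p hp))
    (mul_mem (hA.1 p hp) (star_mem (op_mem u)))) (hA.1 _ rA)
  let w : NG M A := ⟨⟨v, vU⟩, mem_norm.2 ⟨vM, vU, fun a ha => vs.symm ▸ vA a ha,
    fun a ha => vs.symm ▸ vA a ha⟩⟩
  have ew : ∀ a ∈ A, ∀ y, ev (star (op w) * a * op w) y =
      ev a (u⁻¹ • y) * (if u⁻¹ • y ∈ C then 1 else 0) + ev a (u • y) * (if y ∈ C then 1 else 0) +
        ev a y * (1 - (if y ∈ C then 1 else 0) - if u⁻¹ • y ∈ C then 1 else 0) := fun a ha y => by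
    change ev (star v * a * v) y = _
    rw [vs, va a ha, h.add _ (add_mem (uA _ (mul_mem ha hp)) (mul_mem (uA' a ha) hp)) _ (mul_mem ha rA),
      h.add _ (uA _ (mul_mem ha hp)) _ (mul_mem (uA' a ha) hp), h.mul _ (uA' a ha) _ hp, h.mul _ ha _ rA,
      h.sub (sub_mem (one_mem A) hp) (uA p hp), h.sub (one_mem A) hp, h.one]
    simp only [ContinuousMap.add_apply, ContinuousMap.mul_apply, ContinuousMap.sub_apply,
      ContinuousMap.one_apply]
    rw [eu _ (mul_mem ha hp), eu p hp, h.act' u ha, h.mul _ ha _ hp, ContinuousMap.mul_apply, e, e]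
  have wB : w ∈ Bd (NG M A) I X₀ := mem_Bd_swap (u := u) hC (fun y hy => h1 (c1 hy).1.1)
    (fun y hy => h2 y (c1 hy).1.1) h3
    (fun y hy => act_eq h fun a ha => by rw [ew a ha]; simp [hy, h3' y hy])
    (fun y hy => act_eq h fun a ha => by rw [ew a ha]; simp [hy, h3 y hy])
    (fun y hy hy' => act_eq h fun a ha => by rw [ew a ha]; simp [hy, hy']) d1
    fun f f' k1 k2 => by rw [← hν f f' k2, d2 f k1]
  have e2 : op w * p = op u * p := by
    change v * p = _
    rw [hv]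
    exact vp pp q5
  rw [← e2]
  exact mul_mem (op_span wB) (A_le hA h hp)

theorem Sw.corner_op (hA : IsMASA M A) (h : IsGel M A ev) (hs : IsSt M A ev F I X₀ p₀) {T : H →L[ℂ] H}
    (hT : ∀ s ∈ spanG (Bd (NG M A) I X₀), s * T = T * s) (u : NG M A) :
    T * (p₀ * op u * p₀) = p₀ * op u * p₀ * T := by
  have cA : star (op u) * p₀ * op u * p₀ ∈ A := mul_mem (Ke.cj_mem u hs.mem) hs.mem
  have hC : IsClopen (X₀ ∩ (fun y => u • y) ⁻¹' X₀) :=
    hs.clop.inter (hs.clop.preimage (continuous_const_smul u))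
  obtain ⟨p, p1, -, p2, p3⟩ := h.sup hA (𝒞 := {C | IsClopen C ∧ C ⊆ X₀ ∩ (fun y => u • y) ⁻¹' X₀ ∧
    ∀ p ∈ A, (∀ y, ev p y = if y ∈ C then 1 else 0) → op u * p ∈ spanG (Bd (NG M A) I X₀)})
    fun C hC => hC.1
  have k := p3 (LinearMap.ker (T * op u - op u * T).toLinearMap)
    (T * op u - op u * T).isClosed_ker fun C hC q hq e ξ => by
      have a1 := hT _ (hC.2.2 q hq e)
      have a2 := hT _ (A_le (I := I) (X₀ := X₀) hA h hq)
      have : (T * op u - op u * T) * q = 0 := by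
        rw [sub_mul, mul_assoc, ← a1, mul_assoc, mul_assoc, a2, sub_self]
      exact congrArg (fun S : H →L[ℂ] H => S ξ) this
  have k' : (T * op u - op u * T) * p = 0 := ContinuousLinearMap.ext k
  have e : closure (⋃₀ {C | IsClopen C ∧ C ⊆ X₀ ∩ (fun y => u • y) ⁻¹' X₀ ∧
      ∀ p ∈ A, (∀ y, ev p y = if y ∈ C then 1 else 0) → op u * p ∈ spanG (Bd (NG M A) I X₀)}) =
      X₀ ∩ (fun y => u • y) ⁻¹' X₀ := by
    refine Set.Subset.antisymm (closure_minimal (Set.sUnion_subset fun C hC => hC.2.1) hC.isClosed)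
      fun y hy => by_contra fun n => ?_
    obtain ⟨B, hB, b1, b2⟩ := compact_exists_isClopen_in_isOpen (x := y)
      (hC.isOpen.inter isClosed_closure.isOpen_compl) ⟨hy, n⟩
    obtain ⟨C, c1, c2, ⟨z, c3⟩, c4⟩ := piece hA h hs u hB ⟨y, b1⟩ (fun z hz => (b2 hz).1.1)
      fun z hz => (b2 hz).1.2
    exact (b2 (c2 c3)).2 (subset_closure ⟨C, ⟨c1, fun z hz => (b2 (c2 hz)).1, c4⟩, c3⟩)
  have e2 : p = star (op u) * p₀ * op u * p₀ := h.ext p1 cA fun y => by
    rw [p2, h.mul _ (Ke.cj_mem u hs.mem) _ hs.mem, ContinuousMap.mul_apply, h.act' u hs.mem, hs.ev0, hs.ev0]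
    simp only [e, Set.mem_inter_iff, Set.mem_preimage]
    by_cases k1 : y ∈ X₀ <;> by_cases k2 : u • y ∈ X₀ <;> simp [k1, k2]
  have e3 : p₀ * op u * p₀ = op u * p := by rw [e2, Ke.mul_op u p₀, mul_assoc]
  rw [sub_mul, sub_eq_zero] at k'
  rw [e3, ← mul_assoc, k', mul_assoc, mul_assoc, hT p (A_le hA h p1)]

theorem corner (hA : IsMASA M A) (hR : IsRegular M A) (h : IsGel M A ev) (hs : IsSt M A ev F I X₀ p₀)
    (hx : x ∈ M) : p₀ * x * p₀ ∈ Set.centralizer
      (Set.centralizer (spanG (Bd (NG M A) I X₀) : Set (H →L[ℂ] H))) := by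
  intro T hT
  have k : ∀ y ∈ spanG (⊤ : Subgroup (NG M A)), T * (p₀ * y * p₀) = p₀ * y * p₀ * T := fun y hy => by
    rw [mem_spanG] at hy
    induction hy using Submodule.span_induction with
    | mem _ h' => obtain ⟨w, rfl⟩ := h'; exact corner_op hA h hs hT _
    | zero => simp
    | add _ _ _ _ h1 h2 => simp only [mul_add, add_mul, h1, h2]
    | smul c _ _ h' => simp only [mul_smul_comm, smul_mul_assoc, h']
  ext ξ
  refine eq_of_forall_dist_le fun ε hε => ?_
  obtain ⟨y, y1, y2⟩ := dens_fin (mem_bicomm hR hx) {p₀ ξ, p₀ (T ξ)}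
    (δ := ε / (‖T * p₀‖ + ‖p₀‖ + 1)) (by positivity)
  have e : T * (p₀ * x * p₀) - p₀ * x * p₀ * T = T * p₀ * (x - y) * p₀ - p₀ * (x - y) * p₀ * T := by
    have := k y y1
    simp only [mul_sub, sub_mul, mul_assoc] at this ⊢
    rw [this]
    abel
  rw [dist_eq_norm, ← ContinuousLinearMap.sub_apply, e]
  have a1 := ((T * p₀).le_opNorm ((x - y) (p₀ ξ))).trans
    (mul_le_mul_of_nonneg_left (y2 _ (by simp)).le (norm_nonneg _))
  have a2 := (p₀.le_opNorm ((x - y) (p₀ (T ξ)))).trans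
    (mul_le_mul_of_nonneg_left (y2 _ (by simp)).le (norm_nonneg _))
  have a3 : (‖T * p₀‖ + ‖p₀‖ + 1) * (ε / (‖T * p₀‖ + ‖p₀‖ + 1)) = ε := mul_div_cancel₀ _ (by positivity)
  have a4 : 0 < ε / (‖T * p₀‖ + ‖p₀‖ + 1) := by positivity
  refine (norm_sub_le ((T * p₀) ((x - y) (p₀ ξ))) (p₀ ((x - y) (p₀ (T ξ))))).trans ?_
  linarith

theorem kapW (hA : IsMASA M A) (hR : IsRegular M A) (hE : IsNormalExp M A E) (h : IsGel M A ev)
    (hs : IsSt M A ev F I X₀ p₀) (hx : x ∈ M) (hsa : IsSelfAdjoint x) (hn : ‖x‖ ≤ 1) {η : ℝ} (hη : 0 < η) :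
    ∃ (S : Finset (Bd (NG M A) I X₀)) (l : NG M A → ℂ) (x' : H →L[ℂ] H), Gen S ∧
      x' = ∑ u ∈ S.image (fun g : Bd (NG M A) I X₀ => (g : NG M A)), l u • op u ∧
      x' ∈ M ∧ IsSelfAdjoint x' ∧ ‖x'‖ ≤ 1 ∧ E x' = 0 ∧ Commute p₀ x' ∧
        psi F (E (star ((1 / 2 : ℂ) • (p₀ * x * p₀ - E (p₀ * x * p₀)) - x') *
          ((1 / 2 : ℂ) • (p₀ * x * p₀ - E (p₀ * x * p₀)) - x'))) ≤ η := by
  have hE' := isE hA hR hE
  have pM := hA.1 _ hs.mem
  have ps := hs.proj.isSelfAdjoint.star_eq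
  have xM : p₀ * x * p₀ ∈ M := mul_mem (mul_mem pM hx) pM
  have xs : IsSelfAdjoint (p₀ * x * p₀) := by
    rw [IsSelfAdjoint, star_mul, star_mul, ps, hsa.star_eq, mul_assoc]
  have xn : ‖p₀ * x * p₀‖ ≤ 1 := (norm_mul_le _ _).trans (mul_le_one₀
    ((norm_mul_le _ _).trans (mul_le_one₀ hs.proj.norm_le (norm_nonneg _) hn)) (norm_nonneg _) hs.proj.norm_le)
  have xc := corner hA hR h hs hx
  generalize p₀ * x * p₀ = x₀ at xM xs xn xc ⊢
  obtain ⟨F', δ, d0, d1⟩ := ph_cont hE F hη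
  obtain ⟨y, y1, y2, y3, y4⟩ := kaplansky xc xs xn F' d0
  have yM := spanG_le y1
  have EA := hE.mem y yM
  have h1 : (1 / 2 : ℂ) • (y - E y) ∈ spanG (Bd (NG M A) I X₀) :=
    SMulMemClass.smul_mem _ (sub_mem y1 (A_le hA h EA))
  have cm : ∀ z ∈ spanG (Bd (NG M A) I X₀), Commute p₀ z := fun z hz => by
    rw [mem_spanG] at hz
    induction hz using Submodule.span_induction with
    | mem _ h' =>
      obtain ⟨w, rfl⟩ := h'
      have : star (op (w : NG M A)) * p₀ * op (w : NG M A) = p₀ :=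
        h.ext (Ke.cj_mem _ hs.mem) hs.mem fun y => by
          rw [h.act' _ hs.mem, hs.ev0, hs.ev0]
          simp only [Bd_inv w.2 y]
      change p₀ * op (w : NG M A) = op (w : NG M A) * p₀
      rw [Ke.mul_op, this]
    | zero => exact Commute.zero_right _
    | add _ _ _ _ h1 h2 => exact h1.add_right h2
    | smul c _ _ h' => exact h'.smul_right c
  obtain ⟨l, hl⟩ := Finsupp.mem_span_range_iff_exists_finsupp.1 (mem_spanG.1 h1)
  refine ⟨insert 1 (l.support ∪ l.support.image (·⁻¹)),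
    fun w => if hw : w ∈ Bd (NG M A) I X₀ then l ⟨w, hw⟩ else 0, _,
    ⟨mem_insert_self _ _, fun w hw => ?_⟩, ?_, spanG_le h1, ?_, ?_, ?_, cm _ h1, ?_⟩
  · simp only [mem_insert, mem_union, mem_image] at hw ⊢
    rcases hw with rfl | hw | ⟨v, hv, rfl⟩
    exacts [.inl inv_one, .inr (.inr ⟨w, hw, rfl⟩), .inr (.inl (by rwa [inv_inv]))]
  · rw [← hl, sum_image fun _ _ _ _ e => Subtype.ext e]
    refine (Finsupp.sum_of_support_subset l (subset_union_left.trans (subset_insert _ _))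
      (fun g c => c • op (g : NG M A)) fun _ _ => zero_smul _ _).trans (sum_congr rfl fun g _ => ?_)
    simp only [dif_pos g.2]
  · have := hE'.star y yM
    rw [y2.star_eq] at this
    simp [IsSelfAdjoint, y2.star_eq, ← this]
  · have := norm_sub_le y (E y)
    have := hE'.norm y yM
    rw [norm_smul]
    norm_num
    linarith
  · rw [map_smul, map_sub, hE'.self _ EA, sub_self, smul_zero]
  · have e : (1 / 2 : ℂ) • (x₀ - E x₀) - (1 / 2 : ℂ) • (y - E y) =
        (1 / 2 : ℂ) • ((x₀ - y) - E (x₀ - y)) := by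
      rw [map_sub]
      module
    have bM : x₀ - y ∈ M := sub_mem xM yM
    have bn : ‖x₀ - y‖ ≤ 2 := by linarith [norm_sub_le x₀ y]
    rw [e]
    generalize x₀ - y = b at bM bn y4
    have eA := hE.mem b bM
    have k := d1 ((1 / 4 : ℂ) • (star b * b)) (smul_mem_M (mul_mem (star_mem bM) bM) _) (by
      have := norm_mul_le (star b) b
      rw [norm_star] at this
      rw [norm_smul]
      norm_num
      nlinarith [norm_nonneg b]) fun ζ hζ => by
        have a1 := (star b).le_opNorm (b ζ)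
        have a2 := y4 ζ hζ
        rw [norm_star] at a1
        rw [ContinuousLinearMap.smul_apply, norm_smul, ContinuousLinearMap.mul_apply]
        norm_num
        nlinarith [norm_nonneg (b ζ)]
    refine le_trans (psi_le ?_) ((le_abs_self _).trans k.le)
    have e1 : star ((1 / 2 : ℂ) • (b - E b)) * ((1 / 2 : ℂ) • (b - E b)) =
        (1 / 4 : ℂ) • (star b * b - star b * E b - star (E b) * b + star (E b) * E b) := by
      rw [star_smul, smul_mul_smul_comm, star_sub, sub_mul, mul_sub, mul_sub]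
      congr 1
      · norm_num
      · abel
    have e2 : E ((1 / 4 : ℂ) • (star b * b)) - E (star ((1 / 2 : ℂ) • (b - E b)) * ((1 / 2 : ℂ) • (b - E b))) =
        star ((1 / 2 : ℂ) • E b) * ((1 / 2 : ℂ) • E b) := by
      rw [e1, map_smul, map_smul, map_add, map_sub, map_sub, hE'.right _ eA _ (star_mem bM),
        hE'.left _ (star_mem eA) _ bM, hE'.self _ (mul_mem (star_mem eA) eA), hE'.star b bM, star_smul,
        smul_mul_smul_comm, ← smul_sub]
      congr 1
      · norm_num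
      · abel
    rw [e2]
    exact star_mul_self_nonneg _

end Vale.Agent.P078
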