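import Vale.Agent.P078.CoreW
import Vale.Agent.P078.Swap

/-!
Assembly for Cartan subalgebras.
-/

open Finset Polynomial
open scoped Classical

namespace Vale.Agent.P078.W

variable {H : Type*} [NormedAddCommGroup H] [InnerProductSpace ℂ H] [CompleteSpace H]
  {M : VonNeumannAlgebra H} {A : StarSubalgebra ℂ (H →L[ℂ] H)} {x : H →L[ℂ] H}
  {E : (H →L[ℂ] H) →ₗ[ℂ] (H →L[ℂ] H)}

theorem exists_m {a b : ℝ} (ha : 0 < a) (hb : 0 < b) : ∃ m : ℕ, a * (5 / 2 ^ (2 * m)) ≤ b := by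
  obtain ⟨m, hm⟩ := exists_pow_lt_of_lt_one (show 0 < b / (5 * a) by positivity)
    (show (1 / 4 : ℝ) < 1 by norm_num)
  refine ⟨m, ?_⟩
  rw [lt_div_iff₀ (by positivity), one_div_pow] at hm
  rw [pow_mul, show (2 : ℝ) ^ 2 = 4 by norm_num]
  calc a * (5 / 4 ^ m) = 1 / 4 ^ m * (5 * a) := by ring
    _ ≤ b := hm.le

theorem parts {X : Type*} [TopologicalSpace X] [CompactSpace X] [T2Space X] [TotallyDisconnectedSpace X]
    [MulAction (NG M A) X] [ContinuousConstSMul (NG M A) X] {ev : (H →L[ℂ] H) → C(X, ℂ)}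
    (hG : IsGel M A ev) {r : ℕ} {c : X → Fin r} (hc : IsLocallyConstant c) :
    ∃ p : Fin r → H →L[ℂ] H, (∀ i, p i ∈ A) ∧ (∀ i, IsStarProjection (p i)) ∧
      (∀ i y, ev (p i) y = if c y = i then 1 else 0) ∧ (∀ i j, i ≠ j → p i * p j = 0) ∧ ∑ i, p i = 1 := by
  have hp : ∀ i : Fin r, ∃ p ∈ A, IsStarProjection p ∧ ∀ y, ev p y = if c y = i then 1 else 0 :=
    fun i => by
      obtain ⟨p, p1, p2, p3⟩ := hG.proj (C := {y | c y = i}) (hc.isClopen_fiber i)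
      exact ⟨p, p1, p2, fun y => by rw [p3]; simp⟩
  choose p p1 p2 p3 using hp
  have evsum' : ∀ s : Finset (Fin r), ev (∑ i ∈ s, p i) = ∑ i ∈ s, ev (p i) := by
    intro s
    induction s using Finset.induction_on with
    | empty => simpa using hG.smul 1 (one_mem A) 0
    | insert a s ha ih => rw [sum_insert ha, sum_insert ha, hG.add _ (p1 a) _ (sum_mem fun i _ => p1 i), ih]
  refine ⟨p, p1, p2, p3, fun i j hij => ?_, ?_⟩
  · refine hG.inj _ (mul_mem (p1 i) (p1 j)) ?_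
    rw [hG.mul _ (p1 i) _ (p1 j)]
    ext y
    simp only [ContinuousMap.mul_apply, p3, ContinuousMap.zero_apply]
    split_ifs with h1 h2
    · exact absurd (h1.symm.trans h2) hij
    all_goals simp
  · refine hG.ext (sum_mem fun i _ => p1 i) (one_mem A) fun y => ?_
    rw [evsum', hG.one]
    simp [ContinuousMap.sum_apply, p3]

theorem pave_one (hA : IsMASA M A) (hR : IsRegular M A) (hE : IsNormalExp M A E) (hx : x ∈ M)
    (hs : IsSelfAdjoint x) (hn : ‖x‖ ≤ 1) {r : ℕ} (hr : 2 ≤ r) {F : Finset H}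
    (hF : ∑ ξ ∈ F, ‖ξ‖ ^ 2 = 1) {δ : ℝ} (hδ : 0 < δ) : ∃ p : Fin r → (H →L[ℂ] H),
      (∀ i, p i ∈ A ∧ IsStarProjection (p i)) ∧ (∀ i j, i ≠ j → p i * p j = 0) ∧ ∑ i, p i = 1 ∧
        ∃ q ∈ M, IsStarProjection q ∧ (∀ ξ ∈ F, ‖(1 - q) ξ‖ < δ) ∧
          ‖q * (∑ i, p i * x * p i - E x) * q‖ ≤ 990 / √(r : ℝ) := by
  obtain ⟨X, _, _, _, _, _, _, ev, hG⟩ := exists_gel hA
  obtain ⟨I, X₀, p₀, hS⟩ := exists_st hA hG hF
  have hE' := isE hA hR hE
  obtain ⟨w, hI⟩ := exists_w (Γ := NG M A) hS.pos hS.one (hG.fix' hA) (hG.ed hA) hS.clop hS.faith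
  obtain ⟨η₀, η₀0, hη₀⟩ := ph_small hA hE hS.mem hS.proj hS.vec hS.faith' hδ
  have r0 : 0 < r := by omega
  have ht : 0 < 240 / √(r : ℝ) := by positivity
  have hθ : 0 < 15 / √(r : ℝ) := by positivity
  have en : 2 * (2 * (240 / √(r : ℝ)) + 15 / √(r : ℝ)) = 990 / √(r : ℝ) := by ring
  set θ := 15 / √(r : ℝ) with hθd
  obtain ⟨m, hm⟩ := exists_m (show 0 < 1 + 8 / θ ^ 2 by positivity) (half_pos η₀0)
  obtain ⟨S, l, x', hg, e1, x1, x2, x3, x4, x5, x6⟩ := kapW hA hR hE hG hS hx hs hn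
    (show 0 < θ ^ 2 * η₀ / 4 by positivity)
  obtain ⟨k, hk, hkp⟩ := kernel hA hE' hG (hG.fix' hA) (gen_sub hg) (l := l)
    (e1.trans (sum_congr (by ext u; simp only [mem_image]) fun _ _ => rfl)) x2 x3 x4
  haveI : ContinuousConstSMul (Bd (NG M A) I X₀) X := ⟨fun g => continuous_const_smul (g : NG M A)⟩
  obtain ⟨c, hc, d1, d2⟩ := core hI hg (ker_sub hk) hr m
  set t := 240 / √(r : ℝ) with htd
  obtain ⟨p, p1, p2, p3, q1, q2⟩ := parts hG hc
  have pM : ∀ i, p i ∈ M := fun i => hA.1 _ (p1 i)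
  have p0M : p₀ ∈ M := hA.1 _ hS.mem
  have EM : E x ∈ M := hA.1 _ (hE.mem x hx)
  have Es : IsSelfAdjoint (E x) := by
    rw [IsSelfAdjoint, ← hE'.star x hx, hs.star_eq]
  have e0 : p₀ * x * p₀ - E (p₀ * x * p₀) = p₀ * (x - E x) * p₀ := by
    rw [hE.bimod _ hS.mem _ hx _ hS.mem]
    noncomm_ring
  rw [e0] at x6
  set x₀ := (1 / 2 : ℂ) • (p₀ * (x - E x) * p₀) with hx₀
  have x₀M : x₀ ∈ M := smul_mem_M (mul_mem (mul_mem p0M (sub_mem hx EM)) p0M) _
  have x₀s : IsSelfAdjoint x₀ := by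
    rw [IsSelfAdjoint, hx₀, star_smul, star_mul, star_mul, star_sub, hs.star_eq, Es.star_eq,
      hS.proj.isSelfAdjoint.star_eq, mul_assoc]
    simp
  have x₀n : ‖x₀‖ ≤ 1 := by
    rw [hx₀, norm_smul]
    have k1 := norm_sub_le x (E x)
    have k2 := hE'.norm x hx
    have k3 := hS.proj.norm_le
    have k4 : ‖p₀ * (x - E x) * p₀‖ ≤ 1 * 2 * 1 :=
      (norm_mul_le _ _).trans (mul_le_mul ((norm_mul_le _ _).trans
        (mul_le_mul k3 (by linarith) (norm_nonneg _) zero_le_one)) k3 (norm_nonneg _) (by norm_num))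
    simp only [one_div, norm_inv, Complex.norm_ofNat]
    linarith
  have pm : ∀ y ∈ M, ∑ i, p i * y * p i ∈ M := fun y hy =>
    sum_mem fun i _ => mul_mem (mul_mem (pM i) hy) (pM i)
  have ps : ∀ y, IsSelfAdjoint y → IsSelfAdjoint (∑ i, p i * y * p i) := fun y hy => by
    rw [IsSelfAdjoint, star_sum]
    refine sum_congr rfl fun i _ => ?_
    rw [star_mul, star_mul, (p2 i).isSelfAdjoint.star_eq, hy.star_eq, mul_assoc]
  have t1 : psi F (E ((∑ i, p i * x' * p i) ^ (2 * m))) ≤ 5 * t ^ (2 * m) := by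
    have k1 := hS.val _ (hE.mem _ (pow_mem (pm x' x1) (2 * m))) ⟨_, d1⟩ fun y => by
      rw [hkp r c p (fun i => ⟨p1 i, p3 i⟩) (2 * m) (2 * m) y le_rfl, ball_sub]
      rfl
    rwa [ii, dif_pos d1, k1] at d2
  obtain ⟨n1, n2⟩ := ph_pinch (F := F) hA hE p1 p2 q1 q2 (sub_mem x₀M x1)
  have cm : Commute p₀ (∑ i, p i * x' * p i) := Commute.sum_right _ _ _ fun i _ =>
    ((show Commute p₀ (p i) from hA.2.1 _ hS.mem _ (p1 i)).mul_right x5).mul_right
      (hA.2.1 _ hS.mem _ (p1 i))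
  obtain ⟨q, qM, qp, q3, q4, q5⟩ := final_proj (F := F) hA hE hS.mem hS.proj hS.vec (pm x' x1) (ps x' x2) cm
    (pm _ (sub_mem x₀M x1)) (ps _ (x₀s.sub x2))
    (n1.trans ((norm_sub_le _ _).trans (by linarith))) ht hθ m
  refine ⟨p, fun i => ⟨p1 i, p2 i⟩, q1, q2, q, qM, qp, hη₀ _ (sub_mem (one_mem M) qM) qp.one_sub ?_, ?_⟩
  · have k1 : psi F (E ((∑ i, p i * x' * p i) ^ (2 * m))) / (2 * t) ^ (2 * m) ≤ 5 / 2 ^ (2 * m) := by
      rw [div_le_div_iff₀ (by positivity) (by positivity), mul_pow]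
      have := mul_le_mul_of_nonneg_right t1 (show (0 : ℝ) ≤ 2 ^ (2 * m) by positivity)
      linarith
    have k2 := mul_le_mul_of_nonneg_left k1 (show 0 ≤ 1 + 8 / θ ^ 2 by positivity)
    have k3 := mul_le_mul_of_nonneg_left (n2.trans x6) (show 0 ≤ 2 / θ ^ 2 by positivity)
    have k4 : 2 / θ ^ 2 * (θ ^ 2 * η₀ / 4) = η₀ / 2 := by field_simp; ring
    linarith
  · have q3' : q * p₀ = q := by
      have := congrArg star q3
      rwa [star_mul, qp.isSelfAdjoint.star_eq, hS.proj.isSelfAdjoint.star_eq] at this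
    have e2 : ∑ i, p i * E x * p i = E x := by
      have : ∀ i, p i * E x * p i = p i * E x := fun i => by
        rw [mul_assoc, hA.2.1 _ (hE.mem x hx) _ (p1 i), ← mul_assoc, (p2 i).isIdempotentElem.eq]
      simp only [this]
      rw [← sum_mul, q2, one_mul]
    have e : q * (∑ i, p i * x * p i - E x) * q =
        (2 : ℂ) • (q * (∑ i, p i * x' * p i + ∑ i, p i * (x₀ - x') * p i) * q) := by
      conv_lhs => rw [← e2, ← sum_sub_distrib]
      rw [← sum_add_distrib, mul_sum, sum_mul, mul_sum, sum_mul, smul_sum]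
      refine sum_congr rfl fun i _ => ?_
      have c1 : p i * p₀ = p₀ * p i := hA.2.1 _ (p1 i) _ hS.mem
      have c2 : p i * x' * p i + p i * (x₀ - x') * p i = p i * x₀ * p i := by noncomm_ring
      have c3 : q * (p i * (p₀ * (x - E x) * p₀) * p i) * q = q * (p i * x * p i - p i * E x * p i) * q := by
        calc q * (p i * (p₀ * (x - E x) * p₀) * p i) * q
            = q * (p i * p₀) * (x - E x) * (p₀ * p i) * q := by noncomm_ring
          _ = (q * p₀) * p i * (x - E x) * p i * (p₀ * q) := by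
            conv_lhs => rw [c1]
            conv_lhs => rw [show q * (p₀ * p i) * (x - E x) * (p₀ * p i) * q =
              q * (p₀ * p i) * (x - E x) * (p i * p₀) * q by rw [c1]]
            noncomm_ring
          _ = _ := by rw [q3, q3']; noncomm_ring
      rw [c2, hx₀, mul_smul_comm, smul_mul_assoc, mul_smul_comm, smul_mul_assoc, smul_smul, c3]
      simp
    rw [e, norm_smul, ← en]
    simp only [Complex.norm_ofNat]
    linarith

theorem pave (hA : IsMASA M A) (hR : IsRegular M A) (hE : IsNormalExp M A E) {ε : ℝ} (hε : 0 < ε)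
    {r : ℕ} (hr : 2 ≤ r) (h : 990 ^ 2 / ε ^ 2 ≤ r) (hx : x ∈ M) (hs : IsSelfAdjoint x) :
    SoPavable M A x ε r := by
  intro F δ hδ
  have hE' := isE hA hR hE
  have Es : IsSelfAdjoint (E x) := by
    rw [IsSelfAdjoint, ← hE'.star x hx, hs.star_eq]
  have k : 990 / √(r : ℝ) ≤ ε := by
    have r0 : (0 : ℝ) < r := by exact_mod_cast (by omega : 0 < r)
    rw [div_le_iff₀ (by positivity)] at h ⊢
    refine le_of_pow_le_pow_left₀ two_ne_zero (by positivity) ?_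
    rw [mul_pow, Real.sq_sqrt r0.le]
    linarith
  by_cases hF : ∑ ξ ∈ F, ‖ξ‖ ^ 2 = 0
  · have i0 : Fin r := ⟨0, by omega⟩
    refine ⟨fun i => if i = i0 then 1 else 0, fun i => ?_, fun i j hij => ?_, by simp, 0, zero_mem A,
      IsSelfAdjoint.zero _, by simp, 0, zero_mem M, IsStarProjection.zero _, fun ξ hξ => ?_, ?_⟩
    · dsimp only
      split_ifs
      exacts [⟨one_mem A, IsStarProjection.one _⟩, ⟨zero_mem A, IsStarProjection.zero _⟩]
    · dsimp only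
      split_ifs with h1 h2
      · exact absurd (h1.trans h2.symm) hij
      all_goals simp
    · have := (sum_eq_zero_iff_of_nonneg fun _ _ => by positivity).1 hF ξ hξ
      have h0 : ξ = 0 := by simpa using this
      simpa [h0] using hδ
    · simp only [zero_mul, norm_zero]
      positivity
  have s0 : 0 < ∑ ξ ∈ F, ‖ξ‖ ^ 2 := lt_of_le_of_ne (sum_nonneg fun _ _ => by positivity) (Ne.symm hF)
  set s := √(∑ ξ ∈ F, ‖ξ‖ ^ 2) with hsd
  have s1 : 0 < s := Real.sqrt_pos.2 s0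
  have sC : ((s⁻¹ : ℝ) : ℂ) ≠ 0 := by exact_mod_cast (inv_pos.2 s1).ne'
  have hF' : ∑ ξ ∈ F.image fun ξ => ((s⁻¹ : ℝ) : ℂ) • ξ, ‖ξ‖ ^ 2 = 1 := by
    rw [sum_image fun a _ b _ hab => smul_right_injective H sC hab]
    simp only [norm_smul, mul_pow, Complex.norm_real, Real.norm_eq_abs, sq_abs]
    rw [← mul_sum, inv_pow, hsd, Real.sq_sqrt s0.le, inv_mul_cancel₀ hF]
  obtain ⟨t, t0, x₁, x1, x2, x3, e, tn⟩ : ∃ t : ℝ, 0 ≤ t ∧ ∃ x₁ ∈ M, IsSelfAdjoint x₁ ∧ ‖x₁‖ ≤ 1 ∧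
      x = (t : ℂ) • x₁ ∧ t = ‖x‖ := by
    by_cases h0 : x = 0
    · exact ⟨0, le_rfl, 0, zero_mem M, IsSelfAdjoint.zero _, by simp, by simp [h0], by simp [h0]⟩
    · have n0 : ‖x‖ ≠ 0 := norm_ne_zero_iff.2 h0
      refine ⟨‖x‖, norm_nonneg _, ((‖x‖⁻¹ : ℝ) : ℂ) • x, smul_mem_M hx _, ?_, ?_, ?_, rfl⟩
      · rw [IsSelfAdjoint, star_smul, hs.star_eq]; simp
      · rw [norm_smul]; simp [n0]
      · rw [smul_smul, ← Complex.ofReal_mul, mul_inv_cancel₀ n0]; simp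
  obtain ⟨p, p1, p2, p3, q, q1, q2, q3, q4⟩ := pave_one hA hR hE x1 x2 x3 hr hF'
    (show 0 < s⁻¹ * δ by positivity)
  refine ⟨p, p1, p2, p3, E x, hE.mem x hx, Es, hE'.norm x hx, q, q1, q2, fun ξ hξ => ?_, ?_⟩
  · have := q3 _ (mem_image_of_mem _ hξ)
    rw [map_smul, norm_smul, Complex.norm_real, Real.norm_of_nonneg (inv_pos.2 s1).le] at this
    exact lt_of_mul_lt_mul_left this (inv_pos.2 s1).le
  have e2 : q * (∑ i, p i * x * p i - E x) * q = (t : ℂ) • (q * (∑ i, p i * x₁ * p i - E x₁) * q) := by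
    conv_lhs => rw [e, map_smul]
    simp only [mul_smul_comm, smul_mul_assoc, ← smul_sum, ← smul_sub]
  rw [e2, norm_smul, ← tn, Complex.norm_real, Real.norm_of_nonneg t0, mul_comm]
  exact mul_le_mul_of_nonneg_right (q4.trans k) t0

end Vale.Agent.P078.W
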