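import Vale.Agent.P078.Op
import Vale.Agent.P078.Dyn

/-!
The Gelfand picture of the MASA.

PLAN. `exists_gel`: `A` is closed (`closed_A`), so a C*-algebra (`StarSubalgebra.cstarAlgebra`), commutative; put a local
`CommCStarAlgebra` structure on it (`letI`), `X = WeakDual.characterSpace ℂ A`, `ev a = gelfandStarTransform A ⟨a, _⟩` for `a ∈ A`, 0
otherwise. `(w • χ) a = χ (w* a w)`. Positivity: `a = b* b` with `b = CFC.sqrt a ∈ A` (it commutes with the commutant; `comm_mem`,
`mem_of_comm`). Totally disconnected: two characters differ on a selfadjoint `a`; `cut` at the midpoint gives a projection of `A`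
separating them. `exists_dyn`: `I f = re (tau Ω a)` for the `a ∈ A` with `ev a = f`. Faithful: `f = g²`. For `fix w` (Frolik): among clopen
sets `C` with `C ∩ w C = ∅` build an increasing sequence `C n` with `I 1_{C (n+1)} ≥ sup {I 1_{C'} | C' ⊇ C n admissible} - 1/(n+1)`;
the projections converge strongly (`lim_mem`) to a projection of `A`, i.e. a clopen `C ⊇ C n` with `I 1_C = lim`, admissible since
`I 1_{C ∩ wC} ≤ 2 I 1_{C \ C n}`, and maximal. The complement of `C ∪ w C ∪ w⁻¹ C` is exactly the fixed point set (a non-fixed point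
there has a small admissible clopen neighbourhood that could be added to `C`).
-/

open scoped InnerProductSpace

universe u

namespace Vale.Agent.P078

variable {H : Type u} [NormedAddCommGroup H] [InnerProductSpace ℂ H] [CompleteSpace H]
  {M : VonNeumannAlgebra H} {A : StarSubalgebra ℂ (H →L[ℂ] H)} {Ω : H}

structure IsGel (M : VonNeumannAlgebra H) (A : StarSubalgebra ℂ (H →L[ℂ] H)) {X : Type*}
    [TopologicalSpace X] [MulAction (NG M A) X] (ev : (H →L[ℂ] H) → C(X, ℂ)) : Prop where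
  add : ∀ a ∈ A, ∀ b ∈ A, ev (a + b) = ev a + ev b
  mul : ∀ a ∈ A, ∀ b ∈ A, ev (a * b) = ev a * ev b
  smul : ∀ a ∈ A, ∀ c : ℂ, ev (c • a) = c • ev a
  star : ∀ a ∈ A, ev (star a) = star (ev a)
  one : ev 1 = 1
  inj : ∀ a ∈ A, ev a = 0 → a = 0
  surj : ∀ f, ∃ a ∈ A, ev a = f
  pos : ∀ a ∈ A, 0 ≤ a → ∀ x, 0 ≤ (ev a x).re
  act : ∀ (w : NG M A), ∀ a ∈ A, ∀ x, ev (op w * a * Star.star (op w)) (w • x) = ev a x

section
variable {X : Type*} [TopologicalSpace X] [MulAction (NG M A) X] {ev : (H →L[ℂ] H) → C(X, ℂ)}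
  {a b : H →L[ℂ] H}

theorem IsGel.sub (h : IsGel M A ev) (ha : a ∈ A) (hb : b ∈ A) : ev (a - b) = ev a - ev b := by
  rw [sub_eq_add_neg, ← neg_one_smul ℂ b, h.add a ha _ (A.smul_mem hb _), h.smul b hb]
  ext x
  simp [sub_eq_add_neg]

theorem IsGel.ext (h : IsGel M A ev) (ha : a ∈ A) (hb : b ∈ A) (e : ∀ x, ev a x = ev b x) : a = b :=
  sub_eq_zero.1 (h.inj _ (sub_mem ha hb) (by rw [h.sub ha hb]; ext x; simp [e x]))

theorem IsGel.zero (h : IsGel M A ev) : ev 0 = 0 := by
  simpa using h.sub (one_mem A) (one_mem A)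

theorem IsGel.idem (h : IsGel M A ev) (ha : a ∈ A) (e : a * a = a) :
    (∀ x, ev a x = 0 ∨ ev a x = 1) ∧ IsClopen {x | ev a x = 1} := by
  have k : ∀ x, ev a x = 0 ∨ ev a x = 1 := fun x => by
    have : ev a x * ev a x = ev a x := by
      conv_rhs => rw [← e, h.mul a ha a ha]
      rfl
    exact or_iff_not_imp_left.2 fun n => mul_left_cancel₀ n (by simpa using this)
  refine ⟨k, isClosed_eq (ev a).continuous continuous_const, isClosed_compl_iff.1 ?_⟩
  have : {x | ev a x = 1}ᶜ = {x | ev a x = 0} := Set.ext fun x =>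
    ⟨fun n => (k x).resolve_right n, fun (e : ev a x = 0) (e' : ev a x = 1) => zero_ne_one (e.symm.trans e')⟩
  rw [this]
  exact isClosed_eq (ev a).continuous continuous_const

theorem IsGel.td [CompactSpace X] [T2Space X] (hA : IsMASA M A) (h : IsGel M A ev) :
    TotallyDisconnectedSpace X := by
  haveI : TotallySeparatedSpace X := totallySeparatedSpace_iff_exists_isClopen.2 fun x y n => by
    obtain ⟨f, f0, f1, -⟩ := exists_continuous_zero_one_of_isClosed (isClosed_singleton (x := x))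
      (isClosed_singleton (x := y)) (Set.disjoint_singleton.2 n)
    obtain ⟨b, hb, e⟩ := h.surj ⟨fun z => ((2 * f z - 1 : ℝ) : ℂ), by fun_prop⟩
    have sa : IsSelfAdjoint b := h.ext (star_mem hb) hb fun z => by
      rw [h.star b hb, e]; simp
    obtain ⟨g, g1, g2, g3, g4⟩ := cut sa
    have gM : g ∈ M := mem_of_comm fun T hT =>
      g2 T (VonNeumannAlgebra.mem_commutant_iff.1 hT b (hA.1 b hb)).symm
        (VonNeumannAlgebra.mem_commutant_iff.1 (star_mem hT) b (hA.1 b hb)).symm
    have gA : g ∈ A := comm_mem hA gM fun a ha =>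
      (g2 a (hA.2.1 a ha b hb) (hA.2.1 _ (star_mem ha) b hb)).eq.symm
    obtain ⟨k1, k2⟩ := h.idem gA g1.isIdempotentElem.eq
    have g1A : 1 - g ∈ A := sub_mem (one_mem A) gA
    have p1 := h.pos _ (mul_mem (mul_mem g1A hb) g1A) g4 x
    have p2 := h.pos _ (sub_mem (zero_mem A) (mul_mem (mul_mem gA hb) gA)) (sub_nonneg.2 g3) y
    rw [h.mul _ (mul_mem g1A hb) _ g1A, h.mul _ g1A _ hb, h.sub (one_mem A) gA, h.one, e] at p1
    rw [h.sub (zero_mem A) (mul_mem (mul_mem gA hb) gA), h.zero, h.mul _ (mul_mem gA hb) _ gA,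
      h.mul _ gA _ hb, e] at p2
    have fx : f x = 0 := f0 rfl
    have fy : f y = 1 := f1 rfl
    refine ⟨_, k2, (k1 x).resolve_left fun z => ?_, fun (z : ev g y = 1) => ?_⟩
    · norm_num [z, fx] at p1
    · norm_num [z, fy] at p2
  infer_instance

end

/-- Conjugation by an element of the normalizer. -/
noncomputable def cj (w : NG M A) : A →⋆ₐ[ℂ] A where
  toFun a := ⟨star (op w) * a * op w, (mem_norm.1 (op_norm w)).2.2.2 a a.2⟩
  map_one' := Subtype.ext (by simpa using Unitary.star_mul_self_of_mem (op_norm w).2.1)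
  map_mul' a b := Subtype.ext (by
    have := Unitary.mul_star_self_of_mem (op_norm w).2.1
    simp only [MulMemClass.coe_mul, mul_assoc]
    rw [← mul_assoc (op w), this, one_mul])
  map_zero' := Subtype.ext (by simp)
  map_add' a b := Subtype.ext (by simp [mul_add, add_mul])
  commutes' c := Subtype.ext (by
    have := Unitary.star_mul_self_of_mem (op_norm w).2.1
    simp [Algebra.algebraMap_eq_smul_one, this])
  map_star' a := Subtype.ext (by simp [mul_assoc])

open scoped ComplexOrder in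
theorem gel_of (hA : IsMASA M A) {B : Type u} [CommCStarAlgebra B] (j : B →⋆ₐ[ℂ] (H →L[ℂ] H))
    (ji : Function.Injective j) (jA : ∀ b, j b ∈ A) (js : ∀ a ∈ A, ∃ b, j b = a) (c : NG M A → B →⋆ₐ[ℂ] B)
    (hc : ∀ w b, j (c w b) = star (op w) * j b * op w) (hs : ∀ b, spectrum ℂ b = spectrum ℂ (j b)) :
    ∃ (X : Type u) (_ : TopologicalSpace X) (_ : CompactSpace X)
    (_ : T2Space X) (_ : TotallyDisconnectedSpace X) (_ : MulAction (NG M A) X)
    (_ : ContinuousConstSMul (NG M A) X) (ev : (H →L[ℂ] H) → C(X, ℂ)), IsGel M A ev := by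
  letI : MulAction (NG M A) (WeakDual.characterSpace ℂ B) :=
    { smul := fun w χ => WeakDual.CharacterSpace.compContinuousMap (c w) χ
      one_smul := fun χ => WeakDual.CharacterSpace.ext fun a =>
        congrArg χ (ji (by simp [hc, op_one]) : c 1 a = a)
      mul_smul := fun w w' χ => WeakDual.CharacterSpace.ext fun a =>
        congrArg χ (ji (by simp [hc, op_mul, mul_assoc]) : c (w * w') a = c w' (c w a)) }
  have sm : ∀ (w : NG M A) (χ : WeakDual.characterSpace ℂ B) (a : B), (w • χ) a = χ (c w a) :=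
    fun _ _ _ => rfl
  let ev : (H →L[ℂ] H) → C(WeakDual.characterSpace ℂ B, ℂ) := fun a =>
    gelfandStarTransform B (Function.invFun j a)
  have e : ∀ b, ev (j b) = gelfandStarTransform B b := fun b =>
    congrArg (gelfandStarTransform B) (Function.leftInverse_invFun ji b)
  have g : IsGel M A ev :=
    { add := fun a ha b hb => by
        obtain ⟨a, rfl⟩ := js a ha
        obtain ⟨b, rfl⟩ := js b hb
        rw [← map_add, e, e, e, map_add]
      mul := fun a ha b hb => by
        obtain ⟨a, rfl⟩ := js a ha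
        obtain ⟨b, rfl⟩ := js b hb
        rw [← map_mul, e, e, e, map_mul]
      smul := fun a ha c => by
        obtain ⟨a, rfl⟩ := js a ha
        rw [← map_smul, e, e, map_smul]
      star := fun a ha => by
        obtain ⟨a, rfl⟩ := js a ha
        rw [← map_star, e, e, map_star]
      one := by rw [← map_one j, e, map_one]
      inj := fun a ha h => by
        obtain ⟨a, rfl⟩ := js a ha
        rw [e, ← map_zero (gelfandStarTransform B)] at h
        rw [(gelfandStarTransform B).injective h, map_zero]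
      surj := fun f => by
        obtain ⟨a, rfl⟩ := (gelfandStarTransform B).surjective f
        exact ⟨_, jA a, e a⟩
      pos := fun a ha h χ => by
        obtain ⟨a, rfl⟩ := js a ha
        rw [e]
        exact (Complex.nonneg_iff.1 (spectrum_nonneg_of_nonneg h
          (hs a ▸ WeakDual.CharacterSpace.apply_mem_spectrum χ a))).1
      act := fun w a ha χ => by
        have hu := (op_norm w).2.1
        obtain ⟨b, hb⟩ := js _ ((mem_norm.1 (op_norm w)).2.2.1 a ha)
        obtain ⟨a, rfl⟩ := js a ha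
        rw [← hb, e, e]
        refine (sm w χ b).trans (congrArg χ (ji ?_))
        rw [hc, hb, mul_assoc (op w), ← mul_assoc (star (op w)), Unitary.star_mul_self_of_mem hu, one_mul,
          mul_assoc, Unitary.star_mul_self_of_mem hu, mul_one] }
  exact ⟨_, inferInstance, inferInstance, inferInstance, g.td hA, inferInstance,
    ⟨fun w => (WeakDual.CharacterSpace.compContinuousMap (c w)).continuous⟩, ev, g⟩

theorem exists_gel (hA : IsMASA M A) : ∃ (X : Type u) (_ : TopologicalSpace X) (_ : CompactSpace X)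
    (_ : T2Space X) (_ : TotallyDisconnectedSpace X) (_ : MulAction (NG M A) X)
    (_ : ContinuousConstSMul (NG M A) X) (ev : (H →L[ℂ] H) → C(X, ℂ)), IsGel M A ev := by
  haveI := closed_A hA
  letI : CommCStarAlgebra A := { StarSubalgebra.cstarAlgebra A with
    mul_comm := fun a b => Subtype.ext (hA.2.1 a a.2 b b.2) }
  exact gel_of hA (B := A) A.subtype Subtype.val_injective (fun b => b.2) (fun a ha => ⟨⟨a, ha⟩, rfl⟩) cj
    (fun _ _ => rfl) fun b => StarSubalgebra.spectrum_eq A

variable {X : Type*} [TopologicalSpace X] [CompactSpace X] [T2Space X] [TotallyDisconnectedSpace X]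

theorem frolik (φ : X ≃ₜ X) {μ : Set X → ℝ} (m0 : ∀ C, IsClopen C → 0 ≤ μ C)
    (ma : ∀ C D, IsClopen C → IsClopen D → μ C = μ (C ∩ D) + μ (C \ D))
    (mz : ∀ C, IsClopen C → μ C = 0 → C = ∅) (mi : ∀ C, IsClopen C → μ (φ ⁻¹' C) = μ C)
    (ml : ∀ C : ℕ → Set X, (∀ n, IsClopen (C n)) → Monotone C → ∃ D, IsClopen D ∧ (∀ n, C n ⊆ D) ∧
      Filter.Tendsto (fun n => μ (C n)) Filter.atTop (nhds (μ D))) : IsClopen {x | φ x = x} := by
  have md : ∀ C D, IsClopen C → IsClopen D → C ⊆ D → μ D = μ C + μ (D \ C) := fun C D hC hD s => by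
    rw [ma D C hD hC, Set.inter_eq_self_of_subset_right s]
  have mm : ∀ C D, IsClopen C → IsClopen D → C ⊆ D → μ C ≤ μ D := fun C D hC hD s => by
    linarith [md C D hC hD s, m0 _ (hD.diff hC)]
  let ad : Set X → Prop := fun C => IsClopen C ∧ ∀ x ∈ C, φ x ∉ C
  have st : ∀ (n : ℕ) (C : {C // ad C}), ∃ C' : {C // ad C}, C.1 ⊆ C'.1 ∧
      ∀ D, ad D → C.1 ⊆ D → μ D ≤ μ C'.1 + 1 / (n + 1) := fun n C => by
    let S : Set ℝ := μ '' {D | ad D ∧ C.1 ⊆ D}
    have bd : BddAbove S := ⟨μ Set.univ, by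
      rintro _ ⟨D, hD, rfl⟩
      exact mm _ _ hD.1.1 isClopen_univ (Set.subset_univ _)⟩
    obtain ⟨_, ⟨D, hD, rfl⟩, l⟩ := exists_lt_of_lt_csSup (s := S) ⟨_, C.1, ⟨C.2, subset_rfl⟩, rfl⟩
      (sub_lt_self (sSup S) (Nat.one_div_pos_of_nat (n := n)))
    exact ⟨⟨D, hD.1⟩, hD.2, fun D' h1 h2 => by linarith [le_csSup bd ⟨D', ⟨h1, h2⟩, rfl⟩]⟩
  choose g g1 g2 using st
  let C : ℕ → {C // ad C} := fun n => n.rec ⟨∅, isClopen_empty, by simp⟩ g
  obtain ⟨D, hD, s, t⟩ := ml (fun n => (C n).1) (fun n => (C n).2.1)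
    (monotone_nat_of_le_succ fun n => g1 n (C n))
  have pre : ∀ E, IsClopen E → IsClopen (φ ⁻¹' E) := fun E hE => hE.preimage φ.continuous
  have a1 : ∀ x ∈ D, φ x ∉ D := by
    have hE := hD.inter (pre D hD)
    have k : ∀ n, μ (D ∩ φ ⁻¹' D) ≤ 2 * (μ D - μ (C n).1) := fun n => by
      have hn := hD.diff (C n).2.1
      have := ma _ _ hE hn
      have := mm _ _ (hE.inter hn) hn Set.inter_subset_right
      have := mm _ _ (hE.diff hn) (pre _ hn) fun x hx => ⟨hx.1.2, fun k =>
        (C n).2.2 x (by_contra fun l => hx.2 ⟨hx.1.1, l⟩) k⟩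
      linarith [mi _ hn, md _ _ (C n).2.1 hD (s n)]
    have : μ (D ∩ φ ⁻¹' D) ≤ 2 * (μ D - μ D) :=
      ge_of_tendsto' ((tendsto_const_nhds.sub t).const_mul 2) k
    have := mz _ hE (le_antisymm (by linarith) (m0 _ hE))
    exact fun x h1 h2 => (this.le ⟨h1, h2⟩).elim
  have a2 : ∀ E, ad E → D ⊆ E → E ⊆ D := fun E hE l => by
    have : μ E ≤ μ D + 0 := ge_of_tendsto' (tendsto_const_nhds.add tendsto_one_div_add_atTop_nhds_zero_nat)
      fun n => (g2 n (C n) E hE ((s n).trans l)).trans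
        (add_le_add_left (mm _ _ (C (n + 1)).2.1 hD (s (n + 1))) _)
    exact Set.diff_eq_empty.1 (mz _ (hE.1.diff hD) (le_antisymm (by linarith [md _ _ hD hE.1 l])
      (m0 _ (hE.1.diff hD))))
  have hU : IsClopen (D ∪ φ ⁻¹' D ∪ φ.symm ⁻¹' D)ᶜ :=
    ((hD.union (pre D hD)).union (hD.preimage φ.symm.continuous)).compl
  have : {x | φ x = x} = (D ∪ φ ⁻¹' D ∪ φ.symm ⁻¹' D)ᶜ := by
    ext x
    constructor
    · rintro (e : φ x = x) ((k | k) | k)
      · exact a1 x k (e.symm ▸ k)
      · exact a1 x (e ▸ k) k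
      · have e' : φ.symm x = x := by rw [Homeomorph.symm_apply_eq, e]
        have k' : x ∈ D := e' ▸ k
        exact a1 x k' (e.symm ▸ k')
    · intro hx
      by_contra n
      obtain ⟨U, U', hU1, hU2, xU, xU', dj⟩ := t2_separation (Ne.symm n)
      obtain ⟨V, hV, xV, sV⟩ := compact_exists_isClopen_in_isOpen
        ((hU1.inter (hU2.preimage φ.continuous)).inter hU.isOpen) ⟨⟨xU, xU'⟩, hx⟩
      refine hx (.inl (.inl (a2 (D ∪ V) ⟨hD.union hV, ?_⟩ Set.subset_union_left (.inr xV))))
      rintro y (k | k) (l | l)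
      · exact a1 y k l
      · exact (sV l).2 (.inr (by simpa using k))
      · exact (sV k).2 (.inl (.inr l))
      · exact Set.disjoint_left.1 dj (sV l).1.1 (sV k).1.2
  rwa [this]

variable [MulAction (NG M A) X] [ContinuousConstSMul (NG M A) X] {ev : (H →L[ℂ] H) → C(X, ℂ)}

/-- The projection of a clopen set. -/
theorem IsGel.proj (h : IsGel M A ev) {C : Set X} [DecidablePred (· ∈ C)] (hC : IsClopen C) :
    ∃ p ∈ A, IsStarProjection p ∧ ∀ x, ev p x = if x ∈ C then 1 else 0 := by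
  obtain ⟨p, hp, e⟩ := h.surj ⟨fun x => if x ∈ C then 1 else 0,
    continuous_const.if (by simp [hC.frontier_eq]) continuous_const⟩
  have e' : ∀ x, ev p x = if x ∈ C then 1 else 0 := fun x => by rw [e]; rfl
  refine ⟨p, hp, ⟨h.ext (mul_mem hp hp) hp fun x => ?_, h.ext (star_mem hp) hp fun x => ?_⟩, e'⟩
  · rw [h.mul p hp p hp, ContinuousMap.mul_apply, e']
    split_ifs <;> simp
  · rw [h.star p hp, ContinuousMap.star_apply, e']
    split_ifs <;> simp

theorem IsGel.act' (h : IsGel M A ev) (w : NG M A) {a : H →L[ℂ] H} (ha : a ∈ A) (x : X) :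
    ev (Star.star (op w) * a * op w) x = ev a (w • x) := by
  have := h.act w⁻¹ a ha (w • x)
  rwa [inv_smul_smul, op_inv, star_star] at this

theorem tau_conj (hΩ : IsTraceVector M Ω) (w : NG M A) {a : H →L[ℂ] H} (ha : a ∈ M) :
    tau Ω (star (op w) * a * op w) = tau Ω a := by
  rw [tau_comm hΩ (mul_mem (star_mem (op_mem w)) ha) (op_mem w), ← mul_assoc,
    Unitary.mul_star_self_of_mem (op_norm w).2.1, one_mul]

theorem IsGel.fix (hA : IsMASA M A) (hΩ : IsTraceVector M Ω) (h : IsGel M A ev) (w : NG M A) :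
    IsClopen {x : X | w • x = x} := by
  classical
  choose! P P1 P2 P3 using fun (C : Set X) (hC : IsClopen C) => h.proj hC
  have sq : ∀ C, IsClopen C → (tau Ω (P C)).re = ‖P C Ω‖ ^ 2 := fun C hC => by
    rw [← re_tau, (P2 C hC).isSelfAdjoint.star_eq, (P2 C hC).isIdempotentElem.eq]
  have ad : ∀ C D, IsClopen C → IsClopen D → P C = P (C ∩ D) + P (C \ D) := fun C D hC hD =>
    h.ext (P1 C hC) (add_mem (P1 _ (hC.inter hD)) (P1 _ (hC.diff hD))) fun x => by
      rw [h.add _ (P1 _ (hC.inter hD)) _ (P1 _ (hC.diff hD)), ContinuousMap.add_apply, P3 C hC,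
        P3 _ (hC.inter hD), P3 _ (hC.diff hD)]
      by_cases x ∈ C <;> by_cases x ∈ D <;> simp [*]
  refine frolik (Homeomorph.smul w) (μ := fun C => (tau Ω (P C)).re)
    (fun C hC => by rw [sq C hC]; positivity)
    (fun C D hC hD => by rw [← Complex.add_re, ← tau_add, ← ad C D hC hD]) (fun C hC z => ?_)
    (fun C hC => ?_) fun C hC mo => ?_
  · rw [sq C hC, pow_eq_zero_iff two_ne_zero, norm_eq_zero] at z
    have := hΩ.2.2 _ (hA.1 _ (P1 C hC)) z
    refine Set.eq_empty_of_forall_notMem fun x hx => ?_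
    have k := P3 C hC x
    rw [this, h.zero] at k
    simp [hx] at k
  · have hC' : IsClopen (Homeomorph.smul w ⁻¹' C) := hC.preimage (Homeomorph.smul w).continuous
    rw [← tau_conj hΩ w (hA.1 _ (P1 C hC)), h.ext (P1 _ hC') ((mem_norm.1 (op_norm w)).2.2.2 _ (P1 C hC))
      fun x => by rw [h.act' w (P1 C hC), P3 _ hC', P3 C hC]; rfl]
  · have d : ∀ n k, n ≤ k → P (C k) = P (C n) + P (C k \ C n) := fun n k l => by
      rw [ad _ _ (hC k) (hC n), Set.inter_eq_self_of_subset_right (mo l)]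
    have d2 : ∀ n k, n ≤ k → ‖P (C k) Ω - P (C n) Ω‖ ^ 2 = (tau Ω (P (C k))).re - (tau Ω (P (C n))).re :=
      fun n k l => by
        rw [d n k l, tau_add, Complex.add_re, sq _ ((hC k).diff (hC n))]
        simp
    have cv : CauchySeq fun n => (tau Ω (P (C n))).re :=
      (tendsto_atTop_ciSup (monotone_nat_of_le_succ fun n => by
        linarith [d2 n (n + 1) n.le_succ, sq_nonneg ‖P (C (n + 1)) Ω - P (C n) Ω‖]) ⟨1, by
          rintro _ ⟨n, rfl⟩
          have := (P (C n)).le_opNorm Ω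
          have := (P2 _ (hC n)).norm_le
          rw [hΩ.1] at *
          show (tau Ω (P (C n))).re ≤ 1
          rw [sq _ (hC n)]
          nlinarith [norm_nonneg (P (C n) Ω)]⟩).cauchySeq
    obtain ⟨m, hm, t⟩ := lim_mem hΩ (fun n => hA.1 _ (P1 _ (hC n))) (fun n => (P2 _ (hC n)).norm_le)
      (Metric.cauchySeq_iff'.2 fun ε hε => (Metric.cauchySeq_iff'.1 cv _ (pow_pos hε 2)).imp fun N k n l => by
        have := k n l
        rw [Real.dist_eq, ← d2 N n l] at this
        rw [dist_eq_norm]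
        exact lt_of_pow_lt_pow_left₀ 2 hε.le ((le_abs_self _).trans_lt this))
    have mA : m ∈ A := comm_mem hA hm fun a ha => ContinuousLinearMap.ext fun ξ =>
      tendsto_nhds_unique (t (a ξ)) (((a.continuous.tendsto _).comp (t ξ)).congr fun n =>
        congrArg (fun S : H →L[ℂ] H => S ξ) (hA.2.1 a ha _ (P1 _ (hC n))))
    have pm : ∀ n, P (C n) * m = P (C n) := fun n => ContinuousLinearMap.ext fun ξ =>
      tendsto_nhds_unique (((P (C n)).continuous.tendsto _).comp (t ξ)) (tendsto_const_nhds.congr'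
        ((Filter.eventually_ge_atTop n).mono fun k l => congrArg (fun S : H →L[ℂ] H => S ξ)
          (h.ext (P1 _ (hC n)) (mul_mem (P1 _ (hC n)) (P1 _ (hC k))) fun x => by
            rw [h.mul _ (P1 _ (hC n)) _ (P1 _ (hC k)), ContinuousMap.mul_apply, P3 _ (hC n), P3 _ (hC k)]
            by_cases hx : x ∈ C n
            · simp [hx, mo l hx]
            · simp [hx])))
    have mm : m * m = m := ContinuousLinearMap.ext fun ξ =>
      tendsto_nhds_unique (t (m ξ)) ((t ξ).congr fun n => (congrArg (fun S : H →L[ℂ] H => S ξ) (pm n)).symm)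
    obtain ⟨k1, k2⟩ := h.idem mA mm
    have e : P {x | ev m x = 1} = m := h.ext (P1 _ k2) mA fun x => by
      rw [P3 _ k2]
      rcases k1 x with k | k <;> simp [k]
    refine ⟨_, k2, fun n x hx => ?_, ?_⟩
    · have := congrArg (fun a => ev a x) (pm n)
      simp only [h.mul _ (P1 _ (hC n)) _ mA, ContinuousMap.mul_apply, P3 _ (hC n), hx, if_true, one_mul] at this
      exact this
    · rw [e]
      exact (Complex.continuous_re.tendsto _).comp (tendsto_const_nhds.inner (t Ω))

theorem exists_dyn (hA : IsMASA M A) (hΩ : IsTraceVector M Ω) (h : IsGel M A ev) :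
    ∃ I : C(X, ℝ) →ₗ[ℝ] ℝ, IsDyn (NG M A) I ∧
      ∀ a ∈ A, ∀ f : C(X, ℝ), (∀ x, f x = (ev a x).re) → I f = (tau Ω a).re := by
  choose L L1 L2 using fun f : C(X, ℝ) => h.surj ⟨fun x => (f x : ℂ), by fun_prop⟩
  have L3 : ∀ f x, ev (L f) x = f x := fun f x => by rw [L2]; rfl
  have key : ∀ a ∈ A, ∀ f : C(X, ℝ), (∀ x, f x = (ev a x).re) → (tau Ω (L f)).re = (tau Ω a).re :=
    fun a ha f e => by
      have : L f + L f = a + star a := h.ext (add_mem (L1 f) (L1 f)) (add_mem ha (star_mem ha)) fun x => by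
        rw [h.add _ (L1 f) _ (L1 f), h.add _ ha _ (star_mem ha), h.star a ha]
        simp only [ContinuousMap.add_apply, ContinuousMap.star_apply, L3, e]
        apply Complex.ext <;> simp
      have := congrArg (fun b => (tau Ω b).re) this
      simp only [tau_add, tau_star, Complex.add_re, Complex.conj_re] at this
      linarith
  refine ⟨⟨⟨fun f => (tau Ω (L f)).re, fun f g => ?_⟩, fun c f => ?_⟩, ⟨fun f hf => ?_, ?_, fun w f g e => ?_,
    h.fix hA hΩ⟩, key⟩
  · rw [key _ (add_mem (L1 f) (L1 g)) _ fun x => by rw [h.add _ (L1 f) _ (L1 g)]; simp [L3], tau_add,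
      Complex.add_re]
  · refine (key _ (A.smul_mem (L1 f) (c : ℂ)) (c • f) fun x => by rw [h.smul _ (L1 f)]; simp [L3]).trans ?_
    rw [tau_smul]
    simp
  · let g : C(X, ℝ) := ⟨fun x => √(f x), by fun_prop⟩
    refine le_of_le_of_eq ?_ (key _ (mul_mem (star_mem (L1 g)) (L1 g)) f fun x => ?_).symm
    · rw [re_tau]; positivity
    · rw [h.mul _ (star_mem (L1 g)) _ (L1 g), h.star _ (L1 g)]
      simp [L3, g, Real.mul_self_sqrt (hf x)]
  · refine (key _ (one_mem A) 1 fun x => by simp [h.one]).trans ?_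
    have := re_tau (Ω := Ω) 1
    simpa [hΩ.1] using this
  · refine (key _ ((mem_norm.1 (op_norm w)).2.2.2 _ (L1 f)) g fun x => ?_).trans ?_
    · rw [h.act' w (L1 f), L3, e]; rfl
    · rw [tau_conj hΩ w (hA.1 _ (L1 f))]; rfl

end Vale.Agent.P078
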