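import Vale.Agent.P078.Poly

/-!
Partial fractions with nonnegative residues and the univariate barrier lemma.

PLAN. `real_of_ne`: the map to `ℂ` splits; a non-real root gives (conjugation) a root in the upper half plane.
`pf`: strong induction on the degree of `A`. If `A` has a root `α` with `B(α) = 0`, cancel `X - C α` in both (the
residue function of the smaller pair works, extend by 0). Otherwise all roots are simple (if `A = (X-α)^n A₁`, `n ≥ 2`,
`B(α) ≠ 0`, then along `ζ = α + ε e^{iθ}`, `ε^n B/A → κ e^{-inθ}`, `κ ≠ 0` real, choose `θ ∈ (0,π)` with positive imaginary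
part), Lagrange interpolation gives `B = Σ m α * A/(X-α)`, `m α = B(α)/A₁(α)`, and `iε B/A (α + iε) → m α` gives `m α ≥ 0`.
`ub`: normalise `f` monic; `g = a f + B` with `a` real, `Herg f B`; with `m` from `pf`, `b = Σ m`, `u = t - roots`:
`g/f (t) = a + Σ m/(t-α) ≥ a + b/u_max`; `f^(r-1)(s) = (r-1)! lead (r s - Σ roots)`, `B^(r-1) = (r-1)! b` (times lead);
`Σ u - r δ ≥ u_max` because `Σ_{others} u ≥ (r-1)²/Σ_{others} (1/u) ≥ (r-1)²/φ` (`f'/f (t) = Σ 1/u`).
-/

open Finset Polynomial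
open scoped Classical

namespace Vale.Agent.P078

theorem aeval_conj' (A : ℝ[X]) (ζ : ℂ) : aeval ((starRingEnd ℂ) ζ) A = (starRingEnd ℂ) (aeval ζ A) := by
  induction A using Polynomial.induction_on' with
  | add p q hp hq => simp [hp, hq]
  | monomial n a => simp [aeval_monomial]

theorem aeval_re (A : ℝ[X]) (s : ℝ) : aeval (s : ℂ) A = ((A.eval s : ℝ) : ℂ) := by
  have := aeval_algebraMap_apply ℂ s A
  simpa using this

theorem real_of_ne {A : ℝ[X]} (h : ∀ ζ : ℂ, 0 < ζ.im → aeval ζ A ≠ 0) :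
    A.roots.card = A.natDegree := by
  rw [← splits_iff_card_roots]
  refine Splits.of_splits_map (algebraMap ℝ ℂ) (IsAlgClosed.splits _) fun a ha => ?_
  have h0 : aeval a A = 0 := by
    have := (mem_roots'.1 ha).2
    rwa [IsRoot, eval_map_algebraMap] at this
  rcases lt_trichotomy a.im 0 with h1 | h1 | h1
  · refine absurd ?_ (h ((starRingEnd ℂ) a) (by simpa using h1))
    rw [aeval_conj', h0, map_zero]
  · exact ⟨a.re, Complex.ext (by simp) (by simp [h1])⟩
  · exact absurd h0 (h a h1)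

theorem ne_of_real {A : ℝ[X]} (h0 : A ≠ 0) (hr : A.roots.card = A.natDegree) {ζ : ℂ} (hζ : 0 < ζ.im) :
    aeval ζ A ≠ 0 := by
  intro h1
  have h2 := (splits_iff_card_roots.2 hr).mem_range_of_isRoot (i := algebraMap ℝ ℂ) (x := ζ) h0
    (by rwa [IsRoot, eval_map_algebraMap])
  obtain ⟨s, rfl⟩ := h2
  simp at hζ

theorem Herg.ne {A B : ℝ[X]} (h : Herg A B) {ζ : ℂ} (hζ : 0 < ζ.im) : aeval ζ A ≠ 0 :=
  ne_of_real h.monic.ne_zero h.real hζ

/-- The numerator with residues `m`. -/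
noncomputable def Bm (A : ℝ[X]) (m : ℝ → ℝ) : ℝ[X] :=
  ∑ α ∈ A.roots.toFinset, C (m α) * (A /ₘ (X - C α))

theorem mul_div_root {A : ℝ[X]} {α : ℝ} (h : α ∈ A.roots.toFinset) :
    (X - C α) * (A /ₘ (X - C α)) = A :=
  mul_divByMonic_eq_iff_isRoot.2 (mem_roots'.1 (Multiset.mem_toFinset.1 h)).2

theorem Bm_div {A : ℝ[X]} (_hA : A.Monic) (m : ℝ → ℝ) {ζ : ℂ} (hζ : aeval ζ A ≠ 0) :
    aeval ζ (Bm A m) / aeval ζ A = ∑ α ∈ A.roots.toFinset, (m α : ℂ) / (ζ - α) := by
  rw [Bm, map_sum, sum_div]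
  refine sum_congr rfl fun α hα => ?_
  have e := congrArg (aeval ζ) (mul_div_root hα)
  simp only [map_mul, map_sub, aeval_X, aeval_C, Complex.coe_algebraMap] at e ⊢
  have h1 : ζ - α ≠ 0 := fun h => hζ (by rw [← e, h, zero_mul])
  rw [div_eq_div_iff hζ h1, ← e]
  ring

theorem Bm_div_real {A : ℝ[X]} (hA : A.Monic) (m : ℝ → ℝ) {s : ℝ} (hs : A.eval s ≠ 0) :
    (Bm A m).eval s / A.eval s = ∑ α ∈ A.roots.toFinset, m α / (s - α) := by
  have := Bm_div hA m (ζ := s) (by rw [aeval_re]; exact_mod_cast hs)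
  rw [aeval_re, aeval_re] at this
  exact_mod_cast this

theorem Bm_deg {A : ℝ[X]} (hA : A.Monic) (m : ℝ → ℝ) : (Bm A m).degree < A.degree := by
  refine (degree_sum_le _ _).trans_lt ((Finset.sup_lt_iff (bot_lt_iff_ne_bot.2
    (degree_ne_bot.2 hA.ne_zero))).2 fun α _ => ?_)
  rw [← smul_eq_C_mul]
  refine (degree_smul_le _ _).trans_lt ?_
  exact degree_divByMonic_lt _ _ hA.ne_zero (by rw [degree_X_sub_C]; exact zero_lt_one)

theorem herg_Bm {A : ℝ[X]} (hA : A.Monic) (hr : A.roots.card = A.natDegree) {m : ℝ → ℝ}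
    (hm : ∀ α, 0 ≤ m α) : Herg A (Bm A m) := by
  refine ⟨hA, hr, Bm_deg hA m, fun ζ hζ => ?_⟩
  rw [Bm_div hA m (ne_of_real hA.ne_zero hr hζ), Complex.im_sum]
  refine sum_nonpos fun α _ => ?_
  rw [Complex.div_im]
  simp only [Complex.ofReal_im, zero_mul, zero_div, Complex.ofReal_re, Complex.sub_im, sub_zero,
    zero_sub, neg_nonpos]
  exact div_nonneg (mul_nonneg (hm α) hζ.le) (Complex.normSq_nonneg _)

/-- The behaviour at a pole. -/
theorem pole {A B A₁ : ℝ[X]} (h : Herg A B) {α : ℝ} {ν : ℕ} (e : A = (X - C α) ^ ν * A₁)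
    (h1 : A₁.eval α ≠ 0) {u : ℂ} (hu : 0 < u.im) :
    (((B.eval α / A₁.eval α : ℝ) : ℂ) / u ^ ν).im ≤ 0 := by
  have u0 : u ≠ 0 := fun h => by simp [h] at hu
  have c1 : ContinuousAt (fun ε : ℝ => (aeval ((α : ℂ) + ε * u) B / aeval ((α : ℂ) + ε * u) A₁ / u ^ ν).im) 0 := by
    refine Complex.continuous_im.continuousAt.comp (ContinuousAt.div_const (ContinuousAt.div ?_ ?_ ?_) _)
    · exact ((B.continuous_aeval).comp (by fun_prop)).continuousAt
    · exact ((A₁.continuous_aeval).comp (by fun_prop)).continuousAt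
    · simp only [Complex.ofReal_zero, zero_mul, add_zero, aeval_re]
      exact_mod_cast h1
  have c2 := (c1.tendsto.mono_left (nhdsWithin_le_nhds (s := Set.Ioi 0)))
  simp only [Complex.ofReal_zero, zero_mul, add_zero, aeval_re] at c2
  push_cast
  refine le_of_tendsto c2 (eventually_nhdsWithin_of_forall fun ε (hε : 0 < ε) => ?_)
  have k := h.im (α + ε * u) (by simpa using mul_pos hε hu)
  have k0 := h.ne (ζ := α + ε * u) (by simpa using mul_pos hε hu)
  rw [e] at k k0
  simp only [map_mul, map_pow, map_sub, aeval_X, aeval_C, Complex.coe_algebraMap,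
    add_sub_cancel_left] at k k0
  have e0 : (ε : ℂ) ≠ 0 := by exact_mod_cast hε.ne'
  have k1 : aeval ((α : ℂ) + ε * u) B / aeval ((α : ℂ) + ε * u) A₁ / u ^ ν =
      ((ε ^ ν : ℝ) : ℂ) * (aeval ((α : ℂ) + ε * u) B / ((ε * u) ^ ν * aeval ((α : ℂ) + ε * u) A₁)) := by
    have := right_ne_zero_of_mul k0
    push_cast
    rw [mul_pow]
    field_simp
  rw [k1, Complex.im_ofReal_mul]
  exact mul_nonpos_of_nonneg_of_nonpos (by positivity) k

theorem pole2 {κ : ℝ} {ν : ℕ} (hν : 0 < ν) (h : ∀ u : ℂ, 0 < u.im → ((κ : ℂ) / u ^ ν).im ≤ 0) :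
    0 ≤ κ ∧ (2 ≤ ν → κ ≤ 0) := by
  have n0 : (0 : ℝ) < ν := by exact_mod_cast hν
  have n1 : (1 : ℝ) ≤ ν := by exact_mod_cast hν
  have key : ∀ θ : ℝ, 0 < θ → θ < Real.pi * ν → 0 ≤ κ * Real.sin θ := by
    intro θ h0 h1
    have k := h (Complex.exp ((θ / ν : ℝ) * Complex.I)) (by
      rw [Complex.exp_ofReal_mul_I_im]
      exact Real.sin_pos_of_pos_of_lt_pi (by positivity) (by rwa [div_lt_iff₀ n0]))
    have e : (κ : ℂ) / Complex.exp ((θ / ν : ℝ) * Complex.I) ^ ν =
        κ * Complex.exp ((-θ : ℝ) * Complex.I) := by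
      rw [← Complex.exp_nat_mul, div_eq_mul_inv, ← Complex.exp_neg]
      have : (ν : ℂ) ≠ 0 := by exact_mod_cast hν.ne'
      congr 2
      push_cast
      field_simp
    rw [e, Complex.im_ofReal_mul, Complex.exp_ofReal_mul_I_im, Real.sin_neg] at k
    linarith
  have pi0 := Real.pi_pos
  refine ⟨?_, fun h2 => ?_⟩
  · have := key (Real.pi / 2) (by positivity) (by nlinarith)
    simpa using this
  · have n2 : (2 : ℝ) ≤ ν := by exact_mod_cast h2
    have := key (Real.pi / 2 + Real.pi) (by positivity) (by nlinarith)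
    rw [Real.sin_add_pi] at this
    simpa using this

theorem pf_simple {A B : ℝ[X]} (h : Herg A B) (hB : ∀ α ∈ A.roots, B.eval α ≠ 0) :
    ∃ m : ℝ → ℝ, (∀ α, 0 ≤ m α) ∧ B = Bm A m := by
  have A0 := h.monic.ne_zero
  have key : ∀ α ∈ A.roots, A.rootMultiplicity α = 1 ∧ (A /ₘ (X - C α)).eval α ≠ 0 ∧
      0 ≤ B.eval α / (A /ₘ (X - C α)).eval α := by
    intro α hα
    obtain ⟨A₁, e, h1⟩ := exists_eq_pow_rootMultiplicity_mul_and_not_dvd A A0 α
    rw [dvd_iff_isRoot] at h1
    have n0 : 0 < A.rootMultiplicity α := (rootMultiplicity_pos A0).2 (mem_roots'.1 hα).2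
    obtain ⟨k1, k2⟩ := pole2 n0 fun u hu => pole h e h1 hu
    have k3 : B.eval α / A₁.eval α ≠ 0 := div_ne_zero (hB α hα) h1
    have n1 : A.rootMultiplicity α = 1 := by
      by_contra hc
      exact k3 (le_antisymm (k2 (by omega)) k1)
    rw [n1, pow_one] at e
    have e2 : A /ₘ (X - C α) = A₁ := by
      conv_lhs => rw [e]
      exact mul_divByMonic_cancel_left _ (monic_X_sub_C α)
    rw [e2]
    exact ⟨n1, h1, k1⟩
  have nd : A.roots.Nodup := by
    rw [Multiset.nodup_iff_count_le_one]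
    intro α
    by_cases hα : α ∈ A.roots
    · rw [count_roots, (key α hα).1]
    · rw [Multiset.count_eq_zero_of_notMem hα]
      exact zero_le_one
  refine ⟨fun α => max (B.eval α / (A /ₘ (X - C α)).eval α) 0, fun α => le_max_right _ _, ?_⟩
  refine eq_of_degree_sub_lt_of_eval_finset_eq A.roots.toFinset ?_ fun β hβ => ?_
  · rw [Multiset.toFinset_card_of_nodup nd, h.real, ← degree_eq_natDegree A0]
    exact (degree_sub_le _ _).trans_lt (max_lt h.deg (Bm_deg h.monic _))
  · have hβ' := Multiset.mem_toFinset.1 hβ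
    rw [Bm, eval_finsetSum, sum_eq_single_of_mem β hβ]
    · rw [eval_mul, eval_C, max_eq_left (key β hβ').2.2, div_mul_cancel₀ _ (key β hβ').2.1]
    · intro α hα hne
      have e := congrArg (eval β) (mul_div_root hα)
      rw [eval_mul, (mem_roots'.1 hβ').2.eq_zero] at e
      rw [eval_mul, (mul_eq_zero.1 e).resolve_left (by simpa [sub_eq_zero] using hne.symm), mul_zero]

theorem pf {A B : ℝ[X]} (h : Herg A B) : ∃ m : ℝ → ℝ, (∀ α, 0 ≤ m α) ∧ B = Bm A m := by
  generalize hn : A.natDegree = n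
  induction n generalizing A B with
  | zero =>
    refine pf_simple h fun α hα => ?_
    have := h.real
    rw [hn, Multiset.card_eq_zero] at this
    simp [this] at hα
  | succ n ih =>
    by_cases hB : ∀ α ∈ A.roots, B.eval α ≠ 0
    · exact pf_simple h hB
    push Not at hB
    obtain ⟨α, hα, hB⟩ := hB
    obtain ⟨A', rfl⟩ := dvd_iff_isRoot.2 (mem_roots'.1 hα).2
    obtain ⟨B', rfl⟩ := dvd_iff_isRoot.2 hB
    have x0 := X_sub_C_ne_zero α
    have mA : A'.Monic := (monic_X_sub_C α).of_mul_monic_left h.monic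
    have A0 := h.monic.ne_zero
    have e1 : ((X - C α) * A').roots = α ::ₘ A'.roots := by
      rw [roots_mul A0, roots_X_sub_C, Multiset.singleton_add]
    have e2 : ((X - C α) * A').natDegree = A'.natDegree + 1 := by
      rw [natDegree_mul x0 mA.ne_zero, natDegree_X_sub_C, add_comm]
    have h' : Herg A' B' := by
      refine ⟨mA, ?_, ?_, fun ζ hζ => ?_⟩
      · have := h.real
        rw [e1, e2, Multiset.card_cons] at this
        omega
      · have := h.deg
        rw [degree_mul, degree_mul] at this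
        exact (WithBot.add_lt_add_iff_left (degree_ne_bot.2 x0)).1 this
      · have := h.im ζ hζ
        have k := h.ne hζ
        rw [map_mul] at k
        rwa [map_mul, map_mul, mul_div_mul_left _ _ (left_ne_zero_of_mul k)] at this
    obtain ⟨m, hm, e⟩ := ih h' (by omega)
    refine ⟨fun β => if β ∈ A'.roots.toFinset then m β else 0, fun β => by dsimp only; split_ifs <;> simp [hm], ?_⟩
    have sub : A'.roots.toFinset ⊆ ((X - C α) * A').roots.toFinset := by
      rw [e1, Multiset.toFinset_cons]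
      exact subset_insert _ _
    rw [e, Bm, Bm, mul_sum, ← sum_subset sub fun β _ hβ => by simp only [hβ, if_false, map_zero, zero_mul]]
    refine sum_congr rfl fun β hβ => ?_
    simp only [hβ, if_true]
    refine mul_left_cancel₀ (X_sub_C_ne_zero β) ?_
    rw [mul_left_comm (X - C β) (C (m β)), mul_div_root (sub hβ)]
    conv_rhs => rw [← mul_div_root hβ]
    ring

theorem iter_eval {p : ℝ[X]} {n : ℕ} (hp : p.natDegree ≤ n + 1) (s : ℝ) :
    (derivative^[n] p).eval s = n.factorial * ((n + 1) * p.coeff (n + 1) * s + p.coeff n) := by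
  have h1 : (derivative^[n] p).natDegree ≤ 1 := (natDegree_iterate_derivative p n).trans (by omega)
  rw [eq_X_add_C_of_natDegree_le_one h1, coeff_iterate_derivative, coeff_iterate_derivative]
  have e : (1 + n).descFactorial n = (n + 1) * n.factorial := by
    have := Nat.descFactorial_succ (n + 1) n
    rw [Nat.descFactorial_self, Nat.factorial_succ] at this
    rw [add_comm 1 n, this]
    simp
  rw [e, zero_add, Nat.descFactorial_self, add_comm 1 n]
  simp only [nsmul_eq_mul, eval_add, eval_mul, eval_C, eval_X]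
  push_cast
  ring

theorem hm_am (S : Multiset ℝ) {t l : ℝ} (hS : ∀ α ∈ S, α < t) (hl : 0 < l) :
    2 * (S.card : ℝ) ≤ (S.card * t - S.sum) / l + l * (S.map fun z => 1 / (t - z)).sum := by
  induction S using Multiset.induction_on with
  | empty => simp
  | cons a S ih =>
    have k := ih fun α hα => hS α (Multiset.mem_cons_of_mem hα)
    have u0 : 0 < t - a := sub_pos.2 (hS a (Multiset.mem_cons_self _ _))
    have k2 : 2 ≤ (t - a) / l + l * (1 / (t - a)) := by
      rw [mul_one_div, div_add_div _ _ hl.ne' u0.ne', le_div_iff₀ (by positivity)]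
      nlinarith [sq_nonneg (t - a - l)]
    simp only [Multiset.card_cons, Multiset.sum_cons, Multiset.map_cons]
    push_cast
    have : ((S.card + 1 : ℝ) * t - (a + S.sum)) / l = (S.card * t - S.sum) / l + (t - a) / l := by ring
    rw [this]
    linarith

theorem gap {S : Multiset ℝ} {n : ℕ} (hn : 0 < n) (hc : S.card = n + 1) {t φ δ : ℝ}
    (hS : ∀ α ∈ S, α < t) (hφ : (S.map fun z => 1 / (t - z)).sum ≤ φ)
    (hδ : δ * ((n + 1) * φ) ≤ (n : ℝ) ^ 2) {α : ℝ} (hα : α ∈ S) :
    t - α ≤ (n + 1) * (t - δ) - S.sum := by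
  obtain ⟨S', rfl⟩ := Multiset.exists_cons_of_mem hα
  have c' : S'.card = n := by simpa using hc
  have n0 : (0 : ℝ) < n := by exact_mod_cast hn
  have u0 : 0 < 1 / (t - α) := one_div_pos.2 (sub_pos.2 (hS α hα))
  have hS' : ∀ β ∈ S', β < t := fun β hβ => hS β (Multiset.mem_cons_of_mem hβ)
  have q0 : 0 ≤ (S'.map fun z => 1 / (t - z)).sum := Multiset.sum_nonneg fun x hx => by
    obtain ⟨β, hβ, rfl⟩ := Multiset.mem_map.1 hx
    exact (one_div_pos.2 (sub_pos.2 (hS' β hβ))).le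
  simp only [Multiset.map_cons, Multiset.sum_cons] at hφ ⊢
  have φ0 : 0 < φ := by linarith
  have k := hm_am S' hS' (show 0 < n / φ by positivity)
  rw [c'] at k
  have k1 : n / φ * (S'.map fun z => 1 / (t - z)).sum ≤ n / φ * φ :=
    mul_le_mul_of_nonneg_left (by linarith) (by positivity)
  rw [div_mul_cancel₀ _ φ0.ne'] at k1
  have k2 : (n : ℝ) ≤ (n * t - S'.sum) / (n / φ) := by linarith
  rw [le_div_iff₀ (by positivity), ← mul_div_assoc, div_le_iff₀ φ0] at k2
  have k3 : δ * (n + 1) * φ ≤ (n * t - S'.sum) * φ := by nlinarith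
  have := le_of_mul_le_mul_right k3 φ0
  linarith

theorem Bm_coeff {A : ℝ[X]} (hA : A.Monic) (m : ℝ → ℝ) {n : ℕ} (hn : A.natDegree = n + 1) :
    (Bm A m).coeff n = ∑ α ∈ A.roots.toFinset, m α := by
  rw [Bm, finsetSum_coeff]
  refine sum_congr rfl fun α hα => ?_
  have h1 : (A /ₘ (X - C α)).Monic := (monic_X_sub_C α).of_mul_monic_left (by rwa [mul_div_root hα])
  have h2 : (A /ₘ (X - C α)).natDegree = n := by
    rw [natDegree_divByMonic _ (monic_X_sub_C α), hn, natDegree_X_sub_C]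
    rfl
  rw [coeff_C_mul, ← h2, h1.coeff_natDegree, mul_one]

theorem ub_monic {F B : ℝ[X]} (h : Herg F B) {n : ℕ} (hn : 0 < n) (hd : F.natDegree = n + 1)
    {t φ δ : ℝ} (ht : ∀ s, t ≤ s → 0 < F.eval s) (hφ : F.derivative.eval t ≤ φ * F.eval t)
    (hδ : δ * ((n + 1) * φ) ≤ (n : ℝ) ^ 2) :
    0 < (n + 1) * (t - δ) + F.coeff n ∧
      B.coeff n / ((n + 1) * (t - δ) + F.coeff n) ≤ B.eval t / F.eval t := by
  obtain ⟨m, hm, rfl⟩ := pf h
  have sp := splits_iff_card_roots.2 h.real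
  have F0 := ht t le_rfl
  have hS : ∀ α ∈ F.roots, α < t := fun α hα => by
    by_contra hc
    exact (ht α (not_lt.1 hc)).ne' (mem_roots'.1 hα).2
  have e1 : F.coeff n = -F.roots.sum := by
    rw [← sp.nextCoeff_eq_neg_sum_roots_of_monic h.monic, nextCoeff_of_natDegree_pos (by omega), hd]
    rfl
  have k1 : (F.roots.map fun z => 1 / (t - z)).sum ≤ φ := by
    rwa [← sp.eval_derivative_div_eval_of_ne_zero F0.ne', div_le_iff₀ F0]
  have k2 := fun α hα => gap (α := α) hn (h.real.trans hd) hS k1 hδ hα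
  obtain ⟨α₀, hα₀⟩ := Multiset.card_pos_iff_exists_mem.1 (show 0 < F.roots.card by rw [h.real]; omega)
  have W0 : 0 < (n + 1) * (t - δ) + F.coeff n := by
    have := k2 α₀ hα₀
    have := hS α₀ hα₀
    linarith
  refine ⟨W0, ?_⟩
  rw [Bm_coeff h.monic m hd, Bm_div_real h.monic m F0.ne', sum_div]
  refine sum_le_sum fun α hα => ?_
  have hα' := Multiset.mem_toFinset.1 hα
  refine div_le_div_of_nonneg_left (hm α) (sub_pos.2 (hS α hα')) ?_
  have := k2 α hα'
  linarith

theorem ub {f g : ℝ[X]} {r : ℕ} (hr : 2 ≤ r) (hd : f.natDegree ≤ r) (hl : 0 < f.coeff r)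
    (hg : g.natDegree ≤ r) (hf : ∀ ζ : ℂ, 0 < ζ.im → aeval ζ f ≠ 0)
    (him : ∀ ζ : ℂ, 0 < ζ.im → (aeval ζ g / aeval ζ f).im ≤ 0) {t φ δ : ℝ}
    (ht : ∀ s, t ≤ s → 0 < f.eval s) (hφ : f.derivative.eval t ≤ φ * f.eval t) (_hδ : 0 ≤ δ)
    (hδ' : δ * (r * φ) ≤ ((r : ℝ) - 1) ^ 2) :
    0 < (derivative^[r - 1] f).eval (t - δ) ∧
      (derivative^[r - 1] g).eval (t - δ) / (derivative^[r - 1] f).eval (t - δ) ≤
        g.eval t / f.eval t := by
  obtain ⟨n, rfl⟩ : ∃ n, r = n + 1 := ⟨r - 1, by omega⟩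
  set c := f.coeff (n + 1) with hc
  set a := g.coeff (n + 1) / c with ha
  have c0 : c⁻¹ ≠ 0 := inv_ne_zero hl.ne'
  have cC : (c : ℂ) ≠ 0 := by exact_mod_cast hl.ne'
  have d1 : f.natDegree = n + 1 := le_antisymm hd (le_natDegree_of_ne_zero hl.ne')
  have d2 : (C c⁻¹ * f).natDegree = n + 1 := by rw [natDegree_C_mul c0, d1]
  have mF : (C c⁻¹ * f).Monic := by
    rw [Monic, leadingCoeff, d2, coeff_C_mul, inv_mul_cancel₀ hl.ne']
  have hH : Herg (C c⁻¹ * f) (C c⁻¹ * (g - C a * f)) := by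
    refine ⟨mF, real_of_ne fun ζ hζ => ?_, ?_, fun ζ hζ => ?_⟩
    · simpa [hl.ne'] using hf ζ hζ
    · rw [degree_eq_natDegree mF.ne_zero, d2, degree_lt_iff_coeff_zero]
      intro j hj
      rw [coeff_C_mul, coeff_sub, coeff_C_mul]
      rcases hj.eq_or_lt with rfl | hj
      · rw [ha, div_mul_cancel₀ _ hl.ne', sub_self, mul_zero]
      · rw [coeff_eq_zero_of_natDegree_lt (hg.trans_lt hj), coeff_eq_zero_of_natDegree_lt (hd.trans_lt hj)]
        simp
    · have k := hf ζ hζ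
      have e : aeval ζ (C c⁻¹ * (g - C a * f)) / aeval ζ (C c⁻¹ * f) = aeval ζ g / aeval ζ f - a := by
        simp only [map_mul, map_sub, aeval_C, Complex.coe_algebraMap, Complex.ofReal_inv]
        field_simp
      rw [e]
      simpa using him ζ hζ
  have ci : 0 < c⁻¹ := inv_pos.2 hl
  obtain ⟨k1, k2⟩ := ub_monic hH (by omega) d2 (t := t) (φ := φ) (δ := δ)
    (fun s hs => by simpa using mul_pos ci (ht s hs))
    (by
      simp only [derivative_C_mul, eval_mul, eval_C]
      nlinarith [mul_le_mul_of_nonneg_left hφ ci.le])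
    (by simpa using hδ')
  simp only [coeff_C_mul, coeff_sub, eval_mul, eval_sub, eval_C] at k1 k2
  rw [Nat.add_sub_cancel, iter_eval hd, iter_eval hg, ← hc]
  have f0 := ht t le_rfl
  have n0 : (0 : ℝ) < n.factorial := by exact_mod_cast n.factorial_pos
  set W := (n + 1) * (t - δ) + c⁻¹ * f.coeff n with hW
  have e1 : (n + 1) * c * (t - δ) + f.coeff n = c * W := by
    rw [hW]; field_simp
  have e2 : (n + 1) * g.coeff (n + 1) * (t - δ) + g.coeff n =
      c * (a * W + c⁻¹ * (g.coeff n - a * f.coeff n)) := by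
    rw [hW, ha]; field_simp; ring
  rw [e1, e2]
  refine ⟨by positivity, ?_⟩
  have e3 : n.factorial * (c * (a * W + c⁻¹ * (g.coeff n - a * f.coeff n))) / (n.factorial * (c * W)) =
      a + c⁻¹ * (g.coeff n - a * f.coeff n) / W := by
    field_simp
  have e4 : g.eval t / f.eval t = a + c⁻¹ * (g.eval t - a * f.eval t) / (c⁻¹ * f.eval t) := by
    field_simp; ring
  rw [e3, e4]
  linarith

end Vale.Agent.P078
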