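import Vale.Agent.P078.HergB

/-!
Spectral lower bounds for the potential of an arrow matrix.
-/

open Finset Polynomial
open scoped Classical

namespace Vale.Agent.P078

theorem exists_eig {ι : Type*} [Fintype ι] [DecidableEq ι] (N : Matrix ι ι ℝ)
    (hN : ∀ x y, N x y = N y x) :
    ∃ (U : ι → ι → ℝ) (e : ι → ℝ), N.charpoly.roots = univ.val.map e ∧
      (∀ x j, ∑ y, N x y * U y j = e j * U x j) ∧
      (∀ x y, ∑ j, U x j * U y j = if x = y then 1 else 0) ∧ ∀ j, ∑ x, U x j ^ 2 = 1 := by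
  have hH : N.IsHermitian := by
    ext x y
    simp [Matrix.conjTranspose_apply, hN x y]
  refine ⟨fun x j => hH.eigenvectorUnitary x j, hH.eigenvalues, ?_, ?_, ?_, ?_⟩
  · rw [hH.roots_charpoly_eq_eigenvalues]
    rfl
  · intro x j
    have := congrFun (hH.mulVec_eigenvectorBasis j) x
    simpa [Matrix.mulVec, dotProduct] using this
  · intro x y
    have h : (hH.eigenvectorUnitary : Matrix ι ι ℝ) * star (hH.eigenvectorUnitary : Matrix ι ι ℝ) = 1 :=
      Unitary.coe_mul_star_self _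
    have := congrFun (congrFun h x) y
    simpa [Matrix.mul_apply, Matrix.one_apply, Matrix.star_apply] using this
  · intro j
    have h : star (hH.eigenvectorUnitary : Matrix ι ι ℝ) * (hH.eigenvectorUnitary : Matrix ι ι ℝ) = 1 :=
      Unitary.coe_star_mul_self _
    have := congrFun (congrFun h j) j
    simpa [Matrix.mul_apply, Matrix.one_apply, Matrix.star_apply, sq] using this

theorem parseval {ι : Type*} [Fintype ι] [DecidableEq ι] {U : ι → ι → ℝ}
    (hU : ∀ x y, ∑ j, U x j * U y j = if x = y then 1 else 0) (v : ι → ℝ) :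
    ∑ j, (∑ x, U x j * v x) ^ 2 = ∑ x, v x ^ 2 := by
  calc ∑ j, (∑ x, U x j * v x) ^ 2 = ∑ j, ∑ x, ∑ y, v x * v y * (U x j * U y j) := by
        refine sum_congr rfl fun j _ => ?_
        rw [sq, sum_mul_sum]
        exact sum_congr rfl fun x _ => sum_congr rfl fun y _ => by ring
    _ = ∑ x, ∑ y, v x * v y * ∑ j, U x j * U y j := by
        rw [sum_comm]
        refine sum_congr rfl fun x _ => ?_
        rw [sum_comm]
        exact sum_congr rfl fun y _ => by rw [mul_sum]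
    _ = ∑ x, v x ^ 2 := by
        refine sum_congr rfl fun x _ => ?_
        simp [hU, sq]

theorem phi_nonneg (z s : ℝ) : 0 ≤ phi z s := le_max_right _ _

theorem le_phi (z s : ℝ) : s ^ 2 - z ^ 2 ≤ phi z s := le_max_left _ _

theorem test_vec {ι : Type*} [Fintype ι] [DecidableEq ι] {N : Matrix ι ι ℝ}
    (hN : ∀ x y, N x y = N y x) {U : ι → ι → ℝ} {e : ι → ℝ}
    (h1 : ∀ x j, ∑ y, N x y * U y j = e j * U x j)
    (hU : ∀ x y, ∑ j, U x j * U y j = if x = y then 1 else 0) (z : ℝ) (v : ι → ℝ) :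
    ∑ x, (∑ y, N x y * v y) ^ 2 - z ^ 2 * ∑ x, v x ^ 2 ≤
      ∑ j, phi z (e j) * (∑ x, U x j * v x) ^ 2 := by
  rw [← parseval hU v, ← parseval hU fun x => ∑ y, N x y * v y, mul_sum, ← sum_sub_distrib]
  refine sum_le_sum fun j _ => ?_
  have : ∑ x, U x j * ∑ y, N x y * v y = e j * ∑ x, U x j * v x := by
    simp_rw [mul_sum]
    rw [sum_comm]
    refine sum_congr rfl fun y _ => ?_
    have := h1 y j
    calc ∑ x, U x j * (N x y * v y) = (∑ x, N y x * U x j) * v y := by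
          rw [sum_mul]
          exact sum_congr rfl fun x _ => by rw [hN x y]; ring
      _ = _ := by rw [this]; ring
  rw [this]
  have := mul_le_mul_of_nonneg_right (le_phi z (e j)) (sq_nonneg (∑ x, U x j * v x))
  nlinarith

theorem spec_lower {ι : Type*} [Fintype ι] [DecidableEq ι] (N : Matrix ι ι ℝ)
    (hN : ∀ x y, N x y = N y x) (z : ℝ) (S : Finset ι) (u : ι → ℝ) (hu : ∀ x ∈ S, u x = 0)
    {l : ℝ} (hl : 0 ≤ l) (hl' : l * ∑ x, u x ^ 2 ≤ 1) :
    ∑ x ∈ S, (∑ y, N y x ^ 2 - z ^ 2) +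
      l * (∑ x, (∑ y, N x y * u y) ^ 2 - z ^ 2 * ∑ x, u x ^ 2) ≤ rs (phi z) N.charpoly := by
  obtain ⟨U, e, hr, h1, hU, hU'⟩ := exists_eig N hN
  have e0 : rs (phi z) N.charpoly = ∑ j, phi z (e j) := by
    rw [rs, hr, Multiset.map_map]
    rfl
  have a1 : ∀ x, ∑ y, N y x ^ 2 - z ^ 2 ≤ ∑ j, phi z (e j) * U x j ^ 2 := by
    intro x
    have := test_vec hN h1 hU z (fun y => if y = x then 1 else 0)
    simpa using this
  have a2 := mul_le_mul_of_nonneg_left (test_vec hN h1 hU z u) hl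
  have a3 := sum_le_sum fun x (_ : x ∈ S) => a1 x
  refine (add_le_add a3 a2).trans ?_
  rw [e0, sum_comm, mul_sum, ← sum_add_distrib]
  refine sum_le_sum fun j _ => ?_
  have b1 : ∑ x, U x j * u x = ∑ x ∈ Sᶜ, U x j * u x := by
    rw [← sum_add_sum_compl S, sum_eq_zero fun x hx => by rw [hu x hx, mul_zero], zero_add]
  have b2 : (∑ x ∈ Sᶜ, U x j * u x) ^ 2 ≤ (∑ x ∈ Sᶜ, U x j ^ 2) * ∑ x, u x ^ 2 :=
    (sum_mul_sq_le_sq_mul_sq _ _ _).trans (mul_le_mul_of_nonneg_left
      (sum_le_sum_of_subset_of_nonneg (subset_univ _) fun _ _ _ => sq_nonneg _)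
      (sum_nonneg fun _ _ => sq_nonneg _))
  have b3 : ∑ x ∈ S, U x j ^ 2 + ∑ x ∈ Sᶜ, U x j ^ 2 = 1 := by
    rw [sum_add_sum_compl, hU' j]
  have b4 : 0 ≤ ∑ x ∈ Sᶜ, U x j ^ 2 := sum_nonneg fun _ _ => sq_nonneg _
  have b5 : l * (∑ x, U x j * u x) ^ 2 ≤ ∑ x ∈ Sᶜ, U x j ^ 2 := by
    rw [b1]
    calc _ ≤ l * ((∑ x ∈ Sᶜ, U x j ^ 2) * ∑ x, u x ^ 2) := mul_le_mul_of_nonneg_left b2 hl
      _ = (∑ x ∈ Sᶜ, U x j ^ 2) * (l * ∑ x, u x ^ 2) := by ring
      _ ≤ _ := mul_le_of_le_one_right b4 hl'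
  rw [← mul_sum]
  have := phi_nonneg z (e j)
  nlinarith

/-- The arrow matrix. -/
noncomputable def arrow (T : Finset ℝ) (m : ℝ → ℝ) : Matrix (Unit ⊕ T) (Unit ⊕ T) ℝ :=
  Matrix.fromBlocks 0 (Matrix.of fun _ α => √(m α)) (Matrix.of fun α _ => √(m α))
    (Matrix.diagonal fun α => (α : ℝ))

theorem arrow_symm (T : Finset ℝ) (m : ℝ → ℝ) (x y : Unit ⊕ T) : arrow T m x y = arrow T m y x := by
  rcases x with x | x <;> rcases y with y | y <;> simp [arrow, Matrix.diagonal_apply]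
  by_cases h : x = y
  · simp [h]
  · simp [h, Ne.symm h]

theorem arrow_eval (T : Finset ℝ) {m : ℝ → ℝ} (hm : ∀ α, 0 ≤ m α) {s : ℝ} (hs : s ∉ T) :
    (arrow T m).charpoly.eval s = (∏ α ∈ T, (s - α)) * (s - ∑ α ∈ T, m α / (s - α)) := by
  have hne : ∀ α : T, s - (α : ℝ) ≠ 0 := fun α h => hs (by rw [sub_eq_zero.mp h]; exact α.2)
  have e : Matrix.scalar (Unit ⊕ T) s - arrow T m =
      Matrix.fromBlocks (Matrix.of fun _ _ => s) (Matrix.of fun (_ : Unit) (α : T) => -√(m α))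
        (Matrix.of fun (α : T) (_ : Unit) => -√(m α)) (Matrix.diagonal fun α : T => s - α) := by
    ext x y
    rcases x with x | x <;> rcases y with y | y <;> simp [arrow, Matrix.diagonal_apply]
    split_ifs <;> simp
  let _ : Invertible (Matrix.diagonal fun α : T => s - α) :=
    ⟨Matrix.diagonal fun α : T => (s - α)⁻¹, by
      rw [Matrix.diagonal_mul_diagonal, ← Matrix.diagonal_one]
      congr 1
      ext α
      exact inv_mul_cancel₀ (hne α), by
      rw [Matrix.diagonal_mul_diagonal, ← Matrix.diagonal_one]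
      congr 1
      ext α
      exact mul_inv_cancel₀ (hne α)⟩
  rw [Matrix.eval_charpoly, e, Matrix.det_fromBlocks₂₂, Matrix.det_diagonal, Matrix.det_unique,
    prod_coe_sort T fun α => s - α]
  congr 1
  have hi : ⅟(Matrix.diagonal fun α : T => s - α) = Matrix.diagonal fun α : T => (s - α)⁻¹ := rfl
  rw [hi, Matrix.sub_apply, Matrix.mul_apply, ← sum_coe_sort T fun α => m α / (s - α)]
  congr 1
  refine sum_congr rfl fun α _ => ?_
  rw [Matrix.mul_diagonal]
  simp only [Matrix.of_apply]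
  have := Real.mul_self_sqrt (hm α)
  rw [div_eq_mul_inv]
  linear_combination (s - α)⁻¹ * this

theorem rs_diff {A : ℝ[X]} (hA : A.Monic) (hr : A.roots.card = A.natDegree) {m : ℝ → ℝ}
    (hm : ∀ α, 0 ≤ m α) (f : ℝ → ℝ) :
    rs f (X * A - Bm A m) - rs f A =
      rs f (arrow A.roots.toFinset m).charpoly - ∑ α ∈ A.roots.toFinset, f α := by
  set T := A.roots.toFinset with hT
  set R := A.roots - T.val with hR
  have hle : T.val ≤ A.roots := Multiset.dedup_le _
  have hsum : A.roots = R + T.val := (Multiset.sub_add_cancel hle).symm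
  set A₁ := (R.map fun a => X - C a).prod with hA₁
  have hA1 : A = A₁ * ∏ α ∈ T, (X - C α) := by
    conv_lhs => rw [← prod_multiset_X_sub_C_of_monic_of_roots_card_eq hA hr, hsum]
    rw [Multiset.map_add, Multiset.prod_add]
    rfl
  have hroot : A₁.roots = R := roots_multiset_prod_X_sub_C R
  have hP : X * A - Bm A m = A₁ * (arrow T m).charpoly := by
    apply eq_of_infinite_eval_eq
    refine Set.Infinite.mono ?_ (T.finite_toSet.infinite_compl)
    intro s hs
    have hs' : s ∉ T := hs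
    have hs0 : A.eval s ≠ 0 := fun h => hs' (by
      rw [hT, Multiset.mem_toFinset, mem_roots hA.ne_zero]; exact h)
    have h1 := Bm_div_real hA m hs0
    rw [div_eq_iff hs0] at h1
    have h2 : A.eval s = A₁.eval s * ∏ α ∈ T, (s - α) := by
      conv_lhs => rw [hA1]
      simp [eval_prod]
    show eval s (X * A - Bm A m) = eval s (A₁ * (arrow T m).charpoly)
    rw [eval_mul, arrow_eval T hm hs', eval_sub, eval_mul, eval_X, h1, ← mul_assoc, ← h2]
    ring
  have hA1ne : A₁ ≠ 0 := (monic_multiset_prod_of_monic _ _ fun a _ => monic_X_sub_C a).ne_zero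
  rw [hP, rs, rs, rs, roots_mul (mul_ne_zero hA1ne (Matrix.charpoly_monic _).ne_zero), hroot]
  conv_lhs => rw [hsum]
  simp only [Multiset.map_add, Multiset.sum_add]
  have : (T.val.map f).sum = ∑ α ∈ T, f α := rfl
  rw [this]
  ring

theorem sum_phi (T : Finset ℝ) {z : ℝ} (hz : 0 < z) :
    ∑ α ∈ T, phi z α = ∑ α ∈ T with z < |α|, (α ^ 2 - z ^ 2) := by
  rw [sum_filter]
  refine sum_congr rfl fun α _ => ?_
  have h := sq_abs α
  have h0 := abs_nonneg α
  split_ifs with hα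
  · exact max_eq_left (by nlinarith)
  · exact max_eq_right (by nlinarith)

theorem arrow_lower (T : Finset ℝ) {m : ℝ → ℝ} (hm : ∀ α, 0 ≤ m α) {z : ℝ} (hz : 0 < z)
    (u : Unit ⊕ T → ℝ) (hu : ∀ α : T, z < |(α : ℝ)| → u (Sum.inr α) = 0) {l : ℝ} (hl : 0 ≤ l)
    (hl' : l * ∑ x, u x ^ 2 ≤ 1) :
    ∑ α ∈ T with z < |α|, m α +
      l * (∑ x, (∑ y, arrow T m x y * u y) ^ 2 - z ^ 2 * ∑ x, u x ^ 2) ≤
        rs (phi z) (arrow T m).charpoly - ∑ α ∈ T, phi z α := by
  have h := spec_lower (arrow T m) (arrow_symm T m) z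
    ((univ.filter fun α : T => z < |(α : ℝ)|).map Function.Embedding.inr) u (by
      intro x hx
      obtain ⟨α, hα, rfl⟩ := mem_map.mp hx
      exact hu α (mem_filter.mp hα).2) hl hl'
  have e : ∑ x ∈ (univ.filter fun α : T => z < |(α : ℝ)|).map Function.Embedding.inr,
      (∑ y, arrow T m y x ^ 2 - z ^ 2) = ∑ α ∈ T with z < |α|, (m α + (α ^ 2 - z ^ 2)) := by
    rw [sum_map, sum_filter, sum_filter,
      ← sum_coe_sort T fun α => if z < |α| then m α + (α ^ 2 - z ^ 2) else 0]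
    refine sum_congr rfl fun α _ => ?_
    split_ifs
    · simp only [Function.Embedding.inr_apply, Fintype.sum_sum_type, arrow, Matrix.fromBlocks_apply₁₂,
        Matrix.fromBlocks_apply₂₂, Matrix.of_apply, Matrix.diagonal_apply, univ_unique, sum_singleton,
        Real.sq_sqrt (hm α)]
      rw [sum_eq_single α (fun b _ hb => by simp [hb]) (by simp)]
      simp only [if_true]
      ring
    · rfl
  rw [e, sum_add_distrib, ← sum_phi T hz] at h
  linarith

theorem arrow_test (T : Finset ℝ) {m : ℝ → ℝ} (hm : ∀ α, 0 ≤ m α) {z : ℝ} (hz : 0 < z) {τ : ℝ}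
    (hτ : z < |τ|) (h : τ ^ 2 ≤ (∑ α ∈ T with |α| ≤ z, m α / (τ - α)) ^ 2) :
    τ ^ 2 - z ^ 2 ≤ rs (phi z) (arrow T m).charpoly - ∑ α ∈ T, phi z α := by
  set u : Unit ⊕ T → ℝ := Sum.elim (fun _ => 1)
    fun α => if |(α : ℝ)| ≤ z then √(m α) / (τ - α) else 0 with hu
  have hn : ∑ x, u x ^ 2 = 1 + ∑ α : T, u (Sum.inr α) ^ 2 := by
    simp [hu, Fintype.sum_sum_type]
  have hpos : 0 < ∑ x, u x ^ 2 := by
    rw [hn]
    have : 0 ≤ ∑ α : T, u (Sum.inr α) ^ 2 := sum_nonneg fun _ _ => sq_nonneg _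
    linarith
  have hlow := arrow_lower T hm hz u (fun α hα => by simp [hu, hα]) (inv_pos.mpr hpos).le
    (inv_mul_cancel₀ hpos.ne').le
  have k1 : ∑ y, arrow T m (Sum.inl ()) y * u y = ∑ α ∈ T with |α| ≤ z, m α / (τ - α) := by
    rw [sum_filter, ← sum_coe_sort T fun α => if |α| ≤ z then m α / (τ - α) else 0]
    simp only [Fintype.sum_sum_type, arrow, hu, Matrix.fromBlocks_apply₁₁, Matrix.fromBlocks_apply₁₂,
      Matrix.of_apply, Matrix.zero_apply, zero_mul, sum_const_zero, zero_add, Sum.elim_inr]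
    refine sum_congr rfl fun α _ => ?_
    split_ifs
    · rw [← mul_div_assoc, Real.mul_self_sqrt (hm α)]
    · rw [mul_zero]
  have k2 : ∀ α : T, τ ^ 2 * u (Sum.inr α) ^ 2 ≤ (∑ y, arrow T m (Sum.inr α) y * u y) ^ 2 := by
    intro α
    have : ∑ y, arrow T m (Sum.inr α) y * u y = √(m α) + α * u (Sum.inr α) := by
      simp only [Fintype.sum_sum_type, arrow, Matrix.fromBlocks_apply₂₁, Matrix.fromBlocks_apply₂₂,
        Matrix.of_apply, Matrix.diagonal_apply, univ_unique, sum_singleton]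
      rw [sum_eq_single α (fun b _ hb => by simp [Ne.symm hb]) (by simp)]
      simp [hu]
    rw [this]
    by_cases hα : |(α : ℝ)| ≤ z
    · have hne : τ - α ≠ 0 := fun h0 => by
        rw [sub_eq_zero.mp h0] at hτ
        linarith
      have : u (Sum.inr α) = √(m α) / (τ - α) := by simp [hu, hα]
      rw [this]
      apply le_of_eq
      field_simp
      ring
    · have : u (Sum.inr α) = 0 := by simp [hu, hα]
      rw [this]
      simp only [ne_eq, OfNat.ofNat_ne_zero, not_false_eq_true, zero_pow, mul_zero, add_zero]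
      exact sq_nonneg _
  have k3 : τ ^ 2 * ∑ x, u x ^ 2 ≤ ∑ x, (∑ y, arrow T m x y * u y) ^ 2 := by
    rw [hn, Fintype.sum_sum_type, mul_add, mul_sum, mul_one]
    refine add_le_add ?_ (sum_le_sum fun α _ => k2 α)
    simp only [univ_unique, sum_singleton]
    exact h.trans_eq (by rw [← k1])
  have k4 : τ ^ 2 - z ^ 2 ≤ (∑ x, u x ^ 2)⁻¹ *
      (∑ x, (∑ y, arrow T m x y * u y) ^ 2 - z ^ 2 * ∑ x, u x ^ 2) := by
    rw [le_inv_mul_iff₀ hpos]
    linarith
  have k5 : 0 ≤ ∑ α ∈ T with z < |α|, m α := sum_nonneg fun α _ => hm α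
  linarith

end Vale.Agent.P078
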