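import Vale.Agent.P078.KLem

/-!
The choice of a colour for the potential `s ^ p`, `p = 2 q`.

PLAN. `F m = rs (s^p) (X A - Bm A m) - rs (s^p) A = tr N^p - Σ_T α^p` (`rs_diff`, `exists_eig`), `N = arrow T m`, `T = A.roots.toFinset`.
`upP`: with `c k = (N^k) 0 0`, `a j = Σ m α^(j-2)`: `(N^k) α 0 = √(m α) Σ_{i<k} α^(k-1-i) c i`, `c k = Σ_{l+2≤k} a (k-l) c l`,
`(N^k) α α = α^k + m α Σ_{l+2≤k} (k-1-l) α^(k-2-l) c l`, so `F = Σ_{l+2≤p} (p-l) a (p-l) c l`. Put `u = |α|/τ`, `b j = Σ m u^(j-2)/τ²`,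
`B = Σ_{2≤j≤p} b j ≤ 1/3`, `γ k = |c k|/τ^k`, `Σ_{k≤p} γ k ≤ 1/(1-B)`; `j u^(j-2) ≤ 2 S u + p u^(p-2)` for `2 ≤ j ≤ p`, so
`F/τ^p ≤ (2 B + p b p)/(1 - B) ≤ 1`. `lowP1`: `Σ_j U(α,j)² e_j^p ≥ α^p + q α^(p-2) ((α² + m α) - α²)` (tangent line of `v ↦ v^q`), and the
centre gives `≥ 0`. `lowP2`: `ψ s = s^p - q z^(p-2) phi z s` is even, `ψ 0 = 0`, monotone on `[0,∞)`; `Herg.count` and `dom` (for `ψ (max s 0)`
with `t = 0`, and for the negated roots, see `compare`). `klemP`: `τ^p = F m̄ + η`, `z = τ (1 - 1/p)`, `t = τ (1 + 2/p)`, `(1-1/p)^(p-2) ≥ 1/3`;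
`lower` gives `Σ_{|α|≤z} m̄/(t - |α|) ≤ 2t`, `t - |α| ≤ 3 (τ - |α|)`, `S u ≤ 1/(1-u)`; for `|α| > z`, `S u ≤ 3 p u^(p-2)`. So
`Σ m̄ (3 S u + p u^(p-2)) ≤ (3 (6.6 + 6) + 2) τ² ≤ 48 τ²`; `avg_choice`, then `upP` for `m c / 48`.
-/

open Finset Polynomial
open scoped Classical

namespace Vale.Agent.P078

variable {A : ℝ[X]} {m : ℝ → ℝ} {q : ℕ}

namespace KP

theorem tangent {v w : ℝ} (hv : 0 ≤ v) (hw : 0 ≤ w) (n : ℕ) :
    w ^ (n + 1) + (n + 1) * w ^ n * (v - w) ≤ v ^ (n + 1) := by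
  induction n with
  | zero => simp
  | succ n ih =>
    have h1 := mul_le_mul_of_nonneg_left ih hv
    have h2 : 0 ≤ ((n : ℝ) + 1) * w ^ n * (v - w) ^ 2 := by positivity
    have e : v ^ (n + 1 + 1) = v * v ^ (n + 1) := by ring
    rw [e]
    push_cast
    have e2 : w ^ (n + 1 + 1) + ((n : ℝ) + 1 + 1) * w ^ (n + 1) * (v - w) =
        v * (w ^ (n + 1) + (n + 1) * w ^ n * (v - w)) - ((n : ℝ) + 1) * w ^ n * (v - w) ^ 2 := by ring
    linarith

theorem coef_le {u : ℝ} (hu : 0 ≤ u) {j n : ℕ} (hj : j ≤ n) :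
    ((j : ℝ) + 2) * u ^ j ≤ 2 * ∑ i ∈ range (n + 1), u ^ i + (n + 2) * u ^ n := by
  have hS : 0 ≤ ∑ i ∈ range (n + 1), u ^ i := sum_nonneg fun _ _ => pow_nonneg hu _
  have hjn : (j : ℝ) ≤ n := by exact_mod_cast hj
  rcases le_total 1 u with h | h
  · have h1 : u ^ j ≤ u ^ n := pow_le_pow_right₀ h hj
    have h2 : ((j : ℝ) + 2) * u ^ j ≤ (n + 2) * u ^ n :=
      mul_le_mul (by linarith) h1 (pow_nonneg hu _) (by positivity)
    linarith
  · have h1 : ∑ _i ∈ range (j + 1), u ^ j ≤ ∑ i ∈ range (j + 1), u ^ i :=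
      sum_le_sum fun i hi => pow_le_pow_of_le_one hu h (Nat.lt_succ_iff.mp (mem_range.mp hi))
    have h2 : ∑ i ∈ range (j + 1), u ^ i ≤ ∑ i ∈ range (n + 1), u ^ i :=
      sum_le_sum_of_subset_of_nonneg (range_mono (by omega)) fun _ _ _ => pow_nonneg hu _
    rw [sum_const, card_range, nsmul_eq_mul] at h1
    push_cast at h1
    have h3 : 0 ≤ ((n : ℝ) + 2) * u ^ n := by positivity
    have h4 : 0 ≤ (j : ℝ) * u ^ j := by positivity
    linarith

theorem one_site {u : ℝ} (hu : 0 ≤ u) {γ : ℕ → ℝ} (hγ : ∀ i, 0 ≤ γ i) (n : ℕ) :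
    ∃ D H : ℕ → ℝ, D 0 = 0 ∧ H 0 = 0 ∧ (∀ k, D (k + 1) = γ k + u * D k) ∧
      (∀ k, H (k + 1) = D (k + 1) + u * H k) ∧
      ∑ k ∈ range n, D k ≤ (∑ i ∈ range (n + 1), u ^ i) * ∑ i ∈ range (n + 1), γ i ∧
      D (n + 1) + H (n + 1) ≤
        (2 * ∑ i ∈ range (n + 1), u ^ i + (n + 2) * u ^ n) * ∑ i ∈ range (n + 1), γ i := by
  set D : ℕ → ℝ := fun k => ∑ i ∈ range k, u ^ (k - 1 - i) * γ i with hD
  have hpow : ∀ k, ∀ i ∈ range k, u ^ (k + 1 - 1 - i) = u * u ^ (k - 1 - i) := fun k i hi => by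
    rw [← pow_succ']
    congr 1
    have := mem_range.mp hi
    omega
  have D1 : ∀ k, D (k + 1) = γ k + u * D k := fun k => by
    simp only [hD]
    rw [sum_range_succ, mul_sum, add_comm]
    congr 1
    · simp
    · exact sum_congr rfl fun i hi => by rw [hpow k i hi, mul_assoc]
  have D0 : ∀ k, 0 ≤ D k := fun k => sum_nonneg fun i _ => mul_nonneg (pow_nonneg hu _) (hγ i)
  have hG : 0 ≤ ∑ i ∈ range (n + 1), γ i := sum_nonneg fun i _ => hγ i
  refine ⟨D, fun k => ∑ i ∈ range k, ((k : ℝ) - i) * u ^ (k - 1 - i) * γ i, by simp [hD], by simp, D1,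
    fun k => ?_, ?_, ?_⟩
  · simp only [hD]
    rw [sum_range_succ, sum_range_succ, mul_sum, add_right_comm, ← sum_add_distrib]
    congr 1
    · refine sum_congr rfl fun i hi => ?_
      rw [hpow k i hi]
      push_cast
      ring
    · push_cast
      ring
  · have key : ∀ j ≤ n + 1, ∑ k ∈ range (j + 1), D k ≤
        (∑ i ∈ range j, u ^ i) * ∑ i ∈ range (n + 1), γ i := by
      intro j
      induction j with
      | zero => intro _; simp [hD]
      | succ j ih =>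
        intro hj
        rw [sum_range_succ', sum_congr rfl fun k _ => D1 k, sum_add_distrib, ← mul_sum, geom_sum_succ]
        have h1 := mul_le_mul_of_nonneg_left (ih (by omega)) hu
        have h2 : ∑ i ∈ range (j + 1), γ i ≤ ∑ i ∈ range (n + 1), γ i :=
          sum_le_sum_of_subset_of_nonneg (range_mono hj) fun i _ _ => hγ i
        have h3 : D 0 = 0 := by simp [hD]
        nlinarith
    exact (sum_le_sum_of_subset_of_nonneg (range_mono (by omega)) fun k _ _ => D0 k).trans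
      (key (n + 1) le_rfl)
  · simp only [hD]
    rw [← sum_add_distrib, mul_sum]
    refine sum_le_sum fun i hi => ?_
    have hi' : i ≤ n := Nat.lt_succ_iff.mp (mem_range.mp hi)
    have h1 := mul_le_mul_of_nonneg_right (coef_le hu (show n - i ≤ n by omega)) (hγ i)
    rw [Nat.cast_sub hi'] at h1
    rw [show n + 1 - 1 - i = n - i by omega]
    push_cast
    linarith

theorem seq_bound {ι : Type*} [Fintype ι] (s a : ι → ℝ) (c : ℕ → ℝ) (d g : ℕ → ι → ℝ) (c0 : c 0 = 1)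
    (d0 : ∀ x, d 0 x = 0) (g0 : ∀ x, g 0 x = 1) (hc : ∀ k, c (k + 1) = ∑ x, s x * d k x)
    (hd : ∀ k x, d (k + 1) x = s x * c k + a x * d k x)
    (hg : ∀ k x, g (k + 1) x = s x * d k x + a x * g k x) (n : ℕ)
    (h : ∑ x, s x ^ 2 * (3 * ∑ i ∈ range (n + 1), |a x| ^ i + (n + 2) * |a x| ^ n) ≤ 1) :
    c (n + 2) + ∑ x, (g (n + 2) x - a x ^ (n + 2)) ≤ 1 := by
  choose D H D0 H0 D1 H1 b1 b2 using fun x =>
    one_site (abs_nonneg (a x)) (γ := fun i => |c i|) (fun i => abs_nonneg _) n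
  have e1 : ∀ k x, |s x * d k x| ≤ s x ^ 2 * D x k := by
    intro k x
    induction k with
    | zero => simp [d0, D0]
    | succ k ih =>
      rw [hd, D1, show s x * (s x * c k + a x * d k x) = s x ^ 2 * c k + a x * (s x * d k x) by ring]
      refine (abs_add_le _ _).trans ?_
      rw [abs_mul, abs_mul (a x), abs_of_nonneg (sq_nonneg _)]
      have := mul_le_mul_of_nonneg_left ih (abs_nonneg (a x))
      linarith
  have e2 : ∀ k x, |g (k + 1) x - a x ^ (k + 1)| ≤ s x ^ 2 * H x k := by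
    intro k x
    induction k with
    | zero => simp [hg, d0, g0, H0]
    | succ k ih =>
      rw [hg, H1, show s x * d (k + 1) x + a x * g (k + 1) x - a x ^ (k + 1 + 1) =
        s x * d (k + 1) x + a x * (g (k + 1) x - a x ^ (k + 1)) by ring]
      refine (abs_add_le _ _).trans ?_
      rw [abs_mul (a x)]
      have := mul_le_mul_of_nonneg_left ih (abs_nonneg (a x))
      have := e1 (k + 1) x
      linarith
  have e3 : ∀ k, |c (k + 1)| ≤ ∑ x, s x ^ 2 * D x k := fun k => by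
    rw [hc]
    exact (abs_sum_le_sum_abs _ _).trans (sum_le_sum fun x _ => e1 k x)
  set G := ∑ i ∈ range (n + 1), |c i| with hG
  have G0 : 0 ≤ G := sum_nonneg fun _ _ => abs_nonneg _
  have e4 : G ≤ 1 + (∑ x, s x ^ 2 * ∑ i ∈ range (n + 1), |a x| ^ i) * G := by
    have h1 : ∑ k ∈ range n, |c (k + 1)| ≤ ∑ x, s x ^ 2 * ∑ k ∈ range n, D x k := by
      refine (sum_le_sum fun k _ => e3 k).trans_eq ?_
      rw [sum_comm]
      exact sum_congr rfl fun x _ => (mul_sum _ _ _).symm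
    have h2 : ∑ x, s x ^ 2 * ∑ k ∈ range n, D x k ≤
        (∑ x, s x ^ 2 * ∑ i ∈ range (n + 1), |a x| ^ i) * G := by
      rw [sum_mul]
      exact sum_le_sum fun x _ => by
        rw [mul_assoc]
        exact mul_le_mul_of_nonneg_left (b1 x) (sq_nonneg _)
    have h3 : G = ∑ k ∈ range n, |c (k + 1)| + 1 := by rw [hG, sum_range_succ', c0, abs_one]
    linarith
  have e5 : c (n + 2) + ∑ x, (g (n + 2) x - a x ^ (n + 2)) ≤
      (∑ x, s x ^ 2 * (2 * ∑ i ∈ range (n + 1), |a x| ^ i + (n + 2) * |a x| ^ n)) * G := by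
    have h1 := (le_abs_self _).trans (e3 (n + 1))
    have h2 : ∑ x, (g (n + 2) x - a x ^ (n + 2)) ≤ ∑ x, s x ^ 2 * H x (n + 1) :=
      sum_le_sum fun x _ => (le_abs_self _).trans (e2 (n + 1) x)
    refine (add_le_add h1 h2).trans ?_
    rw [← sum_add_distrib, sum_mul]
    refine sum_le_sum fun x _ => ?_
    rw [← mul_add, mul_assoc]
    exact mul_le_mul_of_nonneg_left (b2 x) (sq_nonneg _)
  have e6 : ∑ x, s x ^ 2 * (3 * ∑ i ∈ range (n + 1), |a x| ^ i + (n + 2) * |a x| ^ n) =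
      ∑ x, s x ^ 2 * (2 * ∑ i ∈ range (n + 1), |a x| ^ i + (n + 2) * |a x| ^ n) +
        ∑ x, s x ^ 2 * ∑ i ∈ range (n + 1), |a x| ^ i := by
    rw [← sum_add_distrib]
    exact sum_congr rfl fun x _ => by ring
  rw [e6] at h
  have := mul_le_mul_of_nonneg_right h G0
  nlinarith

theorem rs_pow {ι : Type*} [Fintype ι] [DecidableEq ι] (N : Matrix ι ι ℝ) (hN : ∀ x y, N x y = N y x)
    (k : ℕ) : rs (fun s => s ^ k) N.charpoly = ∑ x, (N ^ k) x x := by
  obtain ⟨U, e, he, h1, hU, hU'⟩ := exists_eig N hN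
  have key : ∀ k x y, (N ^ k) x y = ∑ j, e j ^ k * (U x j * U y j) := by
    intro k
    induction k with
    | zero => intro x y; simp [hU, Matrix.one_apply]
    | succ k ih =>
      intro x y
      rw [pow_succ', Matrix.mul_apply]
      simp only [ih, mul_sum]
      rw [sum_comm]
      refine sum_congr rfl fun j _ => ?_
      calc ∑ z, N x z * (e j ^ k * (U z j * U y j)) = (∑ z, N x z * U z j) * (e j ^ k * U y j) := by
            rw [sum_mul]
            exact sum_congr rfl fun z _ => by ring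
        _ = _ := by rw [h1]; ring
  rw [rs, he, Multiset.map_map]
  simp only [key]
  rw [sum_comm]
  refine sum_congr rfl fun j _ => ?_
  rw [← mul_sum, sum_congr rfl fun x _ => (sq (U x j)).symm, hU', mul_one]
  rfl

theorem pow_symm {ι : Type*} [Fintype ι] [DecidableEq ι] (N : Matrix ι ι ℝ) (hN : ∀ x y, N x y = N y x)
    (k : ℕ) (x y : ι) : (N ^ k) x y = (N ^ k) y x := by
  have h : N.transpose = N := by
    ext a b
    exact hN b a
  rw [← Matrix.transpose_apply (N ^ k) y x, Matrix.transpose_pow, h]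

theorem arrow_row0 (T : Finset ℝ) (m : ℝ → ℝ) (v : Unit ⊕ T → ℝ) :
    ∑ y, arrow T m (Sum.inl ()) y * v y = ∑ α : T, √(m α) * v (Sum.inr α) := by
  simp [Fintype.sum_sum_type, arrow]

theorem arrow_row (T : Finset ℝ) (m : ℝ → ℝ) (v : Unit ⊕ T → ℝ) (α : T) :
    ∑ y, arrow T m (Sum.inr α) y * v y = √(m α) * v (Sum.inl ()) + α * v (Sum.inr α) := by
  simp [Fintype.sum_sum_type, arrow, Matrix.diagonal_apply]

theorem third {p : ℝ} (hp : 2 ≤ p) {k : ℕ} (hk : (k : ℝ) ≤ p - 1) : 1 ≤ 3 * (1 - 1 / p) ^ k := by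
  have h0 : 0 < p - 1 := by linarith
  have h1 : (1 + 1 / (p - 1)) ^ k ≤ Real.exp (1 / (p - 1)) ^ k :=
    pow_le_pow_left₀ (by positivity) (by linarith [Real.add_one_le_exp (1 / (p - 1))]) k
  rw [← Real.exp_nat_mul] at h1
  have h2 : Real.exp (k * (1 / (p - 1))) ≤ Real.exp 1 :=
    Real.exp_le_exp.mpr (by rw [mul_one_div, div_le_one h0]; exact hk)
  have h3 := Real.exp_one_lt_d9
  have h4 : (1 + 1 / (p - 1)) ^ k * (1 - 1 / p) ^ k = 1 := by
    rw [← mul_pow, show (1 + 1 / (p - 1)) * (1 - 1 / p) = 1 by field_simp; ring, one_pow]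
  have h5 : 0 ≤ (1 - 1 / p) ^ k := pow_nonneg (by
    rw [sub_nonneg, div_le_one (by linarith)]; linarith) k
  nlinarith

end KP

open KP

theorem upP (hA : A.Monic) (hr : A.roots.card = A.natDegree) (hm : ∀ α, 0 ≤ m α) (hq : 1 ≤ q) {τ : ℝ}
    (hτ : 0 < τ) (h : ∑ α ∈ A.roots.toFinset, m α * (3 * ∑ i ∈ range (2 * q - 1), (|α| / τ) ^ i +
      2 * q * (|α| / τ) ^ (2 * q - 2)) ≤ τ ^ 2) :
    rs (fun s => s ^ (2 * q)) (X * A - Bm A m) - rs (fun s => s ^ (2 * q)) A ≤ τ ^ (2 * q) := by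
  obtain ⟨n, hn⟩ : ∃ n, 2 * q = n + 2 := ⟨2 * q - 2, by omega⟩
  have hn' : (2 * q : ℝ) = n + 2 := by exact_mod_cast hn
  rw [hn', hn, show n + 2 - 1 = n + 1 by omega, show n + 2 - 2 = n by omega] at h
  rw [hn, rs_diff hA hr hm, rs_pow _ (arrow_symm _ _)]
  set T := A.roots.toFinset
  set N := arrow T m with hN
  have key := seq_bound (ι := T) (fun α => √(m α) / τ) (fun α => α / τ)
    (fun k => (N ^ k) (Sum.inl ()) (Sum.inl ()) / τ ^ k)
    (fun k α => (N ^ k) (Sum.inr α) (Sum.inl ()) / τ ^ k)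
    (fun k α => (N ^ k) (Sum.inr α) (Sum.inr α) / τ ^ k) (by simp) (by simp) (by simp)
    (fun k => by
      rw [pow_succ' N, Matrix.mul_apply, arrow_row0 T m fun y => (N ^ k) y (Sum.inl ()), sum_div]
      exact sum_congr rfl fun α _ => by field_simp; ring)
    (fun k α => by
      rw [pow_succ' N, Matrix.mul_apply, arrow_row T m fun y => (N ^ k) y (Sum.inl ())]
      field_simp
      ring)
    (fun k α => by
      rw [pow_succ' N, Matrix.mul_apply, arrow_row T m fun y => (N ^ k) y (Sum.inr α),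
        pow_symm N (arrow_symm _ _) k (Sum.inl ())]
      field_simp
      ring) n (by
      rw [← sum_coe_sort T] at h
      rw [← div_le_one (by positivity), sum_div] at h
      refine le_of_eq_of_le (sum_congr rfl fun α _ => ?_) h
      rw [div_pow, Real.sq_sqrt (hm α), abs_div, abs_of_pos hτ]
      ring)
  have hp : 0 < τ ^ (n + 2) := by positivity
  rw [← div_le_one hp]
  refine le_of_eq_of_le ?_ key
  rw [Fintype.sum_sum_type, ← sum_coe_sort T fun α => α ^ (n + 2)]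
  simp only [univ_unique, sum_singleton, div_pow, ← sub_div, ← sum_div, sum_sub_distrib]
  ring

theorem lowP1 (hA : A.Monic) (hr : A.roots.card = A.natDegree) (hm : ∀ α, 0 ≤ m α) (hq : 1 ≤ q) :
    q * ∑ α ∈ A.roots.toFinset, m α * α ^ (2 * q - 2) ≤
      rs (fun s => s ^ (2 * q)) (X * A - Bm A m) - rs (fun s => s ^ (2 * q)) A := by
  obtain ⟨n, rfl⟩ : ∃ n, q = n + 1 := ⟨q - 1, by omega⟩
  rw [rs_diff hA hr hm, show 2 * (n + 1) - 2 = 2 * n by omega]
  set T := A.roots.toFinset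
  obtain ⟨U, e, he, h1, hU, hU'⟩ := exists_eig (arrow T m) (arrow_symm T m)
  have e0 : rs (fun s => s ^ (2 * (n + 1))) (arrow T m).charpoly =
      ∑ x, ∑ j, U x j ^ 2 * (e j ^ 2) ^ (n + 1) := by
    rw [rs, he, Multiset.map_map, sum_comm]
    refine sum_congr rfl fun j _ => ?_
    rw [← sum_mul, hU', one_mul, ← pow_mul]
    rfl
  have e1 : ∀ α : T, ((α : ℝ) ^ 2) ^ (n + 1) + (n + 1) * ((α : ℝ) ^ 2) ^ n * m α ≤
      ∑ j, U (Sum.inr α) j ^ 2 * (e j ^ 2) ^ (n + 1) := by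
    intro α
    have a1 : ∑ j, U (Sum.inr α) j ^ 2 = 1 := by simpa [sq] using hU (Sum.inr α) (Sum.inr α)
    have a2 : ∑ j, U (Sum.inr α) j ^ 2 * e j ^ 2 = m α + (α : ℝ) ^ 2 := by
      have := parseval hU fun y => arrow T m (Sum.inr α) y
      rw [sum_congr rfl fun y _ => sq (arrow T m (Sum.inr α) y), arrow_row] at this
      simp only [arrow, Matrix.fromBlocks_apply₂₁, Matrix.fromBlocks_apply₂₂, Matrix.of_apply,
        Matrix.diagonal_apply_eq, Real.mul_self_sqrt (hm α)] at this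
      rw [sq (α : ℝ), ← this]
      refine sum_congr rfl fun j _ => ?_
      rw [← mul_pow, mul_comm, ← h1]
      congr 1
      exact sum_congr rfl fun y _ => mul_comm _ _
    refine le_trans (le_of_eq ?_) (sum_le_sum fun j _ => mul_le_mul_of_nonneg_left
      (tangent (sq_nonneg (e j)) (sq_nonneg (α : ℝ)) n) (sq_nonneg _))
    have : ∀ j, U (Sum.inr α) j ^ 2 * (((α : ℝ) ^ 2) ^ (n + 1) + (n + 1) * ((α : ℝ) ^ 2) ^ n *
        (e j ^ 2 - (α : ℝ) ^ 2)) = (((α : ℝ) ^ 2) ^ (n + 1) - (n + 1) * ((α : ℝ) ^ 2) ^ n * (α : ℝ) ^ 2) *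
          U (Sum.inr α) j ^ 2 + (n + 1) * ((α : ℝ) ^ 2) ^ n * (U (Sum.inr α) j ^ 2 * e j ^ 2) :=
      fun j => by ring
    rw [sum_congr rfl fun j _ => this j, sum_add_distrib, ← mul_sum, ← mul_sum, a1, a2]
    ring
  have e2 : 0 ≤ ∑ j, U (Sum.inl ()) j ^ 2 * (e j ^ 2) ^ (n + 1) := sum_nonneg fun j _ => by positivity
  have e3 := sum_le_sum fun α (_ : α ∈ (univ : Finset T)) => e1 α
  rw [e0, Fintype.sum_sum_type, ← sum_coe_sort T fun α => α ^ (2 * (n + 1)),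
    ← sum_coe_sort T fun α => m α * α ^ (2 * n), mul_sum]
  simp only [univ_unique, sum_singleton, pow_mul]
  rw [sum_add_distrib] at e3
  have e4 : ∑ α : T, ((n + 1 : ℕ) : ℝ) * (m α * ((α : ℝ) ^ 2) ^ n) =
      ∑ α : T, (n + 1) * ((α : ℝ) ^ 2) ^ n * m α := sum_congr rfl fun α _ => by push_cast; ring
  rw [e4]
  linarith

theorem KP.mono_aux {w : ℝ} (hw : 0 ≤ w) (n : ℕ) {v₁ v₂ : ℝ} (h1 : 0 ≤ v₁) (h : v₁ ≤ v₂) :
    v₁ ^ (n + 1) - (n + 1) * w ^ n * max (v₁ - w) 0 ≤ v₂ ^ (n + 1) - (n + 1) * w ^ n * max (v₂ - w) 0 := by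
  have h2 : 0 ≤ v₂ := h1.trans h
  have hp : v₁ ^ (n + 1) ≤ v₂ ^ (n + 1) := pow_le_pow_left₀ h1 h _
  rcases le_total v₂ w with c | c
  · rw [max_eq_right (by linarith), max_eq_right (by linarith)]
    linarith
  · rw [max_eq_left (sub_nonneg.mpr c)]
    rcases le_total v₁ w with c' | c'
    · rw [max_eq_right (by linarith)]
      have := tangent h2 hw n
      have : v₁ ^ (n + 1) ≤ w ^ (n + 1) := pow_le_pow_left₀ h1 c' _
      linarith
    · rw [max_eq_left (by linarith)]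
      have a1 := tangent h2 h1 n
      have a2 : w ^ n ≤ v₁ ^ n := pow_le_pow_left₀ hw c' _
      have a3 : ((n : ℝ) + 1) * w ^ n * (v₂ - v₁) ≤ (n + 1) * v₁ ^ n * (v₂ - v₁) :=
        mul_le_mul_of_nonneg_right (mul_le_mul_of_nonneg_left a2 (by positivity)) (by linarith)
      linarith

theorem KP.rs_even_le {B : ℝ[X]} (hH : Herg A B) {ψ : ℝ → ℝ} (hψ : Monotone ψ) (h0 : ∀ s ≤ 0, ψ s = 0) :
    rs (fun s => ψ s + ψ (-s)) A ≤ rs (fun s => ψ s + ψ (-s)) (X * A - B) := by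
  set N := A.roots.toFinset ∪ (X * A - B).roots.toFinset with hN
  have hc : ∀ s ∉ N, s ∉ A.roots ∧ s ∉ (X * A - B).roots ∧ ab A.roots s ≤ ab (X * A - B).roots s ∧
      ab (X * A - B).roots s ≤ ab A.roots s + 1 := by
    intro s hs
    simp only [hN, mem_union, Multiset.mem_toFinset, not_or] at hs
    refine ⟨hs.1, hs.2, ?_⟩
    rw [hH.count (fun e => hs.1 ((mem_roots hH.monic.ne_zero).mpr e))
      fun e => hs.2 ((mem_roots hH.monic_P.1.ne_zero).mpr e)]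
    split_ifs <;> omega
  have d1 := dom hψ h0 N fun s _ hs => (hc s hs).2.2.1
  have d2 : ((A.roots.map fun x => -x).map ψ).sum ≤ (((X * A - B).roots.map fun x => -x).map ψ).sum := by
    refine dom hψ h0 (N.image fun x => -x) fun s _ hsN => ?_
    obtain ⟨g1, g2, -, g4⟩ := hc (-s) fun h => hsN (mem_image.mpr ⟨-s, h, neg_neg s⟩)
    have a1 := ab_neg g1
    have a2 := ab_neg g2
    have n1 := hH.monic_P.2.2
    omega
  rw [Multiset.map_map, Multiset.map_map] at d2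
  rw [rs_add, rs_add]
  exact add_le_add d1 d2

theorem lowP2 (hA : A.Monic) (hr : A.roots.card = A.natDegree) (hm : ∀ α, 0 ≤ m α) (hq : 1 ≤ q) {z : ℝ}
    (hz : 0 < z) : q * z ^ (2 * q - 2) * (rs (phi z) (X * A - Bm A m) - rs (phi z) A) ≤
      rs (fun s => s ^ (2 * q)) (X * A - Bm A m) - rs (fun s => s ^ (2 * q)) A := by
  obtain ⟨n, rfl⟩ : ∃ n, q = n + 1 := ⟨q - 1, by omega⟩
  set ψ : ℝ → ℝ := fun s => (max s 0 ^ 2) ^ (n + 1) - (n + 1) * (z ^ 2) ^ n * max (max s 0 ^ 2 - z ^ 2) 0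
    with hψ
  have hz0 : max ((0 : ℝ) ^ 2 - z ^ 2) 0 = 0 := max_eq_right (by nlinarith)
  have h := rs_even_le (herg_Bm hA hr hm) (ψ := ψ)
    (fun a b hab => mono_aux (sq_nonneg z) n (sq_nonneg _) (mono_sq_pos hab))
    (fun s hs => by simp only [hψ, max_eq_right hs, hz0]; simp)
  have e : (fun s => ψ s + ψ (-s)) =
      fun s => s ^ (2 * (n + 1)) + -(((n + 1) * (z ^ 2) ^ n) * phi z s) := by
    funext s
    simp only [hψ, phi, pow_mul]
    rcases le_total s 0 with c | c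
    · rw [max_eq_right c, max_eq_left (neg_nonneg.mpr c), neg_sq, hz0]
      ring
    · rw [max_eq_left c, max_eq_right (neg_nonpos.mpr c), hz0]
      ring
  have hs : ∀ (c : ℝ) (P : ℝ[X]), rs (fun s => c * phi z s) P = c * rs (phi z) P := fun c P => by
    simp [rs, Multiset.sum_map_mul_left]
  rw [e, rs_add, rs_add, rs_neg fun s => _ * phi z s, rs_neg fun s => _ * phi z s, hs, hs] at h
  rw [show 2 * (n + 1) - 2 = 2 * n by omega, pow_mul]
  push_cast
  linarith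

theorem KP.small_part {a α t τ p : ℝ} (ha : 0 ≤ a) (hτ : 0 < τ) (hp : 0 < p) (ht : t = τ * (1 + 2 / p))
    (hα : |α| ≤ τ * (1 - 1 / p)) (k : ℕ) :
    a * ∑ i ∈ range k, (|α| / τ) ^ i ≤ 3 * τ * (a / (t - α) + a / (t + α)) := by
  have h0 : 0 < τ / p := by positivity
  have e1 : τ * (1 - 1 / p) = τ - τ / p := by ring
  have e2 : t = τ + 2 * (τ / p) := by rw [ht]; ring
  have h1 : 0 < τ - |α| := by linarith
  have h2 : 0 < t - |α| := by linarith
  have hu0 : 0 ≤ |α| / τ := by positivity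
  have hS : (∑ i ∈ range k, (|α| / τ) ^ i) * (τ - |α|) ≤ τ := by
    have h3 := geom_sum_mul_neg (|α| / τ) k
    have h4 : τ - |α| = (1 - |α| / τ) * τ := by field_simp
    rw [h4, ← mul_assoc, h3]
    have := pow_nonneg hu0 k
    nlinarith
  have hS0 : 0 ≤ ∑ i ∈ range k, (|α| / τ) ^ i := sum_nonneg fun _ _ => pow_nonneg hu0 _
  have h5 : ∑ i ∈ range k, (|α| / τ) ^ i ≤ 3 * τ / (t - |α|) := by
    rw [le_div_iff₀ h2]
    nlinarith
  have h6 : a / (t - |α|) ≤ a / (t - α) + a / (t + α) := by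
    have b1 : 0 ≤ a / (t - α) := div_nonneg ha (by linarith [le_abs_self α])
    have b2 : 0 ≤ a / (t + α) := div_nonneg ha (by linarith [neg_abs_le α])
    rcases abs_cases α with c | c
    · rw [c.1]; linarith
    · rw [c.1, sub_neg_eq_add]; linarith
  calc a * ∑ i ∈ range k, (|α| / τ) ^ i ≤ a * (3 * τ / (t - |α|)) := mul_le_mul_of_nonneg_left h5 ha
    _ = 3 * τ * (a / (t - |α|)) := by ring
    _ ≤ _ := mul_le_mul_of_nonneg_left h6 (by positivity)

theorem KP.big_part {u p : ℝ} (hp : 2 ≤ p) (hu : 1 - 1 / p ≤ u) {n : ℕ} (hn : (n : ℝ) + 2 = p) :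
    ∑ i ∈ range (n + 1), u ^ i ≤ 3 * (p * u ^ n) := by
  have h0 : 0 ≤ 1 - 1 / p := by rw [sub_nonneg, div_le_one (by linarith)]; linarith
  have hu0 : 0 ≤ u := h0.trans hu
  have hn0 : 0 ≤ u ^ n := pow_nonneg hu0 _
  have h1 : ∀ i ∈ range (n + 1), u ^ i ≤ 3 * u ^ n := by
    intro i hi
    rcases le_total 1 u with h | h
    · have := pow_le_pow_right₀ h (Nat.lt_succ_iff.mp (mem_range.mp hi))
      linarith
    · have a1 := pow_le_one₀ (n := i) hu0 h
      have a2 := third hp (k := n) (by linarith)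
      have a3 := pow_le_pow_left₀ h0 hu n
      linarith
  have h2 := sum_le_sum h1
  rw [sum_const, card_range, nsmul_eq_mul] at h2
  push_cast at h2
  nlinarith

theorem KP.total (hA : A.Monic) (hr : A.roots.card = A.natDegree) (hm : ∀ α, 0 ≤ m α) (hq : 10 ≤ q)
    {τ : ℝ} (hτ : 0 < τ)
    (hF : rs (fun s => s ^ (2 * q)) (X * A - Bm A m) - rs (fun s => s ^ (2 * q)) A < τ ^ (2 * q)) :
    ∑ α ∈ A.roots.toFinset, m α * (3 * ∑ i ∈ range (2 * q - 1), (|α| / τ) ^ i +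
      2 * q * (|α| / τ) ^ (2 * q - 2)) ≤ 48 * τ ^ 2 := by
  obtain ⟨n, hn⟩ : ∃ n, 2 * q = n + 2 := ⟨2 * q - 2, by omega⟩
  have hn' : (n : ℝ) + 2 = 2 * q := by exact_mod_cast hn.symm
  have hq' : (10 : ℝ) ≤ q := by exact_mod_cast hq
  set p : ℝ := 2 * q with hp
  have p20 : 20 ≤ p := by linarith
  have p0 : 0 < p := by linarith
  have h0 : 0 < 1 - 1 / p := by rw [sub_pos, div_lt_one p0]; linarith
  have hz : 0 < τ * (1 - 1 / p) := mul_pos hτ h0
  have l1 := lowP1 hA hr hm (q := q) (by omega)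
  have l2 := lowP2 hA hr hm (q := q) (by omega) hz
  have ev : Even n := ⟨q - 1, by omega⟩
  rw [show 2 * q - 2 = n by omega] at l1 l2 ⊢
  rw [show 2 * q - 1 = n + 1 by omega]
  have hτp : τ ^ (2 * q) = τ ^ n * τ ^ 2 := by rw [hn, pow_add]
  have tn : 0 < τ ^ n := pow_pos hτ n
  have a1 : ∑ α ∈ A.roots.toFinset, m α * (p * (|α| / τ) ^ n) ≤ 2 * τ ^ 2 := by
    have : ∑ α ∈ A.roots.toFinset, m α * (p * (|α| / τ) ^ n) =
        2 * (q * ∑ α ∈ A.roots.toFinset, m α * α ^ n) / τ ^ n := by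
      rw [mul_sum, mul_sum, sum_div]
      exact sum_congr rfl fun α _ => by rw [div_pow, ev.pow_abs, hp]; ring
    rw [this, div_le_iff₀ tn]
    linarith
  have th := third (p := p) (by linarith) (k := n) (by linarith)
  obtain ⟨l3, l4⟩ := lower hA hr hm hz
  have F0 := (sum_nonneg fun α _ => hm α).trans l3
  have ip : 0 < 1 / p := by positivity
  have ip' : 1 / p ≤ 1 / 20 := one_div_le_one_div_of_le (by norm_num) p20
  have e2 : 2 / p = 2 * (1 / p) := by ring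
  obtain ⟨l5, l6⟩ := l4 (τ * (1 + 2 / p)) (by rw [e2]; nlinarith) (by
    set F := rs (phi (τ * (1 - 1 / p))) (X * A - Bm A m) - rs (phi (τ * (1 - 1 / p))) A
    have b1 : q * (1 - 1 / p) ^ n * F < τ ^ 2 := by
      have := l2.trans_lt hF
      rw [hτp, mul_pow] at this
      refine lt_of_mul_lt_mul_left (a := τ ^ n) (by linarith) tn.le
    have b2 : q * F ≤ 3 * (q * (1 - 1 / p) ^ n * F) := by
      have := mul_le_mul_of_nonneg_left th (mul_nonneg (by linarith : (0 : ℝ) ≤ q) F0)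
      linarith
    have b3 : p * F < 6 * τ ^ 2 := by rw [hp]; linarith
    have b4 : F < 6 * τ ^ 2 * (1 / p) := by rw [mul_one_div, lt_div_iff₀ p0]; linarith
    have b5 : 0 ≤ τ ^ 2 * (1 / p) ^ 2 := by positivity
    rw [e2]
    nlinarith)
  have a2 : ∑ α ∈ A.roots.toFinset with |α| ≤ τ * (1 - 1 / p), m α * ∑ i ∈ range (n + 1), (|α| / τ) ^ i ≤
      3 * τ * (τ * (1 + 2 / p) + τ * (1 + 2 / p)) := by
    refine (sum_le_sum fun α hα => small_part (hm α) hτ p0 rfl (mem_filter.mp hα).2 (n + 1)).trans ?_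
    rw [← mul_sum, sum_add_distrib]
    exact mul_le_mul_of_nonneg_left (add_le_add l5 l6) (by positivity)
  have a3 : ∑ α ∈ A.roots.toFinset with τ * (1 - 1 / p) < |α|, m α * ∑ i ∈ range (n + 1), (|α| / τ) ^ i ≤
      3 * ∑ α ∈ A.roots.toFinset, m α * (p * (|α| / τ) ^ n) := by
    rw [mul_sum]
    refine (sum_le_sum fun α hα => ?_).trans (sum_le_sum_of_subset_of_nonneg (filter_subset _ _)
      fun α _ _ => by have := hm α; positivity)
    have := big_part (u := |α| / τ) (p := p) (by linarith)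
      (by rw [le_div_iff₀ hτ]; linarith [(mem_filter.mp hα).2]) hn'
    have := mul_le_mul_of_nonneg_left this (hm α)
    linarith
  have a4 := sum_split A.roots.toFinset (fun α => m α * ∑ i ∈ range (n + 1), (|α| / τ) ^ i)
    (τ * (1 - 1 / p))
  have a5 : ∑ α ∈ A.roots.toFinset, m α * (3 * ∑ i ∈ range (n + 1), (|α| / τ) ^ i + p * (|α| / τ) ^ n) =
      3 * ∑ α ∈ A.roots.toFinset, m α * ∑ i ∈ range (n + 1), (|α| / τ) ^ i +
        ∑ α ∈ A.roots.toFinset, m α * (p * (|α| / τ) ^ n) := by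
    rw [mul_sum, ← sum_add_distrib]
    exact sum_congr rfl fun α _ => by ring
  have a6 : τ ^ 2 * (1 / p) ≤ τ ^ 2 * (1 / 20) := mul_le_mul_of_nonneg_left ip' (sq_nonneg τ)
  rw [a5, a4]
  rw [e2] at a2
  nlinarith [sq_nonneg τ]

theorem klemP {r : ℕ} (hr : 0 < r) {B : Fin r → ℝ[X]} (h : ∀ c, Herg A (B c)) (hq : 10 ≤ q) {η : ℝ}
    (hη : 0 < η) : ∃ c, rs (fun s => s ^ (2 * q)) (X * A - C (1 / 48) * B c) ≤
      rs (fun s => s ^ (2 * q)) (X * A - C (1 / (r : ℝ)) * ∑ c, B c) + η := by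
  have hA := (h ⟨0, hr⟩).monic
  have hre := (h ⟨0, hr⟩).real
  have hr' : (0 : ℝ) < r := by exact_mod_cast hr
  choose μ hμ hB using fun c => pf (h c)
  have e1 : C (1 / (r : ℝ)) * ∑ c, B c = Bm A fun α => 1 / (r : ℝ) * ∑ c, μ c α := by
    rw [sum_congr rfl fun c _ => hB c, Bm_sum, Bm_smul]
  have hbar : ∀ α, 0 ≤ 1 / (r : ℝ) * ∑ c, μ c α := fun α =>
    mul_nonneg (by positivity) (sum_nonneg fun c _ => hμ c α)
  have l1 := lowP1 hA hre hbar (q := q) (by omega)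
  rw [e1]
  set F := rs (fun s => s ^ (2 * q)) (X * A - Bm A fun α => 1 / (r : ℝ) * ∑ c, μ c α) -
    rs (fun s => s ^ (2 * q)) A with hF
  have hF0 : 0 ≤ F := le_trans (mul_nonneg (Nat.cast_nonneg _) (sum_nonneg fun α _ =>
    mul_nonneg (hbar α) (Even.pow_nonneg ⟨q - 1, by omega⟩ α))) l1
  obtain ⟨τ, hτ, hτp⟩ : ∃ τ : ℝ, 0 < τ ∧ τ ^ (2 * q) = F + η :=
    ⟨(F + η) ^ ((2 * q : ℕ) : ℝ)⁻¹, Real.rpow_pos_of_pos (by linarith) _,
      Real.rpow_inv_natCast_pow (by linarith) (by omega)⟩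
  have ht := total hA hre hbar hq hτ (by rw [← hF, hτp]; linarith)
  obtain ⟨c, hc⟩ := avg_choice hr (fun c => ∑ α ∈ A.roots.toFinset, μ c α *
      (3 * ∑ i ∈ range (2 * q - 1), (|α| / τ) ^ i + 2 * q * (|α| / τ) ^ (2 * q - 2))) (b := 48 * τ ^ 2) (by
    rw [sum_comm, mul_sum]
    refine le_of_eq_of_le (sum_congr rfl fun α _ => ?_) ht
    rw [← sum_mul, ← mul_assoc])
  have hu := upP (m := fun α => 1 / 48 * μ c α) hA hre
    (fun α => mul_nonneg (by norm_num) (hμ c α)) (q := q) (by omega) hτ (by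
      simp only [mul_assoc (1 / 48 : ℝ)]
      rw [← mul_sum]
      linarith)
  refine ⟨c, ?_⟩
  rw [hB c, Bm_smul]
  linarith

end Vale.Agent.P078
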