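import Vale.Agent.P078.Defs
import Vale.Agent.P070h8.Hil

/-!
Operator algebra basics and the trace preserving conditional expectation.

PLAN. `comm_mem`: real and imaginary parts of `m` commute with `A`; for selfadjoint `b` commuting with `A` the star subalgebra
`StarAlgebra.adjoin ℂ (insert b A)` (or the bicommutant of that set) is commutative and inside `M`. `dense_comm`: the projection onto the
closure of `M' Ω` commutes with `M'` (see `comm_proj` in Vale/Agent/P070h8/Hil.lean, may be imported), so lies in `M`, and fixes `Ω`.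
`lim_mem`: pointwise Cauchy on the dense set, bounded; the limit commutes with `M'`. `cut`: projection onto the kernel of `b⁺`
(copy `spec` of Hil.lean; everything commuting with `b` and with its adjoint commutes with `b⁺`; for the commutation with a general
`T` use `Commute.cfcₙ_real` for `T` and `star T`). `exists_E`: let `K m` be the convex hull of `{u m u* | u unitary in A}`; a sequence
`y n ∈ K m` minimising `‖y Ω‖` is Cauchy (parallelogram law), its limit `E m` (`lim_mem`) is fixed by conjugation (uniqueness of the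
minimiser: `‖u y u* Ω‖ = ‖y Ω‖`), so commutes with `A` (`span_A`). `tau (a * y) = tau (a * m)` on `K m`. All algebraic properties follow
from uniqueness: `e ∈ A` with `tau (a * e) = 0` for all `a ∈ A` is 0.
-/

open scoped InnerProductSpace
open Vale.Agent.P070h8 Filter Topology

namespace Vale.Agent.P078

variable {H : Type*} [NormedAddCommGroup H] [InnerProductSpace ℂ H] [CompleteSpace H]
  {M : VonNeumannAlgebra H} {A : StarSubalgebra ℂ (H →L[ℂ] H)} {Ω : H} {a b m : H →L[ℂ] H}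

noncomputable def tau (Ω : H) (m : H →L[ℂ] H) : ℂ := ⟪Ω, m Ω⟫_ℂ

theorem mem_norm {u : H →L[ℂ] H} : u ∈ normalizer M A ↔ u ∈ M ∧ u ∈ unitary (H →L[ℂ] H) ∧
    (∀ a ∈ A, u * a * star u ∈ A) ∧ ∀ a ∈ A, star u * a * u ∈ A := by
  refine and_congr_right fun _ => and_congr_right fun hu => ⟨fun h => ⟨fun a ha => ?_, fun a ha => ?_⟩,
    fun h => Set.Subset.antisymm ?_ fun a ha => ⟨_, h.2 a ha, ?_⟩⟩
  · exact h.subset ⟨a, ha, rfl⟩
  · obtain ⟨b, hb, rfl⟩ := h.symm.subset ha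
    have : star u * (u * b * star u) * u = b := by
      rw [show star u * (u * b * star u) * u = (star u * u) * b * (star u * u) by noncomm_ring, hu.1]
      simp
    rw [this]; exact hb
  · rintro _ ⟨a, ha, rfl⟩
    exact h.1 a ha
  · change u * (star u * a * u) * star u = a
    rw [show u * (star u * a * u) * star u = (u * star u) * a * (u * star u) by noncomm_ring, hu.2]
    simp

/-- The normalizer as a group. -/
def NG (M : VonNeumannAlgebra H) (A : StarSubalgebra ℂ (H →L[ℂ] H)) :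
    Subgroup (unitary (H →L[ℂ] H)) where
  carrier := {u | (u : H →L[ℂ] H) ∈ normalizer M A}
  one_mem' := mem_norm.2 ⟨one_mem M, one_mem _, fun a ha => by simpa using ha,
    fun a ha => by simpa using ha⟩
  mul_mem' := by
    intro u v hu hv
    obtain ⟨u1, u2, u3, u4⟩ := mem_norm.1 hu
    obtain ⟨v1, v2, v3, v4⟩ := mem_norm.1 hv
    refine mem_norm.2 ⟨mul_mem u1 v1, mul_mem u2 v2, fun a ha => ?_, fun a ha => ?_⟩
    · simpa [mul_assoc] using u3 _ (v3 a ha)
    · simpa [mul_assoc] using v4 _ (u4 a ha)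
  inv_mem' := by
    intro u hu
    obtain ⟨u1, u2, u3, u4⟩ := mem_norm.1 hu
    refine mem_norm.2 ⟨star_mem u1, Unitary.star_mem u2, fun a ha => ?_, fun a ha => ?_⟩
    · simpa [← Unitary.star_eq_inv] using u4 a ha
    · simpa [← Unitary.star_eq_inv] using u3 a ha

def op (w : NG M A) : H →L[ℂ] H := ((w : unitary (H →L[ℂ] H)) : H →L[ℂ] H)

theorem op_norm (w : NG M A) : op w ∈ normalizer M A := w.2

theorem op_mem (w : NG M A) : op w ∈ M := (op_norm w).1

theorem op_mul (w w' : NG M A) : op (w * w') = op w * op w' := rfl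

theorem op_one : op (1 : NG M A) = 1 := rfl

theorem op_inv (w : NG M A) : op w⁻¹ = star (op w) := rfl

theorem comm_mem_sa (hA : IsMASA M A) (hm : m ∈ M) (hs : star m = m)
    (h : ∀ a ∈ A, m * a = a * m) : m ∈ A := by
  let S : Set (H →L[ℂ] H) := insert m A
  have s1 : ∀ x ∈ S, star x ∈ S := by
    rintro x (rfl | hx)
    exacts [.inl hs, .inr (star_mem hx)]
  have s2 : ∀ x ∈ S, ∀ y ∈ S, x * y = y * x := by
    rintro x (rfl | hx) y (rfl | hy)
    exacts [rfl, h y hy, (h x hx).symm, hA.2.1 x hx y hy]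
  let C1 := StarSubalgebra.centralizer ℂ S
  let C2 := StarSubalgebra.centralizer ℂ (C1 : Set (H →L[ℂ] H))
  have c1 : ∀ x ∈ S, x ∈ C1 := fun x hx => (StarSubalgebra.mem_centralizer_iff ℂ).2 fun g hg =>
    ⟨s2 g hg x hx, s2 _ (s1 g hg) x hx⟩
  have c2 : ∀ x ∈ S, x ∈ C2 := fun x hx => (StarSubalgebra.mem_centralizer_iff ℂ).2 fun g hg =>
    ⟨((StarSubalgebra.mem_centralizer_iff ℂ).1 hg x hx).1.symm,
      ((StarSubalgebra.mem_centralizer_iff ℂ).1 (star_mem (show g ∈ C1 from hg)) x hx).1.symm⟩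
  have c3 : ∀ x ∈ C2, x ∈ C1 := fun x hx => (StarSubalgebra.mem_centralizer_iff ℂ).2 fun g hg =>
    (StarSubalgebra.mem_centralizer_iff ℂ).1 hx g (c1 g hg)
  have e := hA.2.2 (M.toStarSubalgebra ⊓ C2) (fun b hb => hb.1)
    (fun a ha b hb => ((StarSubalgebra.mem_centralizer_iff ℂ).1 hb.2 a (c3 a ha.2)).1)
    fun a ha => ⟨hA.1 a ha, c2 a (.inr ha)⟩
  exact e ▸ (⟨hm, c2 m (.inl rfl)⟩ : m ∈ M.toStarSubalgebra ⊓ C2)

theorem comm_mem (hA : IsMASA M A) (hm : m ∈ M) (h : ∀ a ∈ A, m * a = a * m) : m ∈ A := by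
  have h' : ∀ a ∈ A, star m * a = a * star m := fun a ha => by
    simpa using (congrArg star (h _ (star_mem ha))).symm
  have h1 := comm_mem_sa hA (add_mem hm (star_mem hm)) (by simp [add_comm]) fun a ha => by
    rw [add_mul, mul_add, h a ha, h' a ha]
  have h2 := comm_mem_sa (m := Complex.I • (m - star m)) hA
    (M.toStarSubalgebra.smul_mem (sub_mem hm (star_mem hm)) _) (by simp [← smul_neg]) fun a ha => by
      rw [smul_mul_assoc, mul_smul_comm, sub_mul, mul_sub, h a ha, h' a ha]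
  have e : m = (1 / 2 : ℂ) • (m + star m - Complex.I • Complex.I • (m - star m)) := by
    rw [smul_smul, Complex.I_mul_I]
    module
  rw [e]
  exact A.smul_mem (sub_mem h1 (A.smul_mem h2 _)) _

theorem closed_M (M : VonNeumannAlgebra H) : IsClosed (M : Set (H →L[ℂ] H)) := by
  rw [← M.centralizer_centralizer]
  exact Set.isClosed_centralizer _

theorem closed_A (hA : IsMASA M A) : IsClosed (A : Set (H →L[ℂ] H)) := by
  have : (A : Set (H →L[ℂ] H)) = (M : Set (H →L[ℂ] H)) ∩ Set.centralizer (A : Set (H →L[ℂ] H)) :=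
    Set.ext fun x => ⟨fun hx => ⟨hA.1 x hx, fun a ha => hA.2.1 a ha x hx⟩,
      fun hx => comm_mem hA hx.1 fun a ha => (hx.2 a ha).symm⟩
  rw [this]
  exact (closed_M M).inter (Set.isClosed_centralizer _)

theorem smul_mem_M (hm : m ∈ M) (c : ℂ) : c • m ∈ M :=
  M.toStarSubalgebra.smul_mem hm c

theorem mem_of_comm (h : ∀ T ∈ M.commutant, Commute T m) : m ∈ M := by
  rw [← M.commutant_commutant]
  exact VonNeumannAlgebra.mem_commutant_iff.2 fun g hg => (h g hg).eq

theorem comm_apply {T : H →L[ℂ] H} (hT : T ∈ M.commutant) (hm : m ∈ M) (ξ : H) :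
    m (T ξ) = T (m ξ) :=
  congrArg (fun S : H →L[ℂ] H => S ξ) (VonNeumannAlgebra.mem_commutant_iff.1 hT m hm)

theorem span_A (hA : IsMASA M A) (ha : a ∈ A) :
    a ∈ Submodule.span ℂ {u : H →L[ℂ] H | u ∈ A ∧ u ∈ unitary (H →L[ℂ] H)} := by
  haveI := closed_A hA
  have h : (⟨a, ha⟩ : A) ∈ Submodule.span ℂ (unitary A : Set A) := by
    rw [CStarAlgebra.span_unitary]
    trivial
  have := Submodule.mem_map_of_mem (f := A.subtype.toLinearMap) h
  rw [Submodule.map_span] at this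
  refine Submodule.span_mono ?_ this
  rintro _ ⟨u, hu, rfl⟩
  exact ⟨u.2, congrArg Subtype.val hu.1, congrArg Subtype.val hu.2⟩

theorem re_tau (m : H →L[ℂ] H) : (tau Ω (star m * m)).re = ‖m Ω‖ ^ 2 := re_inner_star_mul m Ω

theorem tau_comm (hΩ : IsTraceVector M Ω) (ha : a ∈ M) (hb : b ∈ M) :
    tau Ω (a * b) = tau Ω (b * a) := hΩ.2.1 a ha b hb

theorem tau_add (a b : H →L[ℂ] H) : tau Ω (a + b) = tau Ω a + tau Ω b := by
  simp [tau, inner_add_right]

theorem tau_sub (a b : H →L[ℂ] H) : tau Ω (a - b) = tau Ω a - tau Ω b := by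
  simp [tau, inner_sub_right]

theorem tau_smul (c : ℂ) (a : H →L[ℂ] H) : tau Ω (c • a) = c * tau Ω a := by
  simp [tau, inner_smul_right]

theorem tau_star (a : H →L[ℂ] H) : tau Ω (star a) = starRingEnd ℂ (tau Ω a) := by
  rw [tau, tau, inner_star_right, inner_conj_symm]

theorem tau_mul (a b : H →L[ℂ] H) : tau Ω (a * b) = ⟪star a Ω, b Ω⟫_ℂ := by
  rw [tau, inner_star_left]
  rfl

theorem norm_star_Om (hΩ : IsTraceVector M Ω) (hm : m ∈ M) : ‖star m Ω‖ = ‖m Ω‖ := by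
  have h := re_tau (Ω := Ω) (star m)
  rw [star_star, tau_comm hΩ hm (star_mem hm), re_tau] at h
  exact (pow_left_inj₀ (norm_nonneg _) (norm_nonneg _) two_ne_zero).1 h.symm

theorem norm_mul_Om (hΩ : IsTraceVector M Ω) (ha : a ∈ M) (hb : b ∈ M) :
    ‖(a * b) Ω‖ ≤ ‖a Ω‖ * ‖b‖ := by
  rw [← norm_star_Om hΩ (mul_mem ha hb), star_mul, ← norm_star_Om hΩ ha, mul_comm, ← norm_star b]
  exact (star b).le_opNorm _

theorem dense_comm (hΩ : IsTraceVector M Ω) : Dense {ξ | ∃ T ∈ M.commutant, T Ω = ξ} := by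
  let K0 : Submodule ℂ H := M.commutant.toStarSubalgebra.toSubalgebra.toSubmodule.map
    (ContinuousLinearMap.apply ℂ H Ω).toLinearMap
  let K := K0.topologicalClosure
  haveI : CompleteSpace K := K0.isClosed_topologicalClosure.completeSpace_coe
  have inv : ∀ T ∈ M.commutant, ∀ x ∈ K, T x ∈ K := fun T hT x hx => by
    refine map_mem_closure T.continuous hx ?_
    rintro _ ⟨S, hS, rfl⟩
    exact ⟨T * S, (mul_mem hT (show S ∈ M.commutant from hS) : T * S ∈ M.commutant), rfl⟩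
  have hP : K.starProjection ∈ M := mem_of_comm fun T hT => by
    ext x
    exact (comm_proj K T (inv T hT) (inv _ (star_mem hT)) x).symm
  have h1 : Ω ∈ K := K0.le_topologicalClosure ⟨1, (one_mem _ : 1 ∈ M.commutant), rfl⟩
  have h2 := hΩ.2.2 _ (sub_mem (one_mem M) hP) (by
    simp [Submodule.starProjection_eq_self_iff.2 h1])
  intro x
  have h3 : x = K.starProjection x := by
    simpa [sub_eq_zero] using congrArg (fun S : H →L[ℂ] H => S x) h2
  exact h3 ▸ K.starProjection_apply_mem x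

theorem lim_mem (hΩ : IsTraceVector M Ω) {y : ℕ → H →L[ℂ] H} (hy : ∀ n, y n ∈ M) {C : ℝ}
    (hC : ∀ n, ‖y n‖ ≤ C) (hc : CauchySeq fun n => y n Ω) :
    ∃ m ∈ M, ∀ ξ, Filter.Tendsto (fun n => y n ξ) Filter.atTop (nhds (m ξ)) := by
  have C0 : 0 ≤ C := (norm_nonneg _).trans (hC 0)
  have h1 : ∀ ξ, CauchySeq fun n => y n ξ := fun ξ => by
    refine Metric.cauchySeq_iff'.2 fun ε hε => ?_
    obtain ⟨_, ⟨T, hT, rfl⟩, d⟩ := Metric.mem_closure_iff.1 (dense_comm hΩ ξ) (ε / (4 * (C + 1)))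
      (by positivity)
    obtain ⟨N, hN⟩ := Metric.cauchySeq_iff'.1 (T.uniformContinuous.comp_cauchySeq hc) (ε / 2)
      (by positivity)
    refine ⟨N, fun n hn => ?_⟩
    have e1 := hN n hn
    simp only [Function.comp, ← comm_apply hT (hy _)] at e1
    have e2 : ∀ k, dist (y k ξ) (y k (T Ω)) ≤ ε / 4 := fun k => by
      refine ((y k).dist_le_opNorm _ _).trans ?_
      refine (mul_le_mul ((hC k).trans (le_add_of_nonneg_right zero_le_one)) d.le dist_nonneg
        (by positivity)).trans (le_of_eq ?_)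
      field_simp
    linarith [dist_triangle4 (y n ξ) (y n (T Ω)) (y N (T Ω)) (y N ξ), e2 n, e2 N,
      dist_comm (y N (T Ω)) (y N ξ)]
  choose f hf using fun ξ => cauchySeq_tendsto_of_complete (h1 ξ)
  refine ⟨continuousLinearMapOfTendsto y (tendsto_pi_nhds.2 hf), mem_of_comm fun T hT => ?_, hf⟩
  ext ξ
  exact tendsto_nhds_unique ((T.continuous.tendsto _).comp (hf ξ))
    ((hf (T ξ)).congr fun n => comm_apply hT (hy n) ξ)

theorem small_of_tau (hΩ : IsTraceVector M Ω) (F : Finset H) {δ : ℝ} (hδ : 0 < δ) :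
    ∃ η : ℝ, 0 < η ∧ ∀ q ∈ M, ‖q‖ ≤ 1 → ‖q Ω‖ ≤ η → ∀ ξ ∈ F, ‖q ξ‖ < δ := by
  classical
  induction F using Finset.induction_on with
  | empty => exact ⟨1, one_pos, by simp⟩
  | insert ξ F _ ih =>
    obtain ⟨η, h0, h1⟩ := ih
    obtain ⟨_, ⟨T, hT, rfl⟩, d⟩ := Metric.mem_closure_iff.1 (dense_comm hΩ ξ) (δ / 2)
      (by positivity)
    refine ⟨min η (δ / (2 * (‖T‖ + 1))), by positivity, fun q hq q1 q2 ζ hζ => ?_⟩
    rcases Finset.mem_insert.1 hζ with rfl | hζ
    · have e1 : ‖q (ζ - T Ω)‖ < δ / 2 := by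
        rw [dist_eq_norm] at d
        exact (q.le_opNorm _).trans_lt ((mul_le_of_le_one_left (norm_nonneg _) q1).trans_lt d)
      have e2 : ‖q (T Ω)‖ ≤ δ / 2 := by
        rw [comm_apply hT hq]
        refine (T.le_opNorm _).trans ((mul_le_mul (le_add_of_nonneg_right zero_le_one)
          (q2.trans (min_le_right _ _)) (norm_nonneg _) (by positivity)).trans (le_of_eq ?_))
        field_simp
      have e3 : q ζ = q (ζ - T Ω) + q (T Ω) := by simp
      linarith [e3 ▸ norm_add_le (q (ζ - T Ω)) (q (T Ω))]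
    · exact h1 q hq q1 (q2.trans (min_le_left _ _)) ζ hζ

theorem cut (hb : IsSelfAdjoint b) : ∃ g : H →L[ℂ] H, IsStarProjection g ∧
    (∀ T, Commute T b → Commute (star T) b → Commute T g) ∧ g * b * g ≤ 0 ∧
      0 ≤ (1 - g) * b * (1 - g) := by
  let K : Submodule ℂ H := (b⁺).ker
  haveI : CompleteSpace K := (b⁺).isClosed_ker.completeSpace_coe
  have inv : ∀ T, Commute T b → ∀ x ∈ K, T x ∈ K := fun T hT x hx => by
    have cp : Commute b⁺ T := by
      rw [CFC.posPart_def]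
      exact hT.symm.cfcₙ_real _
    change (b⁺ * T) x = 0
    rw [cp.eq, ContinuousLinearMap.mul_apply, show b⁺ x = 0 from hx, map_zero]
  have hg : IsStarProjection K.starProjection := isStarProjection_starProjection
  have inn : ∀ x, ⟪x, b x⟫_ℂ = ⟪x, b⁺ x⟫_ℂ - ⟪x, b⁻ x⟫_ℂ := fun x => by
    rw [← inner_sub_right, ← ContinuousLinearMap.sub_apply, CFC.posPart_sub_negPart b hb]
  have sand : ∀ p : H →L[ℂ] H, IsStarProjection p → ∀ x, ⟪x, (p * b * p) x⟫_ℂ = ⟪p x, b (p x)⟫_ℂ :=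
    fun p hp x => by
      rw [← inner_star_right, hp.isSelfAdjoint.star_eq]
      rfl
  have sa : ∀ p : H →L[ℂ] H, IsStarProjection p → star (p * b * p) = p * b * p := fun p hp => by
    simp [hp.isSelfAdjoint.star_eq, hb.star_eq, mul_assoc]
  refine ⟨K.starProjection, hg, fun T h1 h2 => ?_, neg_nonneg.1 (nonneg_of_re ?_ fun x => ?_),
    nonneg_of_re (sa _ hg.one_sub) fun x => ?_⟩
  · ext x
    exact (comm_proj K T (inv T h1) (inv _ h2) x).symm
  · rw [star_neg, sa _ hg]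
  · rw [ContinuousLinearMap.neg_apply, inner_neg_right, sand _ hg, inn,
      show b⁺ (K.starProjection x) = 0 from K.starProjection_apply_mem x]
    simpa using re_inner_nonneg (CFC.negPart_nonneg b) (K.starProjection x)
  · have hm : b⁻ ((1 - K.starProjection) x) ∈ K := by
      change (b⁺ * b⁻) _ = 0
      rw [CFC.posPart_mul_negPart]
      rfl
    have h0 : ⟪(1 - K.starProjection) x, b⁻ ((1 - K.starProjection) x)⟫_ℂ = 0 :=
      K.starProjection_inner_eq_zero x _ hm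
    rw [sand _ hg.one_sub, inn, h0, sub_zero]
    exact re_inner_nonneg (CFC.posPart_nonneg b) _

structure IsE (M : VonNeumannAlgebra H) (A : StarSubalgebra ℂ (H →L[ℂ] H)) (Ω : H)
    (E : (H →L[ℂ] H) → H →L[ℂ] H) : Prop where
  mem : ∀ m ∈ M, E m ∈ A
  tr : ∀ m ∈ M, tau Ω (E m) = tau Ω m
  norm : ∀ m ∈ M, ‖E m‖ ≤ ‖m‖
  norm2 : ∀ m ∈ M, ‖E m Ω‖ ≤ ‖m Ω‖
  pos : ∀ m ∈ M, 0 ≤ m → 0 ≤ E m
  add : ∀ m ∈ M, ∀ m' ∈ M, E (m + m') = E m + E m'
  smul : ∀ m ∈ M, ∀ c : ℂ, E (c • m) = c • E m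
  star : ∀ m ∈ M, E (star m) = star (E m)
  left : ∀ a ∈ A, ∀ m ∈ M, E (a * m) = a * E m
  right : ∀ a ∈ A, ∀ m ∈ M, E (m * a) = E m * a
  self : ∀ a ∈ A, E a = a
  conj : ∀ w : NG M A, ∀ m ∈ M, E (op w * m * Star.star (op w)) = op w * E m * Star.star (op w)

theorem nonneg_iff_inner : 0 ≤ a ↔ ∀ x, ⟪a x, x⟫_ℂ ∈ {z : ℂ | (z.re : ℂ) = z ∧ 0 ≤ z.re} := by
  rw [ContinuousLinearMap.nonneg_iff_isPositive, ContinuousLinearMap.isPositive_iff_complex]
  rfl

theorem exists_e (hA : IsMASA M A) (hΩ : IsTraceVector M Ω) (hm : m ∈ M) : ∃ e ∈ A,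
    (∀ a ∈ A, tau Ω (a * e) = tau Ω (a * m)) ∧ ‖e‖ ≤ ‖m‖ ∧ (0 ≤ m → 0 ≤ e) := by
  let K : Set (H →L[ℂ] H) :=
    {e | e ∈ M ∧ (∀ a ∈ A, tau Ω (a * e) = tau Ω (a * m)) ∧ ‖e‖ ≤ ‖m‖ ∧ (0 ≤ m → 0 ≤ e)}
  let S : Set ℝ := (fun e : H →L[ℂ] H => ‖e Ω‖ ^ 2) '' K
  have S1 : BddBelow S := ⟨0, by rintro _ ⟨e, -, rfl⟩; positivity⟩
  have mid : ∀ e ∈ K, ∀ e' ∈ K, ‖e Ω - e' Ω‖ ^ 2 ≤ 2 * (‖e Ω‖ ^ 2 + ‖e' Ω‖ ^ 2) - 4 * sInf S := by
    intro e he e' he'
    have h1 : (1 / 2 : ℂ) • (e + e') ∈ K := by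
      refine ⟨smul_mem_M (add_mem he.1 he'.1) _, fun a ha => ?_, ?_, fun h => ?_⟩
      · rw [mul_smul_comm, tau_smul, mul_add, tau_add, he.2.1 a ha, he'.2.1 a ha]
        ring
      · rw [norm_smul]
        have := norm_add_le e e'
        have := he.2.2.1
        have := he'.2.2.1
        norm_num
        linarith
      · rw [show (1 / 2 : ℂ) = ((1 / 2 : ℝ) : ℂ) by simp, Complex.coe_smul]
        exact smul_nonneg (by norm_num) (add_nonneg (he.2.2.2 h) (he'.2.2.2 h))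
    have h2 := csInf_le S1 ⟨_, h1, rfl⟩
    simp only [ContinuousLinearMap.smul_apply, ContinuousLinearMap.add_apply, norm_smul] at h2
    have h3 := parallelogram_law_with_norm ℂ (e Ω) (e' Ω)
    norm_num [mul_pow] at h2
    linarith
  obtain ⟨u, u1, u2, u3⟩ := exists_seq_tendsto_sInf
    (⟨_, m, ⟨hm, fun _ _ => rfl, le_rfl, id⟩, rfl⟩ : S.Nonempty) S1
  choose y y1 y2 using u3
  simp only at y2
  obtain ⟨e, e1, e2⟩ := lim_mem hΩ (fun n => (y1 n).1) (fun n => (y1 n).2.2.1) (by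
    refine Metric.cauchySeq_iff'.2 fun ε hε => ?_
    obtain ⟨N, hN⟩ := (u2.eventually (gt_mem_nhds (show sInf S < sInf S + ε ^ 2 / 4 by
      linarith [pow_pos hε 2]))).exists
    refine ⟨N, fun n hn => ?_⟩
    have := mid _ (y1 n) _ (y1 N)
    rw [y2, y2] at this
    rw [dist_eq_norm]
    exact lt_of_pow_lt_pow_left₀ 2 hε.le (by linarith [u1 hn]))
  have eK : e ∈ K := by
    refine ⟨e1, fun a ha => ?_, e.opNorm_le_bound (norm_nonneg _) fun ξ => ?_, fun h => ?_⟩
    · rw [tau_mul]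
      refine tendsto_nhds_unique (tendsto_const_nhds.inner (e2 Ω)) (tendsto_const_nhds.congr
        fun n => ?_)
      rw [← tau_mul, (y1 n).2.1 a ha]
    · exact le_of_tendsto' (e2 ξ).norm fun n => ((y n).le_opNorm ξ).trans
        (mul_le_mul_of_nonneg_right (y1 n).2.2.1 (norm_nonneg _))
    · refine nonneg_iff_inner.2 fun x => IsClosed.mem_of_tendsto ?_
        ((e2 x).inner tendsto_const_nhds) (.of_forall fun n =>
          nonneg_iff_inner.1 ((y1 n).2.2.2 h) x)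
      exact (isClosed_eq (by fun_prop) (by fun_prop)).inter
        (isClosed_le continuous_const Complex.continuous_re)
  have eS : ‖e Ω‖ ^ 2 = sInf S :=
    tendsto_nhds_unique ((e2 Ω).norm.pow 2) (u2.congr fun n => (y2 n).symm)
  refine ⟨e, comm_mem hA e1 fun a ha => ?_, eK.2⟩
  refine Submodule.span_induction (p := fun a _ => e * a = a * e) ?_ (by simp)
    (fun a b _ _ h1 h2 => by rw [mul_add, add_mul, h1, h2])
    (fun c a _ h => by rw [mul_smul_comm, smul_mul_assoc, h]) (span_A hA ha)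
  rintro v ⟨v1, v2⟩
  have vM := hA.1 v v1
  have n1 : ‖v * e * star v‖ = ‖e‖ := by
    rw [CStarRing.norm_mul_mem_unitary _ (Unitary.star_mem v2), CStarRing.norm_mem_unitary_mul _ v2]
  have cK : v * e * star v ∈ K := by
    refine ⟨mul_mem (mul_mem vM e1) (star_mem vM), fun a ha => ?_, n1.le.trans eK.2.2.1,
      fun h => star_right_conjugate_nonneg (eK.2.2.2 h) v⟩
    rw [← mul_assoc, tau_comm hΩ (mul_mem (hA.1 a ha) (mul_mem vM e1)) (star_mem vM),
      ← mul_assoc a, hA.2.1 a ha v v1, ← mul_assoc, ← mul_assoc, v2.1, one_mul, eK.2.1 a ha]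
  have n2 : ‖(v * e * star v) Ω‖ ^ 2 = ‖e Ω‖ ^ 2 := by
    rw [← re_tau, ← re_tau, show star (v * e * star v) * (v * e * star v) =
      v * (star e * (star v * v) * e * star v) by simp [mul_assoc], v2.1, mul_one,
      tau_comm hΩ vM (mul_mem (mul_mem (star_mem e1) e1) (star_mem vM)), mul_assoc, v2.1, mul_one]
  have n3 := mid _ eK _ cK
  rw [n2, eS] at n3
  have n4 : e - v * e * star v = 0 := hΩ.2.2 _ (sub_mem e1 cK.1) (by
    rw [ContinuousLinearMap.sub_apply, ← norm_eq_zero]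
    exact pow_eq_zero_iff (two_ne_zero) |>.1 (le_antisymm (by linarith) (sq_nonneg _)))
  rw [sub_eq_zero.1 n4, mul_assoc, v2.1, mul_one, ← sub_eq_zero.1 n4]

theorem exists_E (hA : IsMASA M A) (hΩ : IsTraceVector M Ω) : ∃ E, IsE M A Ω E := by
  choose! E E1 E2 E3 E4 using fun m (hm : m ∈ M) => exists_e hA hΩ hm
  have uq : ∀ m ∈ M, ∀ e ∈ A, (∀ a ∈ A, tau Ω (a * e) = tau Ω (a * m)) → E m = e := by
    intro m hm e he h
    have hd := sub_mem (E1 m hm) he
    have h1 := re_tau (Ω := Ω) (E m - e)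
    rw [mul_sub, tau_sub, E2 m hm _ (star_mem hd), h _ (star_mem hd), sub_self] at h1
    exact sub_eq_zero.1 (hΩ.2.2 _ (hA.1 _ hd) (norm_eq_zero.1 (pow_eq_zero_iff two_ne_zero |>.1
      (by simpa using h1.symm))))
  have EM := fun m hm => hA.1 _ (E1 m hm)
  refine ⟨E, E1, fun m hm => by simpa using E2 m hm 1 (one_mem A), E3, fun m hm => ?_, E4,
    fun m hm m' hm' => uq _ (add_mem hm hm') _ (add_mem (E1 m hm) (E1 m' hm')) fun a ha => ?_,
    fun m hm c => uq _ (smul_mem_M hm c) _ (A.smul_mem (E1 m hm) c) fun a ha => ?_,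
    fun m hm => uq _ (star_mem hm) _ (star_mem (E1 m hm)) fun a ha => ?_,
    fun b hb m hm => uq _ (mul_mem (hA.1 b hb) hm) _ (mul_mem hb (E1 m hm)) fun a ha => ?_,
    fun b hb m hm => uq _ (mul_mem hm (hA.1 b hb)) _ (mul_mem (E1 m hm) hb) fun a ha => ?_,
    fun a ha => uq _ (hA.1 a ha) _ ha fun _ _ => rfl,
    fun w m hm => uq _ (mul_mem (mul_mem (op_mem w) hm) (star_mem (op_mem w))) _
      ((mem_norm.1 (op_norm w)).2.2.1 _ (E1 m hm)) fun a ha => ?_⟩
  · have h1 := re_tau (Ω := Ω) (E m)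
    rw [E2 m hm _ (star_mem (E1 m hm)), tau_mul, star_star] at h1
    have h2 := (Complex.re_le_norm _).trans (norm_inner_le_norm (𝕜 := ℂ) (E m Ω) (m Ω))
    rw [h1] at h2
    by_contra k
    nlinarith [norm_nonneg (m Ω), not_le.1 k]
  · rw [mul_add, mul_add, tau_add, tau_add, E2 m hm a ha, E2 m' hm' a ha]
  · rw [mul_smul_comm, mul_smul_comm, tau_smul, tau_smul, E2 m hm a ha]
  · have k : ∀ x ∈ M, tau Ω (a * star x) = starRingEnd ℂ (tau Ω (star a * x)) := fun x hx => by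
      rw [← tau_star, star_mul, star_star, tau_comm hΩ (hA.1 a ha) (star_mem hx)]
    rw [k _ (EM m hm), k _ hm, E2 m hm _ (star_mem ha)]
  · rw [← mul_assoc, ← mul_assoc, E2 m hm _ (mul_mem ha hb)]
  · have k : ∀ x ∈ M, tau Ω (a * (x * b)) = tau Ω (b * a * x) := fun x hx => by
      rw [← mul_assoc, tau_comm hΩ (mul_mem (hA.1 a ha) hx) (hA.1 b hb), mul_assoc]
    rw [k _ (EM m hm), k _ hm, E2 m hm _ (mul_mem hb ha)]
  · have k : ∀ x ∈ M, tau Ω (a * (op w * x * star (op w))) = tau Ω (star (op w) * a * op w * x) :=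
      fun x hx => by
        rw [← mul_assoc, tau_comm hΩ (mul_mem (hA.1 a ha) (mul_mem (op_mem w) hx))
          (star_mem (op_mem w))]
        simp only [mul_assoc]
    rw [k _ (EM m hm), k _ hm, E2 m hm _ ((mem_norm.1 (op_norm w)).2.2.2 a ha)]

end Vale.Agent.P078
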