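import Vale.Agent.P078.DefsC
import Vale.Agent.P078.Kap

/-!
The normal state `φ = ψ ∘ E` and the construction of large projections.

PLAN. `mono_lim`: `⟪ξ, y n ξ⟫` converges, `‖b ξ‖² ≤ ⟪ξ, b ξ⟫` for `0 ≤ b ≤ 1`, so `y n ξ` is Cauchy (see `lim_mem`). `ph_small`: otherwise there are
projections `e n` with `ph (e n) ≤ 2⁻ⁿ` and `ψ (e n) ≥ δ²`; `c n N = 1 - (1 + Σ_{n ≤ k < n + N} e k)⁻¹` increases in `N` (`CStarAlgebra.inv_le_inv`),
`e n / 2 ≤ c n (N+1) ≤ Σ e k`; its limit `c n` has `ph ≤ 2 · 2⁻ⁿ` (`ph_cont`) and decreases in `n`; the limit `c` has `ph c = 0`, `ψ c ≥ δ²/2`;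
`E (p₀ c p₀) = p₀ (E c) p₀ = 0`, so `p₀ c p₀ = 0`. `ph_pinch`: `(Σ p d p)* (Σ p d p) = Σ p d* p d p ≤ Σ p d* d p` and `E (Σ p b p) = Σ p (E b) p = E b`.
`final_proj`: `g₁` from `cut` for `y² - 4t²` (commutes with `y`, `p₀`), `(2t)^(2m) (1 - g₁) ≤ y^(2m)`; `g = g₁ p₀`, `ph (1 - p₀) = 0`;
`g₂` from `cut` for `g d² g - θ² g`, `q = g g₂`, `θ² (g - q) ≤ g d² g ≤ 2 d² + 2 (1-g) d² (1-g) ≤ 2 d² + 8 (1 - g)`.
-/

open Finset Vale.Agent.P070h8
open scoped InnerProductSpace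

namespace Vale.Agent.P078

variable {H : Type*} [NormedAddCommGroup H] [InnerProductSpace ℂ H] [CompleteSpace H]
  {M : VonNeumannAlgebra H} {A : StarSubalgebra ℂ (H →L[ℂ] H)}
  {E : (H →L[ℂ] H) →ₗ[ℂ] (H →L[ℂ] H)} {F : Finset H} {p₀ : H →L[ℂ] H}

noncomputable def psi (F : Finset H) (m : H →L[ℂ] H) : ℝ := ∑ ξ ∈ F, (⟪ξ, m ξ⟫_ℂ).re

namespace PhiA

variable {a b c : H →L[ℂ] H}

omit [CompleteSpace H] in
theorem psi_add (a b : H →L[ℂ] H) : psi F (a + b) = psi F a + psi F b := by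
  simp [psi, inner_add_right, sum_add_distrib]

omit [CompleteSpace H] in
theorem psi_sub (a b : H →L[ℂ] H) : psi F (a - b) = psi F a - psi F b := by
  simp [psi, inner_sub_right, sum_sub_distrib]

omit [CompleteSpace H] in
theorem psi_smul (t : ℝ) (a : H →L[ℂ] H) : psi F (t • a) = t * psi F a := by
  rw [psi, psi, mul_sum]
  refine sum_congr rfl fun ξ _ => ?_
  rw [← Complex.coe_smul, ContinuousLinearMap.smul_apply, inner_smul_right, Complex.re_ofReal_mul]

theorem psi_nonneg (h : 0 ≤ a) : 0 ≤ psi F a := sum_nonneg fun ξ _ => re_inner_nonneg h ξ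

theorem psi_mono (h : a ≤ b) : psi F a ≤ psi F b := by
  have := psi_nonneg (F := F) (sub_nonneg.2 h)
  rw [psi_sub] at this
  linarith

theorem ph_mono (hE : IsNormalExp M A E) (ha : a ∈ M) (hb : b ∈ M) (h : a ≤ b) :
    psi F (E a) ≤ psi F (E b) := by
  have := hE.pos _ (sub_mem hb ha) (sub_nonneg.2 h)
  rw [map_sub] at this
  exact psi_mono (sub_nonneg.1 this)

omit [CompleteSpace H] in
theorem ph_smul (t : ℝ) (a : H →L[ℂ] H) : psi F (E (t • a)) = t * psi F (E a) := by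
  rw [← Complex.coe_smul, map_smul, Complex.coe_smul, psi_smul]

theorem rsmul_mem (ha : a ∈ M) (t : ℝ) : t • a ∈ M := by
  rw [← Complex.coe_smul]
  exact smul_mem_M ha _

theorem lim_nonneg {y : ℕ → H →L[ℂ] H} (h0 : ∀ n, 0 ≤ y n)
    (h : ∀ ξ, Filter.Tendsto (fun n => y n ξ) Filter.atTop (nhds (c ξ))) : 0 ≤ c := by
  refine nonneg_iff_inner.2 fun x => IsClosed.mem_of_tendsto ?_
    ((h x).inner tendsto_const_nhds) (.of_forall fun n => nonneg_iff_inner.1 (h0 n) x)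
  exact (isClosed_eq (by fun_prop) (by fun_prop)).inter
    (isClosed_le continuous_const Complex.continuous_re)

theorem lim_le {y y' : ℕ → H →L[ℂ] H} (h0 : ∀ n, y n ≤ y' n)
    (h : ∀ ξ, Filter.Tendsto (fun n => y n ξ) Filter.atTop (nhds (a ξ)))
    (h' : ∀ ξ, Filter.Tendsto (fun n => y' n ξ) Filter.atTop (nhds (b ξ))) : a ≤ b :=
  sub_nonneg.1 (lim_nonneg (y := fun n => y' n - y n) (fun n => sub_nonneg.2 (h0 n))
    fun ξ => (h' ξ).sub (h ξ))

omit [CompleteSpace H] in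
theorem psi_lim {y : ℕ → H →L[ℂ] H}
    (h : ∀ ξ, Filter.Tendsto (fun n => y n ξ) Filter.atTop (nhds (c ξ))) :
    Filter.Tendsto (fun n => psi F (y n)) Filter.atTop (nhds (psi F c)) :=
  tendsto_finset_sum _ fun ξ _ =>
    (Complex.continuous_re.tendsto _).comp (tendsto_const_nhds.inner (h ξ))

theorem sq_le (h0 : 0 ≤ b) (h1 : b ≤ 1) (ξ : H) : ‖b ξ‖ ^ 2 ≤ (⟪ξ, b ξ⟫_ℂ).re := by
  have h2 : 0 ≤ b * (1 - b) := Commute.mul_nonneg h0 (sub_nonneg.2 h1)
    ((Commute.one_right b).sub_right (Commute.refl b))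
  have h3 := re_inner_nonneg h2 ξ
  have h4 := re_inner_star_mul b ξ
  rw [(IsSelfAdjoint.of_nonneg h0).star_eq] at h4
  rw [mul_sub, mul_one, ContinuousLinearMap.sub_apply, inner_sub_right, Complex.sub_re, h4] at h3
  linarith

/-- The resolvent. -/
noncomputable def R (s : H →L[ℂ] H) : H →L[ℂ] H := Ring.inverse (1 + s)

theorem sp (h : 0 ≤ a) : IsStrictlyPositive (1 + a) :=
  IsStrictlyPositive.of_le isStrictlyPositive_one (le_add_of_nonneg_right h)

theorem R_anti (h : 0 ≤ a) (hab : a ≤ b) : R b ≤ R a :=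
  CStarAlgebra.ringInverse_le_ringInverse (add_le_add le_rfl hab) (sp h)

theorem R_mul (h : 0 ≤ a) : R a * (1 + a) = 1 := Ring.inverse_mul_cancel _ (sp h).isUnit

theorem mul_R (h : 0 ≤ a) : (1 + a) * R a = 1 := Ring.mul_inverse_cancel _ (sp h).isUnit

theorem R_nonneg (h : 0 ≤ a) : 0 ≤ R a :=
  (CFC.ringInverse_nonneg_iff_nonneg_of_isUnit (sp h).isUnit).2 (sp h).nonneg

theorem R_le_one (h : 0 ≤ a) : R a ≤ 1 := by
  have := R_anti le_rfl h
  simpa [R] using this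

theorem one_sub_R (h : 0 ≤ a) : 1 - R a ≤ a := by
  have h1 := star_left_conjugate_nonneg (R_nonneg h) a
  rw [(IsSelfAdjoint.of_nonneg h).star_eq] at h1
  have h2 : R a * a = 1 - R a := by
    have := R_mul h
    rw [mul_add, mul_one] at this
    exact eq_sub_of_add_eq' this
  have h3 : a * R a = 1 - R a := by
    have := mul_R h
    rw [add_mul, one_mul] at this
    exact eq_sub_of_add_eq' this
  rw [mul_assoc, h2, mul_sub, mul_one, h3] at h1
  exact sub_nonneg.1 h1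

theorem R_proj (h : IsStarProjection a) : 1 - R a = (1 / 2 : ℝ) • a := by
  have h1 : (1 + a) * (1 - (1 / 2 : ℝ) • a) = 1 := by
    rw [add_mul, one_mul, mul_sub, mul_one, mul_smul_comm, h.isIdempotentElem.eq]
    module
  have h2 : R a = 1 - (1 / 2 : ℝ) • a := by
    have := congrArg (R a * ·) h1
    simp only [← mul_assoc, R_mul h.nonneg, one_mul, mul_one] at this
    exact this.symm
  rw [h2, sub_sub_cancel]

theorem R_mem (h : 0 ≤ a) (ha : a ∈ M) : R a ∈ M := mem_of_comm fun T hT => by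
  have h1 : (1 + a) * T = T * (1 + a) :=
    VonNeumannAlgebra.mem_commutant_iff.1 hT _ (add_mem (one_mem M) ha)
  change T * R a = R a * T
  rw [← one_mul (T * R a), ← R_mul h, mul_assoc, ← mul_assoc _ T, h1, mul_assoc, mul_R h, mul_one]

theorem norm_le_of {g : H →L[ℂ] H} (hg : IsStarProjection g) (hb : IsSelfAdjoint b) {t : ℝ}
    (ht : 0 < t) (h : g * (b * b) * g - (t ^ 2) • g ≤ 0) (ξ : H) : ‖b (g ξ)‖ ≤ t * ‖ξ‖ := by
  have a1 := re_inner_nonneg (neg_nonneg.2 h) ξ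
  have a2 := re_inner_star_mul (b * g) ξ
  rw [star_mul, hg.isSelfAdjoint.star_eq, hb.star_eq, show g * b * (b * g) = g * (b * b) * g by
    simp only [mul_assoc]] at a2
  rw [neg_sub, ContinuousLinearMap.sub_apply, inner_sub_right, Complex.sub_re, a2,
    ← Complex.coe_smul, ContinuousLinearMap.smul_apply, inner_smul_right, Complex.re_ofReal_mul,
    proj_norm_sq hg] at a1
  have a3 : ‖g ξ‖ ≤ ‖ξ‖ :=
    (g.le_opNorm ξ).trans (mul_le_of_le_one_left (norm_nonneg _) hg.norm_le)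
  refine (pow_le_pow_iff_left₀ (norm_nonneg _) (by positivity) two_ne_zero).1 ?_
  have a4 := mul_le_mul_of_nonneg_left (pow_le_pow_left₀ (norm_nonneg _) a3 2) (sq_nonneg t)
  have a5 : (b * g) ξ = b (g ξ) := rfl
  rw [a5] at a1
  rw [mul_pow]
  linarith

theorem pow_ge {k : H →L[ℂ] H} (hb : IsSelfAdjoint b) (hc : Commute b k) {s : ℝ} (hs : 0 ≤ s)
    (h : 0 ≤ k * (b * b) - s • k) (m : ℕ) : 0 ≤ k * b ^ (2 * m) - s ^ m • k := by
  induction m with
  | zero => simp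
  | succ m ih =>
    have h1 := star_left_conjugate_nonneg h (b ^ m)
    rw [(hb.pow m).star_eq] at h1
    refine (add_nonneg h1 (smul_nonneg hs ih)).trans (le_of_eq ?_)
    have e1 : b ^ m * k = k * b ^ m := (hc.pow_left m).eq
    have e2 : b ^ m * (k * (b * b)) * b ^ m = k * b ^ (2 * (m + 1)) := by
      rw [← mul_assoc, e1, ← pow_two, mul_assoc, mul_assoc, ← pow_add, ← pow_add]
      congr 2
      ring
    have e3 : b ^ m * k * b ^ m = k * b ^ (2 * m) := by rw [e1, mul_assoc, ← pow_add, two_mul]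
    rw [mul_sub, sub_mul, e2, mul_smul_comm, smul_mul_assoc, e3, smul_sub, smul_smul, pow_succ' s]
    abel

end PhiA

open PhiA

theorem mono_lim {y : ℕ → H →L[ℂ] H} (hy : ∀ n, y n ∈ M) (h0 : ∀ n, 0 ≤ y n) (h1 : ∀ n, y n ≤ 1)
    (hm : Monotone y) : ∃ c ∈ M, ∀ ξ, Filter.Tendsto (fun n => y n ξ) Filter.atTop (nhds (c ξ)) := by
  have h2 : ∀ ξ, CauchySeq fun n => y n ξ := fun ξ => by
    have m1 : Monotone fun n => (⟪ξ, y n ξ⟫_ℂ).re := fun n m h => by
      have := psi_mono (F := {ξ}) (hm h)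
      simpa [psi] using this
    have m2 : BddAbove (Set.range fun n => (⟪ξ, y n ξ⟫_ℂ).re) := ⟨psi {ξ} 1, by
      rintro _ ⟨n, rfl⟩
      have := psi_mono (F := {ξ}) (h1 n)
      rwa [psi, sum_singleton] at this⟩
    refine Metric.cauchySeq_iff'.2 fun ε hε => ?_
    obtain ⟨N, hN⟩ := Metric.cauchySeq_iff'.1 (tendsto_atTop_ciSup m1 m2).cauchySeq (ε ^ 2)
      (by positivity)
    refine ⟨N, fun n hn => ?_⟩
    have e1 := sq_le (sub_nonneg.2 (hm hn)) ((sub_le_self _ (h0 N)).trans (h1 n)) ξ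
    have e2 := hN n hn
    rw [ContinuousLinearMap.sub_apply, inner_sub_right, Complex.sub_re] at e1
    rw [Real.dist_eq] at e2
    rw [dist_eq_norm]
    exact lt_of_pow_lt_pow_left₀ 2 hε.le (e1.trans_lt ((le_abs_self _).trans_lt e2))
  choose f hf using fun ξ => cauchySeq_tendsto_of_complete (h2 ξ)
  refine ⟨continuousLinearMapOfTendsto y (tendsto_pi_nhds.2 hf), mem_of_comm fun T hT => ?_, hf⟩
  ext ξ
  exact tendsto_nhds_unique ((T.continuous.tendsto _).comp (hf ξ))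
    ((hf (T ξ)).congr fun n => comm_apply hT (hy n) ξ)

theorem ph_cont (hE : IsNormalExp M A E) (F : Finset H) {ε : ℝ} (hε : 0 < ε) :
    ∃ (F' : Finset H) (δ : ℝ), 0 < δ ∧ ∀ m ∈ M, ‖m‖ ≤ 1 → (∀ ζ ∈ F', ‖m ζ‖ < δ) → |psi F (E m)| < ε := by
  classical
  induction F using Finset.induction_on generalizing ε with
  | empty => exact ⟨∅, 1, one_pos, fun m _ _ _ => by simpa [psi] using hε⟩
  | insert ξ F hξ ih =>
    obtain ⟨F₁, δ₁, d1, h1⟩ := ih (half_pos hε)
    obtain ⟨F₂, δ₂, d2, h2⟩ := hE.normal ξ (ε / 2) (half_pos hε)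
    refine ⟨F₁ ∪ F₂, min δ₁ δ₂, lt_min d1 d2, fun m hm n1 h => ?_⟩
    have e1 := h1 m hm n1 fun ζ hζ => (h ζ (mem_union_left _ hζ)).trans_le (min_le_left _ _)
    have e2 := h2 m hm n1 fun ζ hζ => (h ζ (mem_union_right _ hζ)).trans_le (min_le_right _ _)
    have e3 := Complex.abs_re_le_norm ⟪ξ, E m ξ⟫_ℂ
    rw [psi, sum_insert hξ]
    rw [psi] at e1
    linarith [abs_add_le (⟪ξ, E m ξ⟫_ℂ).re (∑ ξ ∈ F, (⟪ξ, E m ξ⟫_ℂ).re)]

theorem PhiA.ph_lim (hE : IsNormalExp M A E) {y : ℕ → H →L[ℂ] H} {c : H →L[ℂ] H} (hy : ∀ n, y n ∈ M)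
    (hc : c ∈ M) (h0 : ∀ n, 0 ≤ c - y n) (h1 : ∀ n, c - y n ≤ 1)
    (h : ∀ ξ, Filter.Tendsto (fun n => y n ξ) Filter.atTop (nhds (c ξ))) :
    Filter.Tendsto (fun n => psi F (E (y n))) Filter.atTop (nhds (psi F (E c))) := by
  refine Metric.tendsto_nhds.2 fun ε hε => ?_
  obtain ⟨F', δ, d, hd⟩ := ph_cont hE F hε
  have h2 : ∀ᶠ n in Filter.atTop, ∀ ζ ∈ F', dist (y n ζ) (c ζ) < δ :=
    (Filter.eventually_all_finset F').2 fun ζ _ => Metric.tendsto_nhds.1 (h ζ) δ d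
  filter_upwards [h2] with n hn
  have := hd (c - y n) (sub_mem hc (hy n)) ((CStarAlgebra.norm_le_one_iff_of_nonneg _ (h0 n)).2 (h1 n))
    fun ζ hζ => by
      rw [ContinuousLinearMap.sub_apply, ← dist_eq_norm, dist_comm]
      exact hn ζ hζ
  rwa [map_sub, psi_sub, ← Real.dist_eq, dist_comm] at this

theorem ph_small (hA : IsMASA M A) (hE : IsNormalExp M A E) (p1 : p₀ ∈ A) (p2 : IsStarProjection p₀)
    (p3 : ∀ ξ ∈ F, p₀ ξ = ξ) (p4 : ∀ a ∈ A, 0 ≤ a → psi F a = 0 → p₀ * a = 0) {δ : ℝ} (hδ : 0 < δ) :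
    ∃ η : ℝ, 0 < η ∧ ∀ e ∈ M, IsStarProjection e → psi F (E e) ≤ η → ∀ ξ ∈ F, ‖e ξ‖ < δ := by
  by_contra hcon
  push Not at hcon
  choose e e1 e2 e3 ξ x1 x2 using fun n : ℕ => hcon ((1 / 2) ^ n) (by positivity)
  let s : ℕ → ℕ → H →L[ℂ] H := fun n N => ∑ k ∈ range N, e (n + k)
  have s0 : ∀ n N, 0 ≤ s n N := fun n N => sum_nonneg fun k _ => (e2 _).nonneg
  have sM : ∀ n N, s n N ∈ M := fun n N => sum_mem fun k _ => e1 _
  have s1 : ∀ n N, s n (N + 1) = s (n + 1) N + e n := fun n N => by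
    simp only [s, sum_range_succ', add_zero]
    congr 1
    exact sum_congr rfl fun k _ => by rw [add_assoc, add_comm 1 k]
  have s2 : ∀ n N, psi F (E (s n N)) ≤ 2 * (1 / 2) ^ n - 2 * (1 / 2) ^ (n + N) := fun n N => by
    induction N with
    | zero => simp [s, psi]
    | succ N ih =>
      have : s n (N + 1) = s n N + e (n + N) := sum_range_succ _ _
      rw [this, map_add, psi_add, ← add_assoc, pow_succ]
      linarith [e3 (n + N)]
  have cM : ∀ n N, 1 - R (s n N) ∈ M := fun n N => sub_mem (one_mem M) (R_mem (s0 n N) (sM n N))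
  have c0 : ∀ n N, 0 ≤ 1 - R (s n N) := fun n N => sub_nonneg.2 (R_le_one (s0 n N))
  have c1 : ∀ n N, 1 - R (s n N) ≤ 1 := fun n N => sub_le_self _ (R_nonneg (s0 n N))
  have cm : ∀ n, Monotone fun N => 1 - R (s n N) := fun n => monotone_nat_of_le_succ fun N =>
    sub_le_sub_left (R_anti (s0 n N) (by
      have : s n (N + 1) = s n N + e (n + N) := sum_range_succ _ _
      rw [this]
      exact le_add_of_nonneg_right (e2 _).nonneg)) _
  choose C CM CT using fun n => mono_lim (cM n) (c0 n) (c1 n) (cm n)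
  have CT' : ∀ n j ζ, Filter.Tendsto (fun N => (1 - R (s n (N + j))) ζ) Filter.atTop (nhds (C n ζ)) :=
    fun n j ζ => (CT n ζ).comp (Filter.tendsto_add_atTop_nat j)
  have C0 : ∀ n, 0 ≤ C n := fun n => lim_nonneg (c0 n) (CT n)
  have C1 : ∀ n, C n ≤ 1 := fun n => lim_le (c1 n) (CT n) fun _ => tendsto_const_nhds
  have C2 : ∀ n, C (n + 1) ≤ C n := fun n => lim_le (fun N => sub_le_sub_left (R_anti (s0 _ N) (by
    rw [s1]
    exact le_add_of_nonneg_right (e2 _).nonneg)) _) (CT (n + 1)) (CT' n 1)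
  have C3 : ∀ n, (1 / 2 : ℝ) • e n ≤ C n := fun n => lim_le (fun N => by
    rw [← R_proj (e2 n)]
    refine sub_le_sub_left (R_anti (e2 n).nonneg ?_) _
    rw [s1]
    exact le_add_of_nonneg_left (s0 _ _)) (fun _ => tendsto_const_nhds) (CT' n 1)
  have C4 : ∀ n, psi F (E (C n)) ≤ 2 * (1 / 2) ^ n := fun n => by
    have k : ∀ N, 1 - R (s n N) ≤ C n := fun N =>
      lim_le (fun j => cm n (Nat.le_add_left N j)) (fun _ => tendsto_const_nhds) (CT' n N)
    refine le_of_tendsto' (PhiA.ph_lim hE (cM n) (CM n) (fun N => sub_nonneg.2 (k N))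
      (fun N => (sub_le_self _ (c0 n N)).trans (C1 n)) (CT n)) fun N => ?_
    have := ph_mono (F := F) hE (cM n N) (sM n N) (one_sub_R (s0 n N))
    have h2 : (0 : ℝ) < (1 / 2) ^ (n + N) := by positivity
    linarith [s2 n N]
  have dm : Monotone fun n => 1 - C n := monotone_nat_of_le_succ fun n => sub_le_sub_left (C2 n) _
  obtain ⟨D, DM, DT⟩ := mono_lim (fun n => sub_mem (one_mem M) (CM n)) (fun n => sub_nonneg.2 (C1 n))
    (fun n => sub_le_self _ (C0 n)) dm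
  have D1 : D ≤ 1 := lim_le (fun n => sub_le_self _ (C0 n)) DT fun _ => tendsto_const_nhds
  have D2 : ∀ n, 1 - C n ≤ D := fun n =>
    lim_le (fun j => dm (Nat.le_add_left n j)) (fun _ => tendsto_const_nhds)
      fun ζ => (DT ζ).comp (Filter.tendsto_add_atTop_nat n)
  have cM' : 1 - D ∈ M := sub_mem (one_mem M) DM
  have z0 : 0 ≤ 1 - D := sub_nonneg.2 D1
  have z1 : psi F (E (1 - D)) = 0 := by
    refine le_antisymm ?_ (psi_nonneg (hE.pos _ cM' z0))
    have t1 : Filter.Tendsto (fun n : ℕ => (2 : ℝ) * (1 / 2) ^ n) Filter.atTop (nhds (2 * 0)) :=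
      (tendsto_pow_atTop_nhds_zero_of_lt_one (by norm_num) (by norm_num)).const_mul 2
    rw [mul_zero] at t1
    exact ge_of_tendsto' t1 fun n =>
      (ph_mono hE cM' (CM n) (sub_le_comm.1 (D2 n))).trans (C4 n)
  have z2 : δ ^ 2 / 2 ≤ psi F (1 - D) := by
    have t1 : ∀ ζ, Filter.Tendsto (fun n => C n ζ) Filter.atTop (nhds ((1 - D) ζ)) := fun ζ => by
      have := (tendsto_const_nhds (x := ζ)).sub (DT ζ)
      simpa using this
    refine ge_of_tendsto' (psi_lim t1) fun n => le_trans ?_ (psi_mono (C3 n))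
    rw [psi_smul]
    have t2 : (⟪ξ n, e n (ξ n)⟫_ℂ).re ≤ psi F (e n) :=
      single_le_sum (f := fun ζ => (⟪ζ, e n ζ⟫_ℂ).re)
        (fun ζ _ => re_inner_nonneg (e2 n).nonneg ζ) (x1 n)
    rw [proj_norm_sq (e2 n)] at t2
    have t3 := pow_le_pow_left₀ hδ.le (x2 n) 2
    linarith
  have z3 := p4 _ (hE.mem _ cM') (hE.pos _ cM' z0) z1
  have z4 := star_left_conjugate_nonneg z0 p₀
  rw [p2.isSelfAdjoint.star_eq] at z4
  have z5 := hE.faithful _ (mul_mem (mul_mem (hA.1 _ p1) cM') (hA.1 _ p1)) z4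
    (by rw [hE.bimod _ p1 _ cM' _ p1, z3, zero_mul])
  have z6 : psi F (1 - D) = psi F (p₀ * (1 - D) * p₀) := sum_congr rfl fun ζ hζ => by
    rw [ContinuousLinearMap.mul_apply, ContinuousLinearMap.mul_apply, p3 ζ hζ,
      ← inner_star_left p₀, p2.isSelfAdjoint.star_eq, p3 ζ hζ]
  rw [z6, z5] at z2
  simp only [psi, ContinuousLinearMap.zero_apply, inner_zero_right, Complex.zero_re,
    sum_const_zero] at z2
  linarith [pow_pos hδ 2]

theorem ph_pinch (hA : IsMASA M A) (hE : IsNormalExp M A E) {r : ℕ} {p : Fin r → H →L[ℂ] H}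
    (hp : ∀ i, p i ∈ A) (h1 : ∀ i, IsStarProjection (p i)) (h2 : ∀ i j, i ≠ j → p i * p j = 0)
    (h3 : ∑ i, p i = 1) {d : H →L[ℂ] H} (hd : d ∈ M) : ‖∑ i, p i * d * p i‖ ≤ ‖d‖ ∧
      psi F (E (star (∑ i, p i * d * p i) * ∑ i, p i * d * p i)) ≤ psi F (E (star d * d)) := by
  have pM : ∀ i, p i ∈ M := fun i => hA.1 _ (hp i)
  have ps : ∀ i, star (p i) = p i := fun i => (h1 i).isSelfAdjoint.star_eq
  have pp : ∀ i, p i * p i = p i := fun i => (h1 i).isIdempotentElem.eq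
  have k1 : star (∑ i, p i * d * p i) * ∑ i, p i * d * p i =
      ∑ i, star (p i) * (star d * p i * d) * p i := by
    rw [star_sum, sum_mul_sum]
    refine sum_congr rfl fun i _ => ?_
    rw [sum_eq_single i (fun j _ hj => ?_) (by simp)]
    · simp only [star_mul, ps, mul_assoc]
      rw [← mul_assoc (p i) (p i), pp]
    · simp only [star_mul, ps, mul_assoc]
      rw [← mul_assoc (p i) (p j), h2 i j hj.symm]
      simp
  have k2 : star (∑ i, p i * d * p i) * ∑ i, p i * d * p i ≤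
      ∑ i, star (p i) * (star d * d) * p i := by
    rw [k1]
    refine sum_le_sum fun i _ => star_left_conjugate_le_conjugate ?_ _
    have := star_left_conjugate_le_conjugate (sub_nonneg.1 (h1 i).one_sub.nonneg) d
    rwa [mul_one] at this
  have sM : ∑ i, p i * d * p i ∈ M := sum_mem fun i _ => mul_mem (mul_mem (pM i) hd) (pM i)
  have dd : star d * d ∈ M := mul_mem (star_mem hd) hd
  constructor
  · have k3 : ∑ i, star (p i) * (star d * d) * p i ≤ algebraMap ℝ _ (‖d‖ ^ 2) := by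
      refine (sum_le_sum fun i _ => star_left_conjugate_le_conjugate
        CStarAlgebra.star_mul_le_algebraMap_norm_sq (p i)).trans (le_of_eq ?_)
      simp only [Algebra.algebraMap_eq_smul_one, mul_smul_comm, smul_mul_assoc, mul_one, ps, pp]
      rw [← smul_sum, h3]
    have k4 := (CStarAlgebra.norm_le_iff_le_algebraMap _ (sq_nonneg ‖d‖)
      (star_mul_self_nonneg _)).2 (k2.trans k3)
    rw [CStarRing.norm_star_mul_self, ← pow_two] at k4
    exact (pow_le_pow_iff_left₀ (norm_nonneg _) (norm_nonneg _) two_ne_zero).1 k4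
  · refine (ph_mono hE (mul_mem (star_mem sM) sM)
      (sum_mem fun i _ => mul_mem (mul_mem (star_mem (pM i)) dd) (pM i)) k2).trans (le_of_eq ?_)
    congr 1
    rw [map_sum, ← one_mul (E (star d * d)), ← h3, sum_mul]
    refine sum_congr rfl fun i _ => ?_
    rw [ps, hE.bimod _ (hp i) _ dd _ (hp i), mul_assoc, hA.2.1 _ (hE.mem _ dd) _ (hp i), ← mul_assoc,
      pp]

theorem final_proj (hA : IsMASA M A) (hE : IsNormalExp M A E) (p1 : p₀ ∈ A) (p2 : IsStarProjection p₀)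
    (p3 : ∀ ξ ∈ F, p₀ ξ = ξ) {y d : H →L[ℂ] H} (hy : y ∈ M) (hys : IsSelfAdjoint y) (hc : Commute p₀ y)
    (hd : d ∈ M) (hds : IsSelfAdjoint d) (hn : ‖d‖ ≤ 2) {t θ : ℝ} (ht : 0 < t) (hθ : 0 < θ) (m : ℕ) :
    ∃ q ∈ M, IsStarProjection q ∧ p₀ * q = q ∧ ‖q * (y + d) * q‖ ≤ 2 * t + θ ∧
      psi F (E (1 - q)) ≤ (1 + 8 / θ ^ 2) * (psi F (E (y ^ (2 * m))) / (2 * t) ^ (2 * m)) +
        2 / θ ^ 2 * psi F (E (star d * d)) := by
  have pM := hA.1 _ p1
  have cM : ∀ T ∈ M.commutant, ∀ b ∈ M, Commute T b := fun T hT b hb =>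
    (VonNeumannAlgebra.mem_commutant_iff.1 hT b hb).symm
  have cb : ∀ T, Commute T y → Commute T (y * y - ((2 * t) ^ 2 : ℝ) • (1 : H →L[ℂ] H)) := fun T hT =>
    (hT.mul_right hT).sub_right ((Commute.one_right T).smul_right _)
  obtain ⟨g₁, a1, a2, a3, a4⟩ := cut (b := y * y - ((2 * t) ^ 2 : ℝ) • (1 : H →L[ℂ] H))
    (by simp [IsSelfAdjoint, hys.star_eq])
  have g1M : g₁ ∈ M :=
    mem_of_comm fun T hT => a2 T (cb T (cM T hT y hy)) (cb _ (cM _ (star_mem hT) y hy))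
  have cy : Commute y g₁ := a2 y (cb y (Commute.refl y)) (hys.star_eq.symm ▸ cb y (Commute.refl y))
  have cp : Commute p₀ g₁ := a2 p₀ (cb _ hc) (p2.isSelfAdjoint.star_eq.symm ▸ cb _ hc)
  have gg := a1.isIdempotentElem.eq
  have kk : (1 - g₁) * (1 - g₁) = 1 - g₁ := a1.one_sub.isIdempotentElem.eq
  have ck : Commute y (1 - g₁) := (Commute.one_right y).sub_right cy
  rw [mul_sub, sub_mul, mul_smul_comm, smul_mul_assoc, mul_one, gg] at a3
  rw [mul_sub (1 - g₁), sub_mul _ _ (1 - g₁), mul_smul_comm, smul_mul_assoc, mul_one, kk, mul_assoc,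
    (ck.mul_left ck).eq, ← mul_assoc, kk] at a4
  have a5 := pow_ge hys ck (sq_nonneg _) a4 m
  have a6 : ((2 * t) ^ (2 * m) : ℝ) • (1 - g₁) ≤ y ^ (2 * m) := by
    have b1 := star_mul_self_nonneg (y ^ m * g₁)
    rw [star_mul, (hys.pow m).star_eq, a1.isSelfAdjoint.star_eq, mul_assoc, ← mul_assoc (y ^ m),
      ← pow_add, ← two_mul, (cy.pow_left _).eq, ← mul_assoc, gg] at b1
    refine sub_nonneg.1 ((add_nonneg b1 a5).trans (le_of_eq ?_))
    rw [← pow_mul, sub_mul, one_mul]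
    abel
  have t0 : (0 : ℝ) < (2 * t) ^ (2 * m) := by positivity
  have k1M : 1 - g₁ ∈ M := sub_mem (one_mem M) g1M
  have a7 : psi F (E (1 - g₁)) ≤ psi F (E (y ^ (2 * m))) / (2 * t) ^ (2 * m) := by
    have := ph_mono (F := F) hE (rsmul_mem k1M _) (pow_mem hy _) a6
    rw [ph_smul] at this
    rw [le_div_iff₀ t0]
    linarith
  obtain ⟨g, hg⟩ : ∃ g, g = p₀ * g₁ := ⟨_, rfl⟩
  have gP : IsStarProjection g := hg ▸ p2.mul a1 cp
  have gM : g ∈ M := hg ▸ mul_mem pM g1M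
  have a8 : psi F (E (1 - g)) ≤ psi F (E (1 - g₁)) := by
    have b1 : 1 - g ≤ (1 - p₀) + (1 - g₁) := by
      refine sub_nonneg.1 ((p2.one_sub.mul a1.one_sub
        (((Commute.one_right _).sub_right ((Commute.one_left g₁).sub_left cp)))).nonneg.trans
        (le_of_eq ?_))
      rw [hg]
      noncomm_ring
    have b2 : E (1 - p₀) = 1 - p₀ := by
      have := hE.bimod _ (sub_mem (one_mem A) p1) _ (one_mem M) _ (one_mem A)
      rwa [hE.one, mul_one, mul_one] at this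
    have b3 : psi F (1 - p₀) = 0 := sum_eq_zero fun ζ hζ => by simp [p3 ζ hζ]
    have := ph_mono (F := F) hE (sub_mem (one_mem M) gM) (add_mem (sub_mem (one_mem M) pM) k1M) b1
    rwa [map_add, psi_add, b2, b3, zero_add] at this
  have gs := gP.isSelfAdjoint.star_eq
  have g2 := gP.isIdempotentElem.eq
  have bM : g * (d * d) * g - (θ ^ 2 : ℝ) • g ∈ M :=
    sub_mem (mul_mem (mul_mem gM (mul_mem hd hd)) gM) (rsmul_mem gM _)
  have bs : star (g * (d * d) * g - (θ ^ 2 : ℝ) • g) = g * (d * d) * g - (θ ^ 2 : ℝ) • g := by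
    simp [gs, hds.star_eq, mul_assoc]
  obtain ⟨g₂, c1, c2, c3, c4⟩ := cut (b := g * (d * d) * g - (θ ^ 2 : ℝ) • g) bs
  have g2M : g₂ ∈ M := mem_of_comm fun T hT => c2 T (cM T hT _ bM) (cM _ (star_mem hT) _ bM)
  have cg : Commute g (g * (d * d) * g - (θ ^ 2 : ℝ) • g) := by
    refine Commute.sub_right ?_ ((Commute.refl g).smul_right _)
    change g * (g * (d * d) * g) = g * (d * d) * g * g
    rw [← mul_assoc, ← mul_assoc, g2, mul_assoc _ g g, g2]
  have cgg : Commute g g₂ := c2 g cg (gs.symm ▸ cg)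
  have cbg : Commute (g * (d * d) * g - (θ ^ 2 : ℝ) • g) g₂ :=
    c2 _ (Commute.refl _) (by rw [bs])
  have cdg : Commute (g * (d * d) * g) g₂ := by
    have := cbg.add_left (cgg.smul_left (θ ^ 2 : ℝ))
    rwa [sub_add_cancel] at this
  have qP : IsStarProjection (g * g₂) := gP.mul c1 cgg
  have h2 := c1.isIdempotentElem.eq
  have pq : p₀ * (g * g₂) = g * g₂ := by
    rw [hg, ← mul_assoc, ← mul_assoc, p2.isIdempotentElem.eq]
  have gq : g₁ * (g * g₂) = g * g₂ := by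
    rw [hg, cp.eq, ← mul_assoc, ← mul_assoc, gg]
  refine ⟨g * g₂, mul_mem gM g2M, qP, pq,
    ContinuousLinearMap.opNorm_le_bound _ (by positivity) fun ξ => ?_, ?_⟩
  · have n1 : ∀ v, ‖(g * g₂) v‖ ≤ ‖v‖ := fun v =>
      ((g * g₂).le_opNorm v).trans (mul_le_of_le_one_left (norm_nonneg _) qP.norm_le)
    have n2 := norm_le_of a1 hys (by positivity) a3 ((g * g₂) ξ)
    have n3 := norm_le_of qP hds hθ (by
      refine (le_of_eq ?_).trans c3
      rw [mul_sub, sub_mul, mul_smul_comm, smul_mul_assoc, ← cgg.eq, mul_assoc g g₂ g₂, h2]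
      congr 1
      rw [cgg.eq]
      simp only [mul_assoc]
      rw [cgg.eq]) ξ
    rw [← ContinuousLinearMap.mul_apply g₁, gq] at n2
    have n4 := mul_le_mul_of_nonneg_left (n1 ξ) (show 0 ≤ 2 * t by positivity)
    refine (n1 ((y + d) ((g * g₂) ξ))).trans ((norm_add_le (y _) (d _)).trans ?_)
    linarith
  · have l2 : (1 - g₂) * (1 - g₂) = 1 - g₂ := c1.one_sub.isIdempotentElem.eq
    have d1 : (θ ^ 2 : ℝ) • (g - g * g₂) ≤ g * (d * d) * g := by
      have b1 := star_mul_self_nonneg (d * g * g₂)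
      rw [star_mul, star_mul, c1.isSelfAdjoint.star_eq, gs, hds.star_eq,
        show g₂ * (g * d) * (d * g * g₂) = g₂ * (g * (d * d) * g * g₂) by simp only [mul_assoc],
        cdg.eq, ← mul_assoc, h2] at b1
      have e1 : Commute (g * (d * d) * g - (θ ^ 2 : ℝ) • g) (1 - g₂) :=
        (Commute.one_right _).sub_right cbg
      rw [mul_assoc, e1.eq, ← mul_assoc, l2] at c4
      refine sub_nonneg.1 ((add_nonneg b1 c4).trans (le_of_eq ?_))
      rw [mul_sub, mul_smul_comm, sub_mul, sub_mul, one_mul, one_mul, cgg.eq]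
      abel
    have ks := gP.one_sub.isSelfAdjoint.star_eq
    have d2 : g * (d * d) * g ≤ (2 : ℝ) • (star d * d) + (8 : ℝ) • (1 - g) := by
      have b1 := star_mul_self_nonneg (d + d * (1 - g))
      have b2 := CStarAlgebra.star_left_conjugate_le_norm_smul (a := 1 - g) (b := star d * d)
        (IsSelfAdjoint.star_mul_self d)
      rw [ks, gP.one_sub.isIdempotentElem.eq, CStarRing.norm_star_mul_self] at b2
      have b3 : (‖d‖ * ‖d‖) • (1 - g) ≤ (4 : ℝ) • (1 - g) :=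
        smul_le_smul_of_nonneg_right (by nlinarith [norm_nonneg d]) gP.one_sub.nonneg
      have b4 := smul_nonneg (show (0 : ℝ) ≤ 2 by norm_num) (sub_nonneg.2 (b2.trans b3))
      refine sub_nonneg.1 ((add_nonneg b1 b4).trans (le_of_eq ?_))
      rw [star_add, star_mul, ks, hds.star_eq]
      simp only [mul_add, add_mul, mul_sub, sub_mul, mul_one, one_mul, mul_assoc]
      module
    have kM : 1 - g ∈ M := sub_mem (one_mem M) gM
    have d3 := ph_mono (F := F) hE (rsmul_mem (sub_mem gM (mul_mem gM g2M)) _)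
      (add_mem (rsmul_mem (mul_mem (star_mem hd) hd) _) (rsmul_mem kM _)) (d1.trans d2)
    rw [map_add, psi_add, ph_smul, ph_smul, ph_smul] at d3
    rw [show 1 - g * g₂ = (1 - g) + (g - g * g₂) by abel, map_add, psi_add]
    have d4 := a8.trans a7
    have θ2 : 0 < θ ^ 2 := by positivity
    have d5 : psi F (E (g - g * g₂)) ≤ (2 * psi F (E (star d * d)) +
        8 * (psi F (E (y ^ (2 * m))) / (2 * t) ^ (2 * m))) / θ ^ 2 := by
      rw [le_div_iff₀ θ2]
      linarith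
    refine (add_le_add d4 d5).trans (le_of_eq ?_)
    ring

end Vale.Agent.P078
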