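import Mathlib

/-!
Finite-dimensional definitions: partially coloured expected characteristic polynomials.
A state is `σ : V → Option (Fin r)` (`none` = not yet coloured).
-/

open Finset Polynomial
open scoped Classical ComplexConjugate

namespace Vale.Agent.P078

variable {V : Type*} {r : ℕ}

/-- Hermitian, zero diagonal contraction on `U`. -/
def Good (k : V → V → ℂ) (U : Finset V) : Prop :=
  (∀ a ∈ U, ∀ b ∈ U, k b a = conj (k a b)) ∧ (∀ a ∈ U, k a a = 0) ∧
    ∀ v : V → ℂ, ‖∑ a ∈ U, ∑ b ∈ U, conj (v a) * k a b * v b‖ ≤ ∑ a ∈ U, ‖v a‖ ^ 2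

theorem Good.mono {k : V → V → ℂ} {U U' : Finset V} (h : Good k U) (hU : U' ⊆ U) : Good k U' := by
  refine ⟨fun a ha b hb => h.1 a (hU ha) b (hU hb), fun a ha => h.2.1 a (hU ha), fun v => ?_⟩
  have := h.2.2 fun a => if a ∈ U' then v a else 0
  have e1 : ∑ a ∈ U, ‖(if a ∈ U' then v a else 0)‖ ^ 2 = ∑ a ∈ U', ‖v a‖ ^ 2 := by
    rw [← sum_subset hU fun a _ ha => by simp [ha]]
    exact sum_congr rfl fun a ha => by simp [ha]
  have e2 : ∑ a ∈ U, ∑ b ∈ U, conj (if a ∈ U' then v a else 0) * k a b * (if b ∈ U' then v b else 0) =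
      ∑ a ∈ U', ∑ b ∈ U', conj (v a) * k a b * v b := by
    rw [← sum_subset hU fun a _ ha => by simp [ha]]
    refine sum_congr rfl fun a ha => ?_
    rw [← sum_subset hU fun b _ hb => by simp [hb]]
    exact sum_congr rfl fun b hb => by simp [ha, hb]
  rwa [e1, e2] at this

theorem Good.neg {k : V → V → ℂ} {U : Finset V} (h : Good k U) : Good (fun a b => -k a b) U := by
  refine ⟨fun a ha b hb => by simp [h.1 a ha b hb], fun a ha => by simp [h.2.1 a ha], fun v => ?_⟩
  have := h.2.2 v
  simpa [sum_neg_distrib] using this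

/-- The pinched kernel. -/
noncomputable def yc (k : V → V → ℂ) (c : V → Fin r) (a b : V) : ℂ := if c a = c b then k a b else 0

/-- Probability that a vertex in state `s` gets the colour `j`. -/
noncomputable def wt (s : Option (Fin r)) (j : Fin r) : ℂ :=
  match s with
  | none => 1 / r
  | some i => if i = j then 1 else 0

/-- Scaling of the variable: coloured vertices get the factor 48. -/
noncomputable def kap (s : Option (Fin r)) : ℝ :=
  match s with
  | none => 1
  | some _ => 48

/-- Expected principal minor of minus the pinched kernel. -/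
noncomputable def co (σ : V → Option (Fin r)) (k : V → V → ℂ) (T : Finset V) : ℂ :=
  ∑ c : T → Fin r, (∏ a : T, wt (σ a) (c a)) *
    (Matrix.of fun a b : T => -(if c a = c b then k a b else 0)).det

/-- `E det (diag Z - y_c)` on `U`, in multi-affine form. -/
noncomputable def Qm (σ : V → Option (Fin r)) (k : V → V → ℂ) (U : Finset V) (Z : V → ℂ) : ℂ :=
  ∑ T ∈ U.powerset, co σ k T * ∏ v ∈ U \ T, Z v

/-- The monic univariate polynomial `Qm (κ s) / ∏ κ`. -/
noncomputable def ep (σ : V → Option (Fin r)) (k : V → V → ℂ) (U : Finset V) : ℝ[X] :=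
  ∑ T ∈ U.powerset, C ((co σ k T).re / ∏ v ∈ T, kap (σ v)) * X ^ (U.card - T.card)

/-- Sum of a function over the real roots. -/
noncomputable def rs (f : ℝ → ℝ) (P : ℝ[X]) : ℝ := (P.roots.map f).sum

/-- The potential. -/
noncomputable def phi (z s : ℝ) : ℝ := max (s ^ 2 - z ^ 2) 0

noncomputable def Lam (h : ℝ[X]) (σ : V → Option (Fin r)) (k : V → V → ℂ) (U : Finset V) : ℝ :=
  rs (fun s => h.eval s) (ep σ k U)

/-- `A` is monic with only real roots and `-B/A` maps the upper half plane to its closure. -/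
structure Herg (A B : ℝ[X]) : Prop where
  monic : A.Monic
  real : A.roots.card = A.natDegree
  deg : B.degree < A.degree
  im : ∀ ζ : ℂ, 0 < ζ.im → (aeval ζ B / aeval ζ A).im ≤ 0

/-- Moebius inversion of a set function. -/
noncomputable def mob (f : Finset V → ℝ) (W : Finset V) : ℝ :=
  ∑ W' ∈ W.powerset, (-1) ^ (W.card - W'.card) * f W'

/-- Entries of the powers of the compression of `y` to `U`. -/
noncomputable def kp (y : V → V → ℂ) (U : Finset V) : ℕ → V → V → ℂ
  | 0 => fun a b => if a = b then 1 else 0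
  | n + 1 => fun a b => ∑ v ∈ U, y a v * kp y U n v b

/-- Diagonal entry of `h (y / 48)`. -/
noncomputable def dg (h : ℝ[X]) (y : V → V → ℂ) (U : Finset V) (v : V) : ℝ :=
  ∑ n ∈ range (h.natDegree + 1), h.coeff n / 48 ^ n * (kp y U n v v).re

end Vale.Agent.P078
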