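import Vale.Agent.P078.Ext
import Vale.Agent.P078.RN
import Vale.Agent.P078.Phi

/-!
The vector functional `ψ` on the Gelfand space, and its support.

PLAN. `I f = psi F a` for the `a ∈ A` with `ev a = f` (see `exists_dyn`). `X₀` = complement of the closure of the union of the clopen sets with
`I (ind C) = 0` (`IsGel.sup` with `K = ker`-type subspaces: `q_C ξ = 0` for `ξ ∈ F`, so the supremum kills `ξ`: take `K = (span {ξ})ᗮ`).
`nrm`: `ν f = psi (vectors op u ξ) (a)`; for `V` open let `p` be the supremum of the clopen `C ⊆ V` (directed family) and, for a vector `ζ`,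
`K = closure (⋃ range q_C)`: `p ζ ∈ K` gives `C` with `‖p ζ - q_C ζ‖` small, and this improves when `C` grows.
-/

open Finset
open scoped Classical InnerProductSpace

namespace Vale.Agent.P078

variable {H : Type*} [NormedAddCommGroup H] [InnerProductSpace ℂ H] [CompleteSpace H]
  {M : VonNeumannAlgebra H} {A : StarSubalgebra ℂ (H →L[ℂ] H)}
  {X : Type*} [TopologicalSpace X] [CompactSpace X] [T2Space X] [TotallyDisconnectedSpace X]
  [MulAction (NG M A) X] [ContinuousConstSMul (NG M A) X] {ev : (H →L[ℂ] H) → C(X, ℂ)}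

structure IsSt (M : VonNeumannAlgebra H) (A : StarSubalgebra ℂ (H →L[ℂ] H)) {X : Type*}
    [TopologicalSpace X] [CompactSpace X] [T2Space X] [TotallyDisconnectedSpace X]
    [MulAction (NG M A) X] (ev : (H →L[ℂ] H) → C(X, ℂ)) (F : Finset H)
    (I : C(X, ℝ) →ₗ[ℝ] ℝ) (X₀ : Set X) (p₀ : H →L[ℂ] H) : Prop where
  pos : ∀ f : C(X, ℝ), (∀ x, 0 ≤ f x) → 0 ≤ I f
  one : I 1 = 1
  val : ∀ a ∈ A, ∀ f : C(X, ℝ), (∀ x, f x = (ev a x).re) → I f = psi F a
  nrm : ∀ (u : NG M A) (ν : C(X, ℝ) →ₗ[ℝ] ℝ),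
    (∀ f f' : C(X, ℝ), (∀ x, f' x = f (u • x)) → ν f = I f') → Nrm ν
  clop : IsClopen X₀
  mem : p₀ ∈ A
  proj : IsStarProjection p₀
  ev0 : ∀ x, ev p₀ x = if x ∈ X₀ then 1 else 0
  vec : ∀ ξ ∈ F, p₀ ξ = ξ
  faith : ∀ C, IsClopen C → C ⊆ X₀ → C.Nonempty → 0 < I (ind C)
  faith' : ∀ a ∈ A, 0 ≤ a → psi F a = 0 → p₀ * a = 0

theorem psi_sq (F : Finset H) (b : H →L[ℂ] H) : psi F (star b * b) = ∑ ξ ∈ F, ‖b ξ‖ ^ 2 :=
  sum_congr rfl fun ξ _ => Vale.Agent.P070h8.re_inner_star_mul b ξ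

theorem psi_star (F : Finset H) (b : H →L[ℂ] H) : psi F (star b) = psi F b :=
  sum_congr rfl fun ξ _ => by
    rw [Vale.Agent.P070h8.inner_star_right, ← inner_conj_symm, Complex.conj_re]

theorem IsGel.approx (hA : IsMASA M A) (h : IsGel M A ev) {V : Set X} (hV : IsOpen V) (F : Finset H)
    (T : H →L[ℂ] H) {ε : ℝ} (hε : 0 < ε) : ∃ C, IsClopen C ∧ C ⊆ V ∧ ∃ c ∈ A,
      (∀ x, ev c x = if x ∈ closure V \ C then 1 else 0) ∧ ∑ ξ ∈ F, ‖c (T ξ)‖ ^ 2 < ε := by
  choose! P P1 P2 P3 using fun (C : Set X) (hC : IsClopen C) => h.proj hC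
  obtain ⟨p, hp, -, e, k⟩ := h.sup hA (𝒞 := {C | IsClopen C ∧ C ⊆ V}) fun C l => l.1
  have e1 : ⋃₀ {C | IsClopen C ∧ C ⊆ V} = V := Set.Subset.antisymm (Set.sUnion_subset fun C l => l.2)
    fun x hx => (compact_exists_isClopen_in_isOpen hV hx).imp fun C l => ⟨⟨l.1, l.2.2⟩, l.2.1⟩
  rw [e1] at e
  let J := {C : Set X // IsClopen C ∧ C ⊆ V}
  haveI : Nonempty J := ⟨⟨∅, isClopen_empty, Set.empty_subset _⟩⟩
  haveI : IsDirectedOrder J := ⟨fun a b => ⟨⟨a.1 ∪ b.1, a.2.1.union b.2.1, Set.union_subset a.2.2 b.2.2⟩,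
    Set.subset_union_left, Set.subset_union_right⟩⟩
  let K : Submodule ℂ H :=
    { carrier := {η | Filter.Tendsto (fun C : J => P C.1ᶜ η) Filter.atTop (nhds 0)}
      add_mem' := fun ha hb => by simpa using Filter.Tendsto.add ha hb
      zero_mem' := by simp
      smul_mem' := fun c η hη => by simpa using Filter.Tendsto.const_smul hη c }
  have cl : IsClosed (K : Set H) :=
    (LipschitzWith.uniformEquicontinuous (fun (C : J) η => P C.1ᶜ η) 1 fun C =>
      ContinuousLinearMap.lipschitzWith_of_opNorm_le (P2 _ C.2.1.compl).norm_le).equicontinuous.isClosed_setOfPred_tendsto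
      (f := fun _ => 0) continuous_const
  have t : ∀ ξ, Filter.Tendsto (fun C : J => P C.1ᶜ (p ξ)) Filter.atTop (nhds 0) :=
    k K cl fun C l q hq eq ξ => tendsto_const_nhds.congr' ((Filter.eventually_ge_atTop (⟨C, l⟩ : J)).mono
      fun D (s : C ⊆ D.1) => by
        have : P D.1ᶜ * q = 0 := h.inj _ (mul_mem (P1 _ D.2.1.compl) hq) (by
          ext y
          rw [h.mul _ (P1 _ D.2.1.compl) _ hq, ContinuousMap.mul_apply, P3 _ D.2.1.compl, eq]
          by_cases l : y ∈ C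
          · simp [s l]
          · simp [l])
        exact (congrArg (fun S : H →L[ℂ] H => S ξ) this).symm)
  have := tendsto_finset_sum F fun ξ _ => (t (T ξ)).norm.pow 2
  obtain ⟨C, hC⟩ := (this.eventually (gt_mem_nhds (a := ε) (by simpa using hε))).exists
  refine ⟨C.1, C.2.1, C.2.2, _, mul_mem (P1 _ C.2.1.compl) hp, fun x => ?_, hC⟩
  rw [h.mul _ (P1 _ C.2.1.compl) _ hp, ContinuousMap.mul_apply, P3 _ C.2.1.compl, e]
  by_cases x ∈ C.1 <;> by_cases x ∈ closure V <;> simp [*]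

open PhiA in
theorem exists_st (hA : IsMASA M A) (h : IsGel M A ev) {F : Finset H} (hF : ∑ ξ ∈ F, ‖ξ‖ ^ 2 = 1) :
    ∃ I X₀ p₀, IsSt M A ev F I X₀ p₀ := by
  choose L L1 L2 using fun f : C(X, ℝ) => h.surj ⟨fun x => (f x : ℂ), by fun_prop⟩
  have L3 : ∀ f x, ev (L f) x = f x := fun f x => by rw [L2]; rfl
  have key : ∀ a ∈ A, ∀ f : C(X, ℝ), (∀ x, f x = (ev a x).re) → psi F (L f) = psi F a :=
    fun a ha f e => by
      have : L f + L f = a + star a := h.ext (add_mem (L1 f) (L1 f)) (add_mem ha (star_mem ha)) fun x => by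
        rw [h.add _ (L1 f) _ (L1 f), h.add _ ha _ (star_mem ha), h.star a ha]
        simp only [ContinuousMap.add_apply, ContinuousMap.star_apply, L3, e]
        apply Complex.ext <;> simp
      have := congrArg (psi F) this
      simp only [psi_add, psi_star] at this
      linarith
  obtain ⟨I, val⟩ : ∃ I : C(X, ℝ) →ₗ[ℝ] ℝ, ∀ a ∈ A, ∀ f : C(X, ℝ), (∀ x, f x = (ev a x).re) → I f = psi F a := by
    refine ⟨⟨⟨fun f => psi F (L f), fun f g => ?_⟩, fun c f => ?_⟩, key⟩
    · rw [key _ (add_mem (L1 f) (L1 g)) _ fun x => by rw [h.add _ (L1 f) _ (L1 g)]; simp [L3], psi_add]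
    · refine (key _ (A.smul_mem (L1 f) (c : ℂ)) (c • f) fun x => by rw [h.smul _ (L1 f)]; simp [L3]).trans ?_
      rw [Complex.coe_smul, psi_smul]
      rfl
  have pos : ∀ f : C(X, ℝ), (∀ x, 0 ≤ f x) → 0 ≤ I f := fun f hf => by
    let g : C(X, ℝ) := ⟨fun x => √(f x), by fun_prop⟩
    refine le_of_le_of_eq ?_ (val _ (mul_mem (star_mem (L1 g)) (L1 g)) f fun x => ?_).symm
    · rw [psi_sq]; positivity
    · rw [h.mul _ (star_mem (L1 g)) _ (L1 g), h.star _ (L1 g)]
      simp [L3, g, Real.mul_self_sqrt (hf x)]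
  choose! P P1 P2 P3 using fun (C : Set X) (hC : IsClopen C) => h.proj hC
  obtain ⟨p, hp, pp, e, k⟩ := h.sup hA (𝒞 := {C | IsClopen C ∧ ∀ ξ ∈ F, P C ξ = 0}) fun C l => l.1
  have hX : IsClopen (closure (⋃₀ {C | IsClopen C ∧ ∀ ξ ∈ F, P C ξ = 0}))ᶜ :=
    IsClopen.compl ⟨isClosed_closure, h.ed hA _ (isOpen_sUnion fun C l => l.1.isOpen)⟩
  have ev0 : ∀ x, ev (1 - p) x =
      if x ∈ (closure (⋃₀ {C | IsClopen C ∧ ∀ ξ ∈ F, P C ξ = 0}))ᶜ then 1 else 0 := fun x => by
    rw [h.sub (one_mem A) hp, h.one, ContinuousMap.sub_apply, e]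
    by_cases l : x ∈ closure (⋃₀ {C | IsClopen C ∧ ∀ ξ ∈ F, P C ξ = 0}) <;> simp [l]
  have faith : ∀ C, IsClopen C → C ⊆ (closure (⋃₀ {C | IsClopen C ∧ ∀ ξ ∈ F, P C ξ = 0}))ᶜ → C.Nonempty →
      0 < I (ind C) := fun C hC s ⟨x, hx⟩ => by
    rw [val _ (P1 C hC) _ fun y => by rw [ind_apply hC, P3 C hC]; split_ifs <;> simp,
      ← (P2 C hC).isIdempotentElem.eq]
    nth_rewrite 1 [← (P2 C hC).isSelfAdjoint.star_eq]
    rw [psi_sq]
    refine lt_of_le_of_ne (by positivity) fun z => s hx (subset_closure ⟨C, ⟨hC, fun ξ l => ?_⟩, hx⟩)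
    simpa using (sum_eq_zero_iff_of_nonneg fun ξ _ => sq_nonneg _).1 z.symm ξ l
  refine ⟨I, _, 1 - p, pos, ?_, val, fun u ν hν V hV ε hε => ?_, hX, sub_mem (one_mem A) hp, pp.one_sub,
    fun x => (ev0 x).trans (by split_ifs <;> rfl),
    fun ξ l => ?_, faith, fun a ha a0 z => h.inj _ (mul_mem (sub_mem (one_mem A) hp) ha) ?_⟩
  · rw [val _ (one_mem A) 1 fun x => by simp [h.one], ← hF]
    simpa using psi_sq F 1
  · obtain ⟨C, hC, s, c, hc, ec, l⟩ := h.approx hA hV F (op u) hε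
    have hD : IsClopen (closure V \ C) := IsClopen.diff ⟨isClosed_closure, h.ed hA V hV⟩ hC
    have cc := mul_mem (star_mem hc) hc
    refine ⟨C, hC, s, ?_⟩
    rw [hν _ ⟨fun x => ind (closure V \ C) (u • x), by fun_prop⟩ fun _ => rfl,
      val _ ((mem_norm.1 (op_norm u)).2.2.2 _ cc) _ fun x => by
        rw [h.act' u cc, h.mul _ (star_mem hc) _ hc, h.star _ hc, ContinuousMap.mul_apply,
          ContinuousMap.star_apply, ec, ContinuousMap.coe_mk, ind_apply hD]
        split_ifs <;> simp,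
      show star (op u) * (star c * c) * op u = star (c * op u) * (c * op u) by simp [mul_assoc], psi_sq]
    exact l
  · have := k (Submodule.span ℂ {ξ})ᗮ (Submodule.isClosed_orthogonal _) (fun C hC q hq eq η => by
      rw [h.ext hq (P1 C hC.1) fun x => by rw [eq, P3 C hC.1], Submodule.mem_orthogonal_singleton_iff_inner_right,
        ← (P2 C hC.1).isSelfAdjoint.star_eq, Vale.Agent.P070h8.inner_star_right, hC.2 ξ l, inner_zero_left]) ξ
    rw [Submodule.mem_orthogonal_singleton_iff_inner_right] at this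
    rw [ContinuousLinearMap.sub_apply,
      Vale.Agent.P070h8.apply_eq_zero_of_re pp.nonneg ξ (by rw [this]; rfl)]
    simp
  · ext x
    rw [h.mul _ (sub_mem (one_mem A) hp) _ ha, ContinuousMap.mul_apply, ev0]
    split_ifs with hx
    swap
    · simp
    have im : (ev a x).im = 0 := by
      have := congrArg (fun f : C(X, ℂ) => (f x).im) (h.star a ha)
      rw [(IsSelfAdjoint.of_nonneg a0).star_eq] at this
      simp only [ContinuousMap.star_apply, Complex.star_def, Complex.conj_im] at this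
      linarith
    have re : (ev a x).re = 0 := by
      by_contra n
      have t0 := half_pos (lt_of_le_of_ne (h.pos a ha a0 x) (Ne.symm n))
      let f : C(X, ℝ) := ⟨fun y => (ev a y).re, by fun_prop⟩
      obtain ⟨C, hC, xC, sC⟩ := compact_exists_isClopen_in_isOpen (x := x)
        (hX.isOpen.inter (isOpen_lt (continuous_const (y := (ev a x).re / 2)) f.continuous))
        ⟨hx, show (ev a x).re / 2 < (ev a x).re by linarith⟩
      have k1 : I (((ev a x).re / 2) • ind C) ≤ I f := RN.le_of pos fun y => by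
        rw [ContinuousMap.smul_apply, ind_apply hC]
        split_ifs with l
        · simpa using le_of_lt (show (ev a x).re / 2 < f y from (sC l).2)
        · simpa [f] using h.pos a ha a0 y
      rw [val a ha f fun _ => rfl, z, map_smul, smul_eq_mul] at k1
      exact k1.not_gt (mul_pos t0 (faith C hC (fun y l => (sC l).1) ⟨x, xC⟩))
    simp [Complex.ext_iff, im, re]

end Vale.Agent.P078
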