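import Vale.Agent.P078.Poly

/-!
Real stability of the partially averaged products of determinants.

PLAN. `dz_expand`: induction on `S` or `Matrix.det_apply` and `Finset.prod_add`; `dz_split`: from `dz_expand`.
`dz_ne`: a kernel vector `v` has `Σ Z a |v a|² = ⟨v, k v⟩` real. `slice`: for each colouring `c` of `D` the product over the
colours `j` is `Π_j (C (a j) * X - C (b j))` (`dz_split`; the factor is the constant `a j` if `j ∉ T i`).
For `T i = univ` the `(r-1)`-st derivative of a product of `r` linear factors is `(r-1)! Σ_j (a_j X - b_j) Π_{j'≠j} a_j'`;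
reindex colourings of `insert i D`. `pp_ne`: induction on `D` (for all `U`, `T`): `f` from `slice` has no zero in the upper half
plane and nonzero coefficient `r` (induction hypothesis for `U.erase i`), so each derivative has no zero there
(`f'/f = Σ 1/(t - λ)` has negative imaginary part, or Gauss-Lucas). `Qm_eq`: `det` of a pinched matrix is the product over the
colours (`Matrix.det_blockDiagonal'` or `BlockTriangular.det`), `dz_expand` for the kernel `yc`, exchange sums.
`ratio`: `Qm σ U Z = Z y * Qm σ (U.erase y) Z - R σ Z`, `R = - Σ_{T ∋ y} co T Π Z`, `co {y} = 0`, `co` is affine in `wt (σ y)`;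
`im (R / Qm (U.erase y)) ≤ 0` since `Qm ≠ 0` for every `Z y` in the upper half plane.
-/

open Finset Polynomial
open scoped Classical ComplexConjugate

namespace Vale.Agent.P078

variable {V : Type*} {r : ℕ} {k : V → V → ℂ} {U S D : Finset V} {Z : V → ℂ}
  {T : V → Finset (Fin r)} {σ : V → Option (Fin r)}

/-- `det (diag Z - k)` on `S`. -/
noncomputable def dz (k : V → V → ℂ) (S : Finset V) (Z : V → ℂ) : ℂ :=
  (Matrix.of fun a b : S => (if a = b then Z a else 0) - k a b).det

/-- The vertices of `D` are averaged over one colour, a vertex `v ∉ D` occurs in the colours `T v`. -/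
noncomputable def pp (k : V → V → ℂ) (T : V → Finset (Fin r)) (D U : Finset V) (Z : V → ℂ) : ℂ :=
  ∑ c : D → Fin r, ∏ j : Fin r,
    dz k (U.filter fun v => if h : v ∈ D then c ⟨v, h⟩ = j else j ∈ T v) Z

theorem det_add_diag {n : Type*} [Fintype n] [DecidableEq n] (M : Matrix n n ℂ) (z : n → ℂ) :
    (M + Matrix.diagonal z).det = ∑ s : Finset n,
      (M.submatrix (Subtype.val : s → n) (Subtype.val : s → n)).det * ∏ i ∈ sᶜ, z i := by
  let D := (Matrix.detRowAlternating : (n → ℂ) [⋀^n]→ₗ[ℂ] ℂ)
  have h1 : (M + Matrix.diagonal z).det = D ((fun i => M i) + fun i => Matrix.diagonal z i) := rfl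
  rw [h1, D.map_add_univ]
  refine sum_congr rfl fun s _ => ?_
  have h2 : s.piecewise (fun i => M i) (fun i => Matrix.diagonal z i) =
      fun i => (if i ∈ s then (1 : ℂ) else z i) •
        s.piecewise (fun i => M i) (fun i => (1 : Matrix n n ℂ) i) i := by
    funext i j
    simp only [piecewise, Pi.smul_apply, smul_eq_mul]
    split_ifs with h
    · simp
    · simp [Matrix.diagonal_apply, Matrix.one_apply]
  rw [h2, D.map_smul_univ, smul_eq_mul, mul_comm]
  congr 1
  · exact Matrix.det_piecewise_one_eq_submatrix_det M s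
  · rw [prod_ite, prod_const_one, one_mul]
    refine prod_congr ?_ fun _ _ => rfl
    ext a
    simp

theorem dz_expand (k : V → V → ℂ) (S : Finset V) (Z : V → ℂ) : dz k S Z =
    ∑ W ∈ S.powerset, (Matrix.of fun a b : W => -k a b).det * ∏ v ∈ S \ W, Z v := by
  have h1 : (Matrix.of fun a b : S => (if a = b then Z a else 0) - k a b) =
      (Matrix.of fun a b : S => -k a b) + Matrix.diagonal fun a : S => Z a := by
    ext a b
    simp only [Matrix.of_apply, Matrix.add_apply, Matrix.diagonal_apply]
    ring
  rw [dz, h1, det_add_diag]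
  symm
  refine sum_bij' (fun W _ => W.subtype (· ∈ S)) (fun s _ => s.map (Function.Embedding.subtype _))
    (fun _ _ => mem_univ _) (fun s _ => ?_) (fun W hW => ?_) (fun s _ => ?_) (fun W hW => ?_)
  · rw [mem_powerset]
    intro a ha
    obtain ⟨b, -, rfl⟩ := mem_map.1 ha
    exact b.2
  · exact subtype_map_of_mem fun a ha => mem_powerset.1 hW ha
  · ext a
    simp
  · have hWS := mem_powerset.1 hW
    let e : W ≃ (W.subtype (· ∈ S)) :=
      { toFun := fun a => ⟨⟨a.1, hWS a.2⟩, mem_subtype.2 a.2⟩
        invFun := fun b => ⟨b.1.1, mem_subtype.1 b.2⟩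
        left_inv := fun _ => rfl
        right_inv := fun _ => rfl }
    congr 1
    · rw [← Matrix.det_submatrix_equiv_self e]
      rfl
    · symm
      refine prod_bij (fun a _ => a.1) (fun a ha => ?_) (fun a _ b _ h => Subtype.ext h)
        (fun b hb => ?_) fun _ _ => rfl
      · rw [mem_sdiff]
        refine ⟨a.2, fun h => ?_⟩
        exact (mem_compl.1 ha) (mem_subtype.2 h)
      · rw [mem_sdiff] at hb
        exact ⟨⟨b, hb.1⟩, mem_compl.2 fun h => hb.2 (mem_subtype.1 h), rfl⟩

theorem dz_split {i : V} (hi : i ∈ S) (Z : V → ℂ) : ∃ b : ℂ, ∀ t : ℂ,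
    dz k S (Function.update Z i t) = t * dz k (S.erase i) Z - b := by
  refine ⟨-∑ W ∈ (S.erase i).powerset, (Matrix.of fun a b : ↥(insert i W) => -k a b).det *
    ∏ v ∈ S.erase i \ W, Z v, fun t => ?_⟩
  rw [dz_expand, dz_expand, sub_neg_eq_add, mul_sum]
  conv_lhs => rw [← insert_erase hi]
  rw [sum_powerset_insert (notMem_erase i S), insert_erase hi]
  congr 1
  · refine sum_congr rfl fun W hW => ?_
    have hiW : i ∉ W := fun h => notMem_erase i S (mem_powerset.1 hW h)
    have e : S \ W = insert i (S.erase i \ W) := by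
      ext a
      by_cases ha : a = i
      · subst ha; simp [hi, hiW]
      · simp [ha]
    have hn : i ∉ S.erase i \ W := by simp
    rw [e, prod_insert hn, Function.update_self,
      prod_congr rfl fun v hv => Function.update_of_ne (ne_of_mem_of_not_mem hv hn) t Z]
    ring
  · refine sum_congr rfl fun W _ => ?_
    have e : S \ insert i W = S.erase i \ W := by
      ext a
      simp only [mem_sdiff, mem_insert, mem_erase, not_or]
      tauto
    have hn : i ∉ S.erase i \ W := by simp
    rw [e, prod_congr rfl fun v hv => Function.update_of_ne (ne_of_mem_of_not_mem hv hn) t Z]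

theorem dz_congr {Z' : V → ℂ} (h : ∀ v ∈ S, Z v = Z' v) : dz k S Z = dz k S Z' := by
  unfold dz
  congr 1
  ext a b
  simp only [Matrix.of_apply, h a a.2]

/-- The quadratic form of the matrix defining `dz`. -/
theorem quad (k : V → V → ℂ) (S : Finset V) (Z : V → ℂ) (x : S → ℂ) :
    ∃ v : V → ℂ, (∀ a : S, v a = x a) ∧
      star x ⬝ᵥ (Matrix.of fun a b : S => (if a = b then Z a else 0) - k a b).mulVec x =
        ∑ a ∈ S, Z a * ((‖v a‖ ^ 2 : ℝ) : ℂ) - ∑ a ∈ S, ∑ b ∈ S, conj (v a) * k a b * v b := by
  refine ⟨fun a => if h : a ∈ S then x ⟨a, h⟩ else 0, fun a => by simp, ?_⟩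
  rw [← sum_coe_sort S, ← sum_coe_sort S, ← sum_sub_distrib, dotProduct]
  refine sum_congr rfl fun a _ => ?_
  rw [← sum_coe_sort S]
  simp only [Matrix.mulVec, dotProduct, Matrix.of_apply, sub_mul, sum_sub_distrib, ite_mul,
    zero_mul, sum_ite_eq, mem_univ, if_true, coe_mem, dif_pos, Pi.star_apply, Subtype.coe_eta,
    mul_sub, mul_sum, RCLike.star_def]
  congr 1
  · rw [← Complex.normSq_eq_norm_sq, Complex.normSq_eq_conj_mul_self]
    ring
  · exact sum_congr rfl fun b _ => by ring

theorem form_real (h : Good k S) (v : V → ℂ) :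
    (∑ a ∈ S, ∑ b ∈ S, conj (v a) * k a b * v b).im = 0 := by
  rw [← Complex.conj_eq_iff_im]
  simp only [map_sum, map_mul, Complex.conj_conj]
  rw [sum_comm]
  refine sum_congr rfl fun a ha => sum_congr rfl fun b hb => ?_
  rw [h.1 b hb a ha]
  ring

theorem exists_ne {x : S → ℂ} (hx : x ≠ 0) {v : V → ℂ} (hv : ∀ a : S, v a = x a) :
    ∃ a ∈ S, 0 < ‖v a‖ ^ 2 := by
  obtain ⟨a, ha⟩ := Function.ne_iff.1 hx
  refine ⟨a, a.2, ?_⟩
  rw [hv a]
  have : x a ≠ 0 := ha
  positivity

theorem dz_ne (h : Good k S) (hZ : ∀ v ∈ S, 0 < (Z v).im) : dz k S Z ≠ 0 := by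
  intro h0
  obtain ⟨x, hx, hx0⟩ := Matrix.exists_mulVec_eq_zero_iff.2 h0
  obtain ⟨v, hv, e⟩ := quad k S Z x
  rw [hx0, dotProduct_zero] at e
  have e2 := congrArg Complex.im e
  rw [Complex.sub_im, form_real h, Complex.im_sum] at e2
  simp only [Complex.im_mul_ofReal, Complex.zero_im, sub_zero] at e2
  obtain ⟨a, ha, hp⟩ := exists_ne hx hv
  have : 0 < ∑ a ∈ S, (Z a).im * ‖v a‖ ^ 2 :=
    sum_pos' (fun b hb => mul_nonneg (hZ b hb).le (sq_nonneg _)) ⟨a, ha, mul_pos (hZ a ha) hp⟩
  linarith

theorem herm (h : Good k S) (hZ : ∀ v ∈ S, (Z v).im = 0) :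
    (Matrix.of fun a b : S => (if a = b then Z a else 0) - k a b).IsHermitian := by
  ext a b
  simp only [Matrix.conjTranspose_apply, Matrix.of_apply, RCLike.star_def, map_sub]
  rw [← h.1 b b.2 a a.2]
  congr 1
  by_cases hab : a = b
  · subst hab
    simp [Complex.conj_eq_iff_im.2 (hZ a a.2)]
  · simp [hab, Ne.symm hab]

theorem dz_real (h : Good k S) (hZ : ∀ v ∈ S, (Z v).im = 0) : (dz k S Z).im = 0 := by
  rw [← Complex.conj_eq_iff_im]
  have := Matrix.det_conjTranspose (Matrix.of fun a b : S => (if a = b then Z a else 0) - k a b)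
  rw [(herm h hZ).eq] at this
  exact this.symm

open scoped ComplexOrder in
theorem dz_pos (h : Good k S) (hZ : ∀ v ∈ S, (Z v).im = 0 ∧ 1 < (Z v).re) : 0 < (dz k S Z).re := by
  have hp : (Matrix.of fun a b : S => (if a = b then Z a else 0) - k a b).PosDef := by
    refine Matrix.PosDef.of_dotProduct_mulVec_pos (herm h fun v hv => (hZ v hv).1) fun x hx => ?_
    obtain ⟨v, hv, e⟩ := quad k S Z x
    rw [e, Complex.pos_iff]
    obtain ⟨a, ha, hp⟩ := exists_ne hx hv
    constructor
    · rw [Complex.sub_re, Complex.re_sum]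
      simp only [Complex.re_mul_ofReal]
      have h1 := (Complex.re_le_norm _).trans (h.2.2 v)
      have h2 : ∑ a ∈ S, ‖v a‖ ^ 2 < ∑ a ∈ S, (Z a).re * ‖v a‖ ^ 2 :=
        sum_lt_sum (fun b hb => le_mul_of_one_le_left (sq_nonneg _) (hZ b hb).2.le)
          ⟨a, ha, lt_mul_of_one_lt_left hp (hZ a ha).2⟩
      linarith
    · rw [Complex.sub_im, form_real h, Complex.im_sum]
      simp only [Complex.im_mul_ofReal, sub_zero]
      exact (sum_eq_zero fun b hb => by rw [(hZ b hb).1, zero_mul]).symm
  exact (Complex.pos_iff.1 hp.det_pos).1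

theorem continuous_pp (k : V → V → ℂ) (T : V → Finset (Fin r)) (D U : Finset V) :
    Continuous (pp k T D U) := by
  unfold pp dz
  refine continuous_finsetSum _ fun c _ => continuous_finsetProd _ fun j _ => ?_
  refine Continuous.matrix_det (continuous_matrix fun a b => ?_)
  simp only [Matrix.of_apply]
  refine Continuous.sub ?_ continuous_const
  split_ifs
  · exact continuous_apply _
  · exact continuous_const

theorem pp_real (h : Good k U) (hZ : ∀ v ∈ U, (Z v).im = 0) : (pp k T D U Z).im = 0 := by
  rw [← Complex.conj_eq_iff_im, pp, map_sum]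
  refine sum_congr rfl fun c _ => ?_
  rw [map_prod]
  refine prod_congr rfl fun j _ => ?_
  exact Complex.conj_eq_iff_im.2
    (dz_real (h.mono (filter_subset _ _)) fun v hv => hZ v (filter_subset _ _ hv))

theorem lin_coeff {ι : Type*} [DecidableEq ι] (a l : ι → ℂ) (s : Finset ι) :
    (∏ j ∈ s, (C (a j) * X + C (l j))).natDegree ≤ s.card ∧
    (∏ j ∈ s, (C (a j) * X + C (l j))).coeff s.card = ∏ j ∈ s, a j ∧
    (X * ∏ j ∈ s, (C (a j) * X + C (l j))).coeff s.card = ∑ j ∈ s, l j * ∏ j' ∈ s.erase j, a j' := by
  induction s using Finset.induction_on with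
  | empty => simp
  | insert x s hx ih =>
    obtain ⟨h1, h2, h3⟩ := ih
    have h4 : (∏ j ∈ s, (C (a j) * X + C (l j))).coeff (s.card + 1) = 0 :=
      coeff_eq_zero_of_natDegree_lt (by omega)
    rw [prod_insert hx, prod_insert hx, card_insert_of_notMem hx, sum_insert hx, erase_insert hx]
    refine ⟨?_, ?_, ?_⟩
    · refine natDegree_mul_le.trans ?_
      have := natDegree_linear_le (a := a x) (b := l x)
      omega
    · rw [add_mul, coeff_add, mul_assoc, coeff_C_mul, coeff_C_mul, coeff_X_mul, h2, h4]
      ring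
    · rw [coeff_X_mul, add_mul, coeff_add, mul_assoc, coeff_C_mul, coeff_C_mul, h2, h3, add_comm,
        mul_sum]
      congr 1
      refine sum_congr rfl fun j hj => ?_
      have hne : x ≠ j := fun h => hx (h ▸ hj)
      rw [erase_insert_of_ne hne, prod_insert fun h => hx (mem_of_mem_erase h)]
      ring

theorem lin_iter (hr : 0 < r) (a b : Fin r → ℂ) (t : ℂ) :
    (derivative^[r - 1] (∏ j, (C (a j) * X + C (b j)))).eval t =
      (r - 1).factorial * ∑ j, (a j * t + b j) * ∏ j' ∈ univ.erase j, a j' := by
  rw [← factorial_smul_hasseDeriv, LinearMap.smul_apply, eval_smul, ← taylor_coeff, nsmul_eq_mul]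
  congr 1
  have e : taylor t (∏ j, (C (a j) * X + C (b j))) = ∏ j, (C (a j) * X + C (a j * t + b j)) := by
    have := map_prod (taylorAlgHom t) (fun j => C (a j) * X + C (b j)) univ
    rw [taylorAlgHom_apply] at this
    rw [this]
    refine prod_congr rfl fun j _ => ?_
    simp only [taylorAlgHom_apply, map_add, taylor_mul, taylor_C, taylor_X, map_mul]
    ring
  have h3 := (lin_coeff a (fun j => a j * t + b j) univ).2.2
  rw [card_univ, Fintype.card_fin] at h3
  obtain ⟨n, rfl⟩ : ∃ n, r = n + 1 := ⟨r - 1, by omega⟩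
  rw [coeff_X_mul] at h3
  rw [e, Nat.add_sub_cancel, h3]

/-- Colourings of `insert i D`. -/
noncomputable def insEquiv {i : V} (hD : i ∉ D) : (Fin r × (D → Fin r)) ≃ (↥(insert i D) → Fin r) where
  toFun p := fun v => if h : v.1 ∈ D then p.2 ⟨v.1, h⟩ else p.1
  invFun c := (c ⟨i, mem_insert_self _ _⟩, fun v => c ⟨v.1, mem_insert_of_mem v.2⟩)
  left_inv p := by
    ext
    · simp [hD]
    · simp
  right_inv c := by
    funext v
    by_cases h : v.1 ∈ D
    · simp [h]
    · have : v = ⟨i, mem_insert_self _ _⟩ :=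
        Subtype.ext ((mem_insert.1 v.2).resolve_right h)
      subst this
      simp [hD]

/-- The slice in an unprocessed variable occurring in all colours. -/
theorem slice (hr : 0 < r) {i : V} (hi : i ∈ U) (hD : i ∉ D) (hT : T i = univ) (Z : V → ℂ) :
    ∃ f : ℂ[X], f.natDegree ≤ r ∧ (∀ t, f.eval t = pp k T D U (Function.update Z i t)) ∧
      f.coeff r = pp k T D (U.erase i) Z ∧
      (∀ t, f.derivative.eval t =
        ∑ j, pp k (Function.update T i (univ.erase j)) D U (Function.update Z i t)) ∧
      ∀ t, (derivative^[r - 1] f).eval t =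
        (r - 1).factorial * pp k T (insert i D) U (Function.update Z i t) := by
  set W : (D → Fin r) → Fin r → Finset V := fun c j =>
    U.filter fun v => if h : v ∈ D then c ⟨v, h⟩ = j else j ∈ T v with hW
  have hiW : ∀ c j, i ∈ W c j := fun c j => by simp [hW, hi, hD, hT]
  choose b hb using fun c j => dz_split (k := k) (hiW c j) Z
  set a : (D → Fin r) → Fin r → ℂ := fun c j => dz k ((W c j).erase i) Z with ha
  have hb' : ∀ c j t, dz k (W c j) (Function.update Z i t) = a c j * t + -b c j := fun c j t => by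
    rw [hb]; ring
  have ha' : ∀ c j t, dz k ((W c j).erase i) (Function.update Z i t) = a c j := fun c j t =>
    dz_congr fun v hv => Function.update_of_ne (ne_of_mem_erase hv) t Z
  refine ⟨∑ c : D → Fin r, ∏ j, (C (a c j) * X + C (-b c j)), ?_, fun t => ?_, ?_, fun t => ?_,
    fun t => ?_⟩
  · refine natDegree_sum_le_of_forall_le _ _ fun c _ => ?_
    simpa using (lin_coeff (a c) (fun j => -b c j) univ).1
  · rw [eval_finsetSum, pp]
    refine sum_congr rfl fun c _ => ?_
    rw [eval_prod]
    refine prod_congr rfl fun j _ => ?_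
    rw [eval_add, eval_mul, eval_C, eval_C, eval_X]
    exact (hb' c j t).symm
  · rw [finsetSum_coeff, pp]
    refine sum_congr rfl fun c _ => ?_
    have := (lin_coeff (a c) (fun j => -b c j) univ).2.1
    rw [card_univ, Fintype.card_fin] at this
    rw [this]
    refine prod_congr rfl fun j _ => ?_
    rw [filter_erase]
  · simp only [pp]
    rw [derivative_sum, eval_finsetSum, sum_comm]
    refine sum_congr rfl fun c _ => ?_
    rw [derivative_prod_finset, eval_finsetSum]
    refine sum_congr rfl fun j _ => ?_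
    rw [← prod_erase_mul _ _ (mem_univ j), eval_mul, eval_prod]
    congr 1
    · refine prod_congr rfl fun j' hj' => ?_
      rw [eval_add, eval_mul, eval_C, eval_C, eval_X, ← hb']
      congr 1
      refine filter_congr fun v _ => ?_
      by_cases hv : v = i
      · subst hv
        simp [hD, hT, ne_of_mem_erase hj']
      · rw [Function.update_of_ne hv]
    · have e : (U.filter fun v => if h : v ∈ D then c ⟨v, h⟩ = j else
          j ∈ Function.update T i (univ.erase j) v) = (W c j).erase i := by
        ext v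
        by_cases hv : v = i
        · subst hv
          simp [hD]
        · simp [hW, hv]
      rw [e, ha']
      simp
  · rw [iterate_derivative_sum, eval_finsetSum, pp, ← (insEquiv hD).sum_comp, Fintype.sum_prod_type,
      sum_comm, mul_sum]
    refine sum_congr rfl fun c _ => ?_
    rw [lin_iter hr]
    congr 1
    refine sum_congr rfl fun j _ => ?_
    rw [← mul_prod_erase _ _ (mem_univ j)]
    congr 1
    · rw [← hb']
      congr 1
      refine filter_congr fun v _ => ?_
      by_cases hv : v = i
      · subst hv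
        simp [hD, hT, insEquiv]
      · by_cases hvD : v ∈ D <;> simp [hv, hvD, insEquiv]
    · refine prod_congr rfl fun j' hj' => ?_
      rw [← ha' c j' t]
      congr 1
      ext v
      by_cases hv : v = i
      · subst hv
        simp [hD, insEquiv, (ne_of_mem_erase hj').symm]
      · by_cases hvD : v ∈ D <;> simp [hW, hv, hvD, insEquiv]

theorem iter_ne (m : ℕ) : ∀ f : ℂ[X], m < f.natDegree → (∀ t : ℂ, 0 < t.im → f.eval t ≠ 0) →
    ∀ t : ℂ, 0 < t.im → (derivative^[m] f).eval t ≠ 0 := by
  induction m with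
  | zero => exact fun f _ h => h
  | succ m ih =>
    intro f hf h
    rw [Function.iterate_succ_apply]
    have hd : f.derivative.natDegree = f.natDegree - 1 := natDegree_derivative f
    refine ih _ (by omega) fun t ht h0 => ?_
    have hne : f.derivative ≠ 0 := fun h1 => by
      rw [h1, natDegree_zero] at hd
      omega
    have h1 : t ∈ convexHull ℝ (f.rootSet ℂ) :=
      rootSet_derivative_subset_convexHull_rootSet (natDegree_pos_iff_degree_pos.1 (by omega))
        (mem_rootSet.2 ⟨hne, by simpa using h0⟩)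
    have h2 : convexHull ℝ (f.rootSet ℂ) ⊆ {z : ℂ | z.im ≤ 0} := by
      refine convexHull_min (fun z hz => ?_) (convex_halfSpace_im_le 0)
      by_contra hc
      exact h z (not_le.1 hc) (by simpa using (mem_rootSet.1 hz).2)
    exact absurd (h2 h1) (not_le.2 ht)

theorem pp_ne (hr : 0 < r) (h : Good k U) (hD : D ⊆ U) (hZ : ∀ v ∈ U, 0 < (Z v).im) :
    pp k T D U Z ≠ 0 := by
  induction D using Finset.induction_on generalizing U T Z with
  | empty =>
    rw [pp, Fintype.sum_unique]
    exact prod_ne_zero_iff.2 fun j _ =>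
      dz_ne (h.mono (filter_subset _ _)) fun v hv => hZ v (filter_subset _ _ hv)
  | insert i D hi ih =>
    have hiU : i ∈ U := hD (mem_insert_self _ _)
    have hDU : D ⊆ U := (subset_insert _ _).trans hD
    have e : pp k T (insert i D) U Z = pp k (Function.update T i univ) (insert i D) U Z := by
      unfold pp
      refine sum_congr rfl fun c _ => prod_congr rfl fun j _ => ?_
      congr 1
      refine filter_congr fun v _ => ?_
      by_cases hv : v = i
      · subst hv
        simp
      · rw [Function.update_of_ne hv]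
    obtain ⟨f, h1, h2, h3, -, h5⟩ :=
      slice (k := k) (T := Function.update T i univ) hr hiU hi (Function.update_self _ _ _) Z
    have h6 : f.coeff r ≠ 0 := by
      rw [h3]
      exact ih (h.mono (erase_subset _ _)) (subset_erase.2 ⟨hDU, hi⟩)
        fun v hv => hZ v (mem_of_mem_erase hv)
    have h7 : r ≤ f.natDegree := le_natDegree_of_ne_zero h6
    have h8 := iter_ne (r - 1) f (by omega) (fun t ht => by
      rw [h2]
      refine ih h hDU fun v hv => ?_
      by_cases hvi : v = i
      · subst hvi
        simpa using ht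
      · rw [Function.update_of_ne hvi]
        exact hZ v hv) (Z i) (hZ i hiU)
    rw [h5, Function.update_eq_self] at h8
    rw [e]
    exact right_ne_zero_of_mul h8

end Vale.Agent.P078
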