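import Vale.Agent.P078.StabA

/-! Auxiliary lemmas for the expected characteristic polynomials. -/

open Finset Polynomial
open scoped Classical ComplexConjugate

namespace Vale.Agent.P078

variable {V : Type*} {r : ℕ} {k : V → V → ℂ} {U S D W : Finset V} {Z : V → ℂ}
  {σ : V → Option (Fin r)}

theorem dz_block (k : V → V → ℂ) (c : V → Fin r) (U : Finset V) (Z : V → ℂ) :
    dz (yc k c) U Z = ∏ j, dz k (U.filter fun v => c v = j) Z := by
  unfold dz
  have hb : (Matrix.of fun a b : U => (if a = b then Z a else 0) - yc k c a b).BlockTriangular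
      fun a : U => c a := by
    intro a b hab
    have h1 : a ≠ b := fun h => by subst h; exact lt_irrefl _ hab
    have h2 : c a ≠ c b := fun h => by simp only [h] at hab; exact lt_irrefl _ hab
    simp [yc, h1, h2]
  rw [hb.det_fintype]
  refine prod_congr rfl fun j _ => ?_
  let e : {a : U // c a = j} ≃ (U.filter fun v => c v = j) :=
    { toFun := fun a => ⟨a.1.1, mem_filter.2 ⟨a.1.2, a.2⟩⟩
      invFun := fun a => ⟨⟨a.1, (mem_filter.1 a.2).1⟩, (mem_filter.1 a.2).2⟩
      left_inv := fun _ => rfl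
      right_inv := fun _ => rfl }
  rw [← Matrix.det_submatrix_equiv_self e]
  congr 1
  ext a b
  have h2 : c a = c b := a.2.trans b.2.symm
  simp only [Matrix.toSquareBlock_def, Matrix.of_apply, Matrix.submatrix_apply, yc, h2, if_true]
  congr 1
  by_cases h : a = b
  · subst h; simp [e]
  · have h1 : (a : U) ≠ b := fun h' => h (Subtype.ext h')
    have h3 : e a ≠ e b := fun h' => h (e.injective h')
    simp [h1, h3]

theorem marg (hW : W ⊆ U) (w : V → Fin r → ℂ) (hw : ∀ v, ∑ j, w v j = 1) (G : (W → Fin r) → ℂ) :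
    ∑ c : U → Fin r, (∏ a : U, w a (c a)) * G (fun a => c ⟨a, hW a.2⟩) =
      ∑ c : W → Fin r, (∏ a : W, w a (c a)) * G c := by
  let e : (W → Fin r) × ((U \ W : Finset V) → Fin r) ≃ (U → Fin r) :=
    { toFun := fun p a => if h : a.1 ∈ W then p.1 ⟨a, h⟩ else p.2 ⟨a, mem_sdiff.2 ⟨a.2, h⟩⟩
      invFun := fun c => (fun a => c ⟨a, hW a.2⟩, fun a => c ⟨a, (mem_sdiff.1 a.2).1⟩)
      left_inv := fun p => by
        ext a
        · simp
        · simp [(mem_sdiff.1 a.2).2]
      right_inv := fun c => by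
        ext a
        by_cases h : a.1 ∈ W <;> simp [h] }
  rw [← e.sum_comp, Fintype.sum_prod_type]
  refine sum_congr rfl fun c _ => ?_
  have h1 : ∀ d : (U \ W : Finset V) → Fin r, ∏ a : U, w a (e (c, d) a) =
      (∏ a : (U \ W : Finset V), w a (d a)) * ∏ a : W, w a (c a) := by
    intro d
    let g : V → ℂ := fun v => if h : v ∈ U then w v (e (c, d) ⟨v, h⟩) else 1
    have e1 : ∏ a : U, w a (e (c, d) a) = ∏ v ∈ U, g v := by
      rw [← prod_coe_sort U]
      exact prod_congr rfl fun a _ => by simp [g]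
    rw [e1, ← prod_sdiff hW, ← prod_coe_sort (U \ W), ← prod_coe_sort W]
    congr 1
    · refine prod_congr rfl fun a _ => ?_
      simp [g, e, (mem_sdiff.1 a.2).1, (mem_sdiff.1 a.2).2]
    · refine prod_congr rfl fun a _ => ?_
      simp [g, e, hW a.2]
  have h2 : ∀ d : (U \ W : Finset V) → Fin r, (fun a : W => e (c, d) ⟨a, hW a.2⟩) = c := by
    intro d
    ext a
    simp [e]
  simp only [h1, h2]
  rw [← sum_mul, ← sum_mul]
  have h3 : ∑ d : (U \ W : Finset V) → Fin r, ∏ a : (U \ W : Finset V), w a (d a) = 1 := by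
    have := Finset.prod_univ_sum (fun _ : (U \ W : Finset V) => (univ : Finset (Fin r)))
      fun a j => w a j
    rw [Fintype.piFinset_univ] at this
    rw [← this]
    simp [hw]
  rw [h3, one_mul]

theorem wt_sum (hr : 0 < r) (s : Option (Fin r)) : ∑ j, wt s j = 1 := by
  cases s with
  | none =>
    have : (r : ℂ) ≠ 0 := by exact_mod_cast hr.ne'
    simp [wt, this]
  | some i => simp [wt]

/-- Extension of a colouring of `U`. -/
noncomputable def ext (hr : 0 < r) (U : Finset V) (c : U → Fin r) (v : V) : Fin r :=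
  if h : v ∈ U then c ⟨v, h⟩ else ⟨0, hr⟩

theorem Qm_exp (hr : 0 < r) (σ : V → Option (Fin r)) (k : V → V → ℂ) (U : Finset V) (Z : V → ℂ) :
    Qm σ k U Z = ∑ c : U → Fin r, (∏ a : U, wt (σ a) (c a)) * dz (yc k (ext hr U c)) U Z := by
  simp only [dz_expand, mul_sum]
  rw [sum_comm]
  refine sum_congr rfl fun W hW => ?_
  have hW' : W ⊆ U := mem_powerset.1 hW
  simp only [← mul_assoc]
  rw [← sum_mul, co, ← marg hW' (fun v => wt (σ v)) fun v => wt_sum hr _]
  congr 1
  refine sum_congr rfl fun c _ => ?_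
  congr 2
  ext a b
  simp [yc, ext, hW' a.2, hW' b.2]

theorem Qm_eq' (hr : 0 < r) (σ : V → Option (Fin r)) (k : V → V → ℂ) (U : Finset V) (Z : V → ℂ) :
    (r : ℂ) ^ (U.filter fun v => σ v = none).card * Qm σ k U Z =
      pp k (fun v => (σ v).toFinset) (U.filter fun v => σ v = none) U Z := by
  set D := U.filter fun v => σ v = none with hD
  have hDU : D ⊆ U := filter_subset _ _
  have hr' : (r : ℂ) ≠ 0 := by exact_mod_cast hr.ne'
  let e : (D → Fin r) → (U → Fin r) := fun d a =>
    if h : a.1 ∈ D then d ⟨a, h⟩ else (σ a).getD ⟨0, hr⟩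
  have he : Function.Injective e := by
    intro d d' h
    ext a
    have := congrFun h ⟨a, hDU a.2⟩
    simp only [e, a.2, dif_pos] at this
    rw [this]
  rw [Qm_exp hr, mul_sum, pp]
  symm
  refine Fintype.sum_of_injective e he _ _ (fun c hc => ?_) fun d => ?_
  · by_contra hne
    refine hc ⟨fun a => c ⟨a, hDU a.2⟩, ?_⟩
    ext a
    by_cases h : a.1 ∈ D
    · simp [e, h]
    · have h0 : wt (σ a) (c a) ≠ 0 := fun h0 =>
        hne (by rw [prod_eq_zero (mem_univ a) h0]; simp)
      have h1 : σ a ≠ none := fun h1 => h (mem_filter.2 ⟨a.2, h1⟩)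
      obtain ⟨i, hi⟩ := Option.ne_none_iff_exists'.1 h1
      simp only [hi, wt, ne_eq, ite_eq_right_iff, one_ne_zero, imp_false, not_not] at h0
      simp [e, h, hi, h0]
  · have h1 : ∏ a : U, wt (σ a) (e d a) = (1 / r : ℂ) ^ D.card := by
      have h2 : ∀ a : U, wt (σ a) (e d a) = if σ a = none then (1 / r : ℂ) else 1 := by
        intro a
        by_cases h : σ a = none
        · simp [h, wt]
        · have h3 : a.1 ∉ D := fun h3 => h (mem_filter.1 h3).2
          obtain ⟨i, hi⟩ := Option.ne_none_iff_exists'.1 h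
          simp [e, h3, hi, wt]
      simp only [h2]
      rw [prod_coe_sort U fun v => if σ v = none then (1 / r : ℂ) else 1, prod_ite]
      simp [hD]
    rw [h1, ← mul_assoc, ← mul_pow, mul_one_div_cancel hr', one_pow, one_mul, dz_block]
    refine prod_congr rfl fun j _ => ?_
    congr 1
    refine filter_congr fun v hv => ?_
    by_cases h : v ∈ D
    · simp [ext, hv, e, h]
    · have h1 : σ v ≠ none := fun h1 => h (mem_filter.2 ⟨hv, h1⟩)
      obtain ⟨i, hi⟩ := Option.ne_none_iff_exists'.1 h1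
      simp [ext, hv, e, h, hi, eq_comm]

theorem co_congr {σ' : V → Option (Fin r)} (h : ∀ v ∈ S, σ v = σ' v) : co σ k S = co σ' k S :=
  sum_congr rfl fun c _ => by rw [prod_congr rfl fun a _ => by rw [h a.1 a.2]]

theorem co_empty (σ : V → Option (Fin r)) (k : V → V → ℂ) : co σ k ∅ = 1 := by
  simp [co]

theorem co_single {y : V} (h : k y y = 0) : co σ k {y} = 0 := by
  refine sum_eq_zero fun c _ => ?_
  have : (Matrix.of fun a b : ({y} : Finset V) => -(if c a = c b then k a b else 0)) = 0 := by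
    ext a b
    simp [mem_singleton.1 a.2, mem_singleton.1 b.2, h]
  have : Nonempty ({y} : Finset V) := ⟨⟨y, mem_singleton_self y⟩⟩
  simp [*]

theorem co_neg (σ : V → Option (Fin r)) (k : V → V → ℂ) (S : Finset V) :
    co σ (fun a b => -k a b) S = (-1) ^ S.card * co σ k S := by
  rw [co, co, mul_sum]
  refine sum_congr rfl fun c _ => ?_
  rw [mul_left_comm, ← Fintype.card_coe S, ← Matrix.det_neg]
  congr 2
  ext a b
  by_cases h : c a = c b <;> simp [h]

theorem co_none {y : V} (hy : y ∈ S) :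
    co (Function.update σ y none) k S = 1 / r * ∑ j, co (Function.update σ y (some j)) k S := by
  simp only [co]
  rw [sum_comm, mul_sum]
  refine sum_congr rfl fun c _ => ?_
  have h1 : ∀ s : Option (Fin r), ∏ a : S, wt (Function.update σ y s a) (c a) =
      wt s (c ⟨y, hy⟩) * ∏ a ∈ univ.erase (⟨y, hy⟩ : S), wt (σ a) (c a) := by
    intro s
    rw [← mul_prod_erase univ _ (mem_univ (⟨y, hy⟩ : S))]
    congr 1
    · simp
    · refine prod_congr rfl fun a ha => ?_
      rw [Function.update_of_ne fun h => (mem_erase.1 ha).1 (Subtype.ext h)]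
  simp only [h1]
  rw [← sum_mul, ← sum_mul]
  simp [wt, mul_assoc]

theorem kap_pos (s : Option (Fin r)) : 0 < kap s := by
  cases s <;> simp [kap]

theorem one_le_kap (s : Option (Fin r)) : 1 ≤ kap s := by
  cases s <;> simp [kap]

theorem Qm_split {y : V} (hy : y ∉ U) (s : Option (Fin r)) (t : ℂ) :
    Qm (Function.update σ y s) k (insert y U) (Function.update Z y t) = t * Qm σ k U Z +
      ∑ T ∈ U.powerset, co (Function.update σ y s) k (insert y T) * ∏ v ∈ U \ T, Z v := by
  rw [Qm, sum_powerset_insert hy, Qm, mul_sum]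
  have h0 : ∀ T : Finset V, ∏ v ∈ U \ T, Function.update Z y t v = ∏ v ∈ U \ T, Z v := fun T =>
    prod_congr rfl fun v hv => Function.update_of_ne
      (fun h => hy (by rw [← h]; exact (mem_sdiff.1 hv).1)) _ _
  congr 1
  · refine sum_congr rfl fun T hT => ?_
    have hT' : y ∉ T := fun h => hy (mem_powerset.1 hT h)
    rw [insert_sdiff_of_notMem _ hT', prod_insert fun h => hy (mem_sdiff.1 h).1, h0,
      Function.update_self, co_congr (σ' := σ) fun v hv => Function.update_of_ne
        (fun h => hT' (by rw [← h]; exact hv)) _ _]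
    ring
  · refine sum_congr rfl fun T hT => ?_
    rw [insert_sdiff_insert, sdiff_insert_of_notMem hy, h0]

theorem ep_neg' (σ : V → Option (Fin r)) (k : V → V → ℂ) (U : Finset V) (s : ℝ) :
    (ep σ (fun a b => -k a b) U).eval s = (-1) ^ U.card * (ep σ k U).eval (-s) := by
  rw [ep, ep, eval_finsetSum, eval_finsetSum, mul_sum]
  refine sum_congr rfl fun W hW => ?_
  obtain ⟨n, hn⟩ := Nat.exists_eq_add_of_le (card_le_card (mem_powerset.1 hW))
  have h1 : ((-1) ^ W.card : ℂ) = (((-1) ^ W.card : ℝ) : ℂ) := by simp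
  have h2 : ((-1) ^ n * (-1) ^ n : ℝ) = 1 := by rw [← mul_pow]; simp
  rw [co_neg, h1, Complex.re_ofReal_mul, hn, Nat.add_sub_cancel_left]
  simp only [eval_mul, eval_C, eval_pow, eval_X]
  rw [neg_pow s, pow_add]
  linear_combination (-((-1) ^ W.card * (co σ k W).re / ∏ v ∈ W, kap (σ v)) * s ^ n) * h2

end Vale.Agent.P078
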