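import Vale.Agent.P078.HergA
import Vale.Agent.P078.StabA
import Vale.Agent.P078.StabAux2

/-!
Real stability of the partially averaged products of determinants.

PLAN. `dz_expand`: induction on `S` or `Matrix.det_apply` and `Finset.prod_add`; `dz_split`: from `dz_expand`.
`dz_ne`: a kernel vector `v` has `Σ Z a |v a|² = ⟨v, k v⟩` real. `slice`: for each colouring `c` of `D` the product over the
colours `j` is `Π_j (C (a j) * X - C (b j))` (`dz_split`; the factor is the constant `a j` if `j ∉ T i`).
For `T i = univ` the `(r-1)`-st derivative of a product of `r` linear factors is `(r-1)! Σ_j (a_j X - b_j) Π_{j'≠j} a_j'`;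
reindex colourings of `insert i D`. `pp_ne`: induction on `D` (for all `U`, `T`): `f` from `slice` has no zero in the upper half
plane and nonzero coefficient `r` (induction hypothesis for `U.erase i`), so each derivative has no zero there
(`f'/f = Σ 1/(t - λ)` has negative imaginary part, or Gauss-Lucas). `Qm_eq`: `det` of a pinched matrix is the product over the
colours (`Matrix.det_blockDiagonal'` or `BlockTriangular.det`), `dz_expand` for the kernel `yc`, exchange sums.
`ratio`: `Qm σ U Z = Z y * Qm σ (U.erase y) Z - R σ Z`, `R = - Σ_{T ∋ y} co T Π Z`, `co {y} = 0`, `co` is affine in `wt (σ y)`;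
`im (R / Qm (U.erase y)) ≤ 0` since `Qm ≠ 0` for every `Z y` in the upper half plane.
-/

open Finset Polynomial
open scoped Classical ComplexConjugate

namespace Vale.Agent.P078

variable {V : Type*} {r : ℕ} {k : V → V → ℂ} {U S D : Finset V} {Z : V → ℂ}
  {T : V → Finset (Fin r)} {σ : V → Option (Fin r)}

theorem Qm_eq (hr : 0 < r) (σ : V → Option (Fin r)) (k : V → V → ℂ) (U : Finset V) (Z : V → ℂ) :
    (r : ℂ) ^ (U.filter fun v => σ v = none).card * Qm σ k U Z =
      pp k (fun v => (σ v).toFinset) (U.filter fun v => σ v = none) U Z := Qm_eq' hr σ k U Z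

theorem co_real (h : Good k S) : (co σ k S).im = 0 := by
  rw [← Complex.conj_eq_iff_im, co, map_sum]
  refine sum_congr rfl fun c _ => ?_
  rw [map_mul, map_prod]
  congr 1
  · refine prod_congr rfl fun a _ => ?_
    cases σ a with
    | none => simp [wt]
    | some i => by_cases hi : i = c a <;> simp [wt, hi]
  · rw [starRingEnd_apply, ← Matrix.det_conjTranspose]
    congr 1
    ext a b
    have := h.1 b b.2 a a.2
    by_cases hc : c a = c b
    · simp [hc, this]
    · simp [hc, Ne.symm hc]

theorem ep_eval (h : Good k U) (ζ : ℂ) :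
    (∏ v ∈ U, (kap (σ v) : ℂ)) * aeval ζ (ep σ k U) = Qm σ k U fun v => kap (σ v) * ζ := by
  rw [ep, Qm, map_sum, mul_sum]
  refine sum_congr rfl fun W hW => ?_
  have hW' : W ⊆ U := mem_powerset.1 hW
  have h1 : (((co σ k W).re : ℝ) : ℂ) = co σ k W :=
    Complex.ext (by simp) (by simp [co_real (h.mono hW')])
  have h2 : ∏ v ∈ W, (kap (σ v) : ℂ) ≠ 0 :=
    prod_ne_zero_iff.2 fun v _ => by exact_mod_cast (kap_pos _).ne'
  rw [← prod_sdiff hW', prod_mul_distrib, prod_const, card_sdiff_of_subset hW']
  simp only [map_mul, aeval_C, map_pow, aeval_X, Complex.coe_algebraMap, Complex.ofReal_div,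
    Complex.ofReal_prod, h1]
  field_simp

theorem ep_monic (σ : V → Option (Fin r)) (k : V → V → ℂ) (U : Finset V) :
    (ep σ k U).Monic ∧ (ep σ k U).natDegree = U.card := by
  have h1 : ep σ k U = X ^ U.card + ∑ W ∈ U.powerset.erase ∅,
      C ((co σ k W).re / ∏ v ∈ W, kap (σ v)) * X ^ (U.card - W.card) := by
    rw [ep, ← add_sum_erase _ _ (empty_mem_powerset U)]
    simp [co_empty]
  have h2 : (∑ W ∈ U.powerset.erase ∅, C ((co σ k W).re / ∏ v ∈ W, kap (σ v)) *
      X ^ (U.card - W.card) : ℝ[X]).degree < U.card := by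
    refine (degree_sum_le _ _).trans_lt ((Finset.sup_lt_iff (WithBot.bot_lt_coe _)).2 fun W hW => ?_)
    have h3 : 0 < W.card := card_pos.2 (nonempty_iff_ne_empty.2 (mem_erase.1 hW).1)
    have h4 : W.card ≤ U.card := card_le_card (mem_powerset.1 (mem_erase.1 hW).2)
    refine (degree_C_mul_X_pow_le _ _).trans_lt ?_
    exact_mod_cast (by omega : U.card - W.card < U.card)
  rw [h1]
  refine ⟨monic_X_pow_add h2, ?_⟩
  rw [natDegree_add_eq_left_of_degree_lt (by rwa [degree_X_pow]), natDegree_X_pow]

theorem ep_congr {σ' : V → Option (Fin r)} (h : ∀ v ∈ U, σ v = σ' v) : ep σ k U = ep σ' k U := by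
  refine sum_congr rfl fun W hW => ?_
  have hW' : W ⊆ U := mem_powerset.1 hW
  rw [co_congr fun v hv => h v (hW' hv), prod_congr rfl fun v hv => by rw [h v (hW' hv)]]

theorem ep_real (hr : 0 < r) (h : Good k U) : (ep σ k U).roots.card = U.card := by
  rw [← (ep_monic σ k U).2]
  refine real_of_ne fun ζ hζ h0 => ?_
  have h1 := Qm_eq hr σ k U fun v => kap (σ v) * ζ
  rw [← ep_eval h, h0, mul_zero, mul_zero] at h1
  exact pp_ne hr h (filter_subset _ _)
    (fun v _ => by simpa using mul_pos (kap_pos _) hζ) h1.symm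

open scoped ComplexOrder in
theorem ep_roots (hr : 0 < r) (h : Good k U) : ∀ s ∈ (ep σ k U).roots, |s| ≤ 1 := by
  have key : ∀ {k : V → V → ℂ}, Good k U → ∀ s : ℝ, 1 < s → (ep σ k U).eval s ≠ 0 := by
    intro k h s hs h0
    have h1 := Qm_eq hr σ k U fun v => kap (σ v) * (s : ℂ)
    have h2 : aeval (s : ℂ) (ep σ k U) = 0 := by
      have := aeval_algebraMap_apply ℂ s (ep σ k U)
      simpa [h0] using this
    rw [← ep_eval h, h2, mul_zero, mul_zero] at h1
    have h3 : ∀ v, (kap (σ v) * (s : ℂ)).im = 0 ∧ 1 < (kap (σ v) * (s : ℂ)).re := fun v => by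
      have := one_le_kap (σ v)
      constructor
      · simp
      · simp only [Complex.mul_re, Complex.ofReal_re, Complex.ofReal_im, mul_zero, sub_zero]
        nlinarith
    have h4 : ∀ W ⊆ U, (0 : ℂ) < dz k W fun v => kap (σ v) * (s : ℂ) := fun W hW =>
      Complex.pos_iff.2 ⟨dz_pos (h.mono hW) fun v _ => h3 v,
        (dz_real (h.mono hW) fun v _ => (h3 v).1).symm⟩
    have : Nonempty (Fin r) := ⟨⟨0, hr⟩⟩
    refine ne_of_lt (sum_pos (fun c _ => prod_pos fun j _ => h4 _ (filter_subset _ _))
      univ_nonempty) h1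
  intro s hs
  have h0 : (ep σ k U).eval s = 0 := (mem_roots'.1 hs).2
  rw [abs_le]
  constructor
  · by_contra hlt
    refine key h.neg (-s) (by linarith) ?_
    rw [ep_neg', neg_neg, h0, mul_zero]
  · by_contra hlt
    exact key h s (by linarith) h0

theorem ep_neg (σ : V → Option (Fin r)) (k : V → V → ℂ) (U : Finset V) (s : ℝ) :
    (ep σ (fun a b => -k a b) U).eval s = (-1) ^ U.card * (ep σ k U).eval (-s) := ep_neg' σ k U s

theorem ratio (hr : 0 < r) (h : Good k U) {y : V} (hy : y ∈ U) : ∃ B : Fin r → ℝ[X],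
    (∀ c, Herg (ep σ k (U.erase y)) (B c)) ∧
      (∀ c, ep (Function.update σ y (some c)) k U = X * ep σ k (U.erase y) - C (1 / 48) * B c) ∧
      ep (Function.update σ y none) k U = X * ep σ k (U.erase y) - C (1 / (r : ℝ)) * ∑ c, B c := by
  obtain ⟨U', hy', rfl⟩ : ∃ U', y ∉ U' ∧ insert y U' = U := ⟨U.erase y, notMem_erase _ _, insert_erase hy⟩
  rw [erase_insert hy']
  have hU : U' ⊆ insert y U' := subset_insert _ _
  let B : Option (Fin r) → ℝ[X] := fun s => -∑ W ∈ U'.powerset,
    C ((co (Function.update σ y s) k (insert y W)).re / ∏ v ∈ W, kap (σ v)) * X ^ (U'.card - W.card)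
  have hup : ∀ s, ∀ W ⊆ U', ∀ v ∈ W, Function.update σ y s v = σ v := fun s W hW v hv =>
    Function.update_of_ne (fun h => hy' (by rw [← h]; exact hW hv)) _ _
  have hk : ∀ s, ∀ W ⊆ U', ∏ v ∈ W, kap (Function.update σ y s v) = ∏ v ∈ W, kap (σ v) :=
    fun s W hW => prod_congr rfl fun v hv => by rw [hup s W hW v hv]
  have hep : ∀ s, ep (Function.update σ y s) k (insert y U') =
      X * ep σ k U' - C (1 / kap s) * B s := by
    intro s
    simp only [B]
    rw [ep, sum_powerset_insert hy', ep, mul_neg, sub_neg_eq_add, mul_sum, mul_sum,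
      card_insert_of_notMem hy']
    refine congrArg₂ (· + ·) ?_ ?_
    · refine sum_congr rfl fun W hW => ?_
      have hW' : W ⊆ U' := mem_powerset.1 hW
      rw [co_congr (hup s W hW'), hk s W hW', Nat.sub_add_comm (card_le_card hW'), pow_succ]
      ring
    · refine sum_congr rfl fun W hW => ?_
      have hW' : W ⊆ U' := mem_powerset.1 hW
      have hyW : y ∉ W := fun h => hy' (hW' h)
      rw [prod_insert hyW, card_insert_of_notMem hyW, Nat.add_sub_add_right, Function.update_self,
        hk s W hW', ← mul_assoc, ← C_mul]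
      congr 2
      ring
  refine ⟨fun c => B (some c), fun c => ⟨(ep_monic σ k U').1, ?_, ?_, fun ζ hζ => ?_⟩,
    fun c => hep (some c), ?_⟩
  · rw [(ep_monic σ k U').2, ep_real hr (h.mono hU)]
  · rw [degree_eq_natDegree (ep_monic σ k U').1.ne_zero, (ep_monic σ k U').2, degree_neg]
    refine (degree_sum_le _ _).trans_lt ((Finset.sup_lt_iff (WithBot.bot_lt_coe _)).2 fun W hW => ?_)
    rcases W.eq_empty_or_nonempty with rfl | hne
    · rw [LawfulSingleton.insert_empty_eq, co_single (h.2.1 y hy)]
      simp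
    · have h3 : 0 < W.card := card_pos.2 hne
      have h4 : W.card ≤ U'.card := card_le_card (mem_powerset.1 hW)
      refine (degree_C_mul_X_pow_le _ _).trans_lt ?_
      exact_mod_cast (by omega : U'.card - W.card < U'.card)
  · by_contra hlt
    rw [not_le] at hlt
    have hA : aeval ζ (ep σ k U') ≠ 0 := fun h0 => by simp [h0] at hlt
    set t := aeval ζ (B (some c)) / aeval ζ (ep σ k U') with ht
    have h1 := Qm_eq hr (Function.update σ y (some c)) k (insert y U')
      (Function.update (fun v => kap (σ v) * ζ) y t)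
    have h2 : ∑ W ∈ U'.powerset, co (Function.update σ y (some c)) k (insert y W) *
        ∏ v ∈ U' \ W, (kap (σ v) * ζ) = -((∏ v ∈ U', (kap (σ v) : ℂ)) * aeval ζ (B (some c))) := by
      simp only [B, map_neg, mul_neg, neg_neg, map_sum, mul_sum]
      refine sum_congr rfl fun W hW => ?_
      have hW' : W ⊆ U' := mem_powerset.1 hW
      have h3 : (((co (Function.update σ y (some c)) k (insert y W)).re : ℝ) : ℂ) =
          co (Function.update σ y (some c)) k (insert y W) :=
        Complex.ext (by simp) (by simp [co_real (h.mono (insert_subset_insert y hW'))])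
      have h4 : ∏ v ∈ W, (kap (σ v) : ℂ) ≠ 0 :=
        prod_ne_zero_iff.2 fun v _ => by exact_mod_cast (kap_pos _).ne'
      rw [← prod_sdiff hW', prod_mul_distrib, prod_const, card_sdiff_of_subset hW']
      simp only [map_mul, aeval_C, map_pow, aeval_X, Complex.coe_algebraMap, Complex.ofReal_div,
        Complex.ofReal_prod, h3]
      field_simp
    rw [Qm_split hy', h2, ← ep_eval (h.mono hU), mul_left_comm t, ht, div_mul_cancel₀ _ hA,
      add_neg_cancel, mul_zero] at h1
    refine pp_ne hr h (filter_subset _ _) (fun v _ => ?_) h1.symm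
    by_cases hv : v = y
    · rw [hv, Function.update_self]
      exact hlt
    · rw [Function.update_of_ne hv]
      simpa using mul_pos (kap_pos _) hζ
  · rw [hep none]
    congr 1
    simp only [B, kap, div_one, C_1, one_mul, sum_neg_distrib, mul_neg, neg_inj]
    rw [sum_comm, mul_sum]
    refine sum_congr rfl fun W _ => ?_
    rw [← sum_mul, ← map_sum, ← mul_assoc, ← C_mul, co_none (mem_insert_self y W), ← sum_div,
      ← Complex.re_sum]
    congr 2
    have : (1 / r : ℂ) = ((1 / r : ℝ) : ℂ) := by simp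
    rw [this, Complex.re_ofReal_mul]
    ring

end Vale.Agent.P078
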